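import Vale.Agent.P259.Glob

/-! # P259 part SOA: small object argument in the form we use -/

set_option backward.isDefEq.respectTransparency false

open CategoryTheory Limits Opposite MorphismProperty

namespace Vale.Agent.P259

universe u

variable {N : Type u} [Category.{0} N] {I : Type} {A B : I → N} {g : ∀ j, A j ⟶ B j}

theorem MA.llp {K K' : N} {i : K ⟶ K'} (M : MA g i) : (ofHoms g).rlp.llp i := by
  intro X Y p hp
  refine ⟨fun {u v} sq => ?_⟩
  have hl : ∀ α, ∃ l : B (M.k α) ⟶ X, g (M.k α) ≫ l = M.a α ≫ u ∧ l ≫ p = M.c α ≫ v := by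
    intro α
    have := hp _ (ofHoms.mk (f := g) (M.k α))
    have sq' : CommSq (M.a α ≫ u) (g (M.k α)) p (M.c α ≫ v) :=
      ⟨by rw [Category.assoc, sq.w, ← Category.assoc, M.w, Category.assoc]⟩
    exact ⟨sq'.lift, sq'.fac_left, sq'.fac_right⟩
  choose l hl1 hl2 using hl
  obtain ⟨φ, h1, h2⟩ := M.desc u l fun α => (hl1 α).symm
  refine ⟨⟨⟨φ, h1, M.hom_ext _ _ ?_ fun α => ?_⟩⟩⟩
  · rw [← Category.assoc, h1, sq.w]
  · rw [← Category.assoc, h2, hl2]

theorem MA.isPushout [HasColimits N] {K K' : N} {i : K ⟶ K'} (M : MA g i) :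
    IsPushout (Sigma.desc M.a) (Limits.Sigma.map fun α => g (M.k α)) i (Sigma.desc M.c) := by
  have w : Sigma.desc M.a ≫ i = (Limits.Sigma.map fun α => g (M.k α)) ≫ Sigma.desc M.c := by
    ext α
    simp [M.w]
  have key : ∀ s : PushoutCocone (Sigma.desc M.a) (Limits.Sigma.map fun α => g (M.k α)),
      ∃ φ : K' ⟶ s.pt, i ≫ φ = s.inl ∧ ∀ α, M.c α ≫ φ = Sigma.ι (fun α => B (M.k α)) α ≫ s.inr := by
    intro s
    refine M.desc s.inl (fun α => Sigma.ι (fun α => B (M.k α)) α ≫ s.inr) fun α => ?_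
    have := Sigma.ι (fun α => A (M.k α)) α ≫= s.condition
    simpa using this
  choose φ h1 h2 using key
  refine ⟨⟨w⟩, ⟨PushoutCocone.IsColimit.mk _ φ h1 (fun s => ?_) fun s m hm1 hm2 => ?_⟩⟩
  · ext α
    simpa using h2 s α
  · refine M.hom_ext _ _ (by rw [hm1, h1]) fun α => ?_
    rw [h2, ← hm2]
    simp

theorem llp_sigma_map [HasColimits N] {ι : Type} (k : ι → I) :
    (ofHoms g).rlp.llp (Limits.Sigma.map fun α => g (k α)) := by
  intro X Y p hp
  refine ⟨fun {u v} sq => ?_⟩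
  have hl : ∀ α, ∃ l : B (k α) ⟶ X, g (k α) ≫ l = Sigma.ι (fun α => A (k α)) α ≫ u ∧
      l ≫ p = Sigma.ι (fun α => B (k α)) α ≫ v := by
    intro α
    have := hp _ (ofHoms.mk (f := g) (k α))
    have sq' : CommSq (Sigma.ι (fun α => A (k α)) α ≫ u) (g (k α)) p
        (Sigma.ι (fun α => B (k α)) α ≫ v) := ⟨by rw [Category.assoc, sq.w]; simp⟩
    exact ⟨sq'.lift, sq'.fac_left, sq'.fac_right⟩
  choose l hl1 hl2 using hl
  refine ⟨⟨⟨Sigma.desc l, ?_, ?_⟩⟩⟩
  · ext α
    simpa using hl1 α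
  · ext α
    simpa using hl2 α

/-- a multiple attachment from Mathlib's `AttachCells` -/
theorem soa_ma_of_attach {K K' : N} {i : K ⟶ K'} (c : HomotopicalAlgebra.AttachCells.{0} g i) :
    Nonempty (MA g i) := by
  refine ⟨⟨c.ι, c.π, fun α => c.cofan₁.inj α ≫ c.g₁, c.cell, fun α => ?_, fun u v h => ?_,
    fun φ ψ h1 h2 => c.hom_ext h1 h2⟩⟩
  · rw [Category.assoc, c.isPushout.w, c.hm_assoc, c.cell_def]
  · have hw : c.g₁ ≫ u = c.m ≫ Cofan.IsColimit.desc c.isColimit₂ v := by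
      apply Cofan.IsColimit.hom_ext c.isColimit₁
      intro α
      rw [c.hm_assoc, Cofan.IsColimit.fac, ← h α, Category.assoc]
    refine ⟨c.isPushout.desc u _ hw, c.isPushout.inl_desc .., fun α => ?_⟩
    rw [c.cell_def, Category.assoc, c.isPushout.inr_desc, Cofan.IsColimit.fac]

variable (g)

attribute [local instance] Cardinal.fact_isRegular_aleph0 Cardinal.orderBotAleph0OrdToType

theorem soa_card [HasColimits N] (hA : ∀ j, IsFinitelyPresentable.{0} (A j)) :
    IsCardinalForSmallObjectArgument (ofHoms g) Cardinal.aleph0.{0} where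
  preservesColimit {A' B' X Y} i hi f hf := by
    have : IsFinitelyPresentable.{0} A' := by
      obtain ⟨j⟩ := hi
      exact hA j
    infer_instance

theorem soa [HasColimits N] (hA : ∀ j, IsFinitelyPresentable.{0} (A j)) {X Y : N} (f : X ⟶ Y) :
    ∃ (F : ℕ ⥤ N) (c : Cocone F) (_ : IsColimit c) (e : X ≅ F.obj 0) (p : c.pt ⟶ Y),
      (ofHoms g).rlp p ∧ e.hom ≫ c.ι.app 0 ≫ p = f ∧ (ofHoms g).rlp.llp (e.hom ≫ c.ι.app 0) ∧
      ∀ r, Nonempty (MA g (F.map (homOfLE (Nat.le_succ r)))) := by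
  have := soa_card g hA
  let e : ℕ ≃o Cardinal.aleph0.{0}.ord.ToType :=
    ULift.orderIso.{0}.symm.trans
      (OrderIso.ofRelIsoLT (Nonempty.some (by simp [← Ordinal.type_eq])))
  have h1 := SmallObject.transfiniteCompositionsOfShape_ιObj (ofHoms g) Cardinal.aleph0.{0} f
  rw [← MorphismProperty.transfiniteCompositionsOfShape_eq_of_orderIso _ e] at h1
  obtain ⟨h⟩ := h1
  have hfac : h.isoBot.inv ≫ h.incl.app 0 = SmallObject.ιObj (ofHoms g) Cardinal.aleph0.{0} f :=
    h.fac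
  refine ⟨h.F, Cocone.mk _ h.incl, h.isColimit, h.isoBot.symm,
    SmallObject.πObj (ofHoms g) Cardinal.aleph0.{0} f,
    SmallObject.rlp_πObj _ _ f, ?_, ?_, fun r => ?_⟩
  · change h.isoBot.inv ≫ h.incl.app 0 ≫ _ = f
    rw [← Category.assoc, hfac, SmallObject.ιObj_πObj]
  · change (ofHoms g).rlp.llp (h.isoBot.inv ≫ h.incl.app 0)
    rw [hfac]
    exact SmallObject.llp_rlp_ιObj _ _ f
  · obtain ⟨c⟩ := (HomotopicalAlgebra.nonempty_attachCells_iff g _).2 (h.map_mem r (not_isMax r))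
    exact soa_ma_of_attach c

theorem exists_factor [HasColimits N] (hA : ∀ j, IsFinitelyPresentable.{0} (A j)) {X Y : N}
    (f : X ⟶ Y) : ∃ (Z : N) (j : X ⟶ Z) (p : Z ⟶ Y),
      (ofHoms g).rlp.llp j ∧ (ofHoms g).rlp p ∧ j ≫ p = f := by
  obtain ⟨F, c, -, e, p, h1, h2, h3, -⟩ := soa g hA f
  exact ⟨c.pt, e.hom ≫ c.ι.app 0, p, h3, h1, by rw [Category.assoc, h2]⟩

/-- induction over cell complexes and their retracts -/
theorem cell_induction [HasColimits N] (hA : ∀ j, IsFinitelyPresentable.{0} (A j)) (P : N → Prop)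
    (retr : ∀ (X Y : N) (i : X ⟶ Y) (r : Y ⟶ X), i ≫ r = 𝟙 X → P Y → P X)
    (step : ∀ (K K' : N) (i : K ⟶ K'), MA g i → P K → P K')
    (lim : ∀ (F : ℕ ⥤ N) (c : Cocone F), IsColimit c →
      (∀ r, Nonempty (MA g (F.map (homOfLE (Nat.le_succ r))))) → (∀ r, P (F.obj r)) → P c.pt)
    {X Y : N} (f : X ⟶ Y) (hf : (ofHoms g).rlp.llp f) (hX : P X) : P Y := by
  obtain ⟨F, c, hc, e, p, h1, h2, -, h4⟩ := soa g hA f
  have hF : ∀ r, P (F.obj r) := by
    intro r
    induction r with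
    | zero => exact retr _ _ e.inv e.hom e.inv_hom_id hX
    | succ r ih => exact step _ _ _ (h4 r).some ih
  have := hf p h1
  have sq : CommSq (e.hom ≫ c.ι.app 0) f p (𝟙 Y) :=
    ⟨by rw [Category.assoc, h2, Category.comp_id]⟩
  exact retr _ _ sq.lift p sq.fac_right (lim F c hc h4 hF)

/-- the maps into an `ω`-composite of attachments have the left lifting property -/
theorem llp_cocone {F : ℕ ⥤ N} {c : Cocone F} (hc : IsColimit c)
    (hM : ∀ r, Nonempty (MA g (F.map (homOfLE (Nat.le_succ r))))) :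
    (ofHoms g).rlp.llp (c.ι.app 0) := by
  intro X Y p hp
  exact HasLiftingProperty.transfiniteComposition.hasLiftingProperty_ι_app_bot (hc := hc)
    fun j _ => (hM j).some.llp p hp

/-- functorial cofibrant replacement -/
theorem exists_replacement [HasColimits N] (hA : ∀ j, IsFinitelyPresentable.{0} (A j)) :
    ∃ (Q : N ⥤ N) (q : Q ⟶ 𝟭 N), ∀ X, (ofHoms g).rlp.llp (initial.to (Q.obj X)) ∧
      (ofHoms g).rlp (q.app X) := by
  have := soa_card g hA
  let D := SmallObject.functorialFactorizationData (ofHoms g) Cardinal.aleph0.{0}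
  let T : N ⥤ Arrow N :=
    { obj := fun X => Arrow.mk (initial.to X)
      map := fun φ => Arrow.homMk (𝟙 _) φ (initial.hom_ext _ _) }
  refine ⟨T ⋙ D.Z, ⟨fun X => D.p.app (T.obj X), fun X Y φ => D.p.naturality (T.map φ)⟩,
    fun X => ⟨?_, D.hp _⟩⟩
  have h := D.hi (T.obj X)
  have e : D.i.app (T.obj X) = initial.to ((T ⋙ D.Z).obj X) := initial.hom_ext _ _
  rw [← e]
  exact h

/-- a projectively cofibrant diagram with objectwise trivial values -/
theorem exists_projCof [HasColimits N] [HasTerminal N] (hA : ∀ j, IsFinitelyPresentable.{0} (A j))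
    (S : Type) [SmallCategory S] :
    ∃ O : S ⥤ N, (∀ d, (ofHoms g).rlp (terminal.from (O.obj d))) ∧
      ∀ (Q' Q : S ⥤ N) (q : Q' ⟶ Q), (∀ d, (ofHoms g).rlp (q.app d)) →
        ∀ f : O ⟶ Q, ∃ f' : O ⟶ Q', f' ≫ q = f := by
  let g' : ∀ x : S × I, (evaluationLeftAdjoint N x.1).obj (A x.2) ⟶
      (evaluationLeftAdjoint N x.1).obj (B x.2) := fun x => (evaluationLeftAdjoint N x.1).map (g x.2)
  have hA' : ∀ x : S × I, IsFinitelyPresentable.{0} ((evaluationLeftAdjoint N x.1).obj (A x.2)) := by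
    intro x
    have := hA x.2
    have : ((evaluation S N).obj x.1).IsCardinalAccessible Cardinal.aleph0.{0} :=
      ⟨fun J _ _ => inferInstance⟩
    exact (evaluationAdjunctionRight N x.1).isCardinalPresentable_leftAdjoint_obj _ _
  have hiff : ∀ (Q' Q : S ⥤ N) (q : Q' ⟶ Q),
      (ofHoms g').rlp q ↔ ∀ d, (ofHoms g).rlp (q.app d) := by
    intro Q' Q q
    constructor
    · rintro h d _ _ _ ⟨j⟩
      exact ((evaluationAdjunctionRight N d).hasLiftingProperty_iff (g j) q).1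
        (h _ (ofHoms.mk (f := g') (d, j)))
    · rintro h _ _ _ ⟨⟨d, j⟩⟩
      exact ((evaluationAdjunctionRight N d).hasLiftingProperty_iff (g j) q).2
        (h d _ (ofHoms.mk (f := g) j))
  obtain ⟨O, j, p, h1, h2, -⟩ := exists_factor g' hA'
    (initial.to ((Functor.const S).obj (⊤_ N)))
  refine ⟨O, fun d => ?_, fun Q' Q q hq f => ?_⟩
  · have h := (hiff _ _ p).1 h2 d
    have e : p.app d = terminal.from (O.obj d) := terminal.hom_ext _ _
    rw [← e]
    exact h
  · have := h1 q ((hiff _ _ q).2 hq)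
    have sq : CommSq (initial.to Q') j q f := ⟨initial.hom_ext _ _⟩
    exact ⟨sq.lift, sq.fac_right⟩

end Vale.Agent.P259
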