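import Vale.Agent.P259.Mdl
import Vale.Agent.P259.SOA

/-! # P259: discs, spheres, (co)fibrations and weak equivalences of models (definitions) -/

set_option backward.isDefEq.respectTransparency false

open CategoryTheory Limits Opposite MorphismProperty

namespace Vale.Agent.P259

open Theta0
open Globe (D)

section

variable (C : GlobExt)

/-- representable models of globular sums -/
noncomputable def YF : Theta0 ⥤ Mod C := C.F ⋙ yM C

/-- the discs as a coglobular model -/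
noncomputable def DG : Globe ⥤ Mod C := discF ⋙ YF C

/-- the free model on an `n`-cell -/
noncomputable abbrev Dk (n : ℕ) : Mod C := (DG C).obj (D n)

/-- boundaries of the discs -/
noncomputable def RD : Reedy (DG C) := Reedy.canon _

/-- the free model on a parallel pair of `(n-1)`-cells (`∂ D_n`) -/
noncomputable abbrev Sph (n : ℕ) : Mod C := (RD C).B n

/-- `∂ D_n → D_n` -/
noncomputable abbrev bd (n : ℕ) : Sph C n ⟶ Dk C n := (RD C).b n

/-- source inclusion -/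
noncomputable abbrev sσ (n : ℕ) : Dk C n ⟶ Dk C (n + 1) := (DG C).map (Globe.σ n)

/-- target inclusion -/
noncomputable abbrev sτ (n : ℕ) : Dk C n ⟶ Dk C (n + 1) := (DG C).map (Globe.τ n)

/-- iterated target inclusion -/
noncomputable abbrev sTgt {j i : ℕ} (h : j ≤ i) : Dk C j ⟶ Dk C i := (DG C).map (Globe.tgt h)

/-- trivial fibrations -/
def TFib : MorphismProperty (Mod C) := (ofHoms (bd C)).rlp
/-- cofibrations -/
def Cof : MorphismProperty (Mod C) := (ofHoms (bd C)).rlp.llp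
/-- fibrations -/
def Fib : MorphismProperty (Mod C) := (ofHoms (sσ C)).rlp
/-- anodyne maps -/
def TC : MorphismProperty (Mod C) := (ofHoms (sσ C)).rlp.llp

instance : (Cof C).IsStableUnderCobaseChange := by unfold Cof; infer_instance
instance : (TC C).IsStableUnderCobaseChange := by unfold TC; infer_instance
instance : (Cof C).IsMultiplicative := by unfold Cof; infer_instance
instance : (TC C).IsMultiplicative := by unfold TC; infer_instance
instance : (Cof C).IsStableUnderRetracts := by unfold Cof; infer_instance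
instance : (TC C).IsStableUnderRetracts := by unfold TC; infer_instance
instance : (Cof C).RespectsIso := by unfold Cof; infer_instance
instance : (TC C).RespectsIso := by unfold TC; infer_instance
instance : (Cof C).IsStableUnderCoproducts.{0} := by unfold Cof; infer_instance
instance : (TC C).IsStableUnderCoproducts.{0} := by unfold TC; infer_instance
instance : (TFib C).IsStableUnderBaseChange := by unfold TFib; infer_instance
instance : (Fib C).IsStableUnderBaseChange := by unfold Fib; infer_instance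
instance : (TFib C).IsMultiplicative := by unfold TFib; infer_instance
instance : (Fib C).IsMultiplicative := by unfold Fib; infer_instance
instance : (TFib C).RespectsIso := by unfold TFib; infer_instance
instance : (Fib C).RespectsIso := by unfold Fib; infer_instance

variable {C}

/-- composition of `(j+1)`-cells along `j`-cells (diagrammatic order) with the laws we need -/
structure CompOp (C : GlobExt) where
  comp : ∀ {X : Mod C} {j : ℕ} (a b : Dk C (j + 1) ⟶ X), sτ C j ≫ a = sσ C j ≫ b →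
    (Dk C (j + 1) ⟶ X)
  σ_comp : ∀ {X : Mod C} {j : ℕ} (a b : Dk C (j + 1) ⟶ X) (h), sσ C j ≫ comp a b h = sσ C j ≫ a
  τ_comp : ∀ {X : Mod C} {j : ℕ} (a b : Dk C (j + 1) ⟶ X) (h), sτ C j ≫ comp a b h = sτ C j ≫ b
  comp_map : ∀ {X Y : Mod C} {j : ℕ} (a b : Dk C (j + 1) ⟶ X) (h) (f : X ⟶ Y) (h'),
    comp a b h ≫ f = comp (a ≫ f) (b ≫ f) h'
  congr : ∀ {X : Mod C} {j : ℕ} (a a' b : Dk C (j + 1) ⟶ X) (h h'),
    (∃ w : Dk C (j + 2) ⟶ X, sσ C (j + 1) ≫ w = a ∧ sτ C (j + 1) ≫ w = a') →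
    ∃ w : Dk C (j + 2) ⟶ X, sσ C (j + 1) ≫ w = comp a b h ∧ sτ C (j + 1) ≫ w = comp a' b h'
  divR : ∀ {X : Mod C} {j : ℕ} (c β : Dk C (j + 1) ⟶ X), sσ C j ≫ c = sσ C j ≫ β →
    ∃ (δ : Dk C (j + 1) ⟶ X) (h : sτ C j ≫ c = sσ C j ≫ δ) (w : Dk C (j + 2) ⟶ X),
      sσ C (j + 1) ≫ w = comp c δ h ∧ sτ C (j + 1) ≫ w = β
  divL : ∀ {X : Mod C} {j : ℕ} (c β : Dk C (j + 1) ⟶ X), sτ C j ≫ c = sτ C j ≫ β →
    ∃ (g : Dk C (j + 1) ⟶ X) (h : sτ C j ≫ g = sσ C j ≫ c) (w : Dk C (j + 2) ⟶ X),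
      sσ C (j + 1) ≫ w = comp g c h ∧ sτ C (j + 1) ≫ w = β

/-- cofibrant objects -/
def Cofib (X : Mod C) : Prop := Cof C (initial.to X)

/-- there is a `(j+1)`-cell from `u` to `v` -/
def Sim {X : Mod C} {j : ℕ} (u v : Dk C j ⟶ X) : Prop :=
  ∃ w : Dk C (j + 1) ⟶ X, sσ C j ≫ w = u ∧ sτ C j ≫ w = v

/-- every sphere has a filler -/
def Contr (X : Mod C) : Prop := ∀ (j : ℕ) (a : Sph C j ⟶ X), ∃ e : Dk C j ⟶ X, bd C j ≫ e = a

/-- parallel cells of dimension at most `m` are connected by a cell -/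
def MContr (m : ℕ) (X : Mod C) : Prop :=
  ∀ j ≤ m, ∀ u v : Dk C j ⟶ X, bd C j ≫ u = bd C j ≫ v → Sim u v

/-- `f` reflects the relation `Sim` on parallel cells -/
def Reflects {X Y : Mod C} (f : X ⟶ Y) : Prop :=
  ∀ (j : ℕ) (u v : Dk C j ⟶ X), bd C j ≫ u = bd C j ≫ v → Sim (u ≫ f) (v ≫ f) → Sim u v

variable (C) in
/-- weak equivalences, in lifting form -/
def WL : MorphismProperty (Mod C) := fun X Y f =>
  ∀ (j : ℕ) (a : Sph C j ⟶ X) (w : Dk C j ⟶ Y), bd C j ≫ w = a ≫ f →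
    ∃ v : Dk C j ⟶ X, bd C j ≫ v = a ∧ Sim (v ≫ f) w

variable (C) in
/-- pushout statement `P(n, m)`: expansions along cells of dimension `≥ n` keep
`m`-contractibility of cofibrant objects -/
def PP (n m : ℕ) : Prop :=
  ∀ (X X' : Mod C) (i : X ⟶ X') (M : MA (sσ C) i), (∀ α, n ≤ M.k α) → Cofib X → MContr m X →
    MContr m X'

/-- a path-object-like functor corepresented by a coglobular object `E` with two maps from
the discs -/
structure PathOut {E : Globe ⥤ Mod C} (RE : Reedy E) (ι0 ι1 : ReedyHom (RD C) RE) where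
  P : Mod C ⥤ Mod C
  p0 : P ⟶ 𝟭 _
  p1 : P ⟶ 𝟭 _
  hat : ∀ {X : Mod C} {j : ℕ}, (Dk C j ⟶ P.obj X) ≃ (E.obj (D j) ⟶ X)
  hat_σ : ∀ {X : Mod C} {j : ℕ} (x : Dk C (j + 1) ⟶ P.obj X),
    hat (sσ C j ≫ x) = E.map (Globe.σ j) ≫ hat x
  hat_τ : ∀ {X : Mod C} {j : ℕ} (x : Dk C (j + 1) ⟶ P.obj X),
    hat (sτ C j ≫ x) = E.map (Globe.τ j) ≫ hat x
  hat_map : ∀ {X Y : Mod C} {j : ℕ} (x : Dk C j ⟶ P.obj X) (f : X ⟶ Y),
    hat (x ≫ P.map f) = hat x ≫ f
  hat_0 : ∀ {X : Mod C} {j : ℕ} (x : Dk C j ⟶ P.obj X), ι0.app.app (D j) ≫ hat x = x ≫ p0.app X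
  hat_1 : ∀ {X : Mod C} {j : ℕ} (x : Dk C j ⟶ P.obj X), ι1.app.app (D j) ≫ hat x = x ≫ p1.app X

/-- the extension hypothesis under which `PathOut` exists -/
def PathEH {E : Globe ⥤ Mod C} (RE : Reedy E) (ι0 ι1 : ReedyHom (RD C) RE) : Prop :=
  ∀ (j : ℕ) (S : Theta0), S.dim ≤ j + 1 → ∀ (h : Dk C (j + 1) ⟶ (sumF (DG C)).obj S)
    (φ : RE.B (j + 1) ⟶ (sumF E).obj S),
    ι0.bm (j + 1) ≫ φ = bd C (j + 1) ≫ h ≫ (sumNat ι0.app).app S →
    ι1.bm (j + 1) ≫ φ = bd C (j + 1) ≫ h ≫ (sumNat ι1.app).app S →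
    ∃ e : E.obj (D (j + 1)) ⟶ (sumF E).obj S, RE.b (j + 1) ≫ e = φ ∧
      ι0.app.app (D (j + 1)) ≫ e = h ≫ (sumNat ι0.app).app S ∧
      ι1.app.app (D (j + 1)) ≫ e = h ≫ (sumNat ι1.app).app S

variable (C) in
/-- the relative truncated cylinder: trivial below dimension `n`, a genuine cylinder in dimensions
`n ≤ j ≤ m`, two free copies above `m` -/
structure CylData (n m : ℕ) where
  E : Globe ⥤ Mod C
  RE : Reedy E
  ι0 : ReedyHom (RD C) RE
  ι1 : ReedyHom (RD C) RE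
  A : ℕ → Mod C
  inB : ∀ j, RE.B j ⟶ A j
  e0 : ∀ j, Dk C j ⟶ A j
  poA : ∀ j, IsPushout (ι0.bm j) (bd C j) (inB j) (e0 j)
  k : ∀ j, A j ⟶ E.obj (D j)
  inB_k : ∀ j, inB j ≫ k j = RE.b j
  e0_k : ∀ j, e0 j ≫ k j = ι0.app.app (D j)
  case1 : ∀ j, j < n → ι0.bm j = ι1.bm j → IsIso (k j) ∧ ι1.app.app (D j) = ι0.app.app (D j)
  case2 : ∀ j, n ≤ j → j ≤ m → (∃ T : Dk C j ⟶ A j, bd C j ≫ T = ι1.bm j ≫ inB j) →
    ∃ (T : Dk C j ⟶ A j) (c : Dk C (j + 1) ⟶ E.obj (D j)), bd C j ≫ T = ι1.bm j ≫ inB j ∧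
      (ι0.bm j = ι1.bm j → T = e0 j) ∧ IsPushout T (sσ C j) (k j) c ∧
      sτ C j ≫ c = ι1.app.app (D j)
  case3 : ∀ j, n ≤ j → m < j → IsPushout (ι1.bm j ≫ inB j) (bd C j) (k j) (ι1.app.app (D j))

/-- the contractibility facts about the cylinder that give `P(n, m)` -/
structure CylGood {n m : ℕ} (Y : CylData C n m) : Prop where
  hT : ∀ j, n ≤ j → j ≤ m + 1 → ∃ T : Dk C j ⟶ Y.A j, bd C j ≫ T = Y.ι1.bm j ≫ Y.inB j
  hS : n ≤ m → ∀ S : Theta0, S.dim ≤ m → MContr m ((sumF Y.E).obj S)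
  hZ : ∀ k, n ≤ k → k ≤ m → ∀ (Z : Mod C) (i : Y.E.obj (D k) ⟶ Z) (c : Dk C (k + 1) ⟶ Z),
    IsPushout (Y.ι1.app.app (D k)) (sσ C k) i c → MContr m Z

/-- a coglobular object `E` under `A` and under the discs, each `E_j` an expansion of the latching
object of `A → E` -/
structure EData {A : Globe ⥤ Mod C} (RA : Reedy A) where
  E : Globe ⥤ Mod C
  RE : Reedy E
  α : ReedyHom RA RE
  ψ : ReedyHom (RD C) RE
  L : ℕ → Mod C
  inB : ∀ j, RE.B j ⟶ L j
  inA : ∀ j, A.obj (D j) ⟶ L j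
  poL : ∀ j, IsPushout (α.bm j) (RA.b j) (inB j) (inA j)
  T : ∀ j, Dk C j ⟶ L j
  bd_T : ∀ j, bd C j ≫ T j = ψ.bm j ≫ inB j
  k : ∀ j, L j ⟶ E.obj (D j)
  c : ∀ j, Dk C (j + 1) ⟶ E.obj (D j)
  poE : ∀ j, IsPushout (T j) (sσ C j) (k j) (c j)
  inB_k : ∀ j, inB j ≫ k j = RE.b j
  inA_k : ∀ j, inA j ≫ k j = α.app.app (D j)
  τ_c : ∀ j, sτ C j ≫ c j = ψ.app.app (D j)

variable (C) in
/-- a path object functor -/
structure PathObj where
  P : Mod C ⥤ Mod C
  p0 : P ⟶ 𝟭 _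
  p1 : P ⟶ 𝟭 _
  tf0 : ∀ X, TFib C (p0.app X)
  tf1 : ∀ X, TFib C (p1.app X)
  fib : ∀ X, Fib C (prod.lift (p0.app X) (p1.app X))
  tfc : ∀ X, Contr X → TFib C (prod.lift (p0.app X) (p1.app X))

end

section Good

variable (C : GlobExt) (m : ℕ)

/-- maps that universally preserve `m`-contractibility of cofibrant objects -/
def HH : MorphismProperty (Mod C) := fun A U u =>
  Cof C u ∧ ∀ (A' U' : Mod C) (f : A ⟶ A') (u' : A' ⟶ U') (f' : U ⟶ U'),
    IsPushout f u u' f' → Cofib A' → MContr m A' → MContr m U'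

variable {C}

/-- `X` is a retract of an `HH`-extension of a globular sum, in such a way that the marked cell `y`
is the `k`-target of the last disc -/
def Good (X : Mod C) (k : ℕ) (y : Dk C k ⟶ X) : Prop :=
  ∃ (T : Theta0) (hk : k ≤ T.last) (U : Mod C) (u : (YF C).obj T ⟶ U) (inc : X ⟶ U) (ret : U ⟶ X),
    HH C m u ∧ inc ≫ ret = 𝟙 X ∧ y ≫ inc = (YF C).map (tgt hk ≫ lastι T) ≫ u

end Good

end Vale.Agent.P259
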