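import Vale.Agent.P259.CubeB

/-! # P259 part CubeC: excision -/

set_option backward.isDefEq.respectTransparency false

open CategoryTheory Limits Opposite MorphismProperty Topology

namespace Vale.Agent.P259

open Theta0
open Globe (D)

theorem CubeC_lift {X U Y : TopCat.{0}} {j : U ⟶ Y} (hj : IsEmbedding j) (σ : X ⟶ Y)
    (h : Set.range σ ⊆ Set.range j) : ∃ τ : X ⟶ U, τ ≫ j = σ := by
  choose t ht using fun x => h ⟨x, rfl⟩
  have hc : Continuous t := hj.continuous_iff.2 (by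
    rw [show j ∘ t = σ from funext ht]; exact σ.hom.continuous)
  exact ⟨TopCat.ofHom ⟨t, hc⟩, TopCat.hom_ext (ContinuousMap.ext ht)⟩

theorem CubeC_inter {A U V Y : TopCat.{0}} {kU : A ⟶ U} {kV : A ⟶ V} {jU : U ⟶ Y} {jV : V ⟶ Y}
    (h : ExcSq kU kV jU jV) {X : TopCat.{0}} (σ : X ⟶ U) (τ : X ⟶ V) (e : σ ≫ jU = τ ≫ jV) :
    ∃ ν : X ⟶ A, ν ≫ kU = σ ∧ ν ≫ kV = τ := by
  choose t ht ht' using fun x => h.inter (σ x) (τ x) (ConcreteCategory.congr_hom e x)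
  have hc : Continuous t := h.eA.continuous_iff.2 (by
    rw [show kU ∘ t = σ from funext ht]; exact σ.hom.continuous)
  exact ⟨TopCat.ofHom ⟨t, hc⟩, TopCat.hom_ext (ContinuousMap.ext ht),
    TopCat.hom_ext (ContinuousMap.ext ht')⟩

/-- cubes in a member of the cover are small -/
def CubeC_in {U Y : TopCat.{0}} (j : U ⟶ Y) (𝒰 : Set (Set Y)) (h : Set.range j ∈ 𝒰) :
    Sing.obj U ⟶ smallF Y 𝒰 where
  app _ := ↾fun σ => ⟨σ ≫ j, Set.range j, h, by rintro _ ⟨x, rfl⟩; exact ⟨_, rfl⟩⟩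
  naturality _ _ f := by
    ext σ
    rfl

variable {K : Coherator} (H : Hocolim K.C)

theorem Hocolim.exc {A U V Y : TopCat.{0}} {kU : A ⟶ U} {kV : A ⟶ V} {jU : U ⟶ Y} {jV : V ⟶ Y}
    (h : ExcSq kU kV jU jV) {P : Mod K.C} {inU : H.W.obj U ⟶ P} {inV : H.W.obj V ⟶ P}
    (hp : IsPushout (H.W.map kU) (H.W.map kV) inU inV) (φ : P ⟶ H.W.obj Y)
    (hU : inU ≫ φ = H.W.map jU) (hV : inV ≫ φ = H.W.map jV) : WL K.C φ ∧ Cof K.C φ := by
  let 𝒰 : Set (Set Y) := {Set.range jU, Set.range jV}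
  let iU := CubeC_in jU 𝒰 (Or.inl rfl)
  let iV := CubeC_in jV 𝒰 (Or.inr rfl)
  have hw : Sing.map kU ≫ iU = Sing.map kV ≫ iV := by
    ext d σ
    apply Subtype.ext
    exact (Category.assoc σ kU jU).trans ((congrArg (σ ≫ ·) h.w).trans (Category.assoc σ kV jV).symm)
  have hw' : H.W.map kU ≫ H.G.map iU = H.W.map kV ≫ H.G.map iV :=
    (H.G.map_comp _ _).symm.trans ((congrArg H.G.map hw).trans (H.G.map_comp _ _))
  let ψ : P ⟶ H.G.obj (smallF Y 𝒰) := hp.desc _ _ hw'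
  have hψU : inU ≫ ψ = H.G.map iU := hp.inl_desc ..
  have hψV : inV ≫ ψ = H.G.map iV := hp.inr_desc ..
  have hcase : ∀ (d : CubeCat) (σ : (smallF Y 𝒰).obj (op d)),
      (∃ τ : (Sing.obj U).obj (op d), iU.app _ τ = σ) ∨
        ∃ τ : (Sing.obj V).obj (op d), iV.app _ τ = σ := by
    intro d σ
    obtain ⟨W, rfl | rfl, hW⟩ := σ.2
    · obtain ⟨τ, hτ⟩ := CubeC_lift h.oU.isEmbedding σ.1 hW
      exact Or.inl ⟨τ, Subtype.ext hτ⟩
    · obtain ⟨τ, hτ⟩ := CubeC_lift h.oV.isEmbedding σ.1 hW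
      exact Or.inr ⟨τ, Subtype.ext hτ⟩
  have hUU : ∀ (d : CubeCat) (τ τ' : (Sing.obj U).obj (op d)), iU.app _ τ = iU.app _ τ' →
      τ = τ' := fun d τ τ' e => TopCat.hom_ext (ContinuousMap.ext fun x =>
        h.oU.injective (ConcreteCategory.congr_hom (congrArg Subtype.val e) x))
  have hVV : ∀ (d : CubeCat) (τ τ' : (Sing.obj V).obj (op d)), iV.app _ τ = iV.app _ τ' →
      τ = τ' := fun d τ τ' e => TopCat.hom_ext (ContinuousMap.ext fun x =>
        h.oV.injective (ConcreteCategory.congr_hom (congrArg Subtype.val e) x))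
  have hUV : ∀ (d : CubeCat) (τ : (Sing.obj U).obj (op d)) (τ' : (Sing.obj V).obj (op d)),
      iU.app _ τ = iV.app _ τ' → H.cell τ ≫ inU = H.cell τ' ≫ inV := by
    intro d τ τ' e
    obtain ⟨ν, rfl, rfl⟩ := CubeC_inter h τ τ' (congrArg Subtype.val e)
    have h1 := H.cell_map (L := Sing.obj A) (d := d) ν (Sing.map kU)
    have h2 := H.cell_map (L := Sing.obj A) (d := d) ν (Sing.map kV)
    refine (congrArg (· ≫ inU) h1).symm.trans (Eq.trans ?_ (congrArg (· ≫ inV) h2))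
    simp only [Category.assoc]
    exact congrArg (_ ≫ ·) hp.w
  have hz : ∀ (d : CubeCat) (σ : (smallF Y 𝒰).obj (op d)), ∃ z : H.O.obj d ⟶ P,
      (∀ τ, iU.app _ τ = σ → z = H.cell τ ≫ inU) ∧ ∀ τ, iV.app _ τ = σ → z = H.cell τ ≫ inV := by
    intro d σ
    obtain ⟨τ, rfl⟩ | ⟨τ, rfl⟩ := hcase d σ
    · exact ⟨H.cell τ ≫ inU, fun τ' e => by rw [hUU d τ' τ e], fun τ' e => hUV d τ τ' e.symm⟩
    · exact ⟨H.cell τ ≫ inV, fun τ' e => (hUV d τ' τ e).symm, fun τ' e => by rw [hVV d τ' τ e]⟩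
  choose z hzU hzV using hz
  obtain ⟨θ, hθ⟩ := H.desc z fun d d' f σ => by
    obtain ⟨τ, rfl⟩ | ⟨τ, rfl⟩ := hcase d σ
    · refine Eq.trans ?_ (hzU d' _ ((Sing.obj U).map f.op τ) rfl).symm
      rw [hzU d _ τ rfl, ← H.map_cell, Category.assoc]
    · refine Eq.trans ?_ (hzV d' _ ((Sing.obj V).map f.op τ) rfl).symm
      rw [hzV d _ τ rfl, ← H.map_cell, Category.assoc]
  have : IsIso ψ := ⟨θ, hp.hom_ext ?_ ?_, H.hom_ext fun d σ => ?_⟩
  · have e : φ = ψ ≫ H.G.map (smallι Y 𝒰) := by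
      apply hp.hom_ext
      · rw [hU, reassoc_of% hψU]
        exact H.G.map_comp iU (smallι Y 𝒰)
      · rw [hV, reassoc_of% hψV]
        exact H.G.map_comp iV (smallι Y 𝒰)
    rw [e]
    refine ⟨(WL.of_isIso ψ).comp (H.wl_small Y 𝒰 ?_ ?_), ?_⟩
    · rintro W (rfl | rfl)
      · exact h.oU.isOpen_range
      · exact h.oV.isOpen_range
    · rw [Set.sUnion_pair]
      exact h.cover
    · exact ((Cof K.C).cancel_left_of_respectsIso _ _).2
        (H.cof_map _ fun d => Subtype.val_injective)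
  · rw [reassoc_of% hψU, Category.comp_id]
    refine H.hom_ext (L := Sing.obj U) fun d τ => ?_
    rw [reassoc_of% (H.cell_map τ iU), hθ, hzU d _ τ rfl]
  · rw [reassoc_of% hψV, Category.comp_id]
    refine H.hom_ext (L := Sing.obj V) fun d τ => ?_
    rw [reassoc_of% (H.cell_map τ iV), hθ, hzV d _ τ rfl]
  · rw [reassoc_of% (hθ d σ), Category.comp_id]
    obtain ⟨τ, rfl⟩ | ⟨τ, rfl⟩ := hcase d σ
    · rw [hzU d _ τ rfl, Category.assoc, hψU, H.cell_map]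
    · rw [hzV d _ τ rfl, Category.assoc, hψV, H.cell_map]

end Vale.Agent.P259
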