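import Vale.Agent.P259.WA

/-! # P259 part PiW: weak equivalences by homotopy groups are those in lifting form -/

set_option backward.isDefEq.respectTransparency false

open CategoryTheory Limits Opposite MorphismProperty

namespace Vale.Agent.P259

open Theta0
open Globe (D)

section

variable {C : GlobExt}

/-- cells as maps out of discs -/
def piwE {X : Mod C} {n : ℕ} : (Dk C n ⟶ X) ≃ X.Cell n := yEquiv (S := C.F.obj (disc n))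

theorem piwE_comp {X Y : Mod C} {n : ℕ} (x : Dk C n ⟶ X) (f : X ⟶ Y) :
    piwE (x ≫ f) = Mod.onCell f (piwE x) := rfl

theorem piwE_σ {X : Mod C} {n : ℕ} (x : Dk C (n + 1) ⟶ X) : piwE (sσ C n ≫ x) = X.s (piwE x) :=
  yEquiv_map (C.F.map (σ n)) x

theorem piwE_τ {X : Mod C} {n : ℕ} (x : Dk C (n + 1) ⟶ X) : piwE (sτ C n ≫ x) = X.t (piwE x) :=
  yEquiv_map (C.F.map (τ n)) x

theorem piw_rel {X : Mod C} {n : ℕ} (u v : Dk C n ⟶ X) : X.Rel (piwE u) (piwE v) ↔ Sim u v := by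
  constructor
  · rintro ⟨c, h1, h2⟩
    obtain ⟨w, rfl⟩ := piwE.surjective c
    exact ⟨w, piwE.injective ((piwE_σ w).trans h1), piwE.injective ((piwE_τ w).trans h2)⟩
  · rintro ⟨w, rfl, rfl⟩
    exact ⟨piwE w, (piwE_σ w).symm, (piwE_τ w).symm⟩

/-- the identity operation on discs -/
noncomputable def piwK (κ : IdLifts C) (n : ℕ) : Dk C (n + 1) ⟶ Dk C n := (yM C).map (κ.κ n)

theorem piwK_σ (κ : IdLifts C) (n : ℕ) : sσ C n ≫ piwK κ n = 𝟙 _ :=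
  ((yM C).map_comp (C.F.map (σ n)) (κ.κ n)).symm.trans
    ((congrArg (yM C).map (κ.isLift n).1).trans ((yM C).map_id _))

theorem piwK_τ (κ : IdLifts C) (n : ℕ) : sτ C n ≫ piwK κ n = 𝟙 _ :=
  ((yM C).map_comp (C.F.map (τ n)) (κ.κ n)).symm.trans
    ((congrArg (yM C).map (κ.isLift n).2).trans ((yM C).map_id _))

/-- the iterated identity operation -/
noncomputable def piwB (κ : IdLifts C) : ∀ n, Dk C n ⟶ Dk C 0
  | 0 => 𝟙 _
  | n + 1 => piwK κ n ≫ piwB κ n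

theorem piwE_B (κ : IdLifts C) {X : Mod C} (x : Dk C 0 ⟶ X) :
    ∀ n, piwE (piwB κ n ≫ x) = κ.one X (piwE x) n
  | 0 => congrArg piwE (Category.id_comp x)
  | n + 1 => by
    rw [piwB, Category.assoc, IdLifts.one, ← piwE_B κ x n]
    exact yEquiv_map (κ.κ n) _

/-- a loop given by a map out of a disc -/
noncomputable def piwL (κ : IdLifts C) {X : Mod C} (x : Dk C 0 ⟶ X) {n : ℕ}
    (l : Dk C (n + 1) ⟶ X) (h1 : sσ C n ≫ l = piwB κ n ≫ x) (h2 : sτ C n ≫ l = piwB κ n ≫ x) :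
    κ.Loop X (piwE x) n :=
  ⟨piwE l, by rw [← piwE_σ, h1, piwE_B], by rw [← piwE_τ, h2, piwE_B]⟩

theorem piwL_surj (κ : IdLifts C) {X : Mod C} (x : Dk C 0 ⟶ X) {n : ℕ}
    (u : κ.Loop X (piwE x) n) : ∃ l h1 h2, piwL κ x l h1 h2 = u := by
  obtain ⟨u, h1, h2⟩ := u
  obtain ⟨l, rfl⟩ := piwE.surjective u
  exact ⟨l, piwE.injective (by rw [piwE_σ, h1, piwE_B]),
    piwE.injective (by rw [piwE_τ, h2, piwE_B]), rfl⟩

end

variable {K : Coherator}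

theorem piw_equiv (X : Mod K.C) (n : ℕ) : Equivalence (X.Rel (n := n)) := by
  refine ⟨fun a => ?_, fun {a b} h => ?_, fun {a b c} h h' => ?_⟩
  · obtain ⟨u, rfl⟩ := piwE.surjective a
    exact (piw_rel _ _).2 (Sim.refl u)
  · obtain ⟨u, rfl⟩ := piwE.surjective a
    obtain ⟨v, rfl⟩ := piwE.surjective b
    exact (piw_rel _ _).2 ((piw_rel _ _).1 h).symm
  · obtain ⟨u, rfl⟩ := piwE.surjective a
    obtain ⟨v, rfl⟩ := piwE.surjective b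
    obtain ⟨w, rfl⟩ := piwE.surjective c
    exact (piw_rel _ _).2 (((piw_rel _ _).1 h).trans ((piw_rel _ _).1 h'))

theorem piw_eq0 {X : Mod K.C} (a b : X.Cell 0) :
    (Quot.mk _ a : X.pi0) = Quot.mk _ b ↔ X.Rel a b :=
  Quot.eq.trans (piw_equiv X 0).eqvGen_iff

theorem piw_eq (κ : IdLifts K.C) {X : Mod K.C} {x : X.Cell 0} {n : ℕ} (a b : κ.Loop X x n) :
    (Quot.mk _ a : κ.pi X x n) = Quot.mk _ b ↔ X.Rel a.1 b.1 :=
  Quot.eq.trans ((piw_equiv X (n + 1)).comap (fun u : κ.Loop X x n => u.1)).eqvGen_iff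

theorem piw_main (κ : IdLifts K.C) {X Y : Mod K.C} (f : X ⟶ Y)
    (A0 : ∀ y : Dk K.C 0 ⟶ Y, ∃ x : Dk K.C 0 ⟶ X, Sim (x ≫ f) y)
    (B0 : ∀ x x' : Dk K.C 0 ⟶ X, Sim (x ≫ f) (x' ≫ f) → Sim x x')
    (A1 : ∀ (x : Dk K.C 0 ⟶ X) (n : ℕ) (g : Dk K.C (n + 1) ⟶ Y),
      sσ K.C n ≫ g = piwB κ n ≫ x ≫ f → sτ K.C n ≫ g = piwB κ n ≫ x ≫ f →
      ∃ l : Dk K.C (n + 1) ⟶ X, sσ K.C n ≫ l = piwB κ n ≫ x ∧ sτ K.C n ≫ l = piwB κ n ≫ x ∧
        Sim (l ≫ f) g)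
    (B1 : ∀ (x : Dk K.C 0 ⟶ X) (n : ℕ) (l l' : Dk K.C (n + 1) ⟶ X),
      sσ K.C n ≫ l = piwB κ n ≫ x → sτ K.C n ≫ l = piwB κ n ≫ x →
      sσ K.C n ≫ l' = piwB κ n ≫ x → sτ K.C n ≫ l' = piwB κ n ≫ x →
      Sim (l ≫ f) (l' ≫ f) → Sim l l') : WL K.C f := by
  intro j a w hw
  cases j with
  | zero =>
    obtain ⟨x, hx⟩ := A0 w
    exact ⟨x, (RD K.C).init.hom_ext _ _, hx⟩
  | succ j =>
  obtain ⟨P⟩ := exists_pathObj K
  obtain ⟨O⟩ := exists_compOp K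
  obtain ⟨w1, w2⟩ := ((RD K.C).b_eq_iff _ _).1 hw
  have huv := (RD K.C).par_l_r a
  have ea : (RD K.C).sph _ _ huv = a := (RD K.C).ext (by simp) (by simp)
  rw [← Category.assoc] at w1 w2
  generalize (RD K.C).l j ≫ a = u at w1 huv ea
  generalize (RD K.C).r j ≫ a = v at w2 huv ea
  subst ea
  have n0 : P.P.map f ≫ P.p0.app Y = P.p0.app X ≫ f := P.p0.naturality f
  have n1 : P.P.map f ≫ P.p1.app Y = P.p1.app X ≫ f := P.p1.naturality f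
  obtain ⟨s₀⟩ : Nonempty (Dk K.C 0 ⟶ Dk K.C j) := ⟨sTgt K.C (Nat.zero_le j)⟩
  obtain ⟨Hd, hd⟩ := (cofib_Dk j).lift (P.tfc _ (contr_Dk K j)) (prod.lift (𝟙 _) (piwB κ j ≫ s₀))
  have d0 : Hd ≫ P.p0.app _ = 𝟙 _ := by simpa using hd =≫ prod.fst
  have d1 : Hd ≫ P.p1.app _ = piwB κ j ≫ s₀ := by simpa using hd =≫ prod.snd
  have u0 : (Hd ≫ P.P.map u) ≫ P.p0.app X = u := by
    rw [Category.assoc, P.p0.naturality, reassoc_of% d0]
    rfl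
  have u1 : (Hd ≫ P.P.map u) ≫ P.p1.app X = piwB κ j ≫ s₀ ≫ u := by
    rw [Category.assoc, P.p1.naturality, reassoc_of% d1]
    rfl
  generalize Hd ≫ P.P.map u = Hu at u0 u1
  generalize s₀ ≫ u = x at u1
  obtain ⟨Hv, v1, v0⟩ := (tfib_iff _).1 (P.tf0 X) j (bd K.C j ≫ Hu) v
    (by rw [Category.assoc, u0, huv])
  obtain ⟨W, k1, k2⟩ := (tfib_iff _).1 (P.tf0 Y) (j + 1)
    ((RD K.C).sph Hu Hv v1.symm ≫ P.P.map f) w (((RD K.C).b_eq_iff _ _).2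
      ⟨by rw [Category.assoc, (RD K.C).l_sph_assoc, n0, reassoc_of% u0]; exact w1,
       by rw [Category.assoc, (RD K.C).r_sph_assoc, n0, reassoc_of% v0]; exact w2⟩)
  obtain ⟨k3, k4⟩ := ((RD K.C).b_eq_iff _ _).1 k1
  rw [(RD K.C).l_sph_assoc] at k3
  rw [(RD K.C).r_sph_assoc] at k4
  have k5 : sσ K.C j ≫ W ≫ P.p1.app Y = (piwB κ j ≫ x) ≫ f := by
    rw [reassoc_of% k3, n1, reassoc_of% u1, Category.assoc]
  have k6 : sτ K.C j ≫ W ≫ P.p1.app Y = (Hv ≫ P.p1.app X) ≫ f := by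
    rw [reassoc_of% k4, n1, Category.assoc]
  have hpar : bd K.C j ≫ piwB κ j ≫ x = bd K.C j ≫ Hv ≫ P.p1.app X := by
    rw [reassoc_of% v1, u1]
  have hz : Sim (piwB κ j ≫ x) (Hv ≫ P.p1.app X) := by
    cases j with
    | zero => exact B0 _ _ ⟨_, k5, k6⟩
    | succ j =>
      have e1 : sσ K.C j ≫ piwB κ (j + 1) ≫ x = piwB κ j ≫ x := by
        rw [piwB, Category.assoc, reassoc_of% (piwK_σ κ j)]
      have e2 : sτ K.C j ≫ piwB κ (j + 1) ≫ x = piwB κ j ≫ x := by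
        rw [piwB, Category.assoc, reassoc_of% (piwK_τ κ j)]
      obtain ⟨e3, e4⟩ := ((RD K.C).b_eq_iff _ _).1 hpar.symm
      rw [(RD K.C).l_b_assoc] at e3
      rw [(RD K.C).r_b_assoc] at e4
      exact B1 x j _ _ e1 e2 (e3.trans e1) (e4.trans e2) ⟨_, k5, k6⟩
  obtain ⟨z, z1, z2⟩ := hz
  obtain ⟨g, hg, ω, o1, o2⟩ := O.divL (z ≫ f) (W ≫ P.p1.app Y) (by rw [reassoc_of% z2, k6]; simp)
  have ho : Sim (O.comp g (z ≫ f) hg) (W ≫ P.p1.app Y) := ⟨ω, o1, o2⟩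
  have g1 : sσ K.C j ≫ g = piwB κ j ≫ x ≫ f := by
    have := (((RD K.C).b_eq_iff _ _).1 ho.par).1
    rw [(RD K.C).l_b_assoc] at this
    rw [← O.σ_comp g (z ≫ f) hg, ← Category.assoc, ← k5]
    exact this
  obtain ⟨l, l1, l2, l3⟩ := A1 x j g g1 (by rw [hg, reassoc_of% z1])
  have hl : sτ K.C j ≫ l = sσ K.C j ≫ z := l2.trans z1.symm
  have hl' : sτ K.C j ≫ l ≫ f = sσ K.C j ≫ z ≫ f := by rw [reassoc_of% hl]
  have hs : Sim (O.comp l z hl ≫ f) (W ≫ P.p1.app Y) := by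
    rw [O.comp_map l z hl f hl']
    exact Sim.trans (O.congr _ _ _ hl' hg l3) ho
  obtain ⟨Z, m1, m2⟩ := (tfib_iff _).1 (P.tf1 X) (j + 1) ((RD K.C).sph Hu Hv v1.symm)
    (O.comp l z hl) (((RD K.C).b_eq_iff _ _).2
      ⟨by rw [(RD K.C).l_sph_assoc, u1]; exact (O.σ_comp ..).trans l1,
       by rw [(RD K.C).r_sph_assoc]; exact (O.τ_comp ..).trans z2⟩)
  refine ⟨Z ≫ P.p0.app X, ?_, ?_⟩
  · rw [reassoc_of% m1]
    apply (RD K.C).ext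
    · rw [(RD K.C).l_sph_assoc, (RD K.C).l_sph, u0]
    · rw [(RD K.C).r_sph_assoc, (RD K.C).r_sph, v0]
  · have k7 := ((WL.of_tfib (P.tf1 Y)).reflects (j + 1) (Z ≫ P.P.map f) W
      (by rw [reassoc_of% m1, k1])
      (by rw [Category.assoc, n1, reassoc_of% m2]; exact hs)).map (P.p0.app Y)
    rwa [Category.assoc, n0, k2, ← Category.assoc] at k7

theorem W_iff_WL {K : Coherator} (κ : IdLifts K.C) {X Y : Mod K.C} (f : X ⟶ Y) :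
    κ.W f ↔ WL K.C f := by
  constructor
  · rintro ⟨h0, h1⟩
    refine piw_main κ f (fun y => ?_) (fun x x' h => ?_) (fun x n g g1 g2 => ?_)
      (fun x n l l' a1 a2 a3 a4 h => ?_)
    · obtain ⟨⟨a⟩, ha⟩ := h0.2 (Quot.mk _ (piwE y))
      obtain ⟨x, rfl⟩ := piwE.surjective a
      exact ⟨x, (piw_rel _ _).1 ((piw_eq0 _ _).1 ha)⟩
    · exact (piw_rel _ _).1 ((piw_eq0 _ _).1
        (h0.1 (a₁ := Quot.mk _ (piwE x)) (a₂ := Quot.mk _ (piwE x'))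
          ((piw_eq0 _ _).2 ((piw_rel _ _).2 h))))
    · obtain ⟨⟨a⟩, ha⟩ := (h1 (piwE x) n).2 (Quot.mk _ (piwL κ (x ≫ f) g g1 g2))
      obtain ⟨l, l1, l2, rfl⟩ := piwL_surj κ x a
      exact ⟨l, l1, l2, (piw_rel _ _).1 ((piw_eq κ _ _).1 ha)⟩
    · exact (piw_rel _ _).1 ((piw_eq κ _ _).1
        ((h1 (piwE x) n).1 (a₁ := Quot.mk _ (piwL κ x l a1 a2))
          (a₂ := Quot.mk _ (piwL κ x l' a3 a4)) ((piw_eq κ _ _).2 ((piw_rel _ _).2 h))))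
  · intro hf
    refine ⟨⟨?_, ?_⟩, fun x n => ⟨?_, ?_⟩⟩
    · rintro ⟨a⟩ ⟨b⟩ h
      obtain ⟨u, rfl⟩ := piwE.surjective a
      obtain ⟨v, rfl⟩ := piwE.surjective b
      exact (piw_eq0 _ _).2 ((piw_rel _ _).2 (hf.reflects 0 u v ((RD K.C).init.hom_ext _ _)
        ((piw_rel _ _).1 ((piw_eq0 _ _).1 h))))
    · rintro ⟨b⟩
      obtain ⟨w, rfl⟩ := piwE.surjective b
      obtain ⟨v, -, hv⟩ := hf 0 ((RD K.C).init.to X) w ((RD K.C).init.hom_ext _ _)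
      exact ⟨Quot.mk _ (piwE v), (piw_eq0 _ _).2 ((piw_rel _ _).2 hv)⟩
    · obtain ⟨x, rfl⟩ := piwE.surjective x
      rintro ⟨a⟩ ⟨b⟩ h
      obtain ⟨l, l1, l2, rfl⟩ := piwL_surj κ x a
      obtain ⟨l', l3, l4, rfl⟩ := piwL_surj κ x b
      exact (piw_eq κ _ _).2 ((piw_rel _ _).2 (hf.reflects (n + 1) l l'
        ((RD K.C).b_ext (l1.trans l3.symm) (l2.trans l4.symm))
        ((piw_rel _ _).1 ((piw_eq κ _ _).1 h))))
    · obtain ⟨x, rfl⟩ := piwE.surjective x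
      rintro ⟨b⟩
      obtain ⟨g, g1, g2, rfl⟩ := piwL_surj κ (x ≫ f) b
      obtain ⟨v, h1, h2⟩ := hf (n + 1) ((RD K.C).sph (piwB κ n ≫ x) (piwB κ n ≫ x) rfl) g
        (((RD K.C).b_eq_iff _ _).2
          ⟨by rw [(RD K.C).l_sph_assoc, Category.assoc]; exact g1,
           by rw [(RD K.C).r_sph_assoc, Category.assoc]; exact g2⟩)
      obtain ⟨h3, h4⟩ := ((RD K.C).b_eq_iff _ _).1 h1
      exact ⟨Quot.mk _ (piwL κ x v (h3.trans ((RD K.C).l_sph ..)) (h4.trans ((RD K.C).r_sph ..))),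
        (piw_eq κ _ _).2 ((piw_rel _ _).2 h2)⟩

end Vale.Agent.P259
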