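import Vale.Agent.P259.CubeDefs
import Vale.Agent.P259.PiW

/-! # P259 part GeoA: cells of the fundamental groupoid -/

set_option backward.isDefEq.respectTransparency false

open CategoryTheory Limits Opposite MorphismProperty Topology

namespace Vale.Agent.P259

open Theta0
open Globe (D)

variable {K : Coherator}

theorem GeoA_σ {Y : TopCat.{0}} {j : ℕ} (x : Dk K.C (j + 1) ⟶ (PiK K).obj Y) :
    cellPi (sσ K.C j ≫ x) = TopCat.ofHom (lower j) ≫ cellPi x := by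
  rw [← discG_σ]; exact cellPi_DG _ x

theorem GeoA_τ {Y : TopCat.{0}} {j : ℕ} (x : Dk K.C (j + 1) ⟶ (PiK K).obj Y) :
    cellPi (sτ K.C j ≫ x) = TopCat.ofHom (upper j) ≫ cellPi x := by
  rw [← discG_τ]; exact cellPi_DG _ x

variable (K) in
/-- the family of equivalences in one dimension -/
abbrev GeoA_E (j : ℕ) :=
  ∀ Y : TopCat.{0}, (Sph K.C j ⟶ (PiK K).obj Y) ≃ (TopCat.of (Sphere j) ⟶ Y)

/-- the basic properties of such a family -/
def GeoA_P {j : ℕ} (e : GeoA_E K j) : Prop :=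
  (∀ (Y : TopCat.{0}) (x : Dk K.C j ⟶ (PiK K).obj Y), e Y (bd K.C j ≫ x) = sphInc j ≫ cellPi x) ∧
  (∀ (Y Y' : TopCat.{0}) (a : Sph K.C j ⟶ (PiK K).obj Y) (f : Y ⟶ Y'),
    e Y' (a ≫ (PiK K).map f) = e Y a ≫ f)

theorem GeoA_zero : ∃ e : GeoA_E K 0, GeoA_P e := by
  refine ⟨fun Y =>
    { toFun := fun _ => RT.init.to Y
      invFun := fun _ => (RD K.C).init.to _
      left_inv := fun _ => (RD K.C).init.hom_ext _ _
      right_inv := fun _ => RT.init.hom_ext _ _ }, fun _ _ => RT.init.hom_ext _ _,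
    fun _ _ _ _ => RT.init.hom_ext _ _⟩

theorem GeoA_succ {j : ℕ} (e : GeoA_E K j) (he : GeoA_P e) : ∃ e' : GeoA_E K (j + 1), GeoA_P e' ∧
    (∀ (Y : TopCat.{0}) (a : Sph K.C (j + 1) ⟶ (PiK K).obj Y),
      cellPi ((RD K.C).l j ≫ a) = lowerS j ≫ e' Y a) ∧
    (∀ (Y : TopCat.{0}) (a : Sph K.C (j + 1) ⟶ (PiK K).obj Y),
      cellPi ((RD K.C).r j ≫ a) = upperS j ≫ e' Y a) := by
  have h1 : ∀ (Y : TopCat.{0}) (a : Sph K.C (j + 1) ⟶ (PiK K).obj Y),
      RT.b j ≫ cellPi ((RD K.C).l j ≫ a) = RT.b j ≫ cellPi ((RD K.C).r j ≫ a) := by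
    intro Y a
    exact (he.1 Y _).symm.trans ((congrArg (e Y) ((RD K.C).par_l_r a)).trans (he.1 Y _))
  have h2 : ∀ (Y : TopCat.{0}) (b : TopCat.of (Sphere (j + 1)) ⟶ Y),
      (RD K.C).b j ≫ (cellPi (K := K)).symm (RT.l j ≫ b) =
        (RD K.C).b j ≫ (cellPi (K := K)).symm (RT.r j ≫ b) := by
    intro Y b
    apply (e Y).injective
    refine (he.1 Y _).trans (Eq.trans ?_ (he.1 Y _).symm)
    rw [Equiv.apply_symm_apply, Equiv.apply_symm_apply]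
    exact RT.par_l_r b
  let e' : GeoA_E K (j + 1) := fun Y =>
    { toFun := fun a => RT.sph _ _ (h1 Y a)
      invFun := fun b => (RD K.C).sph _ _ (h2 Y b)
      left_inv := fun a => by
        apply (RD K.C).ext
        · rw [Reedy.l_sph, Reedy.l_sph]; exact Equiv.symm_apply_apply _ _
        · rw [Reedy.r_sph, Reedy.r_sph]; exact Equiv.symm_apply_apply _ _
      right_inv := fun b => by
        apply RT.ext
        · rw [Reedy.l_sph, Reedy.l_sph]; exact Equiv.apply_symm_apply _ _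
        · rw [Reedy.r_sph, Reedy.r_sph]; exact Equiv.apply_symm_apply _ _ }
  have hl : ∀ (Y : TopCat.{0}) (a : Sph K.C (j + 1) ⟶ (PiK K).obj Y),
      cellPi ((RD K.C).l j ≫ a) = RT.l j ≫ e' Y a := fun Y a => (RT.l_sph _ _ (h1 Y a)).symm
  have hr : ∀ (Y : TopCat.{0}) (a : Sph K.C (j + 1) ⟶ (PiK K).obj Y),
      cellPi ((RD K.C).r j ≫ a) = RT.r j ≫ e' Y a := fun Y a => (RT.r_sph _ _ (h1 Y a)).symm
  refine ⟨e', ⟨fun Y x => ?_, fun Y Y' a f => ?_⟩, hl, hr⟩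
  · apply RT.ext
    · refine (hl Y _).symm.trans ?_
      rw [Reedy.l_b_assoc, cellPi_DG]
      exact (RT.l_b_assoc j _).symm
    · refine (hr Y _).symm.trans ?_
      rw [Reedy.r_b_assoc, cellPi_DG]
      exact (RT.r_b_assoc j _).symm
  · apply RT.ext
    · refine (hl Y' _).symm.trans ?_
      rw [← Category.assoc, cellPi_map, hl, Category.assoc]
    · refine (hr Y' _).symm.trans ?_
      rw [← Category.assoc, cellPi_map, hr, Category.assoc]

theorem GeoA_all (j : ℕ) : ∃ e : GeoA_E K j, GeoA_P e := by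
  induction j with
  | zero => exact GeoA_zero
  | succ j ih =>
    obtain ⟨e, he⟩ := ih
    exact (GeoA_succ e he).imp fun _ h => h.1

theorem exists_sphPi (K : Coherator) : Nonempty (SphPi K) := by
  have hs := fun j => GeoA_succ (K := K) (j := j) _ (GeoA_all j).choose_spec
  choose es hes using hs
  obtain ⟨e0, he0⟩ := GeoA_zero (K := K)
  let e : ∀ j, GeoA_E K j := fun j => Nat.casesOn (motive := fun j => GeoA_E K j) j e0 es
  have hP : ∀ j, GeoA_P (e j) := fun j => by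
    cases j with
    | zero => exact he0
    | succ j => exact (hes j).1
  exact ⟨⟨fun {Y j} => e j Y, fun {Y j} x => (hP j).1 Y x, fun {Y Y' j} a f => (hP j).2 Y Y' a f,
    fun {Y j} a => (hes j).2.1 Y a, fun {Y j} a => (hes j).2.2 Y a⟩⟩

theorem sim_Pi_iff {Y : TopCat.{0}} {j : ℕ} (x y : Dk K.C j ⟶ (PiK K).obj Y) :
    Sim x y ↔ (cellPi x).hom.HomotopicRel (cellPi y).hom {z | ‖z.1‖ = 1} := by
  rw [← lift_iff_homotopicRel]
  constructor
  · rintro ⟨w, rfl, rfl⟩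
    exact ⟨(cellPi w).hom, by rw [GeoA_σ]; rfl, by rw [GeoA_τ]; rfl⟩
  · rintro ⟨w, h1, h2⟩
    refine ⟨cellPi.symm (TopCat.ofHom w), ?_, ?_⟩
    · apply cellPi.injective
      rw [GeoA_σ, Equiv.apply_symm_apply]
      exact TopCat.hom_ext h1
    · apply cellPi.injective
      rw [GeoA_τ, Equiv.apply_symm_apply]
      exact TopCat.hom_ext h2

theorem contr_Pi (Y : TopCat.{0}) [ContractibleSpace Y] : Contr ((PiK K).obj Y) := by
  obtain ⟨s⟩ := exists_sphPi K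
  intro j a
  obtain ⟨w, hw⟩ := ext_of_contractible j (s.e a).hom
  refine ⟨cellPi.symm (TopCat.ofHom w), s.e.injective ?_⟩
  rw [s.e_bd, Equiv.apply_symm_apply]
  exact TopCat.hom_ext hw

theorem wl_of_sdr {Y U : TopCat.{0}} {i : Y ⟶ U} (s : SDR i) : WL K.C ((PiK K).map i) := by
  obtain ⟨sp⟩ := exists_sphPi K
  intro j a w hw
  refine ⟨w ≫ (PiK K).map s.r, ?_, ?_⟩
  · rw [reassoc_of% hw, ← Functor.map_comp, s.i_r, CategoryTheory.Functor.map_id,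
      Category.comp_id]
  · rw [sim_Pi_iff, cellPi_map, cellPi_map]
    have hb : ∀ z : Disc j, ‖z.1‖ = 1 → ∃ y, cellPi w z = i y := by
      intro z hz
      have h := congrArg sp.e hw
      rw [sp.e_bd, sp.e_map] at h
      exact ⟨sp.e a ⟨z.1, by simpa using hz⟩,
        ConcreteCategory.congr_hom h (⟨z.1, by simpa using hz⟩ : Sphere j)⟩
    refine ⟨⟨⟨⟨fun p => s.h (cellPi w p.2, p.1), ?_⟩, fun z => s.h0 _, fun z => s.h1 _⟩, ?_⟩⟩
    · exact s.h.continuous.comp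
        (((cellPi w).hom.continuous.comp continuous_snd).prodMk continuous_fst)
    · intro t z hz
      obtain ⟨y, hy⟩ := hb z hz
      change s.h (cellPi w z, t) = i (s.r (cellPi w z))
      rw [hy, s.hfix]
      exact congrArg i (ConcreteCategory.congr_hom s.i_r y).symm

theorem wl_of_isEmpty {X : Mod K.C} {Y : TopCat.{0}} [IsEmpty Y] (f : X ⟶ (PiK K).obj Y) :
    WL K.C f := by
  intro j _ w _
  exact isEmptyElim (cellPi w (centre j))

theorem exists_idLifts (K : Coherator) : Nonempty (IdLifts K.C) := by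
  have h : ∀ n, ∃ h, IsLift K.C.F (S := K.C.F.obj (disc n)) (n := n) h (𝟙 _) (𝟙 _) := fun n =>
    K.contr ⟨n, disc n, 𝟙 _, 𝟙 _, by
      cases n with
      | zero => trivial
      | succ n => exact ⟨rfl, rfl⟩⟩
  choose κ hκ using h
  exact ⟨⟨κ, hκ⟩⟩

theorem GeoA_quot {α β : Type} {r : α → α → Prop} {s : β → β → Prop} (hr : Equivalence r)
    (hs : Equivalence s) (f : α → β) (h : ∀ ⦃a b⦄, r a b → s (f a) (f b)) :
    Function.Bijective (Quot.map f h) ↔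
      (∀ a b, s (f a) (f b) → r a b) ∧ ∀ b, ∃ a, s (f a) b := by
  have e1 : ∀ a b, Quot.mk r a = Quot.mk r b ↔ r a b := fun a b =>
    Quot.eq.trans (hr.eqvGen_iff)
  have e2 : ∀ a b, Quot.mk s a = Quot.mk s b ↔ s a b := fun a b =>
    Quot.eq.trans (hs.eqvGen_iff)
  constructor
  · rintro ⟨hi, hsu⟩
    refine ⟨fun a b hab => (e1 a b).1 (hi ((e2 _ _).2 hab)), fun b => ?_⟩
    obtain ⟨q, hq⟩ := hsu (Quot.mk s b)
    obtain ⟨a, rfl⟩ := Quot.exists_rep q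
    exact ⟨a, (e2 _ _).1 hq⟩
  · rintro ⟨hi, hsu⟩
    refine ⟨fun p q hpq => ?_, fun q => ?_⟩
    · obtain ⟨a, rfl⟩ := Quot.exists_rep p
      obtain ⟨b, rfl⟩ := Quot.exists_rep q
      exact (e1 a b).2 (hi a b ((e2 _ _).1 hpq))
    · obtain ⟨b, rfl⟩ := Quot.exists_rep q
      obtain ⟨a, ha⟩ := hsu b
      exact ⟨Quot.mk r a, (e2 _ _).2 ha⟩

/-- a cell as a continuous map -/
noncomputable def GeoA_m {Y : TopCat.{0}} {n : ℕ} (x : ((PiK K).obj Y).Cell n) : C(Disc n, Y) :=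
  (cellPi (K := K) (Y := Y) (j := n) (yEquiv.symm x)).hom

/-- a continuous map as a cell -/
noncomputable def GeoA_c {Y : TopCat.{0}} {n : ℕ} (u : C(Disc n, Y)) : ((PiK K).obj Y).Cell n :=
  yEquiv ((cellPi (K := K) (Y := Y) (j := n)).symm (TopCat.ofHom u))

theorem GeoA_mc {Y : TopCat.{0}} {n : ℕ} (u : C(Disc n, Y)) : GeoA_m (K := K) (GeoA_c u) = u := by
  unfold GeoA_m GeoA_c
  erw [Equiv.symm_apply_apply, Equiv.apply_symm_apply]
  rfl

theorem GeoA_m_inj {Y : TopCat.{0}} {n : ℕ} {x y : ((PiK K).obj Y).Cell n}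
    (h : GeoA_m x = GeoA_m y) : x = y :=
  (yEquiv (S := K.C.F.obj (disc n)) (X := (PiK K).obj Y)).symm.injective
    ((cellPi (K := K) (Y := Y) (j := n)).injective (TopCat.hom_ext h))

theorem GeoA_m_eq {Y : TopCat.{0}} {n : ℕ} (x : ((PiK K).obj Y).Cell n) :
    GeoA_m x = TopCat.Hom.hom (X := TopCat.of (Disc n)) (Y := Y) x :=
  congrArg (TopCat.Hom.hom (X := TopCat.of (Disc n)) (Y := Y))
    ((yEquiv (S := K.C.F.obj (disc n)) (X := (PiK K).obj Y)).apply_symm_apply x)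

theorem GeoA_m_act {Y : TopCat.{0}} {m n : ℕ} (θ : K.C.F.obj (disc m) ⟶ K.C.F.obj (disc n))
    (x : ((PiK K).obj Y).Cell n) : GeoA_m (((PiK K).obj Y).act θ x) = (GeoA_m x).comp
      (TopCat.Hom.hom (X := TopCat.of (Disc m)) (Y := TopCat.of (Disc n)) ((DT K).map θ)) := by
  rw [GeoA_m_eq, GeoA_m_eq]; rfl

theorem GeoA_m_s {Y : TopCat.{0}} {n : ℕ} (x : ((PiK K).obj Y).Cell (n + 1)) :
    GeoA_m (((PiK K).obj Y).s x) = (GeoA_m x).comp (lower n) := by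
  unfold Mod.s
  rw [GeoA_m_act, DT_F, sumF_σ, discG_σ]; rfl

theorem GeoA_m_t {Y : TopCat.{0}} {n : ℕ} (x : ((PiK K).obj Y).Cell (n + 1)) :
    GeoA_m (((PiK K).obj Y).t x) = (GeoA_m x).comp (upper n) := by
  unfold Mod.t
  rw [GeoA_m_act, DT_F, sumF_τ, discG_τ]; rfl

theorem GeoA_m_on {Y Y' : TopCat.{0}} (f : Y ⟶ Y') {n : ℕ} (x : ((PiK K).obj Y).Cell n) :
    GeoA_m (Mod.onCell ((PiK K).map f) x) = f.hom.comp (GeoA_m x) := by
  rw [GeoA_m_eq, GeoA_m_eq]; rfl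

theorem GeoA_rel {Y : TopCat.{0}} {n : ℕ} (x y : ((PiK K).obj Y).Cell n) :
    ((PiK K).obj Y).Rel x y ↔ (GeoA_m x).HomotopicRel (GeoA_m y) {z | ‖z.1‖ = 1} := by
  rw [← lift_iff_homotopicRel]
  constructor
  · rintro ⟨w, rfl, rfl⟩
    exact ⟨GeoA_m w, (GeoA_m_s w).symm, (GeoA_m_t w).symm⟩
  · rintro ⟨w, h1, h2⟩
    exact ⟨GeoA_c w, GeoA_m_inj (by rw [GeoA_m_s, GeoA_mc, h1]),
      GeoA_m_inj (by rw [GeoA_m_t, GeoA_mc, h2])⟩

theorem GeoA_equiv {Y : TopCat.{0}} {n : ℕ} : Equivalence (((PiK K).obj Y).Rel (n := n)) :=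
  ⟨fun _ => (GeoA_rel _ _).2 (ContinuousMap.HomotopicRel.refl _),
    fun h => (GeoA_rel _ _).2 ((GeoA_rel _ _).1 h).symm,
    fun h h' => (GeoA_rel _ _).2 (((GeoA_rel _ _).1 h).trans ((GeoA_rel _ _).1 h'))⟩

theorem GeoA_one (κ : IdLifts K.C) {Y : TopCat.{0}} (x : ((PiK K).obj Y).Cell 0) (n : ℕ) :
    GeoA_m (κ.one _ x n) = ContinuousMap.const _ (GeoA_m x (centre 0)) := by
  induction n with
  | zero =>
    ext z
    have : z = centre 0 := Subtype.ext (Subsingleton.elim _ _)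
    rw [this]; rfl
  | succ n ih =>
    rw [IdLifts.one, GeoA_m_act, ih]; rfl

theorem GeoA_loop (κ : IdLifts K.C) {Y : TopCat.{0}} (x : ((PiK K).obj Y).Cell 0) (n : ℕ)
    (u : ((PiK K).obj Y).Cell (n + 1)) :
    (((PiK K).obj Y).s u = κ.one _ x n ∧ ((PiK K).obj Y).t u = κ.one _ x n) ↔
      ∀ z : Disc (n + 1), ‖z.1‖ = 1 → GeoA_m u z = GeoA_m x (centre 0) := by
  constructor
  · rintro ⟨h1, h2⟩ z hz
    have h1' := congrArg GeoA_m h1
    have h2' := congrArg GeoA_m h2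
    rw [GeoA_m_s, GeoA_one] at h1'
    rw [GeoA_m_t, GeoA_one] at h2'
    obtain ⟨y, rfl | rfl⟩ := exists_hemi_of_norm_one z hz
    · exact ContinuousMap.congr_fun h1' y
    · exact ContinuousMap.congr_fun h2' y
  · intro h
    refine ⟨GeoA_m_inj ?_, GeoA_m_inj ?_⟩
    · rw [GeoA_m_s, GeoA_one]
      ext y
      exact h _ (norm_hemi _ _ _ y)
    · rw [GeoA_m_t, GeoA_one]
      ext y
      exact h _ (norm_hemi _ _ _ y)

theorem GeoA_pi (κ : IdLifts K.C) {Y Y' : TopCat.{0}} (f : Y ⟶ Y') (x : ((PiK K).obj Y).Cell 0)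
    (n : ℕ) : Function.Bijective (topPiMap f.hom (n + 1) (GeoA_m x (centre 0))) ↔
      Function.Bijective (κ.piMap ((PiK K).map f) x n) := by
  have hx : GeoA_m (Mod.onCell ((PiK K).map f) x) (centre 0) = f.hom (GeoA_m x (centre 0)) := by
    rw [GeoA_m_on]; rfl
  rw [topPiMap_bijective_iff]
  refine Iff.trans ?_ (GeoA_quot (r := fun u v : κ.Loop _ x n => ((PiK K).obj Y).Rel u.1 v.1)
    (s := fun u v : κ.Loop _ (Mod.onCell ((PiK K).map f) x) n => ((PiK K).obj Y').Rel u.1 v.1)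
    ⟨fun _ => GeoA_equiv.1 _, GeoA_equiv.2, GeoA_equiv.3⟩
    ⟨fun _ => GeoA_equiv.1 _, GeoA_equiv.2, GeoA_equiv.3⟩ (κ.loopMap ((PiK K).map f) x n)
    (fun _ _ h => h.onCell _)).symm
  constructor
  · rintro ⟨h1, h2⟩
    refine ⟨fun a b hab => ?_, fun b => ?_⟩
    · refine (GeoA_rel _ _).2 (h1 _ _ ((GeoA_loop κ x n _).1 a.2) ((GeoA_loop κ x n _).1 b.2) ?_)
      have := (GeoA_rel _ _).1 hab
      rwa [← GeoA_m_on, ← GeoA_m_on]
    · obtain ⟨u, hu, hu'⟩ := h2 (GeoA_m b.1) (hx ▸ (GeoA_loop κ _ n _).1 b.2)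
      refine ⟨⟨GeoA_c u, (GeoA_loop κ x n _).2 (by rw [GeoA_mc]; exact hu)⟩, (GeoA_rel _ _).2 ?_⟩
      change (GeoA_m (Mod.onCell ((PiK K).map f) (GeoA_c u))).HomotopicRel _ _
      rwa [GeoA_m_on, GeoA_mc]
  · rintro ⟨h1, h2⟩
    refine ⟨fun u v hu hv huv => ?_, fun w hw => ?_⟩
    · have := (GeoA_rel _ _).1 (h1 ⟨GeoA_c u, (GeoA_loop κ x n _).2 (by rw [GeoA_mc]; exact hu)⟩
        ⟨GeoA_c v, (GeoA_loop κ x n _).2 (by rw [GeoA_mc]; exact hv)⟩ ((GeoA_rel _ _).2 (by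
          change (GeoA_m (Mod.onCell ((PiK K).map f) (GeoA_c u))).HomotopicRel
            (GeoA_m (Mod.onCell ((PiK K).map f) (GeoA_c v))) _
          rwa [GeoA_m_on, GeoA_m_on, GeoA_mc, GeoA_mc])))
      change (GeoA_m (GeoA_c u)).HomotopicRel (GeoA_m (GeoA_c v)) _ at this
      rwa [GeoA_mc, GeoA_mc] at this
    · obtain ⟨a, ha⟩ := h2 ⟨GeoA_c w, (GeoA_loop κ _ n _).2 (by rw [GeoA_mc, hx]; exact hw)⟩
      refine ⟨GeoA_m a.1, (GeoA_loop κ x n _).1 a.2, ?_⟩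
      have := (GeoA_rel _ _).1 ha
      change (GeoA_m (Mod.onCell ((PiK K).map f) a.1)).HomotopicRel (GeoA_m (GeoA_c w)) _ at this
      rwa [GeoA_m_on, GeoA_mc] at this

theorem GeoA_pi0 {Y Y' : TopCat.{0}} (f : Y ⟶ Y') : Function.Bijective (topPi0Map f.hom) ↔
      Function.Bijective (Mod.pi0Map ((PiK K).map f)) := by
  rw [topPi0Map_bijective_iff]
  refine Iff.trans ?_ (GeoA_quot GeoA_equiv GeoA_equiv (Mod.onCell ((PiK K).map f) (n := 0))
    (fun _ _ h => h.onCell _)).symm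
  constructor
  · rintro ⟨h1, h2⟩
    refine ⟨fun a b hab => ?_, fun b => ?_⟩
    · refine (GeoA_rel _ _).2 (h1 _ _ ?_)
      have := (GeoA_rel _ _).1 hab
      rwa [← GeoA_m_on, ← GeoA_m_on]
    · obtain ⟨u, hu⟩ := h2 (GeoA_m b)
      refine ⟨GeoA_c u, (GeoA_rel _ _).2 ?_⟩
      rwa [GeoA_m_on, GeoA_mc]
  · rintro ⟨h1, h2⟩
    refine ⟨fun u v huv => ?_, fun w => ?_⟩
    · have := (GeoA_rel _ _).1 (h1 (GeoA_c u) (GeoA_c v) ((GeoA_rel _ _).2 (by
          rwa [GeoA_m_on, GeoA_m_on, GeoA_mc, GeoA_mc])))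
      rwa [GeoA_mc, GeoA_mc] at this
    · obtain ⟨a, ha⟩ := h2 (GeoA_c w)
      refine ⟨GeoA_m a, ?_⟩
      have := (GeoA_rel _ _).1 ha
      rwa [GeoA_m_on, GeoA_mc] at this

theorem whe_iff_W (κ : IdLifts K.C) {Y Y' : TopCat.{0}} (f : Y ⟶ Y') :
    WHE f ↔ κ.W ((PiK K).map f) := by
  refine and_congr (GeoA_pi0 f) ⟨fun h x n => (GeoA_pi κ f x n).1 (h n _), fun h n y => ?_⟩
  have := (GeoA_pi κ f (GeoA_c (ContinuousMap.const _ y)) n).2 (h _ n)
  rwa [GeoA_mc] at this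

theorem whe_iff_WL {Y Y' : TopCat.{0}} (f : Y ⟶ Y') : WHE f ↔ WL K.C ((PiK K).map f) := by
  obtain ⟨κ⟩ := exists_idLifts K
  rw [whe_iff_W κ, W_iff_WL]

end Vale.Agent.P259
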