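import Vale.Agent.P259.ZC
import Vale.Agent.P259.CubeC
import Vale.Agent.P259.GeoA

/-! # P259 part Chi: the zigzag between W and the fundamental groupoid -/

set_option backward.isDefEq.respectTransparency false

open CategoryTheory Limits Opposite MorphismProperty Topology

namespace Vale.Agent.P259

open Theta0
open Globe (D)

variable {K : Coherator}

section

variable {W : TopCat.{0} ⥤ Mod K.C} {RA : Reedy (discG ⋙ W)} {Ed : EData RA} (Z : ZOut W Ed)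

/-- spheres in `Z Y` -/
theorem ZOut.sph {Y : TopCat.{0}} {j : ℕ} (a : Sph K.C j ⟶ Z.Z.obj Y) :
    ∃ a' : Ed.RE.B j ⟶ W.obj Y, Ed.ψ.bm j ≫ a' = a ≫ Z.χ.app Y ∧
      (∀ v : Dk K.C j ⟶ (PiK K).obj Y, bd K.C j ≫ v = a ≫ Z.p.app Y →
        Ed.α.bm j ≫ a' = RA.b j ≫ W.map (cellPi v)) ∧
      ∀ x : Dk K.C j ⟶ Z.Z.obj Y, bd K.C j ≫ x = a ↔
        (bd K.C j ≫ x ≫ Z.p.app Y = a ≫ Z.p.app Y ∧ Ed.RE.b j ≫ Z.hat x = a') := by
  induction j with
  | zero =>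
    exact ⟨Ed.RE.init.to _, (RD K.C).init.hom_ext _ _, fun _ _ => RA.init.hom_ext _ _, fun x =>
      ⟨fun _ => ⟨(RD K.C).init.hom_ext _ _, Ed.RE.init.hom_ext _ _⟩,
        fun _ => (RD K.C).init.hom_ext _ _⟩⟩
  | succ j ih =>
    obtain ⟨a0, -, -, h3⟩ := ih (bd K.C j ≫ (RD K.C).l j ≫ a)
    have hu := ((h3 _).1 rfl).2
    have hv := ((h3 _).1 ((RD K.C).par_l_r a).symm).2
    refine ⟨Ed.RE.sph _ _ (hu.trans hv.symm), ?_, fun v hv' => ?_, fun x => ?_⟩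
    · apply (RD K.C).ext
      · rw [Ed.ψ.l_bm_assoc, Ed.RE.l_sph, Z.hat_ψ, Category.assoc]
      · rw [Ed.ψ.r_bm_assoc, Ed.RE.r_sph, Z.hat_ψ, Category.assoc]
    · obtain ⟨h1, h2⟩ := ((RD K.C).b_eq_iff _ _).1 hv'
      apply RA.ext
      · rw [Ed.α.l_bm_assoc, Ed.RE.l_sph, Z.hat_α, Reedy.l_b_assoc, Category.assoc, ← h1,
          cellPi_DG, W.map_comp]
        rfl
      · rw [Ed.α.r_bm_assoc, Ed.RE.r_sph, Z.hat_α, Reedy.r_b_assoc, Category.assoc, ← h2,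
          cellPi_DG, W.map_comp]
        rfl
    · rw [(RD K.C).b_eq_iff, (RD K.C).b_eq_iff, Ed.RE.b_eq_iff, Ed.RE.l_sph, Ed.RE.r_sph,
        ← Z.hat_σ, ← Z.hat_τ]
      constructor
      · rintro ⟨h1, h2⟩
        exact ⟨⟨by rw [reassoc_of% h1], by rw [reassoc_of% h2]⟩, by rw [h1], by rw [h2]⟩
      · rintro ⟨⟨h1, h2⟩, h3, h4⟩
        exact ⟨Z.ext _ _ (by simpa using h1) h3, Z.ext _ _ (by simpa using h2) h4⟩

theorem ZOut.tfib (Y : TopCat.{0}) : TFib K.C (Z.p.app Y) := by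
  rw [tfib_iff]
  intro j a w hw
  obtain ⟨a', -, h2, h3⟩ := Z.sph a
  obtain ⟨e, e1, e2⟩ := Ed.extend₀ a' (W.map (cellPi w)) (h2 w hw)
  obtain ⟨x, hx1, hx2⟩ := Z.mk' w e e2
  exact ⟨x, (h3 x).2 ⟨by rw [hx1, hw], by rw [hx2, e1]⟩, hx1⟩

theorem ZOut.reflects (hc : ∀ Y, Cofib (W.obj Y)) (φ : W ⟶ PiK K) (Y : TopCat.{0}) :
    Reflects (Z.χ.app Y) := by
  intro j u v huv hs
  let d : DG K.C ⟶ discG ⋙ PiK K := Globe.natTrans (fun n => ηD K n)
    (fun n => cellPi.injective (by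
      rw [cellPi_DG]
      exact ((congrArg (_ ≫ ·) (cellPi.apply_symm_apply _)).trans (Category.comp_id _)).trans
        ((cellPi_map _ _).trans ((congrArg (· ≫ _) (cellPi.apply_symm_apply _)).trans
          (Category.id_comp _))).symm))
    (fun n => cellPi.injective (by
      rw [cellPi_DG]
      exact ((congrArg (_ ≫ ·) (cellPi.apply_symm_apply _)).trans (Category.comp_id _)).trans
        ((cellPi_map _ _).trans ((congrArg (· ≫ _) (cellPi.apply_symm_apply _)).trans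
          (Category.id_comp _))).symm))
  obtain ⟨ζ, hζ1, hζ2⟩ := Ed.exists_natExt (discG ⋙ PiK K)
    (fun n => contr_Pi (TopCat.of (Disc n))) (Functor.whiskerLeft discG φ) d
  have hd : ∀ x : Dk K.C j ⟶ (PiK K).obj Y, d.app (D j) ≫ (PiK K).map (cellPi x) = x := fun x =>
    cellPi.injective ((cellPi_map _ _).trans ((congrArg (· ≫ _) (cellPi.apply_symm_apply _)).trans
      (Category.id_comp _)))
  obtain ⟨a0, -, -, h0⟩ := Z.sph (bd K.C j ≫ u)
  have hb : Ed.RE.b j ≫ Z.hat u = Ed.RE.b j ≫ Z.hat v :=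
    ((h0 u).1 rfl).2.trans ((h0 v).1 huv.symm).2.symm
  have hpar : ∀ x y : Dk K.C j ⟶ (PiK K).obj Y, bd K.C j ≫ x = bd K.C j ≫ y →
      Ed.RE.b j ≫ ζ.app (D j) ≫ (PiK K).map (cellPi x) =
        Ed.RE.b j ≫ ζ.app (D j) ≫ (PiK K).map (cellPi y) := by
    intro x y hxy
    cases j with
    | zero => exact Ed.RE.init.hom_ext _ _
    | succ j =>
      obtain ⟨h1, h2⟩ := ((RD K.C).b_eq_iff _ _).1 hxy
      rw [Reedy.l_b_assoc] at h1
      rw [Reedy.r_b_assoc] at h2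
      have h1' := congrArg cellPi h1
      have h2' := congrArg cellPi h2
      rw [cellPi_DG, cellPi_DG] at h1' h2'
      apply Ed.RE.b_ext
      · rw [ζ.naturality_assoc, ζ.naturality_assoc, Functor.comp_map, ← Functor.map_comp,
          ← Functor.map_comp]
        exact congrArg (fun t => _ ≫ (PiK K).map t) h1'
      · rw [ζ.naturality_assoc, ζ.naturality_assoc, Functor.comp_map, ← Functor.map_comp,
          ← Functor.map_comp]
        exact congrArg (fun t => _ ≫ (PiK K).map t) h2'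
  have hp := hpar (u ≫ Z.p.app Y) (v ≫ Z.p.app Y) (by rw [reassoc_of% huv])
  let a' := Ed.RE.sph _ _ hb
  let z := Ed.RE.sph _ _ hp
  have po := IsPushout.of_hasPushout (Ed.α.bm (j + 1) ≫ a') (Ed.α.bm (j + 1))
  have hi : WL K.C (pushout.inl (Ed.α.bm (j + 1) ≫ a') (Ed.α.bm (j + 1))) :=
    TC.wl ((TC K.C).of_isPushout po (Ed.tc_bm _)) (hc Y)
  have hr : WL K.C (po.desc (𝟙 _) a' (Category.comp_id _)) :=
    WL.cancel_left (by rw [po.inl_desc]; exact WL.of_isIso _) hi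
  obtain ⟨w, hw1, hw2⟩ := hs
  obtain ⟨e, he⟩ := hr.fill (Ed.ψ.bm (j + 1) ≫ pushout.inr _ _) w (by
    rw [Category.assoc, po.inr_desc, (RD K.C).b_eq_iff, Ed.ψ.l_bm_assoc, Ed.ψ.r_bm_assoc,
      Ed.RE.l_sph, Ed.RE.r_sph, Z.hat_ψ, Z.hat_ψ]
    exact ⟨hw1, hw2⟩)
  have hα : ∀ x : Dk K.C j ⟶ Z.Z.obj Y, Ed.α.app.app (D j) ≫ Z.hat x ≫ φ.app Y =
      Ed.α.app.app (D j) ≫ ζ.app (D j) ≫ (PiK K).map (cellPi (x ≫ Z.p.app Y)) := by
    intro x
    rw [← Category.assoc, Z.hat_α, φ.naturality, ← Category.assoc, ← NatTrans.comp_app, hζ1]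
    rfl
  have wz : (Ed.α.bm (j + 1) ≫ a') ≫ φ.app Y = Ed.α.bm (j + 1) ≫ z := by
    apply RA.ext
    · rw [Category.assoc, Ed.α.l_bm_assoc, Ed.α.l_bm_assoc, Ed.RE.l_sph_assoc, Ed.RE.l_sph, hα]
    · rw [Category.assoc, Ed.α.r_bm_assoc, Ed.α.r_bm_assoc, Ed.RE.r_sph_assoc, Ed.RE.r_sph, hα]
  have hψ : ∀ x : Dk K.C j ⟶ (PiK K).obj Y,
      Ed.ψ.app.app (D j) ≫ ζ.app (D j) ≫ (PiK K).map (cellPi x) = x := by
    intro x
    rw [← Category.assoc, ← NatTrans.comp_app, hζ2, hd]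
  have hfill : bd K.C (j + 1) ≫ e ≫ po.desc _ _ wz = (RD K.C).sph u v huv ≫ Z.p.app Y := by
    rw [reassoc_of% he, po.inr_desc]
    apply (RD K.C).ext
    · rw [Ed.ψ.l_bm_assoc, Ed.RE.l_sph, hψ, Reedy.l_sph_assoc]
    · rw [Ed.ψ.r_bm_assoc, Ed.RE.r_sph, hψ, Reedy.r_sph_assoc]
  obtain ⟨x, hx, -⟩ := (tfib_iff _).1 (Z.tfib Y) _ _ _ hfill
  obtain ⟨h1, h2⟩ := ((RD K.C).b_eq_iff _ _).1 hx
  exact ⟨x, h1.trans ((RD K.C).l_sph ..), h2.trans ((RD K.C).r_sph ..)⟩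

end

theorem ZOut.wl_χ (H : Hocolim K.C) {RA : Reedy (discG ⋙ H.W)} {Ed : EData RA} (Z : ZOut H.W Ed)
    (Y : TopCat.{0}) : WL K.C (Z.χ.app Y) := by
  obtain ⟨P⟩ := exists_pathObj K
  obtain ⟨l⟩ := H.exists_nat (cubeTop ⋙ Z.Z)
    (fun d => Contr.of_tfib (Z.tfib _) (contr_Pi (cubeTop.obj d)))
  have hl : ∀ Y : TopCat.{0}, ∃ g : H.W.obj Y ⟶ Z.Z.obj Y, ∀ (d : CubeCat)
      (x : (Sing.obj Y).obj (op d)), H.cell x ≫ g = l.app d ≫ Z.Z.map x := fun Y =>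
    H.desc (L := Sing.obj Y) (fun d x => l.app d ≫ Z.Z.map x) (fun d d' f x => by
      rw [l.naturality_assoc, Functor.comp_map, ← Functor.map_comp]
      rfl)
  choose lam hlam using hl
  have cellW : ∀ {Y Y' : TopCat.{0}} {d : CubeCat} (x : (Sing.obj Y).obj (op d)) (f : Y ⟶ Y'),
      H.cell x ≫ H.W.map f = H.cell (L := Sing.obj Y') (d := d) (x ≫ f) :=
    fun x f => H.cell_map x (Sing.map f)
  let φ : H.W ⟶ PiK K :=
    { app := fun Y => lam Y ≫ Z.p.app Y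
      naturality := fun Y Y' f => by
        rw [Category.assoc, ← Z.p.naturality, ← Category.assoc, ← Category.assoc]
        congr 1
        apply H.hom_ext (L := Sing.obj Y)
        intro d x
        rw [← Category.assoc, cellW, hlam, reassoc_of% (hlam Y d x), Z.Z.map_comp] }
  let f₀ : H.O ⟶ cubeTop ⋙ H.W :=
    { app := fun d => H.cell (L := Sing.obj (cubeTop.obj d)) (d := d) (𝟙 (cubeTop.obj d))
      naturality := fun d d' f => by
        rw [H.map_cell]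
        refine Eq.trans ?_ (cellW _ _).symm
        exact congrArg _ ((Category.comp_id (cubeTop.map f)).trans (Category.id_comp _).symm) }
  obtain ⟨h, hh⟩ := H.exists_homotopy P (cubeTop ⋙ H.W) (fun d => H.contr_W (cubeTop.obj d)) f₀
    (l ≫ Functor.whiskerLeft cubeTop Z.χ)
  obtain ⟨hY, hhY⟩ := H.desc (L := Sing.obj Y) (X := P.P.obj (H.W.obj Y))
    (fun d x => h.app d ≫ P.P.map (H.W.map x)) (fun d d' f x => by
      rw [h.naturality_assoc, Functor.comp_map, Functor.comp_map, ← Functor.map_comp,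
        ← Functor.map_comp]
      rfl)
  have h0 : hY ≫ P.p0.app _ = 𝟙 _ := by
    apply H.hom_ext (L := Sing.obj Y)
    intro d x
    rw [reassoc_of% (hhY d x), P.p0.naturality, reassoc_of% (hh d).1, Category.comp_id]
    exact (cellW _ _).trans (congrArg _ (Category.id_comp _))
  have h1 : hY ≫ P.p1.app _ = lam Y ≫ Z.χ.app Y := by
    apply H.hom_ext (L := Sing.obj Y)
    intro d x
    rw [reassoc_of% (hhY d x), P.p1.naturality, reassoc_of% (hh d).2, reassoc_of% (hlam Y d x),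
      Z.χ.naturality]
    exact Category.assoc _ _ _
  have h2 : WL K.C (lam Y ≫ Z.χ.app Y) := by
    rw [← h1]
    exact P.wl_of_homotopy _ (by rw [h0]; exact WL.of_isIso (𝟙 (H.W.obj Y)))
  exact h2.cancel_left (h2.of_comp_reflects (Z.reflects (fun Y => H.cofib _) φ Y))

theorem exists_cmp (K : Coherator) : Nonempty (Cmp K) := by
  obtain ⟨H⟩ := exists_hocolim K.C
  obtain ⟨Ed⟩ := exists_eData (Reedy.canon (discG ⋙ H.W)) (fun j => H.cofib _)
    (fun j => H.contr_W (TopCat.of (Disc j)))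
  obtain ⟨Z⟩ := exists_zOut H.W Ed (fun Y => H.cofib _)
    (fun T => by have := contractible_sum T; exact H.contr_W _)
  exact ⟨{
    W := H.W
    Z := Z.Z
    p := Z.p
    χ := Z.χ
    tf := Z.tfib
    we := Z.wl_χ H
    cofib := fun Y => H.cofib _
    cof := H.cof_W
    exc := fun h _ _ _ hp φ hU hV => H.exc h hp φ hU hV
    sigma := H.sigma_W }⟩

end Vale.Agent.P259
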