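import Vale.Agent.P259.Sum

/-! # P259 part CofSec: a coherator is cofibrant -/

set_option backward.isDefEq.respectTransparency false

open CategoryTheory Limits Opposite

namespace Vale.Agent.P259

universe u

open Theta0

/-- the identity morphism of a globular extension -/
def CofSec.idHom (C : GlobExt) : ExtHom C C where
  map f := f
  map_id _ := rfl
  map_comp _ _ := rfl
  map_F _ := rfl

theorem CofSec.par {C D : GlobExt} (Φ : ExtHom C D) {S : Theta0} :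
    ∀ (n : ℕ) (f g : C.F.obj (disc n) ⟶ C.F.obj S), Parallel C.F n f g →
      Parallel D.F n (Φ.map f) (Φ.map g)
  | 0, _, _, _ => trivial
  | n + 1, f, g, h => by
    refine ⟨?_, ?_⟩
    · rw [← Φ.map_F, ← Φ.map_comp, ← Φ.map_comp, h.1]
    · rw [← Φ.map_F, ← Φ.map_comp, ← Φ.map_comp, h.2]

theorem CofSec.lift {C D : GlobExt} (Φ : ExtHom C D) {S : Theta0} {n : ℕ}
    {h : C.F.obj (disc (n + 1)) ⟶ C.F.obj S} {f g : C.F.obj (disc n) ⟶ C.F.obj S}
    (H : IsLift C.F h f g) : IsLift D.F (Φ.map h) (Φ.map f) (Φ.map g) := by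
  refine ⟨?_, ?_⟩
  · rw [← Φ.map_F, ← Φ.map_comp, H.1]
  · rw [← Φ.map_F, ← Φ.map_comp, H.2]

theorem CofSec.comp_map {C D E : GlobExt} (Φ : ExtHom C D) (Ψ : ExtHom D E) {S T : Theta0}
    (f : C.F.obj S ⟶ C.F.obj T) : (Φ.comp Ψ).map f = Ψ.map (Φ.map f) := rfl

theorem CofSec.zero_ext (K : Coherator) {E : GlobExt} (Φ Ψ : ExtHom (K.stage 0) E) : Φ = Ψ := by
  ext S T θ
  obtain ⟨f, rfl⟩ := (K.zero S T).2 θ
  exact (Φ.map_F f).trans (Ψ.map_F f).symm

/-- the morphism out of the bottom stage -/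
noncomputable def CofSec.zeroHom (K : Coherator) (E : GlobExt) : ExtHom (K.stage 0) E where
  map {S T} θ := E.F.map ((Equiv.ofBijective _ (K.zero S T)).symm θ)
  map_id S := by
    have : (Equiv.ofBijective _ (K.zero S S)).symm (𝟙 ((K.stage 0).F.obj S)) = 𝟙 S := by
      rw [Equiv.symm_apply_eq]; exact ((K.stage 0).F.map_id S).symm
    rw [this]; exact E.F.map_id S
  map_comp {S T U} f g := by
    obtain ⟨f, rfl⟩ := (Equiv.ofBijective _ (K.zero S T)).surjective f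
    obtain ⟨g, rfl⟩ := (Equiv.ofBijective _ (K.zero T U)).surjective g
    have : (Equiv.ofBijective _ (K.zero S U)).symm
        (Equiv.ofBijective _ (K.zero S T) f ≫ Equiv.ofBijective _ (K.zero T U) g) = f ≫ g := by
      rw [Equiv.symm_apply_eq]; exact ((K.stage 0).F.map_comp f g).symm
    rw [this, Equiv.symm_apply_apply, Equiv.symm_apply_apply]
    exact E.F.map_comp f g
  map_F {S T} f := by
    have : (Equiv.ofBijective _ (K.zero S T)).symm ((K.stage 0).F.map f) = f := by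
      rw [Equiv.symm_apply_eq]; rfl
    rw [this]

theorem CofSec.step (K : Coherator) (D : GlobExt) (π : ExtHom D K.C)
    (hl : ∀ (n : ℕ) (S : Theta0), S.dim ≤ n + 1 → ∀ f g : D.F.obj (disc n) ⟶ D.F.obj S,
      Parallel D.F n f g → ∀ h, IsLift K.C.F h (π.map f) (π.map g) →
        ∃ h', IsLift D.F h' f g ∧ π.map h' = h) (k : ℕ)
    (Φ : {Φ : ExtHom (K.stage k) D // Φ.comp π = K.toC k}) :
    ∃ Ψ : {Φ : ExtHom (K.stage (k + 1)) D // Φ.comp π = K.toC (k + 1)},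
      (K.step k).comp Ψ.1 = Φ.1 := by
  obtain ⟨Φ, hΦ⟩ := Φ
  have hL : ∀ p : K.pairs k, IsLift K.C.F ((K.toC (k + 1)).map (K.lift k p))
      ((K.toC k).map p.1.f) ((K.toC k).map p.1.g) := by
    intro p
    have := CofSec.lift (K.toC (k + 1)) (K.isLift k p)
    rw [← CofSec.comp_map, ← CofSec.comp_map, K.step_toC] at this
    exact this
  have hex : ∀ p : K.pairs k, ∃ h', IsLift D.F h' (Φ.map p.1.f) (Φ.map p.1.g) ∧
      π.map h' = (K.toC (k + 1)).map (K.lift k p) := by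
    intro p
    refine hl p.1.n p.1.S (K.dim_le k p.1 p.2) _ _ (CofSec.par Φ _ _ _ p.1.par) _ ?_
    rw [← CofSec.comp_map, ← CofSec.comp_map, hΦ]
    exact hL p
  choose l hl1 hl2 using hex
  obtain ⟨Ψ, ⟨h1, h2⟩, -⟩ := K.univ k D Φ l hl1
  refine ⟨⟨Ψ, ?_⟩, h1⟩
  refine (K.univ k K.C (K.toC k) (fun p => (K.toC (k + 1)).map (K.lift k p)) hL).unique
    ⟨?_, fun p => ?_⟩ ⟨K.step_toC k, fun _ => rfl⟩
  · rw [← hΦ, ← h1]; rfl
  · rw [CofSec.comp_map, h2, hl2]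

/-- every trivial fibration of globular extensions over a coherator has a section -/
theorem Coherator.exists_section (K : Coherator) (D : GlobExt) (π : ExtHom D K.C)
    (hl : ∀ (n : ℕ) (S : Theta0), S.dim ≤ n + 1 → ∀ f g : D.F.obj (disc n) ⟶ D.F.obj S,
      Parallel D.F n f g → ∀ h, IsLift K.C.F h (π.map f) (π.map g) →
        ∃ h', IsLift D.F h' f g ∧ π.map h' = h) :
    ∃ s : ExtHom K.C D, ∀ (S T : Theta0) (θ : K.C.F.obj S ⟶ K.C.F.obj T),
      π.map (s.map θ) = θ := by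
  choose nxt hn using CofSec.step K D π hl
  let Φ : ∀ k, {Φ : ExtHom (K.stage k) D // Φ.comp π = K.toC k} := fun k =>
    Nat.rec ⟨CofSec.zeroHom K D, CofSec.zero_ext K _ _⟩ (fun k Φ => nxt k Φ) k
  obtain ⟨s, hs, -⟩ := K.colim D (fun k => (Φ k).1) (fun k => hn k (Φ k))
  have h1 : s.comp π = CofSec.idHom K.C := by
    refine (K.colim K.C K.toC K.step_toC).unique (fun k => ?_) (fun _ => rfl)
    have h2 := (Φ k).2
    rw [← hs k] at h2
    exact h2
  refine ⟨s, fun S T θ => ?_⟩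
  rw [← CofSec.comp_map, h1]; rfl

/-- extension along a relation -/
theorem CofSec.ext_of_rel (K : Coherator) {N : Type u} [Category.{0} N] (E : Theta0 ⥤ N)
    (R : ∀ (S T : Theta0), (K.C.F.obj S ⟶ K.C.F.obj T) → (E.obj S ⟶ E.obj T) → Prop)
    (hF : ∀ (S T : Theta0) (f : S ⟶ T), R S T (K.C.F.map f) (E.map f))
    (hc : ∀ (S T U : Theta0) θ e θ' e', R S T θ e → R T U θ' e' → R S U (θ ≫ θ') (e ≫ e'))
    (hext : ∀ (T : Theta0) (j i' : ℕ) (h : j < T.last) (h' : j < i') (X : Theta0) θ e e',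
      R (glue T j i' h h') X θ e → R (glue T j i' h h') X θ e' →
      E.map (inl T j i' h h') ≫ e = E.map (inl T j i' h h') ≫ e' →
      E.map (inr T j i' h h') ≫ e = E.map (inr T j i' h h') ≫ e' → e = e')
    (hdesc : ∀ (T : Theta0) (j i' : ℕ) (h : j < T.last) (h' : j < i') (X : Theta0)
      (θ : K.C.F.obj (glue T j i' h h') ⟶ K.C.F.obj X) e₁ e₂,
      R T X (K.C.F.map (inl T j i' h h') ≫ θ) e₁ →
      R (disc i') X (K.C.F.map (inr T j i' h h') ≫ θ) e₂ →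
      E.map (tgt h.le ≫ lastι T) ≫ e₁ = E.map (src h'.le) ≫ e₂ →
      ∃ e, R (glue T j i' h h') X θ e ∧ E.map (inl T j i' h h') ≫ e = e₁ ∧
        E.map (inr T j i' h h') ≫ e = e₂)
    (hl : ∀ (n : ℕ) (S : Theta0), S.dim ≤ n + 1 →
      ∀ (f g : K.C.F.obj (disc n) ⟶ K.C.F.obj S) (h : K.C.F.obj (disc (n + 1)) ⟶ K.C.F.obj S)
        (ef eg : E.obj (disc n) ⟶ E.obj S), IsLift K.C.F h f g → Parallel E n ef eg →
        R _ _ f ef → R _ _ g eg → ∃ e, IsLift E e ef eg ∧ R _ _ h e) :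
    ∃ m : ∀ {S T : Theta0}, (K.C.F.obj S ⟶ K.C.F.obj T) → (E.obj S ⟶ E.obj T),
      (∀ S, m (𝟙 (K.C.F.obj S)) = 𝟙 _) ∧
      (∀ (S T U : Theta0) (f : K.C.F.obj S ⟶ K.C.F.obj T) (g : K.C.F.obj T ⟶ K.C.F.obj U),
        m (f ≫ g) = m f ≫ m g) ∧
      (∀ (S T : Theta0) (f : S ⟶ T), m (K.C.F.map f) = E.map f) ∧
      ∀ (S T : Theta0) (f : K.C.F.obj S ⟶ K.C.F.obj T), R S T f (m f) := by
  let cat : SmallCategory Table :=
    { Hom := fun S T => {p : (K.C.F.obj S ⟶ K.C.F.obj T) × (E.obj S ⟶ E.obj T) // R S T p.1 p.2}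
      id := fun S => ⟨(𝟙 _, 𝟙 _), by
        have := hF S S (𝟙 _)
        rwa [K.C.F.map_id, E.map_id] at this⟩
      comp := fun p q => ⟨(p.1.1 ≫ q.1.1, p.1.2 ≫ q.1.2), hc _ _ _ _ _ _ _ p.2 q.2⟩
      id_comp := fun p => Subtype.ext (Prod.ext (Category.id_comp _) (Category.id_comp _))
      comp_id := fun p => Subtype.ext (Prod.ext (Category.comp_id _) (Category.comp_id _))
      assoc := fun p q r => Subtype.ext (Prod.ext (Category.assoc _ _ _) (Category.assoc _ _ _)) }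
  let P : PreExt :=
    { cat := cat
      ι := fun {S T} f => ⟨(K.C.F.map f, E.map f), hF S T f⟩
      ι_id := fun S => Subtype.ext (Prod.ext (K.C.F.map_id S) (E.map_id S))
      ι_comp := fun f g => Subtype.ext (Prod.ext (K.C.F.map_comp f g) (E.map_comp f g)) }
  have hP : PreservesSums P.F := by
    intro T j i' h h'
    have hK := K.C.pres T j i' h h'
    have hw : P.F.map (tgt h.le ≫ lastι T) ≫ P.F.map (inl T j i' h h') =
        P.F.map (src h'.le) ≫ P.F.map (inr T j i' h h') := by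
      rw [← P.F.map_comp, ← P.F.map_comp]
      congr 1
      ext1
      exact pushout.condition
    refine ⟨⟨hw⟩, ⟨PushoutCocone.isColimitAux' _ fun c => ?_⟩⟩
    have c1 : K.C.F.map (tgt h.le ≫ lastι T) ≫ c.inl.1.1 = K.C.F.map (src h'.le) ≫ c.inr.1.1 :=
      congrArg (fun p => p.1.1) c.condition
    have c2 : E.map (tgt h.le ≫ lastι T) ≫ c.inl.1.2 = E.map (src h'.le) ≫ c.inr.1.2 :=
      congrArg (fun p => p.1.2) c.condition
    have hex := hdesc T j i' h h' c.pt (hK.desc c.inl.1.1 c.inr.1.1 c1) c.inl.1.2 c.inr.1.2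
      (by rw [hK.inl_desc]; exact c.inl.2) (by rw [hK.inr_desc]; exact c.inr.2) c2
    refine ⟨⟨(hK.desc c.inl.1.1 c.inr.1.1 c1, hex.choose), hex.choose_spec.1⟩,
      Subtype.ext (Prod.ext (hK.inl_desc _ _ _) hex.choose_spec.2.1),
      Subtype.ext (Prod.ext (hK.inr_desc _ _ _) hex.choose_spec.2.2), ?_⟩
    intro m m1 m2
    have a1 : K.C.F.map (inl T j i' h h') ≫ m.1.1 = c.inl.1.1 := congrArg (fun p => p.1.1) m1
    have a2 : K.C.F.map (inr T j i' h h') ≫ m.1.1 = c.inr.1.1 := congrArg (fun p => p.1.1) m2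
    have b1 : E.map (inl T j i' h h') ≫ m.1.2 = c.inl.1.2 := congrArg (fun p => p.1.2) m1
    have b2 : E.map (inr T j i' h h') ≫ m.1.2 = c.inr.1.2 := congrArg (fun p => p.1.2) m2
    have e1 : m.1.1 = hK.desc c.inl.1.1 c.inr.1.1 c1 :=
      hK.hom_ext (a1.trans (hK.inl_desc _ _ _).symm) (a2.trans (hK.inr_desc _ _ _).symm)
    refine Subtype.ext (Prod.ext e1 ?_)
    exact hext T j i' h h' c.pt _ _ _ (e1 ▸ m.2) hex.choose_spec.1
      (b1.trans hex.choose_spec.2.1.symm) (b2.trans hex.choose_spec.2.2.symm)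
  let D : GlobExt := { P with pres := hP }
  let π : ExtHom D K.C :=
    { map := fun p => p.1.1
      map_id := fun _ => rfl
      map_comp := fun _ _ => rfl
      map_F := fun _ => rfl }
  obtain ⟨s, hs⟩ := K.exists_section D π (by
    intro n S hS f g hp h hh
    have hp' : Parallel E n f.1.2 g.1.2 := by
      cases n with
      | zero => trivial
      | succ n => exact ⟨congrArg (fun p => p.1.2) hp.1, congrArg (fun p => p.1.2) hp.2⟩
    obtain ⟨e, he, hR⟩ := hl n S hS f.1.1 g.1.1 h f.1.2 g.1.2 hh hp' f.2 g.2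
    exact ⟨⟨(h, e), hR⟩, ⟨Subtype.ext (Prod.ext hh.1 he.1), Subtype.ext (Prod.ext hh.2 he.2)⟩, rfl⟩)
  refine ⟨fun θ => (s.map θ).1.2, fun S => congrArg (fun p => p.1.2) (s.map_id S),
    fun S T U f g => congrArg (fun p => p.1.2) (s.map_comp f g),
    fun S T f => congrArg (fun p => p.1.2) (s.map_F f), fun S T f => ?_⟩
  have h1 : (s.map f).1.1 = f := hs S T f
  have h2 := (s.map f).2
  rw [h1] at h2
  exact h2

/-- extension of a functor on `Θ₀` with contractible values to the coherator -/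
theorem Coherator.exists_ext (K : Coherator) {N : Type u} [Category.{0} N] (Φ : Theta0 ⥤ N)
    (hΦ : PreservesSums Φ)
    (hl : ∀ (n : ℕ) (S : Theta0) (f g : Φ.obj (disc n) ⟶ Φ.obj S), Parallel Φ n f g →
      ∃ h, IsLift Φ h f g) :
    ∃ m : ∀ {S T : Theta0}, (K.C.F.obj S ⟶ K.C.F.obj T) → (Φ.obj S ⟶ Φ.obj T),
      (∀ S, m (𝟙 (K.C.F.obj S)) = 𝟙 _) ∧
      (∀ (S T U : Theta0) (f : K.C.F.obj S ⟶ K.C.F.obj T) (g : K.C.F.obj T ⟶ K.C.F.obj U),
        m (f ≫ g) = m f ≫ m g) ∧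
      ∀ (S T : Theta0) (f : S ⟶ T), m (K.C.F.map f) = Φ.map f := by
  obtain ⟨m, h1, h2, h3, -⟩ := CofSec.ext_of_rel K Φ (fun _ _ _ _ => True)
    (fun _ _ _ => trivial) (fun _ _ _ _ _ _ _ _ _ => trivial)
    (fun T j i' h h' X _ e e' _ _ a b => (hΦ T j i' h h').hom_ext a b)
    (fun T j i' h h' X _ e₁ e₂ _ _ w => ⟨(hΦ T j i' h h').desc e₁ e₂ w, trivial,
      (hΦ T j i' h h').inl_desc _ _ _, (hΦ T j i' h h').inr_desc _ _ _⟩)
    (fun n S _ _ _ _ ef eg _ hp _ _ => (hl n S ef eg hp).imp fun _ he => ⟨he, trivial⟩)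
  exact ⟨m, h1, h2, h3⟩

/-- relative version: `E₀` is a functor on `Θ₀` under two functors `A`, `B` on `C`, with `E₀`
preserving the globular sums relative to `A` (existence and uniqueness of glued maps) and `B`
preserving globular sums; if admissible pairs lift, `E₀` extends to `C` with natural maps. -/
theorem Coherator.exists_ext_rel (K : Coherator) {N : Type u} [Category.{0} N]
    (A B : K.C.Obj ⥤ N) (hB : PreservesSums (K.C.F ⋙ B)) (E₀ : Theta0 ⥤ N)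
    (α : K.C.F ⋙ A ⟶ E₀) (ψ : K.C.F ⋙ B ⟶ E₀)
    (hext : ∀ (T : Theta0) (j i' : ℕ) (h : j < T.last) (h' : j < i') (X : N)
      (e e' : E₀.obj (glue T j i' h h') ⟶ X),
      E₀.map (inl T j i' h h') ≫ e = E₀.map (inl T j i' h h') ≫ e' →
      E₀.map (inr T j i' h h') ≫ e = E₀.map (inr T j i' h h') ≫ e' →
      α.app _ ≫ e = α.app _ ≫ e' → e = e')
    (hdesc : ∀ (T : Theta0) (j i' : ℕ) (h : j < T.last) (h' : j < i') (X : N)
      (e₁ : E₀.obj T ⟶ X) (e₂ : E₀.obj (disc i') ⟶ X)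
      (a : A.obj (K.C.F.obj (glue T j i' h h')) ⟶ X),
      E₀.map (tgt h.le ≫ lastι T) ≫ e₁ = E₀.map (src h'.le) ≫ e₂ →
      A.map (K.C.F.map (inl T j i' h h')) ≫ a = α.app T ≫ e₁ →
      A.map (K.C.F.map (inr T j i' h h')) ≫ a = α.app (disc i') ≫ e₂ →
      ∃ e : E₀.obj (glue T j i' h h') ⟶ X, E₀.map (inl T j i' h h') ≫ e = e₁ ∧
        E₀.map (inr T j i' h h') ≫ e = e₂ ∧ α.app _ ≫ e = a)
    (hl : ∀ (n : ℕ) (S : Theta0), S.dim ≤ n + 1 →
      ∀ (f g : K.C.F.obj (disc n) ⟶ K.C.F.obj S) (h : K.C.F.obj (disc (n + 1)) ⟶ K.C.F.obj S)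
        (ef eg : E₀.obj (disc n) ⟶ E₀.obj S), IsLift K.C.F h f g → Parallel E₀ n ef eg →
        α.app _ ≫ ef = A.map f ≫ α.app S → ψ.app _ ≫ ef = B.map f ≫ ψ.app S →
        α.app _ ≫ eg = A.map g ≫ α.app S → ψ.app _ ≫ eg = B.map g ≫ ψ.app S →
        ∃ e, IsLift E₀ e ef eg ∧ α.app _ ≫ e = A.map h ≫ α.app S ∧
          ψ.app _ ≫ e = B.map h ≫ ψ.app S) :
    ∃ m : ∀ {S T : Theta0}, (K.C.F.obj S ⟶ K.C.F.obj T) → (E₀.obj S ⟶ E₀.obj T),
      (∀ S, m (𝟙 (K.C.F.obj S)) = 𝟙 _) ∧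
      (∀ (S T U : Theta0) (f : K.C.F.obj S ⟶ K.C.F.obj T) (g : K.C.F.obj T ⟶ K.C.F.obj U),
        m (f ≫ g) = m f ≫ m g) ∧
      (∀ (S T : Theta0) (f : S ⟶ T), m (K.C.F.map f) = E₀.map f) ∧
      (∀ (S T : Theta0) (f : K.C.F.obj S ⟶ K.C.F.obj T), α.app S ≫ m f = A.map f ≫ α.app T) ∧
      (∀ (S T : Theta0) (f : K.C.F.obj S ⟶ K.C.F.obj T), ψ.app S ≫ m f = B.map f ≫ ψ.app T) := by
  obtain ⟨m, h1, h2, h3, h4⟩ := CofSec.ext_of_rel K E₀
    (fun S T θ e => α.app S ≫ e = A.map θ ≫ α.app T ∧ ψ.app S ≫ e = B.map θ ≫ ψ.app T)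
    (fun S T f => ⟨(α.naturality f).symm, (ψ.naturality f).symm⟩)
    (fun S T U θ e θ' e' a b => ⟨by
        rw [← Category.assoc, a.1, Category.assoc, b.1, A.map_comp, Category.assoc], by
        rw [← Category.assoc, a.2, Category.assoc, b.2, B.map_comp, Category.assoc]⟩)
    (fun T j i' h h' X θ e e' a b c d => hext T j i' h h' _ e e' c d (a.1.trans b.1.symm))
    (fun T j i' h h' X θ e₁ e₂ a b w => by
      obtain ⟨e, g1, g2, g3⟩ := hdesc T j i' h h' _ e₁ e₂ (A.map θ ≫ α.app X) w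
        (by rw [a.1, A.map_comp, Category.assoc]) (by rw [b.1, A.map_comp, Category.assoc])
      refine ⟨e, ⟨g3, ?_⟩, g1, g2⟩
      apply (hB T j i' h h').hom_ext
      · rw [ψ.naturality_assoc, g1, a.2, B.map_comp, Category.assoc]; rfl
      · rw [ψ.naturality_assoc, g2, b.2, B.map_comp, Category.assoc]; rfl)
    (fun n S hS f g h ef eg hh hp a b => hl n S hS f g h ef eg hh hp a.1 a.2 b.1 b.2)
  exact ⟨m, h1, h2, h3, fun S T f => (h4 S T f).1, fun S T f => (h4 S T f).2⟩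

end Vale.Agent.P259
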