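import Vale.Agent.P259.PathB

/-! # P259 part WA: weak equivalences in lifting form -/

set_option backward.isDefEq.respectTransparency false

open CategoryTheory Limits Opposite MorphismProperty

namespace Vale.Agent.P259

open Theta0
open Globe (D)

variable {K : Coherator} {X Y Z : Mod K.C}

theorem WL.of_tfib {p : X ⟶ Y} (h : TFib K.C p) : WL K.C p := by
  intro j a w hw
  obtain ⟨v, h1, h2⟩ := (tfib_iff p).1 h j a w hw
  exact ⟨v, h1, by rw [h2]; exact Sim.refl _⟩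

theorem WL.of_isIso (f : X ⟶ Y) [IsIso f] : WL K.C f := by
  intro j a w hw
  refine ⟨w ≫ inv f, by rw [reassoc_of% hw, IsIso.hom_inv_id, Category.comp_id], ?_⟩
  rw [Category.assoc, IsIso.inv_hom_id, Category.comp_id]
  exact Sim.refl _

theorem WL.comp {f : X ⟶ Y} {g : Y ⟶ Z} (hf : WL K.C f) (hg : WL K.C g) : WL K.C (f ≫ g) := by
  intro j a w hw
  obtain ⟨v₁, h1, h2⟩ := hg j (a ≫ f) w (by rw [hw, Category.assoc])
  obtain ⟨v, h3, h4⟩ := hf j a v₁ h1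
  exact ⟨v, h3, by rw [← Category.assoc]; exact (h4.map g).trans h2⟩

theorem WL.reflects {f : X ⟶ Y} (hf : WL K.C f) : Reflects f := by
  rintro j u v huv ⟨w, h1, h2⟩
  obtain ⟨e, he, -⟩ := hf (j + 1) ((RD K.C).sph u v huv) w (((RD K.C).b_eq_iff _ _).2
    ⟨by rw [(RD K.C).l_sph_assoc]; exact h1, by rw [(RD K.C).r_sph_assoc]; exact h2⟩)
  obtain ⟨h3, h4⟩ := ((RD K.C).b_eq_iff _ _).1 he
  exact ⟨e, h3.trans ((RD K.C).l_sph ..), h4.trans ((RD K.C).r_sph ..)⟩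

theorem WL.of_comp_reflects {f : X ⟶ Y} {g : Y ⟶ Z} (h : WL K.C (f ≫ g)) (hg : Reflects g) :
    WL K.C f := by
  intro j a w hw
  obtain ⟨v, h1, h2⟩ := h j a (w ≫ g) (by rw [reassoc_of% hw])
  refine ⟨v, h1, hg j _ _ (by rw [reassoc_of% h1, hw]) ?_⟩
  rwa [Category.assoc]

theorem WL.cancel_right {f : X ⟶ Y} {g : Y ⟶ Z} (h : WL K.C (f ≫ g)) (hg : WL K.C g) :
    WL K.C f := h.of_comp_reflects hg.reflects

theorem WL.of_contr (f : X ⟶ Y) (hX : Contr X) (hY : Contr Y) : WL K.C f := by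
  intro j a w hw
  obtain ⟨v, rfl⟩ := hX j a
  exact ⟨v, rfl, hY.sim _ _ (by rw [hw, Category.assoc])⟩

theorem WL.contr_left {f : X ⟶ Y} (hf : WL K.C f) (hY : Contr Y) : Contr X := by
  intro j a
  obtain ⟨w, hw⟩ := hY j (a ≫ f)
  exact (hf j a w hw).imp fun _ h => h.1

/-- a sphere whose image has a filler has a filler -/
theorem WL.fill {f : X ⟶ Y} (hf : WL K.C f) {j : ℕ} (a : Sph K.C j ⟶ X) (w : Dk K.C j ⟶ Y)
    (h : bd K.C j ≫ w = a ≫ f) : ∃ v : Dk K.C j ⟶ X, bd K.C j ≫ v = a :=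
  (hf j a w h).imp fun _ h => h.1

theorem WL.of_retract {X' Y' : Mod K.C} {f : X ⟶ Y} {g : X' ⟶ Y'} (i : X ⟶ X') (r : X' ⟶ X)
    (i' : Y ⟶ Y') (r' : Y' ⟶ Y) (hir : i ≫ r = 𝟙 X) (hir' : i' ≫ r' = 𝟙 Y) (hi : i ≫ g = f ≫ i')
    (hr : g ≫ r' = r ≫ f) (hg : WL K.C g) : WL K.C f := by
  intro j a w hw
  obtain ⟨v, h1, h2⟩ := hg j (a ≫ i) (w ≫ i') (by rw [reassoc_of% hw, Category.assoc, hi])
  refine ⟨v ≫ r, by rw [reassoc_of% h1, hir, Category.comp_id], ?_⟩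
  have := h2.map r'
  rwa [Category.assoc, Category.assoc, hir', Category.comp_id, hr, ← Category.assoc] at this

theorem WL.tfib_of_fib {p : X ⟶ Y} (hp : Fib K.C p) (h : WL K.C p) : TFib K.C p := by
  rw [tfib_iff]
  intro j a w hw
  obtain ⟨v, rfl, ω, h1, h2⟩ := h j a w hw
  obtain ⟨ω', h3, h4⟩ := (fib_iff p).1 hp j v ω h1
  refine ⟨sτ K.C j ≫ ω', ?_, by rw [Category.assoc, h4, h2]⟩
  rw [← (RD K.C).b_σ_assoc, h3]

theorem PathObj.wl_of_homotopy (P : PathObj K.C) (H : X ⟶ P.P.obj Y)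
    (h : WL K.C (H ≫ P.p0.app Y)) : WL K.C (H ≫ P.p1.app Y) := by
  exact (h.cancel_right (WL.of_tfib (P.tf0 Y))).comp (WL.of_tfib (P.tf1 Y))

theorem PathObj.wl_of_homotopy' (P : PathObj K.C) (H : X ⟶ P.P.obj Y)
    (h : WL K.C (H ≫ P.p1.app Y)) : WL K.C (H ≫ P.p0.app Y) := by
  exact (h.cancel_right (WL.of_tfib (P.tf1 Y))).comp (WL.of_tfib (P.tf0 Y))

/-- every sphere in `Y` is homotopic to the image of a sphere in `X` -/
theorem PathObj.sphere_lift (P : PathObj K.C) {f : X ⟶ Y} (hf : WL K.C f) {j : ℕ}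
    (b : Sph K.C j ⟶ Y) : ∃ (a : Sph K.C j ⟶ X) (b' : Sph K.C j ⟶ P.P.obj Y),
      b' ≫ P.p0.app Y = a ≫ f ∧ b' ≫ P.p1.app Y = b := by
  have hq : TFib K.C (pullback.snd f (P.p0.app Y) ≫ P.p1.app Y) := by
    rw [tfib_iff]
    intro j a y hy
    obtain ⟨h, h1, h2⟩ := (tfib_iff _).1 (P.tf1 Y) j (a ≫ pullback.snd f (P.p0.app Y)) y
      (by rw [hy, Category.assoc])
    obtain ⟨x, h3, h4⟩ := hf j (a ≫ pullback.fst f (P.p0.app Y)) (h ≫ P.p0.app Y)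
      (by rw [reassoc_of% h1, Category.assoc, pullback.condition])
    obtain ⟨ω, k1, k2⟩ := h4.symm
    obtain ⟨ρ, k3, k4⟩ := Sim.refl y
    obtain ⟨Ω, k5, k6⟩ := (fib_iff _).1 (P.fib Y) j h (prod.lift ω ρ)
      (by rw [prod.comp_lift, prod.comp_lift, k1, k3, h2])
    have k7 : Ω ≫ P.p0.app Y = ω := by
      simpa using k6 =≫ prod.fst
    have k8 : Ω ≫ P.p1.app Y = ρ := by
      simpa using k6 =≫ prod.snd
    refine ⟨pullback.lift x (sτ K.C j ≫ Ω) (by rw [Category.assoc, k7, k2]), ?_, ?_⟩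
    · apply pullback.hom_ext
      · rw [Category.assoc, pullback.lift_fst, h3]
      · rw [Category.assoc, pullback.lift_snd, ← (RD K.C).b_σ_assoc, k5, h1]
    · rw [pullback.lift_snd_assoc, Category.assoc, k8, k4]
  obtain ⟨l, hl⟩ := (cofib_Sph j).lift hq b
  exact ⟨l ≫ pullback.fst f (P.p0.app Y), l ≫ pullback.snd f (P.p0.app Y),
    by rw [Category.assoc, Category.assoc, pullback.condition], by rw [Category.assoc, hl]⟩

theorem WL.cancel_left {f : X ⟶ Y} {g : Y ⟶ Z} (h : WL K.C (f ≫ g)) (hf : WL K.C f) :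
    WL K.C g := by
  obtain ⟨P⟩ := exists_pathObj K
  intro j b w hw
  obtain ⟨a, b', h0, h1⟩ := P.sphere_lift hf b
  have n0 : P.P.map g ≫ P.p0.app Z = P.p0.app Y ≫ g := P.p0.naturality g
  have n1 : P.P.map g ≫ P.p1.app Z = P.p1.app Y ≫ g := P.p1.naturality g
  obtain ⟨W, k1, k2⟩ := (tfib_iff _).1 (P.tf1 Z) j (b' ≫ P.P.map g) w
    (by rw [hw, Category.assoc, n1, reassoc_of% h1])
  obtain ⟨v, k3, k4⟩ := h j a (W ≫ P.p0.app Z) (by rw [reassoc_of% k1, n0, reassoc_of% h0])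
  obtain ⟨V, k5, k6⟩ := (tfib_iff _).1 (P.tf0 Y) j b' (v ≫ f) (by rw [reassoc_of% k3, h0])
  refine ⟨V ≫ P.p1.app Y, by rw [reassoc_of% k5, h1], ?_⟩
  have k7 := ((WL.of_tfib (P.tf0 Z)).reflects j (V ≫ P.P.map g) W (by rw [reassoc_of% k5, k1])
    (by rw [Category.assoc, n0, reassoc_of% k6]; exact k4)).map (P.p1.app Z)
  rwa [Category.assoc, n1, k2, ← Category.assoc] at k7

theorem WL.contr_right {f : X ⟶ Y} (hf : WL K.C f) (hX : Contr X) : Contr Y := by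
  rw [contr_iff_tfib] at hX ⊢
  refine WL.tfib_of_fib (fib_terminal Y) (WL.cancel_left ?_ hf)
  rw [terminal.comp_from]
  exact WL.of_tfib hX

theorem TC.wl {i : X ⟶ Y} (hi : TC K.C i) (hX : Cofib X) : WL K.C i := by
  obtain ⟨P⟩ := exists_pathObj K
  obtain ⟨s, hs⟩ := hX.lift (P.tf0 X) (𝟙 X)
  have h1 : WL K.C (s ≫ P.p1.app X) := P.wl_of_homotopy s (by rw [hs]; exact WL.of_isIso _)
  obtain ⟨f', hf'⟩ := hi.extend (s ≫ P.p1.app X)
  have n0 : P.P.map i ≫ P.p0.app Y = P.p0.app X ≫ i := P.p0.naturality i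
  have n1 : P.P.map i ≫ P.p1.app Y = P.p1.app X ≫ i := P.p1.naturality i
  obtain ⟨H, -, h2⟩ := hi.lift (P.fib Y) (s ≫ P.P.map i) (prod.lift (𝟙 Y) (f' ≫ i)) (by
    rw [prod.comp_lift, prod.comp_lift, Category.assoc, Category.assoc, n0, n1, reassoc_of% hs,
      reassoc_of% hf', Category.comp_id])
  have k0 : H ≫ P.p0.app Y = 𝟙 Y := by
    simpa using h2 =≫ prod.fst
  have k1 : H ≫ P.p1.app Y = f' ≫ i := by
    simpa using h2 =≫ prod.snd
  have h3 : WL K.C (f' ≫ i) := by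
    rw [← k1]
    exact P.wl_of_homotopy H (by rw [k0]; exact WL.of_isIso _)
  refine WL.of_comp_reflects (g := f') (by rwa [hf']) fun j u v huv h => ?_
  refine h3.reflects j u v huv ?_
  have := h.map i
  rwa [Category.assoc, Category.assoc] at this

theorem WL.tc {i : X ⟶ Y} (h : WL K.C i) (hi : Cof K.C i) (hX : Cofib X) : TC K.C i := by
  obtain ⟨Z, j, p, hj, hp, e⟩ := factor_tc_fib i
  have hp' := WL.tfib_of_fib hp (WL.cancel_left (by rwa [e]) (hj.wl hX))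
  obtain ⟨l, l1, l2⟩ := hi.lift hp' j (𝟙 Y) (by rw [e, Category.comp_id])
  intro A B q hq
  refine ⟨fun {u v} sq => ?_⟩
  obtain ⟨s, s1, s2⟩ := hj.lift hq u (p ≫ v) (by rw [reassoc_of% e, sq.w])
  exact ⟨⟨⟨l ≫ s, by rw [reassoc_of% l1, s1], by rw [Category.assoc, s2, reassoc_of% l2]⟩⟩⟩

end Vale.Agent.P259
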