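import Vale.Agent.P259.CubeDefs
import Vale.Agent.P259.WA

/-! # P259 part CubeA: the homotopy colimit functor: basic properties -/

set_option backward.isDefEq.respectTransparency false

open CategoryTheory Limits Opposite MorphismProperty Topology

namespace Vale.Agent.P259

open Theta0
open Globe (D)

theorem exists_hocolim (C : GlobExt) : Nonempty (Hocolim C) := by
  obtain ⟨O, h1, h2⟩ := exists_projCof (bd C) (fp_Sph C) CubeCat
  have := nerve_isRightAdjoint O
  exact ⟨⟨O, fun d => (contr_iff_tfib _).2 (h1 d), h2, (nerve O).leftAdjoint,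
    Adjunction.ofIsRightAdjoint _⟩⟩

/-- the diagram of powers of `X` -/
noncomputable def CubeA_Pw {C : GlobExt} (L : CPsh) (X : Mod C) : CubeCat ⥤ Mod C where
  obj d := ∏ᶜ fun _ : L.obj (op d) => X
  map f := Pi.lift fun x => Pi.π (fun _ => X) (L.map f.op x)
  map_id d := by
    apply Pi.hom_ext
    intro x
    simp
  map_comp f g := by
    apply Pi.hom_ext
    intro x
    simp

/-- the projection of a power -/
noncomputable def CubeA_π {C : GlobExt} {L : CPsh} (X : Mod C) {d : CubeCat} (x : L.obj (op d)) :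
    (CubeA_Pw L X).obj d ⟶ X := Pi.π (fun _ => X) x

theorem CubeA_ext {C : GlobExt} {L : CPsh} {X A : Mod C} {d : CubeCat}
    {u v : A ⟶ (CubeA_Pw L X).obj d} (h : ∀ x, u ≫ CubeA_π X x = v ≫ CubeA_π X x) : u = v :=
  Pi.hom_ext _ _ h

/-- maps into a power -/
noncomputable def CubeA_lift {C : GlobExt} {L : CPsh} {X A : Mod C} {d : CubeCat}
    (u : L.obj (op d) → (A ⟶ X)) : A ⟶ (CubeA_Pw L X).obj d := Pi.lift u

@[reassoc]
theorem CubeA_lift_π {C : GlobExt} {L : CPsh} {X A : Mod C} {d : CubeCat}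
    (u : L.obj (op d) → (A ⟶ X)) (x : L.obj (op d)) : CubeA_lift u ≫ CubeA_π X x = u x :=
  Pi.lift_π _ _

@[reassoc]
theorem CubeA_map_π {C : GlobExt} {L : CPsh} (X : Mod C) {d d' : CubeCat} (f : d' ⟶ d)
    (x : L.obj (op d)) : (CubeA_Pw L X).map f ≫ CubeA_π X x = CubeA_π X (L.map f.op x) :=
  Pi.lift_π _ _

/-- natural maps into a power -/
noncomputable def CubeA_nat {C : GlobExt} {L : CPsh} {X : Mod C} {A : CubeCat ⥤ Mod C}
    (z : ∀ d : CubeCat, L.obj (op d) → (A.obj d ⟶ X))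
    (hz : ∀ (d d' : CubeCat) (f : d' ⟶ d) (x : L.obj (op d)),
      A.map f ≫ z d x = z d' (L.map f.op x)) : A ⟶ CubeA_Pw L X where
  app d := CubeA_lift (z d)
  naturality d' d f := by
    apply CubeA_ext
    intro x
    rw [Category.assoc, Category.assoc, CubeA_lift_π, CubeA_map_π, CubeA_lift_π, hz]

@[reassoc]
theorem CubeA_nat_π {C : GlobExt} {L : CPsh} {X : Mod C} {A : CubeCat ⥤ Mod C}
    (z : ∀ d : CubeCat, L.obj (op d) → (A.obj d ⟶ X)) (hz) (d : CubeCat) (x : L.obj (op d)) :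
    (CubeA_nat z hz).app d ≫ CubeA_π X x = z d x := CubeA_lift_π _ _

/-- functoriality in the model -/
noncomputable def CubeA_R {C : GlobExt} (L : CPsh) {X Y : Mod C} (p : X ⟶ Y) :
    CubeA_Pw L X ⟶ CubeA_Pw L Y :=
  CubeA_nat (fun _ x => CubeA_π X x ≫ p) fun _ _ f x => CubeA_map_π_assoc X f x p

/-- functoriality in the presheaf -/
noncomputable def CubeA_L {C : GlobExt} {L L' : CPsh} (φ : L ⟶ L') (X : Mod C) :
    CubeA_Pw L' X ⟶ CubeA_Pw L X :=
  CubeA_nat (fun _ x => CubeA_π X (φ.app _ x)) fun _ _ f x => by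
    rw [CubeA_map_π]
    exact congrArg _ (ConcreteCategory.congr_hom (φ.naturality f.op) x).symm

@[reassoc]
theorem CubeA_R_π {C : GlobExt} (L : CPsh) {X Y : Mod C} (p : X ⟶ Y) (d : CubeCat)
    (x : L.obj (op d)) : (CubeA_R L p).app d ≫ CubeA_π Y x = CubeA_π X x ≫ p := CubeA_nat_π ..

@[reassoc]
theorem CubeA_L_π {C : GlobExt} {L L' : CPsh} (φ : L ⟶ L') (X : Mod C) (d : CubeCat)
    (x : L.obj (op d)) : (CubeA_L φ X).app d ≫ CubeA_π X x = CubeA_π X (φ.app _ x) :=
  CubeA_nat_π ..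

theorem CubeA_sq {C : GlobExt} {L L' : CPsh} (φ : L ⟶ L') {X Y : Mod C} (p : X ⟶ Y) :
    CubeA_L φ X ≫ CubeA_R L p = CubeA_R L' p ≫ CubeA_L φ Y := by
  ext1
  funext d
  apply CubeA_ext
  intro x
  rw [NatTrans.comp_app, NatTrans.comp_app, Category.assoc, Category.assoc, CubeA_R_π,
    CubeA_L_π_assoc, CubeA_L_π, CubeA_R_π]

theorem CubeA_tfib {C : GlobExt} {L L' : CPsh} (φ : L ⟶ L')
    (hφ : ∀ d, Function.Injective (φ.app d)) {X Y : Mod C} (p : X ⟶ Y) (hp : TFib C p)
    (d : CubeCat) :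
    TFib C ((pullback.lift (CubeA_L φ X) (CubeA_R L' p) (CubeA_sq φ p)).app d) := by
  have hpb := (IsPullback.of_hasPullback (CubeA_R L p) (CubeA_L φ Y)).map
    ((evaluation _ _).obj d)
  have e1 : (pullback.lift (CubeA_L φ X) (CubeA_R L' p) (CubeA_sq φ p)).app d ≫
      (pullback.fst (CubeA_R L p) (CubeA_L φ Y)).app d = (CubeA_L φ X).app d := by
    rw [← NatTrans.comp_app, pullback.lift_fst]
  have e2 : (pullback.lift (CubeA_L φ X) (CubeA_R L' p) (CubeA_sq φ p)).app d ≫
      (pullback.snd (CubeA_R L p) (CubeA_L φ Y)).app d = (CubeA_R L' p).app d := by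
    rw [← NatTrans.comp_app, pullback.lift_snd]
  have e3 : (pullback.fst (CubeA_R L p) (CubeA_L φ Y)).app d ≫ (CubeA_R L p).app d =
      (pullback.snd (CubeA_R L p) (CubeA_L φ Y)).app d ≫ (CubeA_L φ Y).app d := hpb.w
  rw [tfib_iff]
  intro j a w hw
  have key : ∀ x' : L'.obj (op d), ∃ v : Dk C j ⟶ X, bd C j ≫ v = a ≫ CubeA_π X x' ∧
      v ≫ p = w ≫ (pullback.snd (CubeA_R L p) (CubeA_L φ Y)).app d ≫ CubeA_π Y x' ∧
      ∀ x, φ.app _ x = x' →
        v = w ≫ (pullback.fst (CubeA_R L p) (CubeA_L φ Y)).app d ≫ CubeA_π X x := by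
    intro x'
    by_cases hx : ∃ x, φ.app _ x = x'
    · obtain ⟨x, rfl⟩ := hx
      refine ⟨w ≫ (pullback.fst (CubeA_R L p) (CubeA_L φ Y)).app d ≫ CubeA_π X x, ?_, ?_, ?_⟩
      · rw [reassoc_of% hw, reassoc_of% e1, CubeA_L_π]
      · rw [Category.assoc, Category.assoc, ← CubeA_R_π, reassoc_of% e3, CubeA_L_π]
      · intro y hy
        rw [hφ _ hy]
    · obtain ⟨v, h1, h2⟩ := (tfib_iff p).1 hp j (a ≫ CubeA_π X x')
        (w ≫ (pullback.snd (CubeA_R L p) (CubeA_L φ Y)).app d ≫ CubeA_π Y x') (by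
          rw [reassoc_of% hw, reassoc_of% e2, CubeA_R_π, Category.assoc])
      exact ⟨v, h1, h2, fun x h => (hx ⟨x, h⟩).elim⟩
  choose v h1 h2 h3 using key
  refine ⟨CubeA_lift v, CubeA_ext fun x => ?_, hpb.hom_ext ?_ ?_⟩
  · rw [Category.assoc, CubeA_lift_π, h1]
  · change (_ ≫ _) ≫ (pullback.fst (CubeA_R L p) (CubeA_L φ Y)).app d =
      w ≫ (pullback.fst (CubeA_R L p) (CubeA_L φ Y)).app d
    rw [Category.assoc, e1]
    apply CubeA_ext
    intro x
    rw [Category.assoc, CubeA_L_π, CubeA_lift_π, h3 _ x rfl, Category.assoc]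
  · change (_ ≫ _) ≫ (pullback.snd (CubeA_R L p) (CubeA_L φ Y)).app d =
      w ≫ (pullback.snd (CubeA_R L p) (CubeA_L φ Y)).app d
    rw [Category.assoc, e2]
    apply CubeA_ext
    intro x
    rw [Category.assoc, CubeA_R_π, CubeA_lift_π_assoc, h2, Category.assoc]

namespace Hocolim

variable {C : GlobExt} (H : Hocolim C)

theorem cell_map {L L' : CPsh} {d : CubeCat} (x : L.obj (op d)) (φ : L ⟶ L') :
    H.cell x ≫ H.G.map φ = H.cell (φ.app _ x) := by
  exact (ConcreteCategory.congr_hom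
    (NatTrans.congr_app (H.adj.unit.naturality φ) (op d)) x).symm

theorem map_cell {L : CPsh} {d d' : CubeCat} (f : d' ⟶ d) (x : L.obj (op d)) :
    H.O.map f ≫ H.cell x = H.cell (L.map f.op x) := by
  exact (ConcreteCategory.congr_hom ((H.adj.unit.app L).naturality f.op) x).symm

theorem hom_ext {L : CPsh} {X : Mod C} {g g' : H.G.obj L ⟶ X}
    (h : ∀ (d : CubeCat) (x : L.obj (op d)), H.cell x ≫ g = H.cell x ≫ g') : g = g' := by
  apply (H.adj.homEquiv L X).injective
  rw [Adjunction.homEquiv_unit, Adjunction.homEquiv_unit]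
  ext d x
  exact h d.unop x

theorem desc {L : CPsh} {X : Mod C} (z : ∀ d : CubeCat, L.obj (op d) → (H.O.obj d ⟶ X))
    (hz : ∀ (d d' : CubeCat) (f : d' ⟶ d) (x : L.obj (op d)),
      H.O.map f ≫ z d x = z d' (L.map f.op x)) :
    ∃ g : H.G.obj L ⟶ X, ∀ d x, H.cell x ≫ g = z d x := by
  let z' : L ⟶ (nerve H.O).obj X :=
    { app := fun d => ↾fun x => z d.unop x
      naturality := fun d d' f => by
        ext x
        exact (hz d.unop d'.unop f.unop x).symm }
  refine ⟨(H.adj.homEquiv L X).symm z', fun d x => ?_⟩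
  have h := (H.adj.homEquiv L X).apply_symm_apply z'
  rw [Adjunction.homEquiv_unit] at h
  exact ConcreteCategory.congr_hom (NatTrans.congr_app h (op d)) x

theorem cof_map {L L' : CPsh} (φ : L ⟶ L') (hφ : ∀ d, Function.Injective (φ.app d)) :
    Cof C (H.G.map φ) := by
  intro X Y p hp
  constructor
  intro f g sq
  let A : H.O ⟶ CubeA_Pw L X := CubeA_nat (fun _ x => H.cell x ≫ f) fun _ _ u x => by
    rw [← Category.assoc, H.map_cell]
  let B : H.O ⟶ CubeA_Pw L' Y := CubeA_nat (fun _ x => H.cell x ≫ g) fun _ _ u x => by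
    rw [← Category.assoc, H.map_cell]
  have hA : ∀ d x, A.app d ≫ CubeA_π X x = H.cell x ≫ f := fun d x => CubeA_nat_π ..
  have hB : ∀ d x, B.app d ≫ CubeA_π Y x = H.cell x ≫ g := fun d x => CubeA_nat_π ..
  have hAB : A ≫ CubeA_R L p = B ≫ CubeA_L φ Y := by
    ext1
    funext d
    apply CubeA_ext
    intro x
    rw [NatTrans.comp_app, NatTrans.comp_app, Category.assoc, Category.assoc, CubeA_R_π,
      CubeA_L_π, hB, reassoc_of% hA, sq.w, ← Category.assoc, H.cell_map]
  obtain ⟨f', hf'⟩ := H.lift _ _ _ (CubeA_tfib φ hφ p hp) (pullback.lift A B hAB)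
  have e1 : f' ≫ CubeA_L φ X = A := by
    have := congrArg (· ≫ pullback.fst (CubeA_R L p) (CubeA_L φ Y)) hf'
    simpa using this
  have e2 : f' ≫ CubeA_R L' p = B := by
    have := congrArg (· ≫ pullback.snd (CubeA_R L p) (CubeA_L φ Y)) hf'
    simpa using this
  obtain ⟨l, hl⟩ := H.desc (L := L') (fun d x => f'.app d ≫ CubeA_π X x) fun d d' u x => by
    rw [f'.naturality_assoc, CubeA_map_π]
  refine ⟨⟨⟨l, H.hom_ext fun d x => ?_, H.hom_ext fun d x => ?_⟩⟩⟩
  · rw [← Category.assoc, H.cell_map, hl, ← hA, ← e1, NatTrans.comp_app, Category.assoc,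
      CubeA_L_π]
  · rw [← Category.assoc, hl, ← hB, ← e2, NatTrans.comp_app, Category.assoc, Category.assoc,
      CubeA_R_π]

theorem cofib (L : CPsh) : Cofib (H.G.obj L) := by
  let L0 : CPsh := (Functor.const _).obj PEmpty
  let φ : L0 ⟶ L :=
    { app := fun d => ↾fun x : PEmpty => x.elim
      naturality := fun d d' f => by
        ext x
        exact PEmpty.elim x }
  have hd : ∀ X : Mod C, Nonempty (H.G.obj L0 ⟶ X) := fun X =>
    (H.desc (L := L0) (X := X) (fun _ x => PEmpty.elim x) fun _ _ _ x => PEmpty.elim x).nonempty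
  have hI : IsInitial (H.G.obj L0) := IsInitial.ofUniqueHom (fun X => (hd X).some)
    fun X m => H.hom_ext fun _ x => PEmpty.elim x
  exact (Cofib.of_isInitial hI).of_cof (H.cof_map φ fun d x => PEmpty.elim x)

theorem cof_W {Y Y' : TopCat.{0}} (f : Y ⟶ Y') (hf : Function.Injective f) :
    Cof C (H.W.map f) := by
  refine H.cof_map (Sing.map f) fun d σ τ h => ?_
  have h' : (σ : cubeTop.obj d.unop ⟶ Y) ≫ f = (τ : cubeTop.obj d.unop ⟶ Y) ≫ f := h
  exact TopCat.hom_ext (X := cubeTop.obj d.unop) (Y := Y) (ContinuousMap.ext fun z =>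
    hf (ConcreteCategory.congr_hom h' z))

theorem sigma_W {ι : Type} (Y : ι → Type) [∀ α, TopologicalSpace (Y α)] :
    IsIso (Sigma.desc fun α => H.W.map (sigIn Y α)) := by
  have hex : ∀ (d : CubeCat) (σ : cubeTop.obj d ⟶ TopCat.of (Σ α, Y α)),
      ∃ (α : ι) (τ : cubeTop.obj d ⟶ TopCat.of (Y α)), τ ≫ sigIn Y α = σ := by
    intro d σ
    have : ConnectedSpace (cubeTop.obj d) := inferInstanceAs (ConnectedSpace (Cb d.n))
    obtain ⟨α, g, hg, h⟩ := σ.hom.continuous.exists_lift_sigma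
    exact ⟨α, TopCat.ofHom ⟨g, hg⟩, TopCat.hom_ext (ContinuousMap.ext fun z =>
      (congrFun h z).symm)⟩
  choose ix lf hlf using hex
  let z : ∀ d : CubeCat, (Sing.obj (TopCat.of (Σ α, Y α))).obj (op d) →
      (H.O.obj d ⟶ ∐ fun α => H.W.obj (TopCat.of (Y α))) := fun d σ =>
    H.cell (L := Sing.obj (TopCat.of (Y (ix d σ)))) (lf d σ) ≫
      Sigma.ι (fun α => H.W.obj (TopCat.of (Y α))) (ix d σ)
  have key : ∀ (d : CubeCat) (α : ι) (τ : cubeTop.obj d ⟶ TopCat.of (Y α)),
      z d (τ ≫ sigIn Y α) = H.cell (L := Sing.obj (TopCat.of (Y α))) τ ≫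
        Sigma.ι (fun α => H.W.obj (TopCat.of (Y α))) α := by
    intro d α τ
    have gen : ∀ (β : ι) (ρ : cubeTop.obj d ⟶ TopCat.of (Y β)), ρ ≫ sigIn Y β = τ ≫ sigIn Y α →
        H.cell (L := Sing.obj (TopCat.of (Y β))) ρ ≫
          Sigma.ι (fun α => H.W.obj (TopCat.of (Y α))) β =
        H.cell (L := Sing.obj (TopCat.of (Y α))) τ ≫
          Sigma.ι (fun α => H.W.obj (TopCat.of (Y α))) α := by
      intro β ρ h
      have h0 := ConcreteCategory.congr_hom h (fun _ => 0 : Cb d.n)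
      obtain rfl : β = α := congrArg Sigma.fst h0
      obtain rfl : ρ = τ := by
        ext y
        exact sigma_mk_injective (β := Y) (ConcreteCategory.congr_hom h y)
      rfl
    exact gen _ _ (hlf d _)
  obtain ⟨g, hg⟩ := H.desc z fun d d' f σ => by
    have h1 : (Sing.obj (TopCat.of (Σ α, Y α))).map f.op σ =
        (cubeTop.map f ≫ lf d σ) ≫ sigIn Y (ix d σ) := by
      rw [Category.assoc, hlf]; rfl
    rw [h1, key]
    change H.O.map f ≫ H.cell _ ≫ _ = _
    rw [← Category.assoc, H.map_cell]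
    rfl
  have hc : ∀ (d : CubeCat) (α : ι) (τ : cubeTop.obj d ⟶ TopCat.of (Y α)),
      H.cell (L := Sing.obj (TopCat.of (Y α))) τ ≫ H.W.map (sigIn Y α) =
        H.cell (L := Sing.obj (TopCat.of (Σ α, Y α))) (τ ≫ sigIn Y α) := fun d α τ =>
    H.cell_map _ (Sing.map (sigIn Y α))
  refine ⟨g, ?_, ?_⟩
  · apply Sigma.hom_ext
    intro α
    rw [Sigma.ι_desc_assoc, Category.comp_id]
    refine H.hom_ext fun d τ => ?_
    rw [← Category.assoc]
    erw [hc d α τ]
    rw [hg, key]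
  · refine H.hom_ext fun d σ => ?_
    rw [← Category.assoc, hg]
    change (H.cell _ ≫ _) ≫ _ = _
    rw [Category.assoc, Sigma.ι_desc]
    erw [hc, hlf, Category.comp_id]

end Hocolim

namespace Hocolim

variable {K : Coherator} (H : Hocolim K.C)

/-- natural homotopies into an objectwise contractible diagram -/
theorem exists_homotopy (P : PathObj K.C) (Q : CubeCat ⥤ Mod K.C) (hQ : ∀ d, Contr (Q.obj d))
    (f g : H.O ⟶ Q) : ∃ h : H.O ⟶ Q ⋙ P.P, ∀ d, h.app d ≫ P.p0.app _ = f.app d ∧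
      h.app d ≫ P.p1.app _ = g.app d := by
  let Q2 : CubeCat ⥤ Mod K.C :=
    { obj := fun d => Q.obj d ⨯ Q.obj d
      map := fun u => prod.map (Q.map u) (Q.map u) }
  let q : Q ⋙ P.P ⟶ Q2 :=
    { app := fun d => prod.lift (P.p0.app (Q.obj d)) (P.p1.app (Q.obj d))
      naturality := fun d d' u => by
        apply Limits.prod.hom_ext
        · simp [Q2]
        · simp [Q2] }
  let f0 : H.O ⟶ Q2 :=
    { app := fun d => prod.lift (f.app d) (g.app d)
      naturality := fun d d' u => by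
        apply Limits.prod.hom_ext
        · simp [Q2]
        · simp [Q2] }
  obtain ⟨h, hh⟩ := H.lift _ _ q (fun d => P.tfc _ (hQ d)) f0
  refine ⟨h, fun d => ?_⟩
  have e : h.app d ≫ prod.lift (P.p0.app (Q.obj d)) (P.p1.app (Q.obj d)) =
      prod.lift (f.app d) (g.app d) := NatTrans.congr_app hh d
  constructor
  · simpa using congrArg (· ≫ prod.fst) e
  · simpa using congrArg (· ≫ prod.snd) e

theorem exists_nat (Q : CubeCat ⥤ Mod K.C) (hQ : ∀ d, Contr (Q.obj d)) : Nonempty (H.O ⟶ Q) := by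
  let q : Q ⟶ (Functor.const _).obj (⊤_ Mod K.C) :=
    { app := fun d => terminal.from _
      naturality := fun _ _ _ => terminalIsTerminal.hom_ext _ _ }
  let f0 : H.O ⟶ (Functor.const _).obj (⊤_ Mod K.C) :=
    { app := fun d => terminal.from _
      naturality := fun _ _ _ => terminalIsTerminal.hom_ext _ _ }
  exact (H.lift _ _ q (fun d => (contr_iff_tfib _).1 (hQ d)) f0).nonempty

/-- a presheaf with a cone operator has contractible homotopy colimit -/
theorem contr_of_cone (L : CPsh) (b : L.obj (op cpt))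
    (c : ∀ d : CubeCat, L.obj (op d) → L.obj (op (cyl.obj d)))
    (nat : ∀ (d d' : CubeCat) (f : d' ⟶ d) (x : L.obj (op d)),
      L.map (cyl.map f).op (c d x) = c d' (L.map f.op x))
    (h0 : ∀ d x, L.map ((cylι 0).app d).op (c d x) = x)
    (h1 : ∀ d x, L.map ((cylι 1).app d).op (c d x) = L.map (toPt d).op b) :
    Contr (H.G.obj L) := by
  obtain ⟨P⟩ := exists_pathObj K
  let ι : unitInterval → (H.O ⟶ cyl ⋙ H.O) := fun t =>
    { app := fun d => H.O.map ((cylι t).app d)
      naturality := fun d d' u => by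
        change H.O.map u ≫ _ = _ ≫ H.O.map (cyl.map u)
        rw [← Functor.map_comp, ← Functor.map_comp]
        exact congrArg H.O.map ((cylι t).naturality u) }
  obtain ⟨h, hh⟩ := H.exists_homotopy P (cyl ⋙ H.O) (fun d => H.contr _) (ι 0) (ι 1)
  obtain ⟨Hm, hHm⟩ := H.desc (L := L) (X := P.P.obj (H.G.obj L))
    (fun d x => h.app d ≫ P.P.map (H.cell (c d x))) fun d d' f x => by
      rw [h.naturality_assoc]
      change h.app d' ≫ P.P.map (H.O.map (cyl.map f)) ≫ _ = _
      rw [← Functor.map_comp, H.map_cell, nat]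
  obtain ⟨κ, hκ⟩ := H.desc (L := L) (X := H.O.obj cpt) (fun d _ => H.O.map (toPt d))
    fun d d' f x => by rw [← Functor.map_comp, toPt_unique (f ≫ toPt d) (toPt d')]
  have e0 : Hm ≫ P.p0.app _ = 𝟙 _ := H.hom_ext fun d x => by
    rw [← Category.assoc, hHm, Category.assoc]
    erw [P.p0.naturality]
    rw [← Category.assoc]
    erw [(hh d).1, Category.comp_id]
    exact (H.map_cell _ _).trans (congrArg H.cell (h0 d x))
  have e1 : Hm ≫ P.p1.app _ = κ ≫ H.cell b := H.hom_ext fun d x => by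
    rw [← Category.assoc, hHm, Category.assoc]
    erw [P.p1.naturality]
    rw [← Category.assoc]
    erw [(hh d).2]
    rw [← Category.assoc, hκ, H.map_cell]
    exact (H.map_cell _ _).trans (congrArg H.cell (h1 d x))
  have hW : WL K.C (κ ≫ H.cell b) := by
    rw [← e1]
    apply P.wl_of_homotopy
    rw [e0]
    exact WL.of_isIso _
  intro j a
  obtain ⟨w, hw⟩ := H.contr cpt j (a ≫ κ)
  exact hW.fill a (w ≫ H.cell b) (by rw [reassoc_of% hw])

theorem contr_W (Y : TopCat.{0}) [ContractibleSpace Y] : Contr (H.W.obj Y) := by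
  obtain ⟨y, ⟨F⟩⟩ := id_nullhomotopic Y
  refine H.contr_of_cone (Sing.obj Y) (TopCat.ofHom (ContinuousMap.const (Cb 0) y))
    (fun d σ => TopCat.ofHom (X := Cb (d.n + 1)) ⟨fun u => F (u 0,
      TopCat.Hom.hom (X := cubeTop.obj d) (Y := Y) σ (Fin.tail u)), ?_⟩) ?_ ?_ ?_
  · exact F.continuous.comp ((continuous_apply 0).prodMk
      ((TopCat.Hom.hom (X := cubeTop.obj d) (Y := Y) σ).continuous.comp
        lipschitz_tail.continuous))
  · intro d d' f x
    rfl
  · intro d x
    exact TopCat.hom_ext (ContinuousMap.ext fun u => F.apply_zero _)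
  · intro d x
    exact TopCat.hom_ext (ContinuousMap.ext fun u => F.apply_one _)

end Hocolim

instance contractible_cube (d : CubeCat) : ContractibleSpace (cubeTop.obj d) := by
  obtain ⟨e, -⟩ := exists_cube_homeo d.n
  exact e.contractibleSpace

end Vale.Agent.P259
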