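import Vale.Agent.P259.CubeA

/-! # P259 part CubeB: small cubes -/

set_option backward.isDefEq.respectTransparency false

open CategoryTheory Limits Opposite MorphismProperty Topology

namespace Vale.Agent.P259

open Theta0
open Globe (D)

theorem CubeB_lip_pre {a b c : CubeCat} (f : a ⟶ b) (g : b ⟶ c) {L : NNReal}
    (hg : LipschitzWith L g.1) : LipschitzWith L (f ≫ g).1 := by
  have := hg.comp f.2
  rw [mul_one] at this
  exact this

theorem CubeB_lip_post {a b c : CubeCat} (f : a ⟶ b) (g : b ⟶ c) {L : NNReal}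
    (hf : LipschitzWith L f.1) : LipschitzWith L (f ≫ g).1 := by
  have := g.2.comp hf
  rw [one_mul] at this
  exact this

/-- the presheaf of `1/2`-Lipschitz maps into a cube -/
def CubeB_half (d : CubeCat) : CPsh where
  obj d' := {g : d'.unop ⟶ d // LipschitzWith (1 / 2) g.1}
  map f := ↾fun g => ⟨f.unop ≫ g.1, CubeB_lip_pre _ _ g.2⟩

/-- functoriality in the cube -/
def CubeB_Half : CubeCat ⥤ CPsh where
  obj := CubeB_half
  map f := { app := fun _ => ↾fun g => ⟨g.1 ≫ f, CubeB_lip_post _ _ g.2⟩ }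

/-- the cone on a map into a cube -/
noncomputable def CubeB_cone {n k : ℕ} (g : Cb k → Cb n) (y : Cb (k + 1)) : Cb n := fun j =>
  ⟨max ((y 0 : ℝ) / 2) (min (g (Fin.tail y) j : ℝ) (1 - (y 0 : ℝ) / 2)),
    le_max_of_le_left (by linarith [(y 0).2.1]),
    max_le (by linarith [(y 0).2.2]) (min_le_of_left_le (g (Fin.tail y) j).2.2)⟩

theorem CubeB_cone_lip {n k : ℕ} {g : Cb k → Cb n} (hg : LipschitzWith (1 / 2) g) :
    LipschitzWith (1 / 2) (CubeB_cone g) := by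
  refine LipschitzWith.of_dist_le_mul fun x y => (dist_pi_le_iff (by positivity)).2 fun j => ?_
  have h0 : |(x 0 : ℝ) - y 0| ≤ dist x y := dist_le_pi_dist x y 0
  have h1 : |(g (Fin.tail x) j : ℝ) - g (Fin.tail y) j| ≤ 1 / 2 * dist x y := by
    have h2 := (dist_le_pi_dist (g (Fin.tail x)) (g (Fin.tail y)) j).trans (hg.dist_le_mul _ _)
    have h3 := lipschitz_tail.dist_le_mul x y
    have h4 : dist (g (Fin.tail x) j) (g (Fin.tail y) j) =
      |(g (Fin.tail x) j : ℝ) - g (Fin.tail y) j| := rfl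
    push_cast at h2 h3
    linarith
  have h5 : |(x 0 : ℝ) / 2 - y 0 / 2| ≤ 1 / 2 * dist x y := by
    rw [← sub_div, abs_div, abs_two]; linarith
  have h6 : |(1 - (x 0 : ℝ) / 2) - (1 - y 0 / 2)| ≤ 1 / 2 * dist x y := by
    rw [sub_sub_sub_cancel_left, abs_sub_comm]; exact h5
  push_cast
  exact (abs_max_sub_max_le_max _ _ _ _).trans
    (max_le h5 ((abs_min_sub_min_le_max _ _ _ _).trans (max_le h1 h6)))

/-- subpresheaves of the singular cubes -/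
def CubeB_sub (Y : TopCat.{0}) (p : ∀ d : CubeCat, (cubeTop.obj d ⟶ Y) → Prop)
    (hp : ∀ (d d' : CubeCat) (f : d' ⟶ d) σ, p d σ → p d' (cubeTop.map f ≫ σ)) : CPsh where
  obj d := {σ : cubeTop.obj d.unop ⟶ Y // p _ σ}
  map f := ↾fun σ => ⟨cubeTop.map f.unop ≫ σ.1, hp _ _ _ _ σ.2⟩

/-- cubes all of whose `2^{-m}`-Lipschitz subcubes are small -/
def CubeB_p (Y : TopCat.{0}) (𝒰 : Set (Set Y)) (m : ℕ) (d : CubeCat) (σ : cubeTop.obj d ⟶ Y) :
    Prop :=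
  ∀ (d' : CubeCat) (g : d' ⟶ d), LipschitzWith ((1 / 2) ^ m) g.1 →
    ∃ U ∈ 𝒰, Set.range (cubeTop.map g ≫ σ) ⊆ U

/-- the chain of subpresheaves -/
def CubeB_Sm (Y : TopCat.{0}) (𝒰 : Set (Set Y)) : ℕ ⥤ CPsh where
  obj m := CubeB_sub Y (CubeB_p Y 𝒰 m) fun _ _ f _ h d'' g hg =>
    h d'' (g ≫ f) (CubeB_lip_post _ _ hg)
  map u := { app := fun _ => ↾fun σ => ⟨σ.1, fun d' g hg => σ.2 d' g
    (hg.weaken (pow_le_pow_of_le_one zero_le (by norm_num) (leOfHom u)))⟩ }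

/-- the cocone given by the inclusions -/
def CubeB_cocone (Y : TopCat.{0}) (𝒰 : Set (Set Y)) : Cocone (CubeB_Sm Y 𝒰) where
  pt := Sing.obj Y
  ι := { app := fun _ => { app := fun _ => ↾fun σ => σ.1 } }

/-- small cubes lie in every stage -/
def CubeB_inc (Y : TopCat.{0}) (𝒰 : Set (Set Y)) (m : ℕ) : smallF Y 𝒰 ⟶ (CubeB_Sm Y 𝒰).obj m where
  app _ := ↾fun σ => ⟨σ.1, fun _ g _ => ((smallF Y 𝒰).map g.op σ).2⟩

/-- the bottom stage consists of small cubes -/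
def CubeB_dec (Y : TopCat.{0}) (𝒰 : Set (Set Y)) : (CubeB_Sm Y 𝒰).obj 0 ⟶ smallF Y 𝒰 where
  app d := ↾fun σ => ⟨σ.1, σ.2 _ (𝟙 d.unop) (by rw [pow_zero]; exact LipschitzWith.id)⟩

theorem CubeB_exists (Y : TopCat.{0}) (𝒰 : Set (Set Y)) (ho : ∀ U ∈ 𝒰, IsOpen U)
    (hc : ⋃₀ 𝒰 = Set.univ) (d : CubeCat) (σ : cubeTop.obj d ⟶ Y) : ∃ m, CubeB_p Y 𝒰 m d σ := by
  obtain ⟨δ, hδ, h⟩ := lebesgue_number_lemma_of_metric (s := (Set.univ : Set (Cb d.n)))
    (c := fun U : 𝒰 => σ ⁻¹' U.1) isCompact_univ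
    (fun U => (ho U.1 U.2).preimage σ.hom.continuous) (fun x _ => by
      obtain ⟨U, hU, hx⟩ := Set.mem_sUnion.1 (hc ▸ Set.mem_univ (σ x))
      exact Set.mem_iUnion.2 ⟨⟨U, hU⟩, hx⟩)
  obtain ⟨m, hm⟩ := exists_pow_lt_of_lt_one hδ (by norm_num : (1 / 2 : ℝ) < 1)
  refine ⟨m, fun d' g hg => ?_⟩
  obtain ⟨U, hU⟩ := h (g.1 0) trivial
  refine ⟨U.1, U.2, ?_⟩
  rintro _ ⟨x, rfl⟩
  refine hU (a := g.1 x) ?_
  have h1 := hg.dist_le_mul x 0
  have h2 : @dist (Cb d'.n) _ x 0 ≤ 1 := (dist_pi_le_iff zero_le_one).2 fun i => by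
    change |(x i : ℝ) - 0| ≤ 1
    rw [sub_zero, abs_of_nonneg (x i).2.1]
    exact (x i).2.2
  push_cast at h1
  have h3 : (0 : ℝ) ≤ (1 / 2) ^ m := by positivity
  rw [Metric.mem_ball]
  nlinarith

theorem CubeB_isColimit (Y : TopCat.{0}) (𝒰 : Set (Set Y)) (ho : ∀ U ∈ 𝒰, IsOpen U)
    (hc : ⋃₀ 𝒰 = Set.univ) : Nonempty (IsColimit (CubeB_cocone Y 𝒰)) := by
  refine ⟨evaluationJointlyReflectsColimits _ fun d =>
    Types.FilteredColimit.isColimitOf _ _ (fun σ => ?_) fun i j x y h => ?_⟩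
  · obtain ⟨m, hm⟩ := CubeB_exists Y 𝒰 ho hc d.unop σ
    exact ⟨m, ⟨σ, hm⟩, rfl⟩
  · exact ⟨max i j, homOfLE (le_max_left _ _), homOfLE (le_max_right _ _), Subtype.ext h⟩

/-- restriction of an element along the half maps -/
def CubeB_res {L : CPsh} {d : CubeCat} (x : L.obj (op d)) : CubeB_half d ⟶ L where
  app _ := ↾fun g => L.map g.1.op x
  naturality _ _ f := by
    ext g
    exact (L.map_comp_apply g.1.op f x)

/-- restriction along the half maps lowers the stage -/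
def CubeB_down {Y : TopCat.{0}} {𝒰 : Set (Set Y)} {m : ℕ} {d : CubeCat}
    (σ : ((CubeB_Sm Y 𝒰).obj (m + 1)).obj (op d)) : CubeB_half d ⟶ (CubeB_Sm Y 𝒰).obj m where
  app _ := ↾fun g => ⟨cubeTop.map g.1 ≫ σ.1, fun d'' g' hg' => σ.2 d'' (g' ≫ g.1) (by
    have := g.2.comp hg'
    rw [← pow_succ'] at this
    exact this)⟩

variable {K : Coherator} (H : Hocolim K.C)

theorem CubeB_contr_half (d : CubeCat) : Contr (H.G.obj (CubeB_half d)) := by
  have h2 : (1 / 2 : NNReal) ≤ 1 := by norm_num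
  refine H.contr_of_cone (CubeB_half d)
    ⟨⟨fun _ _ => ⟨1 / 2, by norm_num, by norm_num⟩, LipschitzWith.const' _⟩, LipschitzWith.const' _⟩
    (fun d' g => ⟨⟨CubeB_cone g.1.1, (CubeB_cone_lip g.2).weaken h2⟩, CubeB_cone_lip g.2⟩)
    (fun _ _ _ _ => rfl) (fun d' g => ?_) (fun d' g => ?_)
  · refine Subtype.ext (Subtype.ext (funext fun y => funext fun j => Subtype.ext ?_))
    change max ((0 : ℝ) / 2) (min (g.1.1 y j : ℝ) (1 - (0 : ℝ) / 2)) = g.1.1 y j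
    rw [zero_div, sub_zero, min_eq_left (g.1.1 y j).2.2, max_eq_right (g.1.1 y j).2.1]
  · refine Subtype.ext (Subtype.ext (funext fun y => funext fun j => Subtype.ext ?_))
    change max ((1 : ℝ) / 2) (min (g.1.1 y j : ℝ) (1 - (1 : ℝ) / 2)) = 1 / 2
    exact max_eq_left (min_le_of_right_le (by norm_num))

theorem CubeB_data (P : PathObj K.C) : ∃ (ρ : H.O ⟶ CubeB_Half ⋙ H.G)
    (h : ∀ L : CPsh, H.G.obj L ⟶ P.P.obj (H.G.obj L)),
    (∀ L, h L ≫ P.p0.app _ = 𝟙 _) ∧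
    (∀ (L : CPsh) (d : CubeCat) (x : L.obj (op d)),
      H.cell x ≫ h L ≫ P.p1.app _ = ρ.app d ≫ H.G.map (CubeB_res x)) ∧
    ∀ (L L' : CPsh) (φ : L ⟶ L'), h L ≫ P.P.map (H.G.map φ) = H.G.map φ ≫ h L' := by
  obtain ⟨ρ⟩ := H.exists_nat (CubeB_Half ⋙ H.G) (CubeB_contr_half H)
  have h1 : ∀ d : CubeCat, ∃ e : H.G.obj (CubeB_half d) ⟶ H.O.obj d,
      ∀ (d' : CubeCat) (g : (CubeB_half d).obj (op d')), H.cell g ≫ e = H.O.map g.1 := fun d =>
    H.desc (L := CubeB_half d) (fun _ g => H.O.map g.1) fun _ _ f g => (H.O.map_comp f g.1).symm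
  choose e he using h1
  let ε : CubeB_Half ⋙ H.G ⟶ H.O :=
    { app := e
      naturality := fun d d' f => H.hom_ext (L := CubeB_half d) fun d'' g => by
        have h2 := H.cell_map g (CubeB_Half.map f)
        have h3 := he d' d'' ((CubeB_Half.map f).app _ g)
        rw [reassoc_of% (he d d'' g), ← H.O.map_comp]
        exact (Category.assoc _ _ _).symm.trans ((congrArg (· ≫ e d') h2).trans h3) }
  obtain ⟨k, hk⟩ := H.exists_homotopy P H.O H.contr (𝟙 _) (ρ ≫ ε)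
  have h4 : ∀ L : CPsh, ∃ h : H.G.obj L ⟶ P.P.obj (H.G.obj L),
      ∀ (d : CubeCat) (x : L.obj (op d)), H.cell x ≫ h = k.app d ≫ P.P.map (H.cell x) := fun L =>
    H.desc (fun d x => k.app d ≫ P.P.map (H.cell x)) fun d d' f x => by
      rw [k.naturality_assoc, ← H.map_cell, P.P.map_comp]
      rfl
  choose h hh using h4
  refine ⟨ρ, h, fun L => H.hom_ext fun d x => ?_, fun L d x => ?_,
    fun L L' φ => H.hom_ext fun d x => ?_⟩
  · rw [reassoc_of% (hh L d x), P.p0.naturality, reassoc_of% (hk d).1]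
    simp
  · rw [reassoc_of% (hh L d x), P.p1.naturality, reassoc_of% (hk d).2]
    have h5 : e d ≫ H.cell x = H.G.map (CubeB_res x) :=
      H.hom_ext (L := CubeB_half d) fun d' g => by
        rw [reassoc_of% (he d d' g), H.map_cell, H.cell_map]
        rfl
    rw [← h5]
    exact Category.assoc _ _ _
  · rw [reassoc_of% (hh L d x), reassoc_of% (H.cell_map x φ), hh, ← P.P.map_comp, H.cell_map]

theorem CubeB_claim (Y : TopCat.{0}) (𝒰 : Set (Set Y)) (m j : ℕ) :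
    ∀ (a : Sph K.C j ⟶ H.G.obj (smallF Y 𝒰)) (w : Dk K.C j ⟶ H.G.obj ((CubeB_Sm Y 𝒰).obj m)),
      bd K.C j ≫ w = a ≫ H.G.map (CubeB_inc Y 𝒰 m) →
      ∃ v : Dk K.C j ⟶ H.G.obj (smallF Y 𝒰), bd K.C j ≫ v = a ∧
        Sim (v ≫ H.G.map (smallι Y 𝒰)) (w ≫ H.G.map ((CubeB_cocone Y 𝒰).ι.app m)) := by
  obtain ⟨P⟩ := exists_pathObj K
  obtain ⟨ρ, h, h0, h1, hn⟩ := CubeB_data H P
  induction m with
  | zero =>
    intro a w hw
    refine ⟨w ≫ H.G.map (CubeB_dec Y 𝒰), ?_, ?_⟩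
    · rw [reassoc_of% hw, ← H.G.map_comp]
      exact (congrArg (a ≫ ·) (H.G.map_id _)).trans (Category.comp_id _)
    · rw [Category.assoc, ← H.G.map_comp]
      exact Sim.refl _
  | succ m ih =>
    intro a w hw
    obtain ⟨R, hR⟩ := H.desc (L := (CubeB_Sm Y 𝒰).obj (m + 1))
      (fun d σ => ρ.app d ≫ H.G.map (CubeB_down σ)) fun d d' f σ => by
        rw [ρ.naturality_assoc]
        exact congrArg (ρ.app d' ≫ ·) (H.G.map_comp _ _).symm
    have e1 : H.G.map (CubeB_inc Y 𝒰 (m + 1)) ≫ R =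
        (h _ ≫ P.p1.app _) ≫ H.G.map (CubeB_inc Y 𝒰 m) := H.hom_ext fun d σ => by
      rw [reassoc_of% (H.cell_map σ (CubeB_inc Y 𝒰 (m + 1))), hR, Category.assoc,
        reassoc_of% (h1 _ d σ), ← H.G.map_comp]
      rfl
    have e2 : R ≫ H.G.map ((CubeB_cocone Y 𝒰).ι.app m) =
        H.G.map ((CubeB_cocone Y 𝒰).ι.app (m + 1)) ≫ h _ ≫ P.p1.app _ := H.hom_ext fun d σ => by
      rw [reassoc_of% (hR d σ), reassoc_of% (H.cell_map σ ((CubeB_cocone Y 𝒰).ι.app (m + 1))),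
        h1, ← H.G.map_comp]
      rfl
    have e3 : H.G.map (CubeB_inc Y 𝒰 (m + 1)) ≫ H.G.map ((CubeB_cocone Y 𝒰).ι.app (m + 1)) =
        H.G.map (smallι Y 𝒰) := (H.G.map_comp _ _).symm
    obtain ⟨v₁, hv₁, hs⟩ := ih (a ≫ h _ ≫ P.p1.app _) (w ≫ R) (by
      rw [reassoc_of% hw, e1]
      simp only [Category.assoc])
    obtain ⟨v, hv, hv'⟩ := (tfib_iff _).1 (P.tf1 _) j (a ≫ h _) v₁ (by rw [hv₁, Category.assoc])
    refine ⟨v ≫ P.p0.app _, by rw [reassoc_of% hv, h0]; exact Category.comp_id _, ?_⟩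
    have h2 := ((WL.of_tfib (P.tf1 (H.G.obj (Sing.obj Y)))).reflects j
      (v ≫ P.P.map (H.G.map (smallι Y 𝒰)))
      (w ≫ H.G.map ((CubeB_cocone Y 𝒰).ι.app (m + 1)) ≫ h (Sing.obj Y))
      (by rw [reassoc_of% hv, reassoc_of% hw, reassoc_of% e3, hn]) (by
        rw [Category.assoc, P.p1.naturality, reassoc_of% hv', Category.assoc, Category.assoc]
        rw [Category.assoc, e2] at hs
        exact hs)).map (P.p0.app _)
    rw [Category.assoc, P.p0.naturality, Category.assoc, Category.assoc, h0] at h2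
    rw [Category.assoc]
    exact (Category.comp_id (H.G.map ((CubeB_cocone Y 𝒰).ι.app (m + 1)))) ▸ h2

theorem Hocolim.wl_small (Y : TopCat.{0}) (𝒰 : Set (Set Y)) (ho : ∀ U ∈ 𝒰, IsOpen U)
    (hc : ⋃₀ 𝒰 = Set.univ) : WL K.C (H.G.map (smallι Y 𝒰)) := by
  intro j a w hw
  obtain ⟨hcol⟩ := CubeB_isColimit Y 𝒰 ho hc
  have := H.adj.isLeftAdjoint
  have hG := isColimitOfPreserves H.G hcol
  have := fp_Dk K.C j
  have := fp_Sph K.C j
  obtain ⟨m, w', rfl⟩ := IsFinitelyPresentable.exists_hom_of_isColimit hG w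
  obtain ⟨k, u, u', hk⟩ := IsFinitelyPresentable.exists_eq_of_isColimit hG (i := m) (j := m)
    (bd K.C j ≫ w') (a ≫ H.G.map (CubeB_inc Y 𝒰 m)) (by
      rw [Category.assoc, hw, Category.assoc]
      exact congrArg (a ≫ ·)
        (H.G.map_comp (CubeB_inc Y 𝒰 m) ((CubeB_cocone Y 𝒰).ι.app m)))
  obtain ⟨v, hv, hs⟩ := CubeB_claim H Y 𝒰 k j a (w' ≫ H.G.map ((CubeB_Sm Y 𝒰).map u)) (by
    rw [← Category.assoc]
    refine hk.trans ?_
    rw [Category.assoc]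
    exact congrArg (a ≫ ·) (H.G.map_comp _ _).symm)
  refine ⟨v, hv, ?_⟩
  rw [Category.assoc, ← H.G.map_comp] at hs
  exact hs

end Vale.Agent.P259
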