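import Vale.Agent.P259.Geo

/-! # P259: cubes with short maps and the homotopy colimit functor (definitions) -/

set_option backward.isDefEq.respectTransparency false

open CategoryTheory Limits Opposite MorphismProperty

namespace Vale.Agent.P259

/-- the cube with the sup metric -/
abbrev Cb (n : ℕ) : Type := Fin n → unitInterval

/-- the category of cubes and `1`-Lipschitz maps -/
structure CubeCat where
  n : ℕ

instance : SmallCategory CubeCat where
  Hom a b := {f : Cb a.n → Cb b.n // LipschitzWith 1 f}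
  id _ := ⟨id, LipschitzWith.id⟩
  comp f g := ⟨g.1 ∘ f.1, by simpa using g.2.comp f.2⟩

/-- the cubes as spaces -/
def cubeTop : CubeCat ⥤ TopCat.{0} where
  obj a := TopCat.of (Cb a.n)
  map f := TopCat.ofHom ⟨f.1, f.2.continuous⟩

/-- presheaves on cubes -/
abbrev CPsh := CubeCatᵒᵖ ⥤ Type

/-- singular cubes -/
def Sing : TopCat.{0} ⥤ CPsh := nerve cubeTop

theorem lipschitz_cons {X : Type} [PseudoMetricSpace X] {n : ℕ} {L : NNReal}
    {t : X → unitInterval} {f : X → Cb n} (ht : LipschitzWith L t) (hf : LipschitzWith L f) :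
    LipschitzWith L fun x => (Fin.cons (t x) (f x) : Cb (n + 1)) := by
  refine LipschitzWith.of_dist_le_mul fun x y => (dist_pi_le_iff (by positivity)).2 fun i => ?_
  refine Fin.cases ?_ (fun i => ?_) i
  · simpa using ht.dist_le_mul x y
  · simpa using (dist_le_pi_dist (f x) (f y) i).trans (hf.dist_le_mul x y)

theorem lipschitz_tail {n : ℕ} : LipschitzWith 1 fun y : Cb (n + 1) => (Fin.tail y : Cb n) := by
  refine LipschitzWith.of_dist_le_mul fun x y => (dist_pi_le_iff (by positivity)).2 fun i => ?_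
  simpa [Fin.tail] using dist_le_pi_dist x y i.succ

/-- the product with the interval (new coordinate first) -/
def cyl : CubeCat ⥤ CubeCat where
  obj a := ⟨a.n + 1⟩
  map f := ⟨fun y => Fin.cons (y 0) (f.1 (Fin.tail y)),
    lipschitz_cons (LipschitzWith.eval 0) (by
      have := f.2.comp lipschitz_tail
      rw [one_mul] at this
      exact this)⟩
  map_id _ := Subtype.ext (funext fun y => Fin.cons_self_tail y)
  map_comp _ _ := Subtype.ext (funext fun _ => rfl)

/-- the inclusion at height `t` -/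
def cylι (t : unitInterval) : 𝟭 CubeCat ⟶ cyl where
  app _ := ⟨fun x => Fin.cons t x, lipschitz_cons (LipschitzWith.const' t) LipschitzWith.id⟩
  naturality _ _ _ := Subtype.ext (funext fun _ => rfl)

/-- the point -/
def cpt : CubeCat := ⟨0⟩

/-- the map to the point -/
def toPt (a : CubeCat) : a ⟶ cpt := ⟨fun _ => Fin.elim0, LipschitzWith.const' _⟩

theorem toPt_unique {a : CubeCat} (f g : a ⟶ cpt) : f = g :=
  Subtype.ext (funext fun _ => funext fun i => i.elim0)

/-- singular cubes that are small for a family of sets -/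
def smallF (Y : TopCat.{0}) (𝒰 : Set (Set Y)) : CPsh where
  obj d := {σ : cubeTop.obj d.unop ⟶ Y // ∃ U ∈ 𝒰, Set.range σ ⊆ U}
  map f := ↾fun σ => ⟨cubeTop.map f.unop ≫ σ.1, by
    obtain ⟨U, hU, h⟩ := σ.2
    exact ⟨U, hU, by rintro _ ⟨x, rfl⟩; exact h ⟨_, rfl⟩⟩⟩

/-- the inclusion of the small cubes -/
def smallι (Y : TopCat.{0}) (𝒰 : Set (Set Y)) : smallF Y 𝒰 ⟶ Sing.obj Y where
  app _ := ↾fun σ => σ.1

/-- a projectively cofibrant diagram of contractible models on cubes and the induced left
adjoint -/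
structure Hocolim (C : GlobExt) where
  O : CubeCat ⥤ Mod C
  contr : ∀ d, Contr (O.obj d)
  lift : ∀ (Q' Q : CubeCat ⥤ Mod C) (q : Q' ⟶ Q), (∀ d, TFib C (q.app d)) →
    ∀ f : O ⟶ Q, ∃ f' : O ⟶ Q', f' ≫ q = f
  G : CPsh ⥤ Mod C
  adj : G ⊣ nerve O

namespace Hocolim

variable {C : GlobExt} (H : Hocolim C)

/-- the map given by an element of a presheaf -/
def cell {L : CPsh} {d : CubeCat} (x : L.obj (op d)) : H.O.obj d ⟶ H.G.obj L :=
  (H.adj.unit.app L).app (op d) x

/-- the functor `W` -/
def W : TopCat.{0} ⥤ Mod C := Sing ⋙ H.G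

end Hocolim

variable {K : Coherator}

/-- the universal cell -/
noncomputable def ηD (K : Coherator) (j : ℕ) : Dk K.C j ⟶ (PiK K).obj (TopCat.of (Disc j)) :=
  cellPi.symm (𝟙 _)

/-- the universal sphere -/
noncomputable def SphPi.η (s : SphPi K) (j : ℕ) :
    Sph K.C j ⟶ (PiK K).obj (TopCat.of (Sphere j)) := s.e.symm (𝟙 _)

end Vale.Agent.P259
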