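import Vale.Agent.P259.LawA

/-! # P259 part CylA: existence of the cylinder data; easy facts -/

set_option backward.isDefEq.respectTransparency false

open CategoryTheory Limits Opposite MorphismProperty

namespace Vale.Agent.P259

open Theta0
open Globe (D)

theorem CylA_po {N : Type*} [Category N] {Z X Y P : N} {f : Z ⟶ X} {g : Z ⟶ Y} {l : X ⟶ P}
    {r : Y ⟶ P} (w : f ≫ l = g ≫ r)
    (ext : ∀ (W : N) (a b : P ⟶ W), l ≫ a = l ≫ b → r ≫ a = r ≫ b → a = b)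
    (ex : ∀ (W : N) (p : X ⟶ W) (q : Y ⟶ W), f ≫ p = g ≫ q → ∃ d : P ⟶ W, l ≫ d = p ∧ r ≫ d = q) :
    IsPushout f g l r := by
  choose d h1 h2 using ex
  exact ⟨⟨w⟩, ⟨PushoutCocone.IsColimit.mk w (fun s => d _ s.inl s.inr s.condition)
    (fun s => h1 ..) (fun s => h2 ..)
    fun s m e1 e2 => ext _ _ _ (e1.trans (h1 ..).symm) (e2.trans (h2 ..).symm)⟩⟩

/-- the boundary data in one dimension -/
structure CylA_St (C : GlobExt) (j : ℕ) where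
  B : Mod C
  a0 : Sph C j ⟶ B
  a1 : Sph C j ⟶ B

/-- the cell data in one dimension -/
structure CylA_Lv {C : GlobExt} (n m : ℕ) {j : ℕ} (s : CylA_St C j) where
  A : Mod C
  inB : s.B ⟶ A
  e0 : Dk C j ⟶ A
  poA : IsPushout s.a0 (bd C j) inB e0
  E : Mod C
  k : A ⟶ E
  i1 : Dk C j ⟶ E
  bd_i1 : s.a1 ≫ inB ≫ k = bd C j ≫ i1
  case1 : j < n → s.a0 = s.a1 → IsIso k ∧ i1 = e0 ≫ k
  case2 : n ≤ j → j ≤ m → (∃ T : Dk C j ⟶ A, bd C j ≫ T = s.a1 ≫ inB) →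
    ∃ (T : Dk C j ⟶ A) (c : Dk C (j + 1) ⟶ E), bd C j ≫ T = s.a1 ≫ inB ∧
      (s.a0 = s.a1 → T = e0) ∧ IsPushout T (sσ C j) k c ∧ sτ C j ≫ c = i1
  case3 : n ≤ j → m < j → IsPushout (s.a1 ≫ inB) (bd C j) k i1

theorem CylA_lv {C : GlobExt} (n m j : ℕ) (s : CylA_St C j) : Nonempty (CylA_Lv n m s) := by
  have po := IsPushout.of_hasPushout s.a0 (bd C j)
  by_cases h1 : j < n ∧ s.a0 = s.a1
  · exact ⟨⟨_, _, _, po, _, 𝟙 _, pushout.inr _ _, by rw [Category.comp_id, ← h1.2, po.w],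
      fun _ _ => ⟨inferInstance, (Category.comp_id _).symm⟩, fun h => absurd h1.1 (not_lt.2 h),
      fun h => absurd h1.1 (not_lt.2 h)⟩⟩
  by_cases h2 : n ≤ j ∧ j ≤ m ∧
      ∃ T : Dk C j ⟶ pushout s.a0 (bd C j), bd C j ≫ T = s.a1 ≫ pushout.inl _ _
  · obtain ⟨T, hT, hT'⟩ : ∃ T : Dk C j ⟶ pushout s.a0 (bd C j),
        bd C j ≫ T = s.a1 ≫ pushout.inl _ _ ∧ (s.a0 = s.a1 → T = pushout.inr _ _) := by
      by_cases h3 : s.a0 = s.a1
      · exact ⟨pushout.inr _ _, by rw [← po.w, ← h3], fun _ => rfl⟩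
      · exact h2.2.2.imp fun T hT => ⟨hT, fun h => absurd h h3⟩
    have po' := IsPushout.of_hasPushout T (sσ C j)
    exact ⟨⟨_, _, _, po, _, pushout.inl _ _, sτ C j ≫ pushout.inr T (sσ C j),
      by rw [← (RD C).b_σ_assoc, ← po'.w, reassoc_of% hT], fun h => absurd h (not_lt.2 h2.1),
      fun _ _ _ => ⟨T, _, hT, hT', po', rfl⟩, fun _ h => absurd h (not_lt.2 h2.2.1)⟩⟩
  · have po' := IsPushout.of_hasPushout (s.a1 ≫ pushout.inl s.a0 (bd C j)) (bd C j)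
    exact ⟨⟨_, _, _, po, _, pushout.inl _ _, pushout.inr _ _, (Category.assoc ..).symm.trans po'.w,
      fun h h' => absurd ⟨h, h'⟩ h1, fun h h' h'' => absurd ⟨h, h', h''⟩ h2, fun _ _ => po'⟩⟩

theorem CylA_Lv.w0 {C : GlobExt} {n m j : ℕ} {s : CylA_St C j} (v : CylA_Lv n m s) {X : Mod C}
    {l r : v.E ⟶ X} (h : (v.inB ≫ v.k) ≫ l = (v.inB ≫ v.k) ≫ r) :
    bd C j ≫ (v.e0 ≫ v.k) ≫ l = bd C j ≫ (v.e0 ≫ v.k) ≫ r := by
  simp only [Category.assoc] at h ⊢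
  rw [← v.poA.w_assoc, ← v.poA.w_assoc, h]

theorem CylA_Lv.w1 {C : GlobExt} {n m j : ℕ} {s : CylA_St C j} (v : CylA_Lv n m s) {X : Mod C}
    {l r : v.E ⟶ X} (h : (v.inB ≫ v.k) ≫ l = (v.inB ≫ v.k) ≫ r) :
    bd C j ≫ v.i1 ≫ l = bd C j ≫ v.i1 ≫ r := by
  simp only [Category.assoc] at h
  rw [← reassoc_of% v.bd_i1, ← reassoc_of% v.bd_i1, h]

/-- the boundary data in all dimensions -/
noncomputable def CylA_st {C : GlobExt} {n m : ℕ} (lv : ∀ j (s : CylA_St C j), CylA_Lv n m s) :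
    ∀ j, CylA_St C j
  | 0 => ⟨Sph C 0, 𝟙 _, 𝟙 _⟩
  | j + 1 =>
    let v := lv j (CylA_st lv j)
    ⟨pushout (v.inB ≫ v.k) (v.inB ≫ v.k),
      (RD C).sph ((v.e0 ≫ v.k) ≫ pushout.inl _ _) ((v.e0 ≫ v.k) ≫ pushout.inr _ _)
        (v.w0 pushout.condition),
      (RD C).sph (v.i1 ≫ pushout.inl _ _) (v.i1 ≫ pushout.inr _ _) (v.w1 pushout.condition)⟩

theorem exists_cylData (C : GlobExt) (n m : ℕ) : Nonempty (CylData C n m) := by
  let lv : ∀ j (s : CylA_St C j), CylA_Lv n m s := fun j s => (CylA_lv n m j s).some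
  let s := CylA_st lv
  let v : ∀ j, CylA_Lv n m (s j) := fun j => lv j (s j)
  let b : ∀ j, (s j).B ⟶ (v j).E := fun j => (v j).inB ≫ (v j).k
  let l : ∀ j, (v j).E ⟶ (s (j + 1)).B := fun j => pushout.inl (b j) (b j)
  let r : ∀ j, (v j).E ⟶ (s (j + 1)).B := fun j => pushout.inr (b j) (b j)
  have po : ∀ j, IsPushout (b j) (b j) (l j) (r j) := fun j => IsPushout.of_hasPushout _ _
  let E : Globe ⥤ Mod C := Globe.lift (fun j => (v j).E) (fun j => l j ≫ b (j + 1))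
    (fun j => r j ≫ b (j + 1))
    (fun j => (Category.assoc _ _ _).trans ((congrArg (l j ≫ ·) ((po (j + 1)).w_assoc _)).trans
      (Category.assoc _ _ _).symm))
    (fun j => (Category.assoc _ _ _).trans ((congrArg (r j ≫ ·) ((po (j + 1)).w_assoc _)).trans
      (Category.assoc _ _ _).symm))
  have hσ : ∀ j, E.map (Globe.σ j) = l j ≫ b (j + 1) := fun j => Globe.lift_σ _ _ _ _ _ j
  have hτ : ∀ j, E.map (Globe.τ j) = r j ≫ b (j + 1) := fun j => Globe.lift_τ _ _ _ _ _ j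
  let RE : Reedy E :=
    { B := fun j => (s j).B
      b := b
      l := l
      r := r
      init := (RD C).init
      po := po
      l_b := fun j => (hσ j).symm
      r_b := fun j => (hτ j).symm }
  have la : ∀ j, (RD C).l j ≫ (s (j + 1)).a0 = ((v j).e0 ≫ (v j).k) ≫ l j := fun j =>
    (RD C).l_sph ..
  have ra : ∀ j, (RD C).r j ≫ (s (j + 1)).a0 = ((v j).e0 ≫ (v j).k) ≫ r j := fun j =>
    (RD C).r_sph ..
  have lp : ∀ j, (RD C).l j ≫ (s (j + 1)).a1 = (v j).i1 ≫ l j := fun j => (RD C).l_sph ..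
  have rp : ∀ j, (RD C).r j ≫ (s (j + 1)).a1 = (v j).i1 ≫ r j := fun j => (RD C).r_sph ..
  have ab : ∀ j, (s j).a0 ≫ b j = bd C j ≫ (v j).e0 ≫ (v j).k := fun j => (v j).poA.w_assoc _
  have pb : ∀ j, (s j).a1 ≫ b j = bd C j ≫ (v j).i1 := fun j => (v j).bd_i1
  let α : DG C ⟶ E := Globe.natTrans (fun j => (v j).e0 ≫ (v j).k)
    (fun j => by
      rw [hσ, ← (RD C).l_b j, Category.assoc, ← ab, reassoc_of% la]; simp only [Category.assoc])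
    (fun j => by
      rw [hτ, ← (RD C).r_b j, Category.assoc, ← ab, reassoc_of% ra]; simp only [Category.assoc])
  let ψ : DG C ⟶ E := Globe.natTrans (fun j => (v j).i1)
    (fun j => by rw [hσ, ← (RD C).l_b j, Category.assoc, ← pb, reassoc_of% lp])
    (fun j => by rw [hτ, ← (RD C).r_b j, Category.assoc, ← pb, reassoc_of% rp])
  exact ⟨{
    E := E
    RE := RE
    ι0 := ⟨α, fun j => (s j).a0, ab, la, ra⟩
    ι1 := ⟨ψ, fun j => (s j).a1, pb, lp, rp⟩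
    A := fun j => (v j).A
    inB := fun j => (v j).inB
    e0 := fun j => (v j).e0
    poA := fun j => (v j).poA
    k := fun j => (v j).k
    inB_k := fun _ => rfl
    e0_k := fun _ => rfl
    case1 := fun j => (v j).case1
    case2 := fun j => (v j).case2
    case3 := fun j => (v j).case3 }⟩

namespace CylData

variable {C : GlobExt} {n m : ℕ} (Y : CylData C n m)

theorem bm_eq {j : ℕ} (h : j ≤ n) : Y.ι0.bm j = Y.ι1.bm j := by
  induction j with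
  | zero => exact (RD C).init.hom_ext _ _
  | succ j ih =>
    have e := (Y.case1 j h (ih (Nat.le_of_succ_le h))).2
    exact (RD C).ext (by rw [Y.ι0.l_bm, Y.ι1.l_bm, e]) (by rw [Y.ι0.r_bm, Y.ι1.r_bm, e])

theorem app_eq {j : ℕ} (h : j < n) : Y.ι1.app.app (D j) = Y.ι0.app.app (D j) := by
  exact (Y.case1 j h (Y.bm_eq h.le)).2

theorem isIso_k {j : ℕ} (h : j < n) : IsIso (Y.k j) := by
  exact (Y.case1 j h (Y.bm_eq h.le)).1

theorem sumNat_eq (S : Theta0) (h : S.dim < n) :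
    (sumNat Y.ι0.app).app S = (sumNat Y.ι1.app).app S := by
  induction S using Theta0.induction with
  | hd i => rw [sumNat_app_disc, sumNat_app_disc, Y.app_eq (j := i) h]
  | hg T j i' hj hj' ih =>
    have h' : max T.dim i' < n := h
    apply (sumF_pres (DG C) T j i' hj hj').hom_ext
    · rw [NatTrans.naturality, NatTrans.naturality, ih (lt_of_le_of_lt (le_max_left _ _) h')]
    · rw [NatTrans.naturality, NatTrans.naturality, sumNat_app_disc, sumNat_app_disc,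
        Y.app_eq (lt_of_le_of_lt (le_max_right _ _) h')]

/-- extension of boundary data to the cylinder on `D_j` -/
theorem extend {X : Mod C} {j : ℕ} (φ : Y.RE.B j ⟶ X) (d0 d1 : Dk C j ⟶ X)
    (h0 : Y.ι0.bm j ≫ φ = bd C j ≫ d0) (h1 : Y.ι1.bm j ≫ φ = bd C j ≫ d1)
    (hlo : j < n → d0 = d1)
    (hT : n ≤ j → j ≤ m → ∃ T : Dk C j ⟶ Y.A j, bd C j ≫ T = Y.ι1.bm j ≫ Y.inB j)
    (hX : n ≤ j → j ≤ m → ∀ u : Dk C j ⟶ X, bd C j ≫ u = bd C j ≫ d1 → Sim u d1) :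
    ∃ e : Y.E.obj (D j) ⟶ X, Y.RE.b j ≫ e = φ ∧ Y.ι0.app.app (D j) ≫ e = d0 ∧
      Y.ι1.app.app (D j) ≫ e = d1 := by
  let g : Y.A j ⟶ X := (Y.poA j).desc φ d0 h0
  have g1 : Y.inB j ≫ g = φ := (Y.poA j).inl_desc ..
  have g2 : Y.e0 j ≫ g = d0 := (Y.poA j).inr_desc ..
  suffices h : ∃ e : Y.E.obj (D j) ⟶ X, Y.k j ≫ e = g ∧ Y.ι1.app.app (D j) ≫ e = d1 by
    obtain ⟨e, e1, e2⟩ := h
    exact ⟨e, by rw [← Y.inB_k, Category.assoc, e1, g1], by rw [← Y.e0_k, Category.assoc, e1, g2],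
      e2⟩
  rcases lt_or_ge j n with hj | hj
  · have := Y.isIso_k hj
    refine ⟨inv (Y.k j) ≫ g, IsIso.hom_inv_id_assoc _ _, ?_⟩
    rw [Y.app_eq hj, ← Y.e0_k, Category.assoc, IsIso.hom_inv_id_assoc, g2, hlo hj]
  rcases le_or_gt j m with hm | hm
  · obtain ⟨T, c, hT1, -, po, hc⟩ := Y.case2 j hj hm (hT hj hm)
    obtain ⟨w, w1, w2⟩ := hX hj hm (T ≫ g) (by rw [reassoc_of% hT1, g1, h1])
    exact ⟨po.desc g w w1.symm, po.inl_desc .., by rw [← hc, Category.assoc, po.inr_desc, w2]⟩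
  · have po := Y.case3 j hj hm
    exact ⟨po.desc g d1 (by rw [Category.assoc, g1, h1]), po.inl_desc .., po.inr_desc ..⟩

theorem pathEH (hY : CylGood Y) : PathEH Y.RE Y.ι0 Y.ι1 := by
  intro j S hS h φ h0 h1
  exact Y.extend φ _ _ h0 h1 (fun hj => by rw [Y.sumNat_eq S (lt_of_le_of_lt hS hj)])
    (fun hj hm => hY.hT _ hj (hm.trans (Nat.le_succ m)))
    fun hj hm u hu => hY.hS (hj.trans hm) S (hS.trans hm) _ hm u _ hu

/-- decomposition of `E_k → A_{k+1}`: an expansion along the `ι0`-cell, then a pushout of `k` -/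
theorem decomp (k : ℕ) {E₁ : Mod C} {i₁ : Y.E.obj (D k) ⟶ E₁} {c₁ : Dk C (k + 1) ⟶ E₁}
    (h : IsPushout (Y.ι0.app.app (D k)) (sσ C k) i₁ c₁) :
    ∃ (g : Y.A k ⟶ E₁) (i₂ : E₁ ⟶ Y.A (k + 1)), Y.inB k ≫ g = Y.RE.b k ≫ i₁ ∧
      Y.e0 k ≫ g = sτ C k ≫ c₁ ∧ IsPushout g (Y.k k) i₂ (Y.RE.r k ≫ Y.inB (k + 1)) ∧
      i₁ ≫ i₂ = Y.RE.l k ≫ Y.inB (k + 1) ∧ c₁ ≫ i₂ = Y.e0 (k + 1) := by
  have w1 : Y.ι0.bm k ≫ Y.RE.b k ≫ i₁ = bd C k ≫ sτ C k ≫ c₁ := by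
    rw [Y.ι0.bm_b_assoc, h.w, (RD C).b_σ_assoc]
  have w2 : Y.ι0.app.app (D k) ≫ Y.RE.l k ≫ Y.inB (k + 1) = sσ C k ≫ Y.e0 (k + 1) := by
    rw [← Y.ι0.l_bm_assoc, (Y.poA (k + 1)).w, (RD C).l_b_assoc]
  have w3 : Y.ι0.app.app (D k) ≫ Y.RE.r k ≫ Y.inB (k + 1) = sτ C k ≫ Y.e0 (k + 1) := by
    rw [← Y.ι0.r_bm_assoc, (Y.poA (k + 1)).w, (RD C).r_b_assoc]
  obtain ⟨g, g1, g2⟩ : ∃ g : Y.A k ⟶ E₁, Y.inB k ≫ g = Y.RE.b k ≫ i₁ ∧ Y.e0 k ≫ g = sτ C k ≫ c₁ :=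
    ⟨(Y.poA k).desc _ _ w1, (Y.poA k).inl_desc .., (Y.poA k).inr_desc ..⟩
  obtain ⟨i₂, k1, k2⟩ : ∃ i₂ : E₁ ⟶ Y.A (k + 1), i₁ ≫ i₂ = Y.RE.l k ≫ Y.inB (k + 1) ∧
      c₁ ≫ i₂ = Y.e0 (k + 1) := ⟨h.desc _ _ w2, h.inl_desc .., h.inr_desc ..⟩
  refine ⟨g, i₂, g1, g2, CylA_po ?_ (fun W a b e1 e2 => ?_) fun W p q e => ?_, k1, k2⟩
  · apply (Y.poA k).hom_ext
    · rw [reassoc_of% g1, k1, reassoc_of% (Y.inB_k k), Y.RE.b_l_assoc]
    · rw [reassoc_of% g2, k2, reassoc_of% (Y.e0_k k), w3]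
  · apply (Y.poA (k + 1)).hom_ext
    · apply Y.RE.ext
      · rw [← reassoc_of% k1, ← reassoc_of% k1, e1]
      · simpa only [Category.assoc] using e2
    · rw [← k2, Category.assoc, Category.assoc, e1]
  · have u1 : Y.RE.b k ≫ i₁ ≫ p = Y.RE.b k ≫ q := by
      rw [← reassoc_of% g1, e, reassoc_of% (Y.inB_k k)]
    have u2 : Y.ι0.bm (k + 1) ≫ Y.RE.sph _ _ u1 = bd C (k + 1) ≫ c₁ ≫ p := by
      apply (RD C).ext
      · rw [Y.ι0.l_bm_assoc, Reedy.l_sph, h.w_assoc, (RD C).l_b_assoc]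
      · rw [Y.ι0.r_bm_assoc, Reedy.r_sph, (RD C).r_b_assoc, ← reassoc_of% g2, e,
          reassoc_of% (Y.e0_k k)]
    refine ⟨(Y.poA (k + 1)).desc _ _ u2, ?_, ?_⟩
    · apply h.hom_ext
      · rw [reassoc_of% k1, IsPushout.inl_desc, Reedy.l_sph]
      · rw [reassoc_of% k2, IsPushout.inr_desc]
    · rw [Category.assoc, IsPushout.inl_desc, Reedy.r_sph]

end CylData

end Vale.Agent.P259
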