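import Vale.Agent.P259.LawB

/-! # P259 part GoodL: objects that are retracts of high expansions of globular sums -/

set_option backward.isDefEq.respectTransparency false

open CategoryTheory Limits Opposite MorphismProperty

namespace Vale.Agent.P259

open Theta0
open Globe (D)

variable {K : Coherator} {m : ℕ}

theorem HH.of_isIso {A U : Mod K.C} (u : A ⟶ U) [IsIso u] : HH K.C m u := by
  refine ⟨(Cof K.C).of_isIso u, fun A' U' f u' f' h _ hA => ?_⟩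
  have := h.isIso_inl_of_isIso
  exact hA.of_retract (inv u') u' (IsIso.inv_hom_id u')

theorem HH.comp {A U V : Mod K.C} {u : A ⟶ U} {v : U ⟶ V} (hu : HH K.C m u) (hv : HH K.C m v) :
    HH K.C m (u ≫ v) := by
  refine ⟨(Cof K.C).comp_mem _ _ hu.1 hv.1, fun A' V' f w f' h hc hA => ?_⟩
  have t := IsPushout.of_hasPushout f u
  exact hv.2 _ _ _ _ _ (h.of_top' t) (hc.of_cof ((Cof K.C).of_isPushout t hu.1))
    (hu.2 _ _ _ _ _ t hc hA)

theorem HH.pushout {A U A' U' : Mod K.C} {f : A ⟶ A'} {u : A ⟶ U} {u' : A' ⟶ U'} {f' : U ⟶ U'}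
    (h : IsPushout f u u' f') (hu : HH K.C m u) : HH K.C m u' := by
  exact ⟨(Cof K.C).of_isPushout h hu.1, fun _ _ _ _ _ h' => hu.2 _ _ _ _ _ (h.paste_horiz h')⟩

theorem HH.of_exp {n k : ℕ} (hP : PP K.C n m) (hk : n ≤ k) {X X' : Mod K.C} {a : Dk K.C k ⟶ X}
    {i : X ⟶ X'} {c : Dk K.C (k + 1) ⟶ X'} (h : IsPushout a (sσ K.C k) i c) : HH K.C m i := by
  exact ⟨(Cof K.C).of_isPushout h (cof_sσ k), fun _ _ _ i' _ h' =>
    hP _ _ i' (MA.ofPushout (sσ K.C) (h.paste_horiz h')) fun _ => hk⟩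

theorem GoodL_self (C : GlobExt) {T : Theta0} {k : ℕ} (h : k ≤ k) (g : disc k ⟶ T) :
    (YF C).map (tgt h ≫ g) = (YF C).map g := by
  have : tgt h = 𝟙 (disc k) := by
    rw [tgt, Globe.tgt_self]; exact discF.map_id _
  rw [this, Category.id_comp]

theorem GoodL_tgt (C : GlobExt) {T : Theta0} {k' k i : ℕ} (h' : k' ≤ k) (h : k ≤ i)
    (g : disc i ⟶ T) :
    sTgt C h' ≫ ((YF C).map (tgt h ≫ g) : Dk C k ⟶ _) = (YF C).map (tgt (h'.trans h) ≫ g) := by
  have : tgt (h'.trans h) = tgt h' ≫ tgt h := by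
    rw [tgt, ← Globe.tgt_tgt h' h]; exact discF.map_comp _ _
  rw [this, Category.assoc, (YF C).map_comp (tgt h')]
  rfl

/-- an expansion of a globular sum along a target face of its last disc is a globular sum -/
theorem exists_move (C : GlobExt) (T : Theta0) (k : ℕ) (hk : k ≤ T.last) :
    ∃ (T' : Theta0) (hk' : k + 1 ≤ T'.last) (ι : (YF C).obj T ⟶ (YF C).obj T'),
      IsPushout ((YF C).map (tgt hk ≫ lastι T)) (sσ C k) ι ((YF C).map (tgt hk' ≫ lastι T')) := by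
  rcases hk.lt_or_eq with hlt | rfl
  · refine ⟨glue T k (k + 1) hlt (Nat.lt_succ_self k), le_rfl,
      (YF C).map (inl T k (k + 1) hlt (Nat.lt_succ_self k)), ?_⟩
    have h1 := YF_pres C T k (k + 1) hlt (Nat.lt_succ_self k)
    have e : src (Nat.lt_succ_self k).le = discF.map (Globe.σ k) := by
      rw [src, Globe.src_succ_self]
    rw [e] at h1
    erw [GoodL_self]
    exact h1
  · obtain ⟨i, T⟩ := T
    cases T with
    | disc i =>
      refine ⟨disc (i + 1), le_rfl, sσ C i, ?_⟩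
      erw [GoodL_self, GoodL_self]
      have e1 : (YF C).map (lastι (disc i)) = 𝟙 _ := (YF C).map_id _
      have e2 : (YF C).map (lastι (disc (i + 1))) = 𝟙 _ := (YF C).map_id _
      erw [e1, e2]
      exact IsPushout.of_id_fst
    | @glue i₀ T₀ j i h h' =>
      have h'' : j < i + 1 := h'.trans (Nat.lt_succ_self i)
      have P0 := lawB_po C ⟨i₀, T₀⟩ j i h h'
      have P1 := lawB_po C ⟨i₀, T₀⟩ j (i + 1) h h''
      rw [Globe.src_succ h'.le, Functor.map_comp] at P1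
      obtain ⟨ι, hι⟩ : ∃ ι, IsPushout _ _ ι _ := ⟨_, P1.of_top' P0⟩
      refine ⟨glue ⟨i₀, T₀⟩ j (i + 1) h h'', le_rfl, ι, ?_⟩
      erw [GoodL_self, GoodL_self]
      exact hι

theorem Good.zero : Good m (Dk K.C 0) 0 (𝟙 _) := by
  refine ⟨disc 0, le_rfl, _, 𝟙 _, 𝟙 _, 𝟙 _, HH.of_isIso _, Category.id_comp _, ?_⟩
  erw [GoodL_self]
  have e1 : (YF K.C).map (lastι (disc 0)) = 𝟙 _ := (YF K.C).map_id _
  erw [e1]
  rfl

theorem Good.tgt {X : Mod K.C} {k k' : ℕ} {y : Dk K.C k ⟶ X} (h : Good m X k y) (h' : k' ≤ k) :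
    Good m X k' (sTgt K.C h' ≫ y) := by
  obtain ⟨T, hk, U, u, inc, ret, hu, hr, hy⟩ := h
  refine ⟨T, h'.trans hk, U, u, inc, ret, hu, hr, ?_⟩
  rw [Category.assoc, hy, ← GoodL_tgt K.C h' hk, Category.assoc]

theorem Good.hh {X X' : Mod K.C} {k : ℕ} {y : Dk K.C k ⟶ X} (h : Good m X k y) {f : X ⟶ X'}
    (hf : HH K.C m f) : Good m X' k (y ≫ f) := by
  obtain ⟨T, hk, U, u, inc, ret, hu, hr, hy⟩ := h
  have t := IsPushout.of_hasPushout inc f
  refine ⟨T, hk, _, u ≫ pushout.inl inc f, pushout.inr inc f,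
    t.desc (ret ≫ f) (𝟙 _) (by rw [reassoc_of% hr, Category.comp_id]),
    hu.comp (hf.pushout t), t.inr_desc .., ?_⟩
  rw [Category.assoc, ← t.w, reassoc_of% hy]

theorem Good.exp {X X' : Mod K.C} {k : ℕ} {y : Dk K.C k ⟶ X} (h : Good m X k y) {i : X ⟶ X'}
    {c : Dk K.C (k + 1) ⟶ X'} (hp : IsPushout y (sσ K.C k) i c) : Good m X' (k + 1) c := by
  obtain ⟨T, hk, U, u, inc, ret, hu, hr, hy⟩ := h
  obtain ⟨T', hk', ι, hp'⟩ := exists_move K.C T k hk
  have t := IsPushout.of_hasPushout ι u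
  have P := hp'.paste_horiz t.flip
  rw [← hy] at P
  have w1 : y ≫ inc ≫ pushout.inr ι u = _ := (Category.assoc ..).symm.trans P.w
  have w2 : (y ≫ inc) ≫ ret ≫ i = sσ K.C k ≫ c := by
    rw [Category.assoc, reassoc_of% hr, hp.w]
  refine ⟨T', hk', _, pushout.inl ι u, hp.desc _ _ w1, P.desc _ _ w2, hu.pushout t, ?_,
    hp.inr_desc ..⟩
  apply hp.hom_ext
  · rw [hp.inl_desc_assoc, Category.assoc, P.inl_desc, reassoc_of% hr, Category.comp_id]
  · rw [hp.inr_desc_assoc, P.inr_desc, Category.comp_id]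

/-- expansion along the source of a cell whose target is marked -/
theorem Good.branch {n : ℕ} (hP : PP K.C (n + 1) m) {X X' : Mod K.C} (c₀ : Dk K.C (n + 1) ⟶ X)
    (h : Good m X n (sτ K.C n ≫ c₀)) {i : X ⟶ X'} {β : Dk K.C (n + 1) ⟶ X'}
    (hp : IsPushout (sσ K.C n ≫ c₀) (sσ K.C n) i β) : Good m X' n (sτ K.C n ≫ β) := by
  obtain ⟨T, hk, U, u, inc, ret, hu, hr, hy⟩ := h
  obtain ⟨T', hk', ι, hp'⟩ := exists_move K.C T n hk
  have t := IsPushout.of_hasPushout ι u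
  obtain ⟨δ, hδ⟩ : ∃ δ : Dk K.C (n + 1) ⟶ pushout ι u,
      δ = (YF K.C).map (Theta0.tgt hk' ≫ lastι T') ≫ pushout.inl ι u := ⟨_, rfl⟩
  have P := hp'.paste_horiz t.flip
  rw [← hy, ← hδ] at P
  have h1 : sτ K.C n ≫ c₀ ≫ inc ≫ pushout.inr ι u = sσ K.C n ≫ δ := by
    rw [← P.w]; simp only [Category.assoc]
  let e := lawB_comp (c₀ ≫ inc ≫ pushout.inr ι u) δ h1
  have t₂ := IsPushout.of_hasPushout e (sσ K.C (n + 1))
  have w1 : (sσ K.C n ≫ c₀) ≫ inc ≫ pushout.inr ι u ≫ pushout.inl e (sσ K.C (n + 1)) =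
      sσ K.C n ≫ sτ K.C (n + 1) ≫ pushout.inr e (sσ K.C (n + 1)) := by
    rw [← reassoc_of% (lawB_σσ K.C n), ← t₂.w, reassoc_of% (lawB_σ_comp _ δ h1), Category.assoc]
  obtain ⟨δ', h', w, hw1, hw2⟩ := lawB_divR (c₀ ≫ i) β (by rw [← hp.w, Category.assoc])
  have w2 : ((sτ K.C n ≫ c₀) ≫ inc) ≫ ret ≫ i = sσ K.C n ≫ δ' := by
    rw [Category.assoc, reassoc_of% hr, Category.assoc, h']
  have e1 : (c₀ ≫ inc ≫ pushout.inr ι u) ≫ P.desc _ _ w2 = c₀ ≫ i := by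
    rw [Category.assoc, Category.assoc, P.inl_desc, reassoc_of% hr]
  have e2 : δ ≫ P.desc _ _ w2 = δ' := P.inr_desc ..
  have w3 : e ≫ P.desc _ _ w2 = sσ K.C (n + 1) ≫ w := by
    rw [hw1, lawB_comp_map _ _ _ _ (by rw [e1, e2, h'])]
    congr 1
  refine ⟨T', (Nat.le_succ n).trans hk', _, pushout.inl ι u ≫ pushout.inl e (sσ K.C (n + 1)),
    hp.desc _ _ w1, t₂.desc _ _ w3, (hu.pushout t).comp (HH.of_exp hP le_rfl t₂), ?_, ?_⟩
  · apply hp.hom_ext
    · rw [hp.inl_desc_assoc, Category.assoc, Category.assoc, t₂.inl_desc, P.inl_desc,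
        reassoc_of% hr, Category.comp_id]
    · rw [hp.inr_desc_assoc, Category.assoc, t₂.inr_desc, hw2, Category.comp_id]
  · have e3 : sTgt K.C (Nat.le_succ n) = sτ K.C n := by
      rw [sTgt, Globe.tgt_succ_self]
    rw [Category.assoc, hp.inr_desc, ← reassoc_of% (lawB_τσ K.C n), ← t₂.w,
      reassoc_of% (lawB_τ_comp _ δ h1), ← GoodL_tgt K.C (Nat.le_succ n) hk', e3, hδ]
    simp only [Category.assoc]

theorem Good.mContr {X : Mod K.C} {k : ℕ} {y : Dk K.C k ⟶ X} (h : Good m X k y) :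
    MContr m X := by
  obtain ⟨T, hk, U, u, inc, ret, hu, hr, hy⟩ := h
  exact (hu.2 _ _ _ _ _ IsPushout.of_id_fst (cofib_YF T) ((contr_YF K T).mContr m)).of_retract
    inc ret hr

end Vale.Agent.P259
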