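import Vale.Agent.P259.CylA
import Vale.Agent.P259.GoodL

/-! # P259 part CylB: the cylinders on globular sums are `m`-contractible -/

set_option backward.isDefEq.respectTransparency false

open CategoryTheory Limits Opposite MorphismProperty

namespace Vale.Agent.P259

open Theta0
open Globe (D)

theorem cylB_split {C : GlobExt} {A B B' X X' : Mod C} {x : A ⟶ X} {u : A ⟶ B} {v : B ⟶ B'}
    {f : X ⟶ X'} {x' : B' ⟶ X'} (h : IsPushout x (u ≫ v) f x') :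
    ∃ (X₁ : Mod C) (f₁ : X ⟶ X₁) (x₁ : B ⟶ X₁) (f₂ : X₁ ⟶ X'),
      IsPushout x u f₁ x₁ ∧ IsPushout x₁ v f₂ x' ∧ f₁ ≫ f₂ = f := by
  have h1 := IsPushout.of_hasPushout x u
  have hw : x ≫ f = u ≫ v ≫ x' := by rw [h.w, Category.assoc]
  have e : pushout.inl x u ≫ h1.desc f (v ≫ x') hw = f := h1.inl_desc ..
  refine ⟨_, _, _, h1.desc f (v ≫ x') hw, h1, ?_, e⟩
  refine IsPushout.of_top ?_ (h1.inr_desc ..) h1
  rwa [e]

theorem cylB_sTgt_self {C : GlobExt} {j : ℕ} (h : j ≤ j) : sTgt C h = 𝟙 _ := by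
  rw [sTgt, Globe.tgt_self]
  exact (DG C).map_id _

theorem cylB_sTgt_succ {C : GlobExt} {j i : ℕ} (h : j ≤ i) (h' : j ≤ i + 1) :
    sTgt C h' = sTgt C h ≫ sτ C i := by
  rw [sTgt, Globe.tgt_succ h, Functor.map_comp]

theorem cylB_sTgt_trans {C : GlobExt} {k j i : ℕ} (h : k ≤ j) (h' : j ≤ i) :
    sTgt C h ≫ sTgt C h' = sTgt C (h.trans h') := by
  rw [← Functor.map_comp, Globe.tgt_tgt]

section

variable {K : Coherator} {n m : ℕ} (Y : CylData K.C n m)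

/-- the invariant carried along the construction of the cylinder on a globular sum -/
def CylBInv (X : Mod K.C) (i : ℕ) (x : Y.E.obj (D i) ⟶ X) : Prop :=
  ∀ (j : ℕ) (h : j ≤ i), j ≤ n → Good m X j (sTgt K.C h ≫ Y.ι1.app.app (D i) ≫ x)

/-- the latching object has the required cell -/
def CylBHT (j : ℕ) : Prop :=
  n ≤ j → ∃ T : Dk K.C j ⟶ Y.A j, bd K.C j ≫ T = Y.ι1.bm j ≫ Y.inB j

variable {Y}

theorem cylB_inv_of_le {X : Mod K.C} {i : ℕ} {x : Y.E.obj (D i) ⟶ X}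
    (h : Good m X i (Y.ι1.app.app (D i) ≫ x)) : CylBInv Y X i x :=
  fun _ hj _ => h.tgt hj

theorem cylB_inv_of_ge {X : Mod K.C} {i : ℕ} {x : Y.E.obj (D i) ⟶ X} (hi : n ≤ i)
    (h : Good m X n (sTgt K.C hi ≫ Y.ι1.app.app (D i) ≫ x)) : CylBInv Y X i x := by
  intro j hj hn
  have := h.tgt hn
  rwa [← Category.assoc, cylB_sTgt_trans] at this

theorem CylBInv.self {X : Mod K.C} {i : ℕ} {x : Y.E.obj (D i) ⟶ X} (h : CylBInv Y X i x)
    (hi : i ≤ n) : Good m X i (Y.ι1.app.app (D i) ≫ x) := by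
  have := h i le_rfl hi
  rwa [cylB_sTgt_self, Category.id_comp] at this

theorem CylBInv.mContr {X : Mod K.C} {i : ℕ} {x : Y.E.obj (D i) ⟶ X} (h : CylBInv Y X i x) :
    MContr m X := (h 0 (Nat.zero_le _) (Nat.zero_le _)).mContr

theorem CylBInv.hh {X X' : Mod K.C} {i : ℕ} {x : Y.E.obj (D i) ⟶ X} (h : CylBInv Y X i x)
    {f : X ⟶ X'} (hf : HH K.C m f) : CylBInv Y X' i (x ≫ f) := by
  intro j hj hn
  have := (h j hj hn).hh hf
  simpa only [Category.assoc] using this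

theorem CylBInv.tgt {X : Mod K.C} {i i' : ℕ} {x : Y.E.obj (D i) ⟶ X} (h : CylBInv Y X i x)
    (hi : i' ≤ i) : CylBInv Y X i' (Y.E.map (Globe.tgt hi) ≫ x) := by
  intro j hj hn
  have := h j (hj.trans hi) hn
  rwa [← cylB_sTgt_trans hj hi, Category.assoc, Y.ι1.app.naturality_assoc] at this

variable (Y)

theorem cylB_e0 {j : ℕ} (h : j ≤ n) : bd K.C j ≫ Y.e0 j = Y.ι1.bm j ≫ Y.inB j := by
  rw [← Y.bm_eq h]
  exact (Y.poA j).w.symm

/-- the cell structure of the cylinder in dimension `n` -/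
theorem cylB_at_n (hnm : n ≤ m) : ∃ c : Dk K.C (n + 1) ⟶ Y.E.obj (D n),
    IsPushout (Y.e0 n) (sσ K.C n) (Y.k n) c ∧ sτ K.C n ≫ c = Y.ι1.app.app (D n) := by
  obtain ⟨T, c, -, h2, h3, h4⟩ := Y.case2 n le_rfl hnm ⟨_, cylB_e0 Y le_rfl⟩
  rw [h2 (Y.bm_eq le_rfl)] at h3
  exact ⟨c, h3, h4⟩

theorem cylB_hh_k (hP : PP K.C (n + 1) m) {j : ℕ} (h1 : n < j) (h2 : j ≤ m) (hT : CylBHT Y j) :
    HH K.C m (Y.k j) := by
  obtain ⟨T, c, -, -, h3, -⟩ := Y.case2 j h1.le h2 (hT h1.le)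
  exact HH.of_exp hP h1 h3

variable {Y}

/-- the last step, in dimensions at most `n` -/
theorem cylB_last_lo (hnm : n ≤ m) {i : ℕ} (hi : i ≤ n) {X X' : Mod K.C} {x : Y.A i ⟶ X}
    {f : X ⟶ X'} {x' : Y.E.obj (D i) ⟶ X'} (hp : IsPushout x (Y.k i) f x')
    (h : Good m X i (Y.e0 i ≫ x)) : CylBInv Y X' i x' := by
  apply cylB_inv_of_le
  rcases hi.lt_or_eq with hi | rfl
  · have := Y.isIso_k hi
    have h2 := h.hh (HH.pushout hp (HH.of_isIso _))
    rwa [Category.assoc, hp.w, ← Category.assoc, Y.e0_k, ← Y.app_eq hi] at h2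
  · obtain ⟨c, h1, h2⟩ := cylB_at_n Y hnm
    have h3 := (h.exp (h1.paste_horiz hp)).tgt (Nat.le_succ i)
    rwa [cylB_sTgt_succ le_rfl, cylB_sTgt_self, Category.id_comp, ← Category.assoc, h2] at h3

/-- the first two steps -/
theorem cylB_half (hnm : n ≤ m) (hP : PP K.C (n + 1) m) {k : ℕ} (hk : k ≤ m) (hT : CylBHT Y k)
    {X X' : Mod K.C} {x : Y.E.obj (D k) ⟶ X} {f : X ⟶ X'} {x' : Y.A (k + 1) ⟶ X'}
    (hp : IsPushout x (Y.RE.l k ≫ Y.inB (k + 1)) f x') (h : CylBInv Y X k x) :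
    (k < n → Good m X' (k + 1) (Y.e0 (k + 1) ≫ x')) ∧
    (∀ hn : n ≤ k, Good m X' n
      (sTgt K.C hn ≫ Y.ι1.app.app (D k) ≫ Y.RE.r k ≫ Y.inB (k + 1) ≫ x')) := by
  have h0 := IsPushout.of_hasPushout (Y.ι0.app.app (D k)) (sσ K.C k)
  obtain ⟨g, i₂, -, e2, hg, e3, e4⟩ := Y.decomp k h0
  rw [← e3] at hp
  obtain ⟨X₁, f₁, x₁, f₂, hp1, hp2, e5⟩ := cylB_split hp
  have q1 := h0.paste_horiz hp1
  have q2 := hg.flip.paste_vert hp2.flip |>.flip
  refine ⟨fun hn => ?_, fun hn => ?_⟩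
  · have h1 := h.self hn.le
    rw [Y.app_eq hn] at h1
    have := Y.isIso_k hn
    have h2 := (h1.exp q1).hh (HH.pushout q2 (HH.of_isIso _))
    rwa [Category.assoc, hp2.w, ← Category.assoc, e4] at h2
  · rcases hn.eq_or_lt with rfl | hn'
    · obtain ⟨c, h1, h2⟩ := cylB_at_n Y hnm
      have h3 := h.self le_rfl
      rw [← h2, Category.assoc] at h3
      have e6 : Y.ι0.app.app (D n) ≫ x = sσ K.C n ≫ c ≫ x := by
        rw [← Y.e0_k, h1.w, Category.assoc]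
      rw [e6] at q1
      have h4 := Good.branch hP (c ≫ x) h3 q1
      have q3 := h1.paste_horiz q2
      rw [← Category.assoc, e2, Category.assoc] at q3
      have h5 := (h4.exp q3).tgt (Nat.le_succ n)
      rw [cylB_sTgt_succ le_rfl, Category.assoc, ← Category.assoc (sτ K.C n), h2] at h5
      simpa only [Category.assoc] using h5
    · have h1 := ((h n hn le_rfl).hh (HH.of_exp hP hn' q1)).hh
        (HH.pushout q2 (cylB_hh_k Y hP hn' hk hT))
      simp only [Category.assoc] at h1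
      rw [e5, hp.w, e3] at h1
      obtain ⟨k, rfl⟩ : ∃ k', k = k' + 1 := ⟨k - 1, by omega⟩
      have e7 : sτ K.C k ≫ Y.ι1.app.app (D (k + 1)) ≫ Y.RE.l (k + 1) =
          sτ K.C k ≫ Y.ι1.app.app (D (k + 1)) ≫ Y.RE.r (k + 1) := by
        rw [sτ, ← (RD K.C).r_b, Category.assoc, Category.assoc, ← Y.ι1.bm_b_assoc,
          ← Y.ι1.bm_b_assoc, Y.RE.b_l]
      rw [cylB_sTgt_succ (Nat.le_of_lt_succ hn')] at h1 ⊢
      simp only [Category.assoc] at h1 ⊢
      rwa [reassoc_of% e7] at h1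

/-- one move along a source inclusion -/
theorem cylB_move (hnm : n ≤ m) (hP : PP K.C (n + 1) m) {k : ℕ} (hk : k + 1 ≤ m)
    (hT : CylBHT Y k) (hT' : CylBHT Y (k + 1))
    {X X' : Mod K.C} {x : Y.E.obj (D k) ⟶ X} {f : X ⟶ X'} {x' : Y.E.obj (D (k + 1)) ⟶ X'}
    (hp : IsPushout x (Y.E.map (Globe.σ k)) f x') (h : CylBInv Y X k x) :
    CylBInv Y X' (k + 1) x' := by
  rw [← Y.RE.l_b, ← Y.inB_k, ← Category.assoc] at hp
  obtain ⟨X₁, f₁, x₁, f₂, hp1, hp2, -⟩ := cylB_split hp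
  obtain ⟨h1, h2⟩ := cylB_half hnm hP (Nat.le_of_succ_le hk) hT hp1 h
  rcases Nat.lt_or_ge k n with hn | hn
  · exact cylB_last_lo hnm hn hp2 (h1 hn)
  · refine cylB_inv_of_ge (Nat.le_succ_of_le hn) ?_
    have h3 := (h2 hn).hh (HH.pushout hp2 (cylB_hh_k Y hP (Nat.lt_succ_of_le hn) hk hT'))
    simp only [Category.assoc] at h3
    rw [hp2.w, reassoc_of% (Y.inB_k (k + 1)), Y.RE.r_b_assoc, ← Y.ι1.app.naturality_assoc] at h3
    rw [cylB_sTgt_succ hn, Category.assoc]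
    exact h3

variable (Y)

theorem cylB_ht_succ (hnm : n ≤ m) (hP : PP K.C (n + 1) m) {k : ℕ} (hk : k ≤ m)
    (hT : CylBHT Y k) (h : CylBInv Y _ k (𝟙 _)) : CylBHT Y (k + 1) := by
  intro _
  obtain ⟨h1, h2⟩ := cylB_half hnm hP hk hT (IsPushout.of_id_fst) h
  have hc : MContr m (Y.A (k + 1)) := by
    rcases Nat.lt_or_ge k n with hn | hn
    · exact (h1 hn).mContr
    · exact (h2 hn).mContr
  exact (sim_iff_fill _).1 (hc k hk _ _ ((RD K.C).par_l_r _))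

theorem cylB_disc (hnm : n ≤ m) (hP : PP K.C (n + 1) m) (k : ℕ) (hk : k ≤ m) :
    CylBHT Y k ∧ CylBInv Y _ k (𝟙 _) := by
  induction k with
  | zero =>
    refine ⟨fun _ => ⟨_, cylB_e0 Y (Nat.zero_le _)⟩, ?_⟩
    have h1 : IsIso (Y.ι0.bm 0) := isIso_of_isInitial (RD K.C).init Y.RE.init _
    have h2 := (Good.zero (K := K) (m := m)).hh
      (HH.pushout (Y.poA 0).flip (HH.of_isIso (m := m) _))
    rw [Category.id_comp, ← Category.comp_id (Y.e0 0)] at h2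
    exact cylB_last_lo hnm (Nat.zero_le _) IsPushout.of_id_fst h2
  | succ k ih =>
    obtain ⟨h1, h2⟩ := ih (Nat.le_of_succ_le hk)
    have h3 := cylB_ht_succ Y hnm hP (Nat.le_of_succ_le hk) h1 h2
    exact ⟨h3, cylB_move hnm hP hk h1 h3 IsPushout.of_id_fst h2⟩

theorem cylB_src (hnm : n ≤ m) (hP : PP K.C (n + 1) m) {j i : ℕ} (hj : j ≤ i) (hi : i ≤ m)
    {X X' : Mod K.C} {x : Y.E.obj (D j) ⟶ X} {f : X ⟶ X'} {x' : Y.E.obj (D i) ⟶ X'}
    (hp : IsPushout x (Y.E.map (Globe.src hj)) f x') (h : CylBInv Y X j x) :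
    CylBInv Y X' i x' := by
  induction i, hj using Nat.le_induction generalizing X' with
  | base =>
    rw [Globe.src_self, Y.E.map_id] at hp
    have := h.hh (HH.pushout hp (HH.of_isIso _))
    rwa [hp.w, Category.id_comp] at this
  | succ i hj ih =>
    rw [Globe.src_succ hj, Y.E.map_comp] at hp
    obtain ⟨X₁, f₁, x₁, f₂, hp1, hp2, -⟩ := cylB_split hp
    exact cylB_move hnm hP hi (cylB_disc Y hnm hP i (Nat.le_of_succ_le hi)).1
      (cylB_disc Y hnm hP (i + 1) hi).1 hp2 (ih (Nat.le_of_succ_le hi) hp1)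

theorem cylB_sum (hnm : n ≤ m) (hP : PP K.C (n + 1) m) (S : Theta0) (hS : S.dim ≤ m) :
    CylBInv Y ((sumF Y.E).obj S) S.last ((sumF Y.E).map (lastι S)) := by
  induction S using Theta0.induction with
  | hd i =>
    rw [sumF_map_lastι]
    exact (cylB_disc Y hnm hP i hS).2
  | hg T j i' h h' ih =>
    have h1 : max T.dim i' ≤ m := hS
    have h2 := (ih (le_of_max_le_left h1)).tgt h.le
    have hp := sumF_pres Y.E T j i' h h'
    rw [Functor.map_comp, Theta0.tgt, Theta0.src, sumF_map_discF, sumF_map_discF] at hp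
    exact cylB_src Y hnm hP h'.le (le_of_max_le_right h1) hp h2

end

theorem cylGood {K : Coherator} {n m : ℕ} (Y : CylData K.C n m)
    (hP : n ≤ m → PP K.C (n + 1) m) : CylGood Y := by
  refine ⟨fun j h1 h2 => ?_, fun hnm S hS => (cylB_sum Y hnm (hP hnm) S hS).mContr,
    fun k h1 h2 Z i c hp => ?_⟩
  · rcases h1.eq_or_lt with rfl | h3
    · exact ⟨_, cylB_e0 Y le_rfl⟩
    · obtain ⟨k, rfl⟩ : ∃ k, j = k + 1 := ⟨j - 1, by omega⟩
      have hnm : n ≤ m := by omega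
      obtain ⟨h4, h5⟩ := cylB_disc Y hnm (hP hnm) k (by omega)
      exact cylB_ht_succ Y hnm (hP hnm) (by omega) h4 h5 h1
  · have hnm := h1.trans h2
    have h3 := (cylB_disc Y hnm (hP hnm) k h2).2
    rcases h1.eq_or_lt with rfl | h4
    · have h5 := h3.self le_rfl
      rw [Category.comp_id] at h5
      exact (h5.exp hp).mContr
    · exact (h3.hh (HH.of_exp (hP hnm) h4 hp)).mContr

end Vale.Agent.P259
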