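import Mathlib

/-!
# P259: definitions for the Grothendieck homotopy hypothesis (Maltsiniotis / Ara formulation)
-/

open CategoryTheory Limits Opposite
open scoped Topology

namespace Vale.Agent.P259

/-! ## The globe category -/

/-- The vertices `D n` of the graph that generates the globe category. -/
structure GlobeVertex where
  dim : ℕ

/-- The generating arrows `σ_n, τ_n : D_n → D_{n+1}`. -/
inductive GlobeEdge : GlobeVertex → GlobeVertex → Type
  | s (n : ℕ) : GlobeEdge ⟨n⟩ ⟨n + 1⟩
  | t (n : ℕ) : GlobeEdge ⟨n⟩ ⟨n + 1⟩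

instance : Quiver GlobeVertex := ⟨GlobeEdge⟩

/-- The object `D_n` of the free category on the graph. -/
abbrev pathD (n : ℕ) : Paths GlobeVertex := (Paths.of GlobeVertex).obj ⟨n⟩

/-- `σ_n` in the free category on the graph. -/
def pathS (n : ℕ) : pathD n ⟶ pathD (n + 1) := (Paths.of GlobeVertex).map (GlobeEdge.s n)

/-- `τ_n` in the free category on the graph. -/
def pathT (n : ℕ) : pathD n ⟶ pathD (n + 1) := (Paths.of GlobeVertex).map (GlobeEdge.t n)

/-- The relations `σ_{n+1} σ_n = τ_{n+1} σ_n` and `σ_{n+1} τ_n = τ_{n+1} τ_n`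
(`≫` is composition in diagrammatic order). -/
inductive GlobeGen : ∀ a b : Paths GlobeVertex, (a ⟶ b) → (a ⟶ b) → Prop
  | s (n : ℕ) : GlobeGen _ _ (pathS n ≫ pathS (n + 1)) (pathS n ≫ pathT (n + 1))
  | t (n : ℕ) : GlobeGen _ _ (pathT n ≫ pathS (n + 1)) (pathT n ≫ pathT (n + 1))

/-- The globular relations as a relation on morphisms of the free category. -/
def GlobeRel : HomRel (Paths GlobeVertex) := fun a b f g => GlobeGen a b f g

/-- The globe category `𝔾`: generated by `σ_n, τ_n` subject to the globular relations. -/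
abbrev Globe : Type := CategoryTheory.Quotient GlobeRel

/-- A short name for Mathlib's category structure on the quotient category. -/
instance globeCat : SmallCategory Globe := CategoryTheory.Quotient.category GlobeRel

namespace Globe

/-- The object `D_n`. -/
def D (n : ℕ) : Globe := ⟨pathD n⟩

/-- `σ_n : D_n → D_{n+1}`. -/
def σ (n : ℕ) : D n ⟶ D (n + 1) := (Quotient.functor GlobeRel).map (pathS n)

/-- `τ_n : D_n → D_{n+1}`. -/
def τ (n : ℕ) : D n ⟶ D (n + 1) := (Quotient.functor GlobeRel).map (pathT n)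

/-- The iterated source map `σ_{i-1} ⋯ σ_j : D_j → D_i` for `j ≤ i`. -/
def src {j i : ℕ} (h : j ≤ i) : D j ⟶ D i :=
  Nat.leRec (motive := fun i _ => D j ⟶ D i) (𝟙 _) (fun k _ f => f ≫ σ k) h

/-- The iterated target map `τ_{i-1} ⋯ τ_j : D_j → D_i` for `j ≤ i`. -/
def tgt {j i : ℕ} (h : j ≤ i) : D j ⟶ D i :=
  Nat.leRec (motive := fun i _ => D j ⟶ D i) (𝟙 _) (fun k _ f => f ≫ τ k) h

end Globe

/-! ## Globular sums and `Θ₀` -/

/-- Tables of dimensions `(i_1, j_1, i_2, …, j_{k-1}, i_k)` with `j_l < min (i_l, i_{l+1})`,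
indexed by the last entry `i_k`. -/
inductive Tab : ℕ → Type
  | disc (i : ℕ) : Tab i
  | glue {i : ℕ} (T : Tab i) (j i' : ℕ) (h : j < i) (h' : j < i') : Tab i'

/-- The dimension `max_l i_l` of a table. -/
def Tab.dim : ∀ {i : ℕ}, Tab i → ℕ
  | _, .disc i => i
  | _, .glue T _ i' _ _ => max T.dim i'

section

variable {N : Type*} [Category N] [HasPushouts N]

/-- Short names for Mathlib's pushout and its two inclusions. -/
noncomputable abbrev po {a b c : N} (f : a ⟶ b) (g : a ⟶ c) : N := pushout f g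

noncomputable abbrev poInl {a b c : N} (f : a ⟶ b) (g : a ⟶ c) : b ⟶ po f g := pushout.inl f g

noncomputable abbrev poInr {a b c : N} (f : a ⟶ b) (g : a ⟶ c) : c ⟶ po f g := pushout.inr f g

/-- An object with a map from the disc `A D_i`. -/
abbrev UnderD (A : Globe ⥤ N) (i : ℕ) := (X : N) × (A.obj (Globe.D i) ⟶ X)

/-- The iterated pushout `A D_{i_1} ⨿_{A D_{j_1}} ⋯ ⨿_{A D_{j_{k-1}}} A D_{i_k}` (the target of each
disc glued to the source of the next one), with the inclusion of the last disc. -/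
noncomputable def Tab.sum (A : Globe ⥤ N) : ∀ {i : ℕ}, Tab i → UnderD A i
  | _, .disc i => ⟨A.obj (Globe.D i), 𝟙 _⟩
  | _, .glue T _ _ h h' =>
      ⟨po (A.map (Globe.tgt h.le) ≫ (T.sum A).2) (A.map (Globe.src h'.le)), poInr _ _⟩

/-- The inclusion of the first part of an iterated pushout. -/
noncomputable abbrev Tab.sumInl (A : Globe ⥤ N) {i : ℕ} (T : Tab i) (j i' : ℕ) (h : j < i)
    (h' : j < i') : (T.sum A).1 ⟶ ((T.glue j i' h h').sum A).1 :=
  poInl _ _

end

/-- A table of dimensions. -/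
structure Table where
  last : ℕ
  tab : Tab last

/-- Presheaves on `𝔾`. -/
abbrev GPsh : Type 1 := Globeᵒᵖ ⥤ Type

/-- A short name for Mathlib's category structure on the functor category. -/
instance gpshCat : LargeCategory GPsh := Functor.category

instance gpsh_hasPushouts : HasPushouts GPsh := inferInstance

/-- The Yoneda embedding of `𝔾`. -/
abbrev yG : Globe ⥤ GPsh := yoneda

/-- The globular sum of a table, a presheaf on `𝔾`. -/
noncomputable def Table.real (T : Table) : GPsh := (T.tab.sum yG).1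

/-- `Θ₀`: the full subcategory of presheaves on `𝔾` spanned by the globular sums (one object per
table). -/
abbrev Theta0 : Type := InducedCategory GPsh Table.real

/-- A short name for Mathlib's category structure on the induced category. -/
noncomputable instance thetaCat : SmallCategory Theta0 := InducedCategory.instCategory

namespace Theta0

/-- The disc `D_n` as a globular sum. -/
def disc (n : ℕ) : Theta0 := (⟨n, .disc n⟩ : Table)

/-- The dimension of a globular sum. -/
def dim (T : Theta0) : ℕ := T.tab.dim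

/-- The inclusion `𝔾 → Θ₀` on morphisms. -/
noncomputable def discMap {d d' : Globe} (g : d ⟶ d') : disc d.as.dim ⟶ disc d'.as.dim :=
  InducedCategory.homMk (yG.map g)

theorem discMap_id (d : Globe) : discMap (𝟙 d) = 𝟙 _ := by ext1; exact yG.map_id _

theorem discMap_comp {d d' d'' : Globe} (f : d ⟶ d') (g : d' ⟶ d'') :
    discMap (f ≫ g) = discMap f ≫ discMap g := by ext1; exact yG.map_comp f g

/-- The inclusion `𝔾 → Θ₀`. -/
noncomputable def discF : Globe ⥤ Theta0 where
  obj d := disc d.as.dim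
  map g := discMap g
  map_id := discMap_id
  map_comp := discMap_comp

/-- `σ_n` in `Θ₀`. -/
noncomputable def σ (n : ℕ) : disc n ⟶ disc (n + 1) := discF.map (Globe.σ n)

/-- `τ_n` in `Θ₀`. -/
noncomputable def τ (n : ℕ) : disc n ⟶ disc (n + 1) := discF.map (Globe.τ n)

/-- The iterated source map in `Θ₀`. -/
noncomputable def src {j i : ℕ} (h : j ≤ i) : disc j ⟶ disc i := discF.map (Globe.src h)

/-- The iterated target map in `Θ₀`. -/
noncomputable def tgt {j i : ℕ} (h : j ≤ i) : disc j ⟶ disc i := discF.map (Globe.tgt h)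

/-- The inclusion of the last disc of a globular sum. -/
noncomputable def lastι (T : Theta0) : disc T.last ⟶ T :=
  InducedCategory.homMk (T.tab.sum yG).2

/-- The globular sum `T ⨿_{D_j} D_{i'}`. -/
def glue (T : Theta0) (j i' : ℕ) (h : j < T.last) (h' : j < i') : Theta0 :=
  (⟨i', .glue T.tab j i' h h'⟩ : Table)

/-- The inclusion `T → T ⨿_{D_j} D_{i'}`. -/
noncomputable def inl (T : Theta0) (j i' : ℕ) (h : j < T.last) (h' : j < i') :
    T ⟶ glue T j i' h h' :=
  InducedCategory.homMk (T.tab.sumInl yG j i' h h')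

/-- The inclusion `D_{i'} → T ⨿_{D_j} D_{i'}`. -/
noncomputable def inr (T : Theta0) (j i' : ℕ) (h : j < T.last) (h' : j < i') :
    disc i' ⟶ glue T j i' h h' :=
  lastι (glue T j i' h h')

end Theta0

open Theta0

section

variable {N : Type*} [Category N]

/-- A functor out of `Θ₀` preserves globular sums if it preserves each of the pushouts
`T ⨿_{D_j} D_{i'}` by which the globular sums are built. -/
def PreservesSums (F : Theta0 ⥤ N) : Prop :=
  ∀ (T : Theta0) (j i' : ℕ) (h : j < T.last) (h' : j < i'),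
    IsPushout (F.map (tgt h.le ≫ lastι T)) (F.map (src h'.le))
      (F.map (inl T j i' h h')) (F.map (inr T j i' h h'))

/-- Parallel maps `D_n → S`. -/
def Parallel (F : Theta0 ⥤ N) {S : N} :
    ∀ n : ℕ, (F.obj (disc n) ⟶ S) → (F.obj (disc n) ⟶ S) → Prop
  | 0, _, _ => True
  | n + 1, f, g => F.map (σ n) ≫ f = F.map (σ n) ≫ g ∧ F.map (τ n) ≫ f = F.map (τ n) ≫ g

/-- `h : D_{n+1} → S` is a lift of the pair `(f, g)`. -/
def IsLift (F : Theta0 ⥤ N) {S : N} {n : ℕ} (h : F.obj (disc (n + 1)) ⟶ S)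
    (f g : F.obj (disc n) ⟶ S) : Prop :=
  F.map (σ n) ≫ h = f ∧ F.map (τ n) ≫ h = g

end

/-! ## Globular extensions and coherators -/

/-- A category with a bijective-on-objects functor from `Θ₀`; its objects are identified with the
tables along the bijection, so the functor is the identity on objects. -/
structure PreExt where
  /-- the category structure on the set of tables -/
  cat : SmallCategory Table
  /-- the functor from `Θ₀` on morphisms -/
  ι : ∀ {S T : Theta0}, (S ⟶ T) → cat.Hom S T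
  ι_id : ∀ S : Theta0, ι (𝟙 S) = cat.id S
  ι_comp : ∀ {S T U : Theta0} (f : S ⟶ T) (g : T ⟶ U), ι (f ≫ g) = cat.comp (ι f) (ι g)

/-- The underlying category. -/
def PreExt.Obj (_ : PreExt) : Type := Table

instance (C : PreExt) : SmallCategory C.Obj := C.cat

/-- The functor `Θ₀ → C`. -/
def PreExt.F (C : PreExt) : Theta0 ⥤ C.Obj where
  obj T := T
  map f := C.ι f
  map_id := C.ι_id
  map_comp := C.ι_comp

/-- A globular extension: `Θ₀ → C` is bijective on objects and preserves globular sums. -/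
structure GlobExt extends PreExt where
  pres : PreservesSums toPreExt.F

/-- The object of `C` given by a globular sum. -/
abbrev GlobExt.ob (C : GlobExt) (S : Theta0) : C.Obj := C.F.obj S

/-- The morphisms `S → T` of `C`. -/
abbrev GlobExt.Hom (C : GlobExt) (S T : Theta0) : Type := C.ob S ⟶ C.ob T

/-- A morphism of globular extensions: a functor under `Θ₀` (necessarily the identity on
objects). -/
@[ext]
structure ExtHom (C D : GlobExt) where
  map : ∀ {S T : Theta0}, C.Hom S T → D.Hom S T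
  map_id : ∀ S : Theta0, map (𝟙 (C.ob S)) = 𝟙 (D.ob S)
  map_comp : ∀ {S T U : Theta0} (f : C.Hom S T) (g : C.Hom T U), map (f ≫ g) = map f ≫ map g
  map_F : ∀ {S T : Theta0} (f : S ⟶ T), map (C.F.map f) = D.F.map f

/-- Composition of morphisms of globular extensions (first `Φ`, then `Ψ`). -/
def ExtHom.comp {C D E : GlobExt} (Φ : ExtHom C D) (Ψ : ExtHom D E) : ExtHom C E where
  map f := Ψ.map (Φ.map f)
  map_id S := (congrArg Ψ.map (Φ.map_id S)).trans (Ψ.map_id S)
  map_comp f g := (congrArg Ψ.map (Φ.map_comp f g)).trans (Ψ.map_comp _ _)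
  map_F f := (congrArg Ψ.map (Φ.map_F f)).trans (Ψ.map_F f)

/-- A parallel pair `D_n ⇉ S` in a globular extension. -/
structure ParPair (C : GlobExt) where
  n : ℕ
  S : Theta0
  f : C.Hom (disc n) S
  g : C.Hom (disc n) S
  par : Parallel C.F n f g

/-- A coherator (convention of Ara 2013): `C = colim_k C_k`, `C_0 = Θ₀`, `C_{k+1}` universally
adjoins to `C_k` lifts of a set of parallel pairs `D_n ⇉ S` with `dim S ≤ n + 1`, and every
parallel pair in `C` has a lift. -/
structure Coherator where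
  /-- the globular extension `C` -/
  C : GlobExt
  /-- the tower `C_k` -/
  stage : ℕ → GlobExt
  step : ∀ k, ExtHom (stage k) (stage (k + 1))
  /-- `C_0 = Θ₀` -/
  zero : ∀ S T : Theta0, Function.Bijective fun f : S ⟶ T => (stage 0).F.map f
  /-- the set of parallel pairs of `C_k` that get a lift in `C_{k+1}` -/
  pairs : ∀ k, Set (ParPair (stage k))
  dim_le : ∀ k, ∀ p ∈ pairs k, p.S.dim ≤ p.n + 1
  /-- the adjoined lifts -/
  lift : ∀ k (p : pairs k), (stage (k + 1)).Hom (disc (p.1.n + 1)) p.1.S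
  isLift : ∀ k (p : pairs k),
    IsLift (stage (k + 1)).F (lift k p) ((step k).map p.1.f) ((step k).map p.1.g)
  /-- `C_{k+1}` is universal among globular extensions under `C_k` with lifts of the pairs -/
  univ : ∀ k (D : GlobExt) (Φ : ExtHom (stage k) D)
    (l : ∀ p : pairs k, D.Hom (disc (p.1.n + 1)) p.1.S),
    (∀ p, IsLift D.F (l p) (Φ.map p.1.f) (Φ.map p.1.g)) →
      ∃! Ψ : ExtHom (stage (k + 1)) D, (step k).comp Ψ = Φ ∧ ∀ p, Ψ.map (lift k p) = l p
  toC : ∀ k, ExtHom (stage k) C
  step_toC : ∀ k, (step k).comp (toC (k + 1)) = toC k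
  /-- `C` is the colimit of the tower -/
  colim : ∀ (D : GlobExt) (Φ : ∀ k, ExtHom (stage k) D), (∀ k, (step k).comp (Φ (k + 1)) = Φ k) →
    ∃! Ψ : ExtHom C D, ∀ k, (toC k).comp Ψ = Φ k
  /-- every parallel pair in `C` has a lift -/
  contr : ∀ p : ParPair C, ∃ h : C.Hom (disc (p.n + 1)) p.S, IsLift C.F h p.f p.g

/-! ## `C`-∞-groupoids, homotopy groups and weak equivalences -/

/-- Functors `Cᵒᵖ → Set`. -/
abbrev Psh (C : GlobExt) : Type 1 := C.Objᵒᵖ ⥤ Type

/-- A short name for Mathlib's category structure on the functor category. -/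
instance pshCat (C : GlobExt) : LargeCategory (Psh C) := Functor.category

/-- The value of `X` at a globular sum. -/
abbrev Psh.val {C : GlobExt} (X : Psh C) (S : Theta0) : Type := X.obj (op (C.ob S))

/-- The action of a map of `C`. -/
abbrev Psh.res {C : GlobExt} (X : Psh C) {S T : Theta0} (θ : C.Hom S T) : X.val T ⟶ X.val S :=
  X.map θ.op

/-- Application of a morphism of the category of sets. -/
abbrev ap {A B : Type} (f : A ⟶ B) (x : A) : B := f x

/-- `X : Cᵒᵖ → Set` sends globular sums to iterated fibre products. -/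
def IsModel (C : GlobExt) : ObjectProperty (Psh C) := fun X =>
  ∀ (T : Theta0) (j i' : ℕ) (h : j < T.last) (h' : j < i'),
    IsPullback (X.res (C.F.map (inl T j i' h h'))) (X.res (C.F.map (inr T j i' h h')))
      (X.res (C.F.map (tgt h.le ≫ lastι T))) (X.res (C.F.map (src h'.le)))

/-- The category of `C`-∞-groupoids (morphisms: natural transformations). -/
abbrev Mod (C : GlobExt) := (IsModel C).FullSubcategory

/-- A short name for Mathlib's category structure on the full subcategory. -/
instance modCat (C : GlobExt) : LargeCategory (Mod C) :=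
  ObjectProperty.FullSubcategory.category (IsModel C)

namespace Mod

variable {C : GlobExt}

/-- The `n`-cells `X_n = X(D_n)`. -/
def Cell (X : Mod C) (n : ℕ) : Type := X.obj.val (disc n)

/-- The action of a map `D_m → D_n` of `C` on cells. -/
def act (X : Mod C) {m n : ℕ} (θ : C.Hom (disc m) (disc n)) (x : X.Cell n) : X.Cell m :=
  ap (X.obj.res θ) x

/-- The source of a cell. -/
noncomputable def s (X : Mod C) {n : ℕ} (x : X.Cell (n + 1)) : X.Cell n := X.act (C.F.map (σ n)) x

/-- The target of a cell. -/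
noncomputable def t (X : Mod C) {n : ℕ} (x : X.Cell (n + 1)) : X.Cell n := X.act (C.F.map (τ n)) x

/-- The relation: there is an `(n+1)`-cell `x → y`. -/
def Rel (X : Mod C) {n : ℕ} (x y : X.Cell n) : Prop :=
  ∃ c : X.Cell (n + 1), X.s c = x ∧ X.t c = y

/-- The action of a morphism on cells. -/
def onCell {X Y : Mod C} (f : X ⟶ Y) {n : ℕ} (x : X.Cell n) : Y.Cell n :=
  ap (f.hom.app (op (C.ob (disc n)))) x

theorem onCell_act {X Y : Mod C} (f : X ⟶ Y) {m n : ℕ} (θ : C.Hom (disc m) (disc n))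
    (x : X.Cell n) : onCell f (X.act θ x) = Y.act θ (onCell f x) :=
  ConcreteCategory.congr_hom (f.hom.naturality θ.op) x

theorem Rel.onCell {X Y : Mod C} (f : X ⟶ Y) {n : ℕ} {x y : X.Cell n} (h : X.Rel x y) :
    Y.Rel (onCell f x) (onCell f y) := by
  obtain ⟨c, rfl, rfl⟩ := h
  exact ⟨Mod.onCell f c, (onCell_act f _ c).symm, (onCell_act f _ c).symm⟩

/-- `π₀ X`. -/
def pi0 (X : Mod C) : Type := Quot (X.Rel (n := 0))

/-- The map induced on `π₀`. -/
def pi0Map {X Y : Mod C} (f : X ⟶ Y) : X.pi0 → Y.pi0 :=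
  Quot.map (onCell f) fun _ _ h => h.onCell f

end Mod

/-- A choice of lifts `κ_n : D_{n+1} → D_n` of the pairs `(id, id)`; they give the identity
cells. -/
structure IdLifts (C : GlobExt) where
  κ : ∀ n, C.Hom (disc (n + 1)) (disc n)
  isLift : ∀ n, IsLift C.F (κ n) (𝟙 _) (𝟙 _)

namespace IdLifts

variable {C : GlobExt} (K : IdLifts C)

/-- The iterated identity cell `1^n_x`. -/
def one (X : Mod C) (x : X.Cell 0) : ∀ n, X.Cell n
  | 0 => x
  | n + 1 => X.act (K.κ n) (one X x n)

theorem onCell_one {X Y : Mod C} (f : X ⟶ Y) (x : X.Cell 0) :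
    ∀ n, Mod.onCell f (K.one X x n) = K.one Y (Mod.onCell f x) n
  | 0 => rfl
  | n + 1 => by rw [one, one, Mod.onCell_act, onCell_one f x n]

/-- The `(n+1)`-cells `1^n_x → 1^n_x`. -/
def Loop (X : Mod C) (x : X.Cell 0) (n : ℕ) : Type :=
  {u : X.Cell (n + 1) // X.s u = K.one X x n ∧ X.t u = K.one X x n}

/-- `π_{n+1}(X, x)`. -/
def pi (X : Mod C) (x : X.Cell 0) (n : ℕ) : Type :=
  Quot fun u v : K.Loop X x n => X.Rel u.1 v.1

/-- The action of a morphism on loops. -/
def loopMap {X Y : Mod C} (f : X ⟶ Y) (x : X.Cell 0) (n : ℕ) (u : K.Loop X x n) :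
    K.Loop Y (Mod.onCell f x) n :=
  ⟨Mod.onCell f u.1,
    ((Mod.onCell_act f _ u.1).symm.trans (congrArg (Mod.onCell f) u.2.1)).trans
      (K.onCell_one f x n),
    ((Mod.onCell_act f _ u.1).symm.trans (congrArg (Mod.onCell f) u.2.2)).trans
      (K.onCell_one f x n)⟩

/-- The map induced on `π_{n+1}`. -/
def piMap {X Y : Mod C} (f : X ⟶ Y) (x : X.Cell 0) (n : ℕ) :
    K.pi X x n → K.pi Y (Mod.onCell f x) n :=
  Quot.map (K.loopMap f x n) fun _ _ h => h.onCell f

/-- Weak equivalences of `C`-∞-groupoids: bijective on `π₀` and on all `π_{n+1}(X, x)` (the induced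
maps are group homomorphisms, so bijective means isomorphism). -/
def W : MorphismProperty (Mod C) := fun _ _ f =>
  Function.Bijective (Mod.pi0Map f) ∧ ∀ x n, Function.Bijective (K.piMap f x n)

end IdLifts

/-! ## Spaces, discs, disc functors and the fundamental ∞-groupoid -/

/-- The closed unit ball of Euclidean space `ℝ^n`. -/
abbrev discSet (n : ℕ) : Set (EuclideanSpace ℝ (Fin n)) := Metric.closedBall 0 1

/-- The closed `n`-disc. -/
abbrev Disc (n : ℕ) : Type := discSet n

/-- A short name for the subspace topology. -/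
instance discTop (n : ℕ) : TopologicalSpace (Disc n) := instTopologicalSpaceSubtype

/-- The point `(x, c)` of `ℝ^{n+1}`. -/
noncomputable def snocE {n : ℕ} (x : EuclideanSpace ℝ (Fin n)) (c : ℝ) :
    EuclideanSpace ℝ (Fin (n + 1)) :=
  WithLp.toLp 2 (Fin.snoc (α := fun _ => ℝ) x.ofLp c)

theorem norm_sq_snocE {n : ℕ} (x : EuclideanSpace ℝ (Fin n)) (c : ℝ) :
    ‖snocE x c‖ ^ 2 = ‖x‖ ^ 2 + c ^ 2 := by
  simp [snocE, EuclideanSpace.real_norm_sq_eq, Fin.sum_univ_castSucc]

theorem continuous_snocE {n : ℕ} :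
    Continuous fun p : EuclideanSpace ℝ (Fin n) × ℝ => snocE p.1 p.2 := by
  unfold snocE
  refine (PiLp.continuous_toLp 2 _).comp (continuous_pi fun i => ?_)
  refine Fin.lastCases ?_ (fun i => ?_) i
  · simpa using continuous_snd
  · simp only [Fin.snoc_castSucc]
    fun_prop

/-- The point `(x, ε √(1 - ‖x‖²))` of `ℝ^{n+1}`. -/
noncomputable abbrev hemiPt (ε : ℝ) {n : ℕ} (x : EuclideanSpace ℝ (Fin n)) :
    EuclideanSpace ℝ (Fin (n + 1)) :=
  snocE x (ε * √(1 - ‖x‖ ^ 2))

theorem hemiPt_mem {ε : ℝ} (hε : ε ^ 2 = 1) {n : ℕ} (x : Disc n) :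
    hemiPt ε x.1 ∈ discSet (n + 1) := by
  have hx : ‖x.1‖ ≤ 1 := mem_closedBall_zero_iff.1 x.2
  have h1 : 0 ≤ 1 - ‖x.1‖ ^ 2 := by nlinarith [norm_nonneg x.1]
  have h2 := norm_sq_snocE x.1 (ε * √(1 - ‖x.1‖ ^ 2))
  rw [mul_pow, hε, Real.sq_sqrt h1] at h2
  rw [mem_closedBall_zero_iff]
  nlinarith [norm_nonneg (snocE x.1 (ε * √(1 - ‖x.1‖ ^ 2)))]

/-- The map `x ↦ (x, ε √(1 - ‖x‖²))` from `D^n` to `D^{n+1}`. -/
noncomputable abbrev hemiFun (ε : ℝ) (hε : ε ^ 2 = 1) (n : ℕ) (x : Disc n) : Disc (n + 1) :=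
  ⟨hemiPt ε x.1, hemiPt_mem hε x⟩

theorem continuous_hemiFun (ε : ℝ) (hε : ε ^ 2 = 1) (n : ℕ) : Continuous (hemiFun ε hε n) := by
  refine Continuous.subtype_mk ?_ _
  exact continuous_snocE.comp (f := fun x : Disc n => (x.1, ε * √(1 - ‖x.1‖ ^ 2))) (by fun_prop)

/-- The hemisphere `x ↦ (x, ε √(1 - ‖x‖²))` of the boundary of `D^{n+1}`, for `ε = ± 1`. -/
noncomputable def hemi (ε : ℝ) (hε : ε ^ 2 = 1) (n : ℕ) : C(Disc n, Disc (n + 1)) where
  toFun := hemiFun ε hε n
  continuous_toFun := continuous_hemiFun ε hε n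

/-- The lower hemisphere. -/
noncomputable def lower (n : ℕ) : C(Disc n, Disc (n + 1)) := hemi (-1) (by norm_num) n

/-- The upper hemisphere. -/
noncomputable def upper (n : ℕ) : C(Disc n, Disc (n + 1)) := hemi 1 (by norm_num) n

/-- The map induced on path components. -/
def topPi0Map {X Y : Type} [TopologicalSpace X] [TopologicalSpace Y] (f : C(X, Y)) :
    ZerothHomotopy X → ZerothHomotopy Y :=
  Quotient.map f fun _ _ h => ⟨h.somePath.map f.continuous⟩

/-- The map induced on Mathlib's homotopy groups `π_ n`. -/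
def topPiMap {X Y : Type} [TopologicalSpace X] [TopologicalSpace Y] (f : C(X, Y)) (n : ℕ)
    (x : X) : HomotopyGroup.Pi n X x → HomotopyGroup.Pi n Y (f x) :=
  Quotient.map (fun γ => ⟨f.comp γ.1, fun y hy => congrArg f (γ.2 y hy)⟩)
    fun _ _ h => ContinuousMap.HomotopicRel.comp_continuousMap h f

/-- Weak homotopy equivalences: bijective on `π₀` and on all `π_{n+1}(X, x)`. -/
def WHE : MorphismProperty TopCat.{0} := fun _ _ f =>
  Function.Bijective (topPi0Map f.hom) ∧ ∀ n x, Function.Bijective (topPiMap f.hom (n + 1) x)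

/-- The spaces `X n` are closed discs and `s n`, `t n` are the two hemispheres, up to a family of
homeomorphisms. -/
def StdDiscs (X : ℕ → TopCat.{0}) (s t : ∀ n, X n ⟶ X (n + 1)) : Prop :=
  ∃ e : ∀ n, X n ≃ₜ Disc n, ∀ n x,
    e (n + 1) (s n x) = lower n (e n x) ∧ e (n + 1) (t n x) = upper n (e n x)

/-- `F` sends `W` to `W'` and the induced functor between Mathlib's localizations is an
equivalence of categories. -/
def InducesEquiv {A B : Type*} [Category A] [Category B] (F : A ⥤ B) (W : MorphismProperty A)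
    (W' : MorphismProperty B) : Prop :=
  W ≤ W'.inverseImage F ∧
    ∃ h : W.IsInvertedBy (F ⋙ W'.Q), (Localization.Construction.lift (F ⋙ W'.Q) h).IsEquivalence

section

variable {C : GlobExt} {P : ObjectProperty TopCat.{0}}

/-- A disc functor with values in the full subcategory of spaces satisfying `P`: it preserves
globular sums and sends `D_n` to the closed `n`-disc, `σ` and `τ` to the two hemispheres. -/
structure IsDiscFunctor (D : C.Obj ⥤ P.FullSubcategory) : Prop where
  pres : PreservesSums (C.F ⋙ D)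
  discs : StdDiscs (fun n => (D.obj (C.ob (disc n))).obj) (fun n => (D.map (C.F.map (σ n))).hom)
    (fun n => (D.map (C.F.map (τ n))).hom)

/-- The functor `Y ↦ Hom(D(-), Y)`. -/
abbrev homFrom {A B : Type*} [Category A] [Category.{0} B] (D : A ⥤ B) : B ⥤ Aᵒᵖ ⥤ Type :=
  yoneda ⋙ (Functor.whiskeringLeft _ _ _).obj D.op

theorem isModel_homFrom (D : C.Obj ⥤ P.FullSubcategory) (hD : IsDiscFunctor D)
    (Y : P.FullSubcategory) : IsModel C ((homFrom D).obj Y) := fun T j i' h h' =>
  (hD.pres T j i' h h').op.flip.map (yoneda.obj Y)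

/-- The fundamental ∞-groupoid `Π_∞(Y) = Hom(D(-), Y)`. -/
def PiInf (D : C.Obj ⥤ P.FullSubcategory) (hD : IsDiscFunctor D) : P.FullSubcategory ⥤ Mod C :=
  (IsModel C).lift (homFrom D) (isModel_homFrom D hD)

end

end Vale.Agent.P259
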