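import Vale.Agent.P259.PC

/-! # P259 part EDat: the relative frames `EData` -/

set_option backward.isDefEq.respectTransparency false

open CategoryTheory Limits Opposite MorphismProperty

namespace Vale.Agent.P259

open Theta0
open Globe (D)

variable {K : Coherator} {A : Globe ⥤ Mod K.C} {RA : Reedy A}

theorem EDat_tc_of_lift {C : GlobExt} {U V : Mod C} {i : U ⟶ V}
    (h : ∀ (X Y : Mod C) (p : X ⟶ Y), Fib C p → ∀ (f : U ⟶ X) (g : V ⟶ Y), f ≫ p = i ≫ g →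
      ∃ l : V ⟶ X, i ≫ l = f ∧ l ≫ p = g) : TC C i := by
  intro X Y p hp
  refine ⟨fun {f g} sq => ?_⟩
  obtain ⟨l, h1, h2⟩ := h X Y p hp f g sq.w
  exact ⟨⟨⟨l, h1, h2⟩⟩⟩

theorem EDat_tc_next {C : GlobExt} {P P' A B B' L E : Mod C} {a : P ⟶ B} {b0 : P ⟶ A}
    {l0 r0 : A ⟶ P'} (po0 : IsPushout b0 b0 l0 r0) {inB : B ⟶ L} {inA : A ⟶ L}
    (poL : IsPushout a b0 inB inA) {k : L ⟶ E} {l r : E ⟶ B'}
    (po : IsPushout (inB ≫ k) (inB ≫ k) l r) {a' : P' ⟶ B'} (hl : l0 ≫ a' = inA ≫ k ≫ l)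
    (hr : r0 ≫ a' = inA ≫ k ≫ r) (ha : TC C a) (hk : TC C k) : TC C a' := by
  refine EDat_tc_of_lift fun X Y p hp f g h => ?_
  obtain ⟨φ, h1, h2⟩ := ha.lift hp (b0 ≫ l0 ≫ f) (inB ≫ k ≫ l ≫ g) (by
    rw [Category.assoc, Category.assoc, h, reassoc_of% hl, poL.w_assoc])
  have h1' : a ≫ φ = b0 ≫ r0 ≫ f := by rw [h1, po0.w_assoc]
  have hw : inB ≫ k ≫ l = inB ≫ k ≫ r := by simpa using po.w
  obtain ⟨e1, a1, a2⟩ := hk.lift hp (poL.desc φ (l0 ≫ f) h1) (l ≫ g) (by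
    apply poL.hom_ext
    · rw [poL.inl_desc_assoc, h2]
    · rw [poL.inr_desc_assoc, Category.assoc, h, reassoc_of% hl])
  obtain ⟨e2, b1, b2⟩ := hk.lift hp (poL.desc φ (r0 ≫ f) h1') (r ≫ g) (by
    apply poL.hom_ext
    · rw [poL.inl_desc_assoc, h2, reassoc_of% hw]
    · rw [poL.inr_desc_assoc, Category.assoc, h, reassoc_of% hr])
  refine ⟨po.desc e1 e2 (by rw [Category.assoc, Category.assoc, a1, b1, poL.inl_desc,
    poL.inl_desc]), ?_, ?_⟩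
  · apply po0.hom_ext
    · rw [reassoc_of% hl, po.inl_desc, a1, poL.inr_desc]
    · rw [reassoc_of% hr, po.inr_desc, b1, poL.inr_desc]
  · apply po.hom_ext
    · rw [po.inl_desc_assoc, a2]
    · rw [po.inr_desc_assoc, b2]

/-- the boundary data in one dimension -/
structure EDat_St (RA : Reedy A) (j : ℕ) where
  B : Mod K.C
  a : RA.B j ⟶ B
  p : Sph K.C j ⟶ B
  tc : TC K.C a

/-- the cell data in one dimension -/
structure EDat_Lv {j : ℕ} (s : EDat_St RA j) where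
  L : Mod K.C
  inB : s.B ⟶ L
  inA : A.obj (D j) ⟶ L
  poL : IsPushout s.a (RA.b j) inB inA
  T : Dk K.C j ⟶ L
  bd_T : bd K.C j ≫ T = s.p ≫ inB
  E : Mod K.C
  k : L ⟶ E
  c : Dk K.C (j + 1) ⟶ E
  poE : IsPushout T (sσ K.C j) k c

theorem EDat_lv (hc : ∀ j, Cofib (A.obj (D j))) (hA : ∀ j, Contr (A.obj (D j))) (j : ℕ)
    (s : EDat_St RA j) : Nonempty (EDat_Lv s) := by
  have po := IsPushout.of_hasPushout s.a (RA.b j)
  obtain ⟨T, hT⟩ := Contr.of_tc (hc j) (hA j) ((TC K.C).of_isPushout po.flip s.tc) j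
    (s.p ≫ pushout.inl _ _)
  exact ⟨⟨_, _, _, po, T, hT, _, _, _, IsPushout.of_hasPushout T (sσ K.C j)⟩⟩

theorem EDat_Lv.w1 {j : ℕ} {s : EDat_St RA j} (v : EDat_Lv s) {X : Mod K.C} {l r : v.E ⟶ X}
    (h : (v.inB ≫ v.k) ≫ l = (v.inB ≫ v.k) ≫ r) :
    RA.b j ≫ v.inA ≫ v.k ≫ l = RA.b j ≫ v.inA ≫ v.k ≫ r := by
  rw [← v.poL.w_assoc, ← v.poL.w_assoc]
  simp only [Category.assoc] at h
  rw [h]

theorem EDat_Lv.bd_τ {j : ℕ} {s : EDat_St RA j} (v : EDat_Lv s) :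
    bd K.C j ≫ sτ K.C j ≫ v.c = s.p ≫ v.inB ≫ v.k := by
  rw [← (RD K.C).b_σ_assoc, ← v.poE.w, reassoc_of% v.bd_T]

theorem EDat_Lv.w2 {j : ℕ} {s : EDat_St RA j} (v : EDat_Lv s) {X : Mod K.C} {l r : v.E ⟶ X}
    (h : (v.inB ≫ v.k) ≫ l = (v.inB ≫ v.k) ≫ r) :
    bd K.C j ≫ sτ K.C j ≫ v.c ≫ l = bd K.C j ≫ sτ K.C j ≫ v.c ≫ r := by
  rw [reassoc_of% v.bd_τ, reassoc_of% v.bd_τ]
  simp only [Category.assoc] at h
  rw [h]

/-- the boundary data in the next dimension -/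
noncomputable def EDat_next {j : ℕ} {s : EDat_St RA j} (v : EDat_Lv s) : EDat_St RA (j + 1) where
  B := pushout (v.inB ≫ v.k) (v.inB ≫ v.k)
  a := RA.sph (v.inA ≫ v.k ≫ pushout.inl _ _) (v.inA ≫ v.k ≫ pushout.inr _ _)
    (v.w1 pushout.condition)
  p := (RD K.C).sph (sτ K.C j ≫ v.c ≫ pushout.inl _ _) (sτ K.C j ≫ v.c ≫ pushout.inr _ _)
    (v.w2 pushout.condition)
  tc := EDat_tc_next (RA.po j) v.poL (IsPushout.of_hasPushout _ _) (RA.l_sph ..) (RA.r_sph ..)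
    s.tc ((TC K.C).of_isPushout v.poE (tc_sσ j))

/-- the boundary data in all dimensions -/
noncomputable def EDat_st (lv : ∀ j (s : EDat_St RA j), EDat_Lv s) : ∀ j, EDat_St RA j
  | 0 => ⟨RA.B 0, 𝟙 _, (RD K.C).init.to _, (TC K.C).id_mem _⟩
  | j + 1 => EDat_next (lv j (EDat_st lv j))

theorem exists_eData (RA : Reedy A) (hc : ∀ j, Cofib (A.obj (D j))) (hA : ∀ j, Contr (A.obj (D j))) :
    Nonempty (EData RA) := by
  let lv : ∀ j (s : EDat_St RA j), EDat_Lv s := fun j s => (EDat_lv hc hA j s).some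
  let s := EDat_st lv
  let v : ∀ j, EDat_Lv (s j) := fun j => lv j (s j)
  let b : ∀ j, (s j).B ⟶ (v j).E := fun j => (v j).inB ≫ (v j).k
  let l : ∀ j, (v j).E ⟶ (s (j + 1)).B := fun j => pushout.inl (b j) (b j)
  let r : ∀ j, (v j).E ⟶ (s (j + 1)).B := fun j => pushout.inr (b j) (b j)
  have po : ∀ j, IsPushout (b j) (b j) (l j) (r j) := fun j => IsPushout.of_hasPushout _ _
  let E : Globe ⥤ Mod K.C := Globe.lift (fun j => (v j).E) (fun j => l j ≫ b (j + 1))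
    (fun j => r j ≫ b (j + 1))
    (fun j => (Category.assoc _ _ _).trans ((congrArg (l j ≫ ·) ((po (j + 1)).w_assoc _)).trans
      (Category.assoc _ _ _).symm))
    (fun j => (Category.assoc _ _ _).trans ((congrArg (r j ≫ ·) ((po (j + 1)).w_assoc _)).trans
      (Category.assoc _ _ _).symm))
  have hσ : ∀ j, E.map (Globe.σ j) = l j ≫ b (j + 1) := fun j => Globe.lift_σ _ _ _ _ _ j
  have hτ : ∀ j, E.map (Globe.τ j) = r j ≫ b (j + 1) := fun j => Globe.lift_τ _ _ _ _ _ j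
  let RE : Reedy E :=
    { B := fun j => (s j).B
      b := b
      l := l
      r := r
      init := RA.init
      po := po
      l_b := fun j => (hσ j).symm
      r_b := fun j => (hτ j).symm }
  have la : ∀ j, RA.l j ≫ (s (j + 1)).a = ((v j).inA ≫ (v j).k) ≫ l j := fun j =>
    (RA.l_sph ..).trans (Category.assoc _ _ _).symm
  have ra : ∀ j, RA.r j ≫ (s (j + 1)).a = ((v j).inA ≫ (v j).k) ≫ r j := fun j =>
    (RA.r_sph ..).trans (Category.assoc _ _ _).symm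
  have lp : ∀ j, (RD K.C).l j ≫ (s (j + 1)).p = (sτ K.C j ≫ (v j).c) ≫ l j := fun j =>
    ((RD K.C).l_sph ..).trans (Category.assoc _ _ _).symm
  have rp : ∀ j, (RD K.C).r j ≫ (s (j + 1)).p = (sτ K.C j ≫ (v j).c) ≫ r j := fun j =>
    ((RD K.C).r_sph ..).trans (Category.assoc _ _ _).symm
  have ab : ∀ j, (s j).a ≫ b j = RA.b j ≫ (v j).inA ≫ (v j).k := fun j => (v j).poL.w_assoc _
  have pb : ∀ j, (s j).p ≫ b j = bd K.C j ≫ sτ K.C j ≫ (v j).c := fun j => (v j).bd_τ.symm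
  let α : A ⟶ E := Globe.natTrans (fun j => (v j).inA ≫ (v j).k)
    (fun j => by rw [hσ, ← RA.l_b, Category.assoc, ← ab, reassoc_of% la]; simp only [Category.assoc])
    (fun j => by rw [hτ, ← RA.r_b, Category.assoc, ← ab, reassoc_of% ra]; simp only [Category.assoc])
  let ψ : DG K.C ⟶ E := Globe.natTrans (fun j => sτ K.C j ≫ (v j).c)
    (fun j => by
      rw [hσ, ← (RD K.C).l_b j, Category.assoc, ← pb, reassoc_of% lp]; simp only [Category.assoc])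
    (fun j => by
      rw [hτ, ← (RD K.C).r_b j, Category.assoc, ← pb, reassoc_of% rp]; simp only [Category.assoc])
  exact ⟨{
    E := E
    RE := RE
    α := ⟨α, fun j => (s j).a, ab, la, ra⟩
    ψ := ⟨ψ, fun j => (s j).p, pb, lp, rp⟩
    L := fun j => (v j).L
    inB := fun j => (v j).inB
    inA := fun j => (v j).inA
    poL := fun j => (v j).poL
    T := fun j => (v j).T
    bd_T := fun j => (v j).bd_T
    k := fun j => (v j).k
    c := fun j => (v j).c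
    poE := fun j => (v j).poE
    inB_k := fun _ => rfl
    inA_k := fun _ => rfl
    τ_c := fun _ => rfl }⟩

namespace EData

variable (Ed : EData RA)

theorem tc_k (j : ℕ) : TC K.C (Ed.k j) := by
  exact (TC K.C).of_isPushout (Ed.poE j) (tc_sσ j)

theorem tc_bm (j : ℕ) : TC K.C (Ed.α.bm j) := by
  induction j with
  | zero =>
    exact EDat_tc_of_lift fun X Y p _ f g _ =>
      ⟨Ed.RE.init.to X, RA.init.hom_ext _ _, Ed.RE.init.hom_ext _ _⟩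
  | succ j ih =>
    refine EDat_tc_next (RA.po j) (Ed.poL j) (k := Ed.k j) (l := Ed.RE.l j) (r := Ed.RE.r j) ?_ ?_ ?_
      ih (Ed.tc_k j)
    · rw [Ed.inB_k]
      exact Ed.RE.po j
    · rw [Ed.α.l_bm, reassoc_of% Ed.inA_k]
    · rw [Ed.α.r_bm, reassoc_of% Ed.inA_k]

theorem tc_inA (j : ℕ) : TC K.C (Ed.inA j) := by
  exact (TC K.C).of_isPushout (Ed.poL j).flip (Ed.tc_bm j)

theorem tc_app (j : ℕ) : TC K.C (Ed.α.app.app (D j)) := by
  rw [← Ed.inA_k]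
  exact (TC K.C).comp_mem _ _ (Ed.tc_inA j) (Ed.tc_k j)

theorem EDat_step {X Y : Mod K.C} {p : X ⟶ Y} (hp : Fib K.C p) {i : ℕ} (x : Ed.E.obj (D i) ⟶ X)
    (a : A.obj (D (i + 1)) ⟶ X) (y : Ed.E.obj (D (i + 1)) ⟶ Y)
    (h1 : Ed.α.app.app (D i) ≫ x = A.map (Globe.σ i) ≫ a) (h2 : x ≫ p = Ed.E.map (Globe.σ i) ≫ y)
    (h3 : a ≫ p = Ed.α.app.app (D (i + 1)) ≫ y) :
    ∃ e : Ed.E.obj (D (i + 1)) ⟶ X, Ed.E.map (Globe.σ i) ≫ e = x ∧
      Ed.α.app.app (D (i + 1)) ≫ e = a ∧ e ≫ p = y := by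
  have w1 : Ed.α.bm i ≫ Ed.RE.b i ≫ x = RA.b i ≫ A.map (Globe.τ i) ≫ a := by
    rw [Ed.α.bm_b_assoc, h1, RA.b_σ_assoc]
  obtain ⟨e', a1, a2⟩ := (Ed.tc_k i).lift hp ((Ed.poL i).desc _ _ w1) (Ed.E.map (Globe.τ i) ≫ y) (by
    apply (Ed.poL i).hom_ext
    · rw [IsPushout.inl_desc_assoc, reassoc_of% Ed.inB_k, Category.assoc, h2, Ed.RE.b_σ_assoc]
    · rw [IsPushout.inr_desc_assoc, reassoc_of% Ed.inA_k, Category.assoc, h3,
        Ed.α.app.naturality_assoc])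
  have w2 : Ed.RE.b i ≫ x = Ed.RE.b i ≫ e' := by
    conv_rhs => rw [← Ed.inB_k, Category.assoc, a1, IsPushout.inl_desc]
  have w3 : Ed.α.bm (i + 1) ≫ Ed.RE.sph x e' w2 = RA.b (i + 1) ≫ a := by
    apply RA.ext
    · rw [Ed.α.l_bm_assoc, Ed.RE.l_sph, RA.l_b_assoc, h1]
    · rw [Ed.α.r_bm_assoc, Ed.RE.r_sph, RA.r_b_assoc, ← Ed.inA_k, Category.assoc, a1,
        IsPushout.inr_desc]
  obtain ⟨e, b1, b2⟩ := (Ed.tc_k (i + 1)).lift hp ((Ed.poL (i + 1)).desc _ _ w3) y (by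
    apply (Ed.poL (i + 1)).hom_ext
    · rw [IsPushout.inl_desc_assoc, reassoc_of% Ed.inB_k]
      apply Ed.RE.ext
      · rw [Ed.RE.l_sph_assoc, Ed.RE.l_b_assoc, h2]
      · rw [Ed.RE.r_sph_assoc, Ed.RE.r_b_assoc, a2]
    · rw [IsPushout.inr_desc_assoc, reassoc_of% Ed.inA_k, h3])
  refine ⟨e, ?_, ?_, b2⟩
  · rw [← Ed.RE.l_b, ← Ed.inB_k, Category.assoc, Category.assoc, b1, IsPushout.inl_desc,
      Ed.RE.l_sph]
  · rw [← Ed.inA_k, Category.assoc, b1, IsPushout.inr_desc]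

theorem EDat_rel {X Y : Mod K.C} {p : X ⟶ Y} (hp : Fib K.C p) {j i : ℕ} (h : j ≤ i)
    (x : Ed.E.obj (D j) ⟶ X) (a : A.obj (D i) ⟶ X) (y : Ed.E.obj (D i) ⟶ Y)
    (h1 : Ed.α.app.app (D j) ≫ x = A.map (Globe.src h) ≫ a)
    (h2 : x ≫ p = Ed.E.map (Globe.src h) ≫ y) (h3 : a ≫ p = Ed.α.app.app (D i) ≫ y) :
    ∃ e : Ed.E.obj (D i) ⟶ X, Ed.E.map (Globe.src h) ≫ e = x ∧
      Ed.α.app.app (D i) ≫ e = a ∧ e ≫ p = y := by
  induction i, h using Nat.le_induction with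
  | base =>
    simp only [Globe.src_self, CategoryTheory.Functor.map_id, Category.id_comp] at h1 h2 ⊢
    exact ⟨x, rfl, h1, h2⟩
  | succ i hi ih =>
    rw [Globe.src_succ hi, Functor.map_comp, Category.assoc] at h1 h2
    obtain ⟨e, e1, e2, e3⟩ := ih (A.map (Globe.σ i) ≫ a) (Ed.E.map (Globe.σ i) ≫ y) h1 h2 (by
      rw [Category.assoc, h3, Ed.α.app.naturality_assoc])
    obtain ⟨e', f1, f2, f3⟩ := Ed.EDat_step hp e a y e2 e3 h3
    exact ⟨e', by rw [Globe.src_succ hi, Functor.map_comp, Category.assoc, f1, e1], f2, f3⟩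

theorem tc_sumNat (S : Theta0) : TC K.C ((sumNat Ed.α.app).app S) := by
  induction S using Theta0.induction with
  | hd n =>
    rw [sumNat_app_disc]
    exact Ed.tc_app n
  | hg T j i' hj hj' ih =>
    refine EDat_tc_of_lift fun X Y p hp f g h => ?_
    have pA := sumF_pres A T j i' hj hj'
    have pE := sumF_pres Ed.E T j i' hj hj'
    obtain ⟨e1, a1, a2⟩ := ih.lift hp ((sumF A).map (inl T j i' hj hj') ≫ f)
      ((sumF Ed.E).map (inl T j i' hj hj') ≫ g) (by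
        rw [Category.assoc, h, (sumNat Ed.α.app).naturality_assoc])
    have sA : (sumF A).map (src hj'.le) = A.map (Globe.src hj'.le) := sumF_map_discF _ _
    have sE : (sumF Ed.E).map (src hj'.le) = Ed.E.map (Globe.src hj'.le) := sumF_map_discF _ _
    obtain ⟨e2, b1, b2, b3⟩ := Ed.EDat_rel hp hj'.le ((sumF Ed.E).map (tgt hj.le ≫ lastι T) ≫ e1)
      ((sumF A).map (inr T j i' hj hj') ≫ f) ((sumF Ed.E).map (inr T j i' hj hj') ≫ g)
      (by rw [← sumNat_app_disc, ← sA, ← pA.w_assoc, ← a1, (sumNat Ed.α.app).naturality_assoc])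
      (by rw [Category.assoc, a2, ← sE, pE.w_assoc])
      (by rw [← sumNat_app_disc, Category.assoc, h, (sumNat Ed.α.app).naturality_assoc])
    rw [← sE] at b1
    rw [← sumNat_app_disc] at b2
    refine ⟨pE.desc e1 e2 b1.symm, ?_, ?_⟩
    · apply pA.hom_ext
      · rw [(sumNat Ed.α.app).naturality_assoc, pE.inl_desc, a1]
      · rw [(sumNat Ed.α.app).naturality_assoc, pE.inr_desc, b2]
    · apply pE.hom_ext
      · rw [pE.inl_desc_assoc, a2]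
      · rw [pE.inr_desc_assoc, b3]

/-- extension with free `ψ`-cell -/
theorem extend₀ {X : Mod K.C} {j : ℕ} (φ : Ed.RE.B j ⟶ X) (a : A.obj (D j) ⟶ X)
    (h : Ed.α.bm j ≫ φ = RA.b j ≫ a) :
    ∃ e : Ed.E.obj (D j) ⟶ X, Ed.RE.b j ≫ e = φ ∧ Ed.α.app.app (D j) ≫ e = a := by
  obtain ⟨e, he⟩ := (Ed.tc_k j).extend ((Ed.poL j).desc φ a h)
  refine ⟨e, ?_, ?_⟩
  · rw [← Ed.inB_k, Category.assoc, he, IsPushout.inl_desc]
  · rw [← Ed.inA_k, Category.assoc, he, IsPushout.inr_desc]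

/-- extension with prescribed `ψ`-cell -/
theorem extend {X : Mod K.C} {j : ℕ} (φ : Ed.RE.B j ⟶ X) (a : A.obj (D j) ⟶ X) (d : Dk K.C j ⟶ X)
    (h : Ed.α.bm j ≫ φ = RA.b j ≫ a) (h' : Ed.ψ.bm j ≫ φ = bd K.C j ≫ d)
    (hX : ∀ u : Dk K.C j ⟶ X, bd K.C j ≫ u = bd K.C j ≫ d → Sim u d) :
    ∃ e : Ed.E.obj (D j) ⟶ X, Ed.RE.b j ≫ e = φ ∧ Ed.α.app.app (D j) ≫ e = a ∧
      Ed.ψ.app.app (D j) ≫ e = d := by
  obtain ⟨w, w1, w2⟩ := hX (Ed.T j ≫ (Ed.poL j).desc φ a h) (by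
    rw [reassoc_of% Ed.bd_T, IsPushout.inl_desc, h'])
  refine ⟨(Ed.poE j).desc _ w w1.symm, ?_, ?_, ?_⟩
  · rw [← Ed.inB_k, Category.assoc, IsPushout.inl_desc, IsPushout.inl_desc]
  · rw [← Ed.inA_k, Category.assoc, IsPushout.inl_desc, IsPushout.inr_desc]
  · rw [← Ed.τ_c, Category.assoc, IsPushout.inr_desc, w2]

/-- natural extension into an objectwise contractible coglobular object -/
theorem exists_natExt (Q : Globe ⥤ Mod K.C) (hQ : ∀ j, Contr (Q.obj (D j))) (a : A ⟶ Q)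
    (d : DG K.C ⟶ Q) : ∃ ζ : Ed.E ⟶ Q, Ed.α.app ≫ ζ = a ∧ Ed.ψ.app ≫ ζ = d := by
  let S : ℕ → Type := fun j => {z : Ed.E.obj (D j) ⟶ Q.obj (D j) //
    Ed.α.app.app (D j) ≫ z = a.app (D j) ∧ Ed.ψ.app.app (D j) ≫ z = d.app (D j) ∧
      Ed.RE.b j ≫ z ≫ Q.map (Globe.σ j) = Ed.RE.b j ≫ z ≫ Q.map (Globe.τ j)}
  have h0 : Nonempty (S 0) := by
    obtain ⟨e, -, e2, e3⟩ := Ed.extend (Ed.RE.init.to _) (a.app (D 0)) (d.app (D 0))
      (RA.init.hom_ext _ _) ((RD K.C).init.hom_ext _ _) fun u hu => (hQ 0).sim _ _ hu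
    exact ⟨⟨e, e2, e3, Ed.RE.init.hom_ext _ _⟩⟩
  have hs : ∀ j (z : S j), ∃ z' : S (j + 1),
      Ed.E.map (Globe.σ j) ≫ z'.1 = z.1 ≫ Q.map (Globe.σ j) ∧
      Ed.E.map (Globe.τ j) ≫ z'.1 = z.1 ≫ Q.map (Globe.τ j) := by
    rintro j ⟨z, z1, z2, z3⟩
    obtain ⟨e, e1, e2, e3⟩ := Ed.extend (Ed.RE.sph _ _ z3) (a.app (D (j + 1))) (d.app (D (j + 1)))
      (by
        apply RA.ext
        · rw [Ed.α.l_bm_assoc, Ed.RE.l_sph, RA.l_b_assoc, reassoc_of% z1, a.naturality]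
        · rw [Ed.α.r_bm_assoc, Ed.RE.r_sph, RA.r_b_assoc, reassoc_of% z1, a.naturality])
      (by
        apply (RD K.C).ext
        · rw [Ed.ψ.l_bm_assoc, Ed.RE.l_sph, (RD K.C).l_b_assoc, reassoc_of% z2, d.naturality]
        · rw [Ed.ψ.r_bm_assoc, Ed.RE.r_sph, (RD K.C).r_b_assoc, reassoc_of% z2, d.naturality])
      fun u hu => (hQ _).sim _ _ hu
    rw [Ed.RE.b_eq_iff, Ed.RE.l_sph, Ed.RE.r_sph] at e1
    refine ⟨⟨e, e2, e3, Ed.RE.b_ext ?_ ?_⟩, e1.1, e1.2⟩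
    · rw [reassoc_of% e1.1, reassoc_of% e1.1, ← Q.map_comp, ← Q.map_comp, Globe.σσ]
    · rw [reassoc_of% e1.2, reassoc_of% e1.2, ← Q.map_comp, ← Q.map_comp, Globe.τσ]
  choose nx h1 h2 using hs
  let z : ∀ j, S j := fun j => Nat.rec (motive := S) h0.some nx j
  refine ⟨Globe.natTrans (fun j => (z j).1) (fun j => h1 j (z j)) (fun j => h2 j (z j)), ?_, ?_⟩
  · ext1
    funext x
    exact (z x.as.dim).2.1
  · ext1
    funext x
    exact (z x.as.dim).2.2.1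

end EData

end Vale.Agent.P259
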