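import Vale.Agent.P259.Sum

/-! # P259: existence of coherators, part A: freely adjoining lifts -/

set_option backward.isDefEq.respectTransparency false

open CategoryTheory Limits Opposite

namespace Vale.Agent.P259

open Theta0

theorem isPushout_of_exists {N : Type*} [Category N] {Z X Y P : N} {f : Z ⟶ X} {g : Z ⟶ Y}
    {l : X ⟶ P} {r : Y ⟶ P} (w : f ≫ l = g ≫ r)
    (ex : ∀ (U : N) (a : X ⟶ U) (b : Y ⟶ U), f ≫ a = g ≫ b → ∃ d, l ≫ d = a ∧ r ≫ d = b)
    (uq : ∀ (U : N) (d d' : P ⟶ U), l ≫ d = l ≫ d' → r ≫ d = r ≫ d' → d = d') :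
    IsPushout f g l r :=
  ⟨⟨w⟩, ⟨PushoutCocone.IsColimit.mk w (fun s => (ex _ _ _ s.condition).choose)
    (fun s => (ex _ _ _ s.condition).choose_spec.1) (fun s => (ex _ _ _ s.condition).choose_spec.2)
    fun s _ h1 h2 => uq _ _ _ (h1.trans (ex _ _ _ s.condition).choose_spec.1.symm)
      (h2.trans (ex _ _ _ s.condition).choose_spec.2.symm)⟩⟩

variable {C : GlobExt} {A : Set (ParPair C)}

variable (A) in
/-- formal morphisms -/
inductive Tm : Theta0 → Theta0 → Type
  | old {S T : Theta0} (f : C.Hom S T) : Tm S T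
  | new (p : A) : Tm (disc (p.1.n + 1)) p.1.S
  | comp {S T U : Theta0} : Tm S T → Tm T U → Tm S U
  | desc {T : Theta0} {j i' : ℕ} {h : j < T.last} {h' : j < i'} {U : Theta0} :
      Tm T U → Tm (disc i') U → Tm (glue T j i' h h') U

variable (A) in
/-- interpretations -/
structure Interp where
  D : GlobExt
  Φ : ExtHom C D
  l : ∀ p : A, D.Hom (disc (p.1.n + 1)) p.1.S
  hl : ∀ p, IsLift D.F (l p) (Φ.map p.1.f) (Φ.map p.1.g)

/-- the value of a formal morphism, as a relation -/
def Tm.ev (I : Interp A) : ∀ {S T : Theta0}, Tm A S T → I.D.Hom S T → Prop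
  | _, _, .old f, x => x = I.Φ.map f
  | _, _, .new p, x => x = I.l p
  | _, _, .comp a b, x => ∃ f g, a.ev I f ∧ b.ev I g ∧ x = f ≫ g
  | _, _, .desc a b, x =>
      a.ev I (I.D.F.map (inl _ _ _ _ _) ≫ x) ∧ b.ev I (I.D.F.map (inr _ _ _ _ _) ≫ x)

theorem Tm.ev_unique (I : Interp A) {S T : Theta0} (t : Tm A S T) :
    ∀ x y, t.ev I x → t.ev I y → x = y := by
  induction t with
  | old f => exact fun x y hx hy => Eq.trans hx (Eq.symm hy)
  | new p => exact fun x y hx hy => Eq.trans hx (Eq.symm hy)
  | comp a b iha ihb =>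
    rintro x y ⟨f, g, hf, hg, rfl⟩ ⟨f', g', hf', hg', rfl⟩
    rw [iha f f' hf hf', ihb g g' hg hg']
  | desc a b iha ihb =>
    rintro x y ⟨h1, h2⟩ ⟨h1', h2'⟩
    exact (I.D.pres _ _ _ _ _).hom_ext (iha _ _ h1 h1') (ihb _ _ h2 h2')

/-- representable families -/
def Rep {S T : Theta0} (φ : ∀ I : Interp A, I.D.Hom S T) : Prop :=
  ∃ t : Tm A S T, ∀ I, t.ev I (φ I)

instance small_rep (S T : Theta0) : Small.{0} {φ : ∀ I : Interp A, I.D.Hom S T // Rep φ} :=
  small_of_injective (f := fun φ => φ.2.choose) fun φ ψ h => Subtype.ext (funext fun I =>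
    Tm.ev_unique I _ _ _ (φ.2.choose_spec I) (by
      have := ψ.2.choose_spec I
      dsimp only at h
      rw [h]
      exact this))

variable (A) in
/-- morphisms of the free extension -/
def FreeH (S T : Theta0) : Type := Shrink.{0} {φ : ∀ I : Interp A, I.D.Hom S T // Rep φ}

namespace FreeH

variable {S T U : Theta0}

/-- the value in an interpretation -/
noncomputable def val (x : FreeH A S T) : ∀ I : Interp A, I.D.Hom S T := ((equivShrink _).symm x).1

theorem rep (x : FreeH A S T) : Rep x.val := ((equivShrink _).symm x).2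

/-- the morphism given by a representable family -/
noncomputable def mk (φ : ∀ I : Interp A, I.D.Hom S T) (h : Rep φ) : FreeH A S T :=
  equivShrink _ ⟨φ, h⟩

theorem val_mk (φ : ∀ I : Interp A, I.D.Hom S T) (h : Rep φ) : (mk φ h).val = φ :=
  congrArg Subtype.val ((equivShrink {φ : ∀ I : Interp A, I.D.Hom S T // Rep φ}).symm_apply_apply
    ⟨φ, h⟩)

theorem ext {x y : FreeH A S T} (h : ∀ I, x.val I = y.val I) : x = y :=
  (equivShrink _).symm.injective (Subtype.ext (funext h))

/-- old morphisms -/
noncomputable def old (f : C.Hom S T) : FreeH A S T := mk (fun I => I.Φ.map f) ⟨.old f, fun _ => rfl⟩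

theorem val_old (f : C.Hom S T) (I : Interp A) : (old f).val I = I.Φ.map f :=
  congrFun (val_mk _ _) I

/-- new lifts -/
noncomputable def new (p : A) : FreeH A (disc (p.1.n + 1)) p.1.S :=
  mk (fun I => I.l p) ⟨.new p, fun _ => rfl⟩

theorem val_new (p : A) (I : Interp A) : (new p).val I = I.l p := congrFun (val_mk _ _) I

/-- composition -/
noncomputable def comp (x : FreeH A S T) (y : FreeH A T U) : FreeH A S U :=
  mk (fun I => x.val I ≫ y.val I) (by
    obtain ⟨a, ha⟩ := x.rep
    obtain ⟨b, hb⟩ := y.rep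
    exact ⟨.comp a b, fun I => ⟨_, _, ha I, hb I, rfl⟩⟩)

theorem val_comp (x : FreeH A S T) (y : FreeH A T U) (I : Interp A) :
    (x.comp y).val I = x.val I ≫ y.val I := congrFun (val_mk _ _) I

end FreeH

variable (A) in
/-- the free extension as a category under `Θ₀` -/
noncomputable def freePre : PreExt where
  cat :=
    { Hom := FreeH A
      id := fun S => FreeH.old (𝟙 (C.ob S))
      comp := FreeH.comp
      id_comp := fun f => FreeH.ext fun I => by
        erw [FreeH.val_comp, FreeH.val_old, I.Φ.map_id, Category.id_comp]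
      comp_id := fun f => FreeH.ext fun I => by
        erw [FreeH.val_comp, FreeH.val_old, I.Φ.map_id, Category.comp_id]
      assoc := fun f g h => FreeH.ext fun I => by
        erw [FreeH.val_comp, FreeH.val_comp, FreeH.val_comp, FreeH.val_comp, Category.assoc] }
  ι f := FreeH.old (C.F.map f)
  ι_id S := congrArg FreeH.old (C.F.map_id S)
  ι_comp f g := FreeH.ext fun I => by
    erw [FreeH.val_comp, FreeH.val_old, FreeH.val_old, FreeH.val_old, C.F.map_comp, I.Φ.map_comp]

theorem val_F {S T : Theta0} (f : S ⟶ T) (I : Interp A) :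
    FreeH.val ((freePre A).F.map f) I = I.D.F.map f := (FreeH.val_old _ I).trans (I.Φ.map_F f)

theorem val_comp' {S T U : Theta0} (f : (freePre A).F.obj S ⟶ (freePre A).F.obj T)
    (g : (freePre A).F.obj T ⟶ (freePre A).F.obj U) (I : Interp A) :
    FreeH.val (f ≫ g) I = FreeH.val f I ≫ FreeH.val g I := FreeH.val_comp f g I

variable (A) in
/-- the free extension -/
noncomputable def freeExt : GlobExt where
  toPreExt := freePre A
  pres T j i' h h' := by
    have w : (freePre A).F.map (tgt h.le ≫ lastι T) ≫ (freePre A).F.map (inl T j i' h h') =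
        (freePre A).F.map (src h'.le) ≫ (freePre A).F.map (inr T j i' h h') :=
      FreeH.ext fun I => by
        rw [val_comp', val_comp', val_F, val_F, val_F, val_F]
        exact (I.D.pres T j i' h h').w
    refine isPushout_of_exists w (fun U a b hab => ?_) fun U d d' h1 h2 => FreeH.ext fun I => ?_
    · have w' : ∀ I : Interp A, I.D.F.map (tgt h.le ≫ lastι T) ≫ FreeH.val a I =
          I.D.F.map (src h'.le) ≫ FreeH.val b I := fun I => by
        have := congrArg (fun z => FreeH.val z I) hab
        erw [val_comp', val_comp', val_F, val_F] at this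
        exact this
      let d : FreeH A (glue T j i' h h') U :=
        FreeH.mk (fun I => (I.D.pres T j i' h h').desc _ _ (w' I)) (by
          obtain ⟨a, ha⟩ := FreeH.rep a
          obtain ⟨b, hb⟩ := FreeH.rep b
          refine ⟨.desc a b, fun I => ⟨?_, ?_⟩⟩
          · rw [IsPushout.inl_desc]
            exact ha I
          · rw [IsPushout.inr_desc]
            exact hb I)
      have hd : ∀ I, d.val I = (I.D.pres T j i' h h').desc _ _ (w' I) :=
        congrFun (FreeH.val_mk _ _)
      refine ⟨d, FreeH.ext fun I => ?_, FreeH.ext fun I => ?_⟩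
      · erw [val_comp', val_F, hd, IsPushout.inl_desc]
      · erw [val_comp', val_F, hd, IsPushout.inr_desc]
    · have e1 := congrArg (fun z => FreeH.val z I) h1
      have e2 := congrArg (fun z => FreeH.val z I) h2
      erw [val_comp', val_comp', val_F] at e1 e2
      exact (I.D.pres T j i' h h').hom_ext e1 e2

variable (A) in
/-- the map to the free extension -/
noncomputable def freeStep : ExtHom C (freeExt A) where
  map := FreeH.old
  map_id _ := rfl
  map_comp f g := FreeH.ext fun I => by
    erw [FreeH.val_comp, FreeH.val_old, FreeH.val_old, FreeH.val_old, I.Φ.map_comp]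
  map_F _ := rfl

/-- evaluation -/
noncomputable def freeVal (I : Interp A) : ExtHom (freeExt A) I.D where
  map x := FreeH.val x I
  map_id S := (FreeH.val_old _ I).trans (I.Φ.map_id S)
  map_comp f g := FreeH.val_comp f g I
  map_F f := val_F f I

theorem free_isLift (p : A) : IsLift (freeExt A).F (FreeH.new p : (freeExt A).Hom _ _)
    ((freeStep A).map p.1.f) ((freeStep A).map p.1.g) := by
  constructor
  · refine FreeH.ext fun I => ?_
    erw [val_comp', val_F, FreeH.val_new, FreeH.val_old]
    exact (I.hl p).1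
  · refine FreeH.ext fun I => ?_
    erw [val_comp', val_F, FreeH.val_new, FreeH.val_old]
    exact (I.hl p).2

theorem free_ind (P : ∀ {S T : Theta0}, (freeExt A).Hom S T → Prop)
    (h1 : ∀ {S T} (f : C.Hom S T), P ((freeStep A).map f)) (h2 : ∀ p : A, P (FreeH.new p))
    (h3 : ∀ {S T U} (f : (freeExt A).Hom S T) (g : (freeExt A).Hom T U), P f → P g → P (f ≫ g))
    (h4 : ∀ T j i' h h' U (k : (freeExt A).Hom (glue T j i' h h') U),
      P ((freeExt A).F.map (inl T j i' h h') ≫ k) → P ((freeExt A).F.map (inr T j i' h h') ≫ k) →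
        P k) {S T : Theta0} (x : (freeExt A).Hom S T) : P x := by
  suffices ∀ (t : Tm A S T) (x : FreeH A S T), (∀ I, t.ev I (x.val I)) → P x by
    obtain ⟨t, ht⟩ := FreeH.rep x
    exact this t x ht
  clear x
  intro t x ht
  induction t with
  | old f =>
    have : x = FreeH.old f := FreeH.ext fun I => (ht I).trans (FreeH.val_old f I).symm
    exact this ▸ h1 f
  | new p =>
    have : x = FreeH.new p := FreeH.ext fun I => (ht I).trans (FreeH.val_new p I).symm
    exact this ▸ h2 p
  | comp a b iha ihb =>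
    choose f g hf hg hx using ht
    have : x = FreeH.comp (FreeH.mk f ⟨a, hf⟩) (FreeH.mk g ⟨b, hg⟩) := FreeH.ext fun I => by
      rw [FreeH.val_comp, FreeH.val_mk, FreeH.val_mk]
      exact hx I
    rw [this]
    refine h3 _ _ (iha _ fun I => ?_) (ihb _ fun I => ?_)
    · rw [FreeH.val_mk]
      exact hf I
    · rw [FreeH.val_mk]
      exact hg I
  | desc a b iha ihb =>
    refine h4 _ _ _ _ _ _ x (iha _ fun I => ?_) (ihb _ fun I => ?_)
    · erw [val_comp', val_F]
      exact (ht I).1
    · erw [val_comp', val_F]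
      exact (ht I).2

theorem free_univ (D : GlobExt) (Φ : ExtHom C D) (l : ∀ p : A, D.Hom (disc (p.1.n + 1)) p.1.S)
    (hl : ∀ p, IsLift D.F (l p) (Φ.map p.1.f) (Φ.map p.1.g)) :
    ∃! Ψ : ExtHom (freeExt A) D, (freeStep A).comp Ψ = Φ ∧ ∀ p, Ψ.map (FreeH.new p) = l p := by
  let I : Interp A := ⟨D, Φ, l, hl⟩
  refine ⟨freeVal I, ⟨?_, fun p => FreeH.val_new p I⟩, ?_⟩
  · ext S T f
    exact FreeH.val_old f I
  · rintro Ψ ⟨h1, h2⟩
    ext S T x
    refine free_ind (fun x => Ψ.map x = (freeVal I).map x) ?_ ?_ ?_ ?_ x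
    · intro S T f
      exact (congrArg (fun z : ExtHom C D => z.map f) h1).trans (FreeH.val_old f I).symm
    · exact fun p => (h2 p).trans (FreeH.val_new p I).symm
    · intro S T U f g hf hg
      rw [Ψ.map_comp, (freeVal I).map_comp, hf, hg]
    · intro T j i' h h' U k hk hk'
      rw [Ψ.map_comp, (freeVal I).map_comp, Ψ.map_F, (freeVal I).map_F] at hk hk'
      exact (D.pres T j i' h h').hom_ext hk hk'

end Vale.Agent.P259
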