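import Vale.Agent.P259.ExA

/-! # P259: existence of coherators, part B: the colimit of a tower -/

set_option backward.isDefEq.respectTransparency false

open CategoryTheory Limits Opposite

namespace Vale.Agent.P259

open Theta0

/-- the identity morphism -/
def ExtHom.idE (C : GlobExt) : ExtHom C C where
  map f := f
  map_id _ := rfl
  map_comp _ _ := rfl
  map_F _ := rfl

variable {E : ℕ → GlobExt} (st : ∀ k, ExtHom (E k) (E (k + 1)))

/-- transition maps -/
def tr {k m : ℕ} (h : k ≤ m) : ExtHom (E k) (E m) :=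
  Nat.leRec (motive := fun m _ => ExtHom (E k) (E m)) (ExtHom.idE _)
    (fun m _ Φ => Φ.comp (st m)) h

theorem tr_self {k : ℕ} (h : k ≤ k) {S T : Theta0} (f : (E k).Hom S T) : (tr st h).map f = f := by
  have : tr st h = ExtHom.idE _ := Nat.leRec_self ..
  rw [this]
  rfl

theorem tr_succ {k m : ℕ} (h : k ≤ m) (h' : k ≤ m + 1) {S T : Theta0} (f : (E k).Hom S T) :
    (tr st h').map f = (st m).map ((tr st h).map f) := by
  have : tr st h' = (tr st h).comp (st m) := Nat.leRec_succ _ _ h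
  rw [this]
  rfl

theorem tr_tr {k m n : ℕ} (h : k ≤ m) (h' : m ≤ n) {S T : Theta0} (f : (E k).Hom S T) :
    (tr st h').map ((tr st h).map f) = (tr st (h.trans h')).map f := by
  induction n, h' using Nat.le_induction with
  | base => rw [tr_self]
  | succ n hn ih => rw [tr_succ st hn, tr_succ st (h.trans hn), ih]

/-- eventual equality -/
def LRel (S T : Theta0) (a b : Σ k, (E k).Hom S T) : Prop :=
  ∃ (m : ℕ) (h : a.1 ≤ m) (h' : b.1 ≤ m), (tr st h).map a.2 = (tr st h').map b.2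

theorem LRel.at {S T : Theta0} {a b : Σ k, (E k).Hom S T} (r : LRel st S T a b) :
    ∃ m0, ∀ m, m0 ≤ m → ∀ (h : a.1 ≤ m) (h' : b.1 ≤ m), (tr st h).map a.2 = (tr st h').map b.2 := by
  obtain ⟨m, h, h', e⟩ := r
  exact ⟨m, fun n hn _ _ => by rw [← tr_tr st h hn, e, tr_tr]⟩

theorem lrel_equiv (S T : Theta0) : Equivalence (LRel st S T) := by
  refine ⟨fun a => ⟨a.1, le_rfl, le_rfl, rfl⟩, fun ⟨m, h, h', e⟩ => ⟨m, h', h, e.symm⟩, ?_⟩
  intro a b c r r'
  obtain ⟨m, hm⟩ := r.at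
  obtain ⟨m', hm'⟩ := r'.at
  exact ⟨m + m' + a.1 + b.1 + c.1, by omega, by omega,
    (hm _ (by omega) _ (by omega)).trans (hm' _ (by omega) _ _)⟩

/-- morphisms of the colimit -/
def LH (S T : Theta0) : Type := Quot (LRel st S T)

namespace LH

variable {st} {S T U : Theta0}

variable (st) in
/-- the class of a morphism -/
def mk (k : ℕ) (f : (E k).Hom S T) : LH st S T := Quot.mk _ ⟨k, f⟩

theorem exact {k k' : ℕ} {f : (E k).Hom S T} {g : (E k').Hom S T} (h : mk st k f = mk st k' g) :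
    ∃ m0, ∀ m, m0 ≤ m → ∀ (h : k ≤ m) (h' : k' ≤ m), (tr st h).map f = (tr st h').map g :=
  LRel.at st ((lrel_equiv st S T).eqvGen_iff.1 (Quot.eq.1 h))

theorem mk_tr {k m : ℕ} (h : k ≤ m) (f : (E k).Hom S T) : mk st m ((tr st h).map f) = mk st k f :=
  Quot.sound ⟨m, le_rfl, h, tr_self st _ _⟩

theorem rep (x : LH st S T) : ∃ k0, ∀ k, k0 ≤ k → ∃ f, mk st k f = x := by
  obtain ⟨⟨k, f⟩, rfl⟩ := Quot.exists_rep x
  exact ⟨k, fun m h => ⟨_, mk_tr h f⟩⟩

theorem exists_comp (x : LH st S T) (y : LH st T U) : ∃ z : LH st S U,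
    ∀ k f g, mk st k f = x → mk st k g = y → mk st k (f ≫ g) = z := by
  obtain ⟨a, ha⟩ := x.rep
  obtain ⟨b, hb⟩ := y.rep
  obtain ⟨f, rfl⟩ := ha (a + b) (by omega)
  obtain ⟨g, rfl⟩ := hb (a + b) (by omega)
  refine ⟨mk st _ (f ≫ g), fun k f' g' hf hg => ?_⟩
  obtain ⟨m, hm⟩ := exact hf
  obtain ⟨m', hm'⟩ := exact hg
  have h1 : k ≤ m + m' + k + (a + b) := by omega
  have h2 : a + b ≤ m + m' + k + (a + b) := by omega
  rw [← mk_tr h1, ← mk_tr h2, ExtHom.map_comp, ExtHom.map_comp, hm _ (by omega) h1 h2,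
    hm' _ (by omega) h1 h2]

/-- composition -/
noncomputable def comp (x : LH st S T) (y : LH st T U) : LH st S U := (exists_comp x y).choose

theorem comp_mk (k : ℕ) (f : (E k).Hom S T) (g : (E k).Hom T U) :
    comp (mk st k f) (mk st k g) = mk st k (f ≫ g) :=
  ((exists_comp _ _).choose_spec k f g rfl rfl).symm

theorem mk_F (k : ℕ) (f : S ⟶ T) : mk st k ((E k).F.map f) = mk st 0 ((E 0).F.map f) := by
  rw [← mk_tr (Nat.zero_le k), ExtHom.map_F]

theorem mk_id (k : ℕ) (S : Theta0) : mk st k (𝟙 ((E k).ob S)) = mk st 0 (𝟙 ((E 0).ob S)) := by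
  rw [← mk_tr (Nat.zero_le k), ExtHom.map_id]

end LH

/-- the colimit as a category under `Θ₀` -/
noncomputable def limPre : PreExt where
  cat :=
    { Hom := LH st
      id := fun S => LH.mk st 0 (𝟙 ((E 0).ob S))
      comp := LH.comp
      id_comp := fun x => by
        obtain ⟨k, hk⟩ := x.rep
        obtain ⟨f, rfl⟩ := hk k le_rfl
        exact (congrArg (LH.comp · _) (LH.mk_id k _).symm).trans
          ((LH.comp_mk k _ _).trans (congrArg _ (Category.id_comp _)))
      comp_id := fun x => by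
        obtain ⟨k, hk⟩ := x.rep
        obtain ⟨f, rfl⟩ := hk k le_rfl
        exact (congrArg (LH.comp _ ·) (LH.mk_id k _).symm).trans
          ((LH.comp_mk k _ _).trans (congrArg _ (Category.comp_id _)))
      assoc := fun x y z => by
        obtain ⟨a, ha⟩ := x.rep
        obtain ⟨b, hb⟩ := y.rep
        obtain ⟨c, hc⟩ := z.rep
        obtain ⟨f, rfl⟩ := ha (a + b + c) (by omega)
        obtain ⟨g, rfl⟩ := hb (a + b + c) (by omega)
        obtain ⟨h, rfl⟩ := hc (a + b + c) (by omega)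
        change LH.comp (LH.comp _ _) _ = LH.comp _ (LH.comp _ _)
        rw [LH.comp_mk, LH.comp_mk, LH.comp_mk, LH.comp_mk, Category.assoc] }
  ι f := LH.mk st 0 ((E 0).F.map f)
  ι_id S := congrArg (LH.mk st 0) ((E 0).F.map_id S)
  ι_comp f g := (congrArg (LH.mk st 0) ((E 0).F.map_comp f g)).trans (LH.comp_mk 0 _ _).symm

theorem lim_F_comp {S T U : Theta0} (x : S ⟶ T) (k : ℕ) (f : (E k).Hom T U) :
    ((limPre st).F.map x ≫ (LH.mk st k f : (limPre st).F.obj T ⟶ (limPre st).F.obj U)) =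
      LH.mk st k ((E k).F.map x ≫ f) :=
  (congrArg (LH.comp · _) (LH.mk_F k x).symm).trans (LH.comp_mk k _ _)

/-- the colimit of the tower -/
noncomputable def limExt : GlobExt where
  toPreExt := limPre st
  pres T j i' h h' := by
    refine isPushout_of_exists ?_ (fun U x y hxy => ?_) fun U x y h1 h2 => ?_
    · exact (LH.comp_mk 0 _ _).trans ((congrArg (LH.mk st 0) ((E 0).pres T j i' h h').w).trans
        (LH.comp_mk 0 _ _).symm)
    · obtain ⟨a, ha⟩ := LH.rep x
      obtain ⟨b, hb⟩ := LH.rep y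
      obtain ⟨f, rfl⟩ := ha (a + b) (by omega)
      obtain ⟨g, rfl⟩ := hb (a + b) (by omega)
      obtain ⟨m, hm⟩ := LH.exact ((lim_F_comp st _ _ f).symm.trans (hxy.trans (lim_F_comp st _ _ g)))
      have h1 : a + b ≤ m + (a + b) := by omega
      have e := hm _ (by omega) h1 h1
      rw [ExtHom.map_comp, ExtHom.map_comp, ExtHom.map_F, ExtHom.map_F] at e
      refine ⟨LH.mk st _ (((E _).pres T j i' h h').desc _ _ e), ?_, ?_⟩
      · exact (lim_F_comp st _ _ _).trans ((congrArg _ (IsPushout.inl_desc ..)).trans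
          (LH.mk_tr h1 f))
      · exact (lim_F_comp st _ _ _).trans ((congrArg _ (IsPushout.inr_desc ..)).trans
          (LH.mk_tr h1 g))
    · obtain ⟨a, ha⟩ := LH.rep x
      obtain ⟨b, hb⟩ := LH.rep y
      obtain ⟨f, rfl⟩ := ha (a + b) (by omega)
      obtain ⟨g, rfl⟩ := hb (a + b) (by omega)
      obtain ⟨m, hm⟩ := LH.exact ((lim_F_comp st _ _ f).symm.trans (h1.trans (lim_F_comp st _ _ g)))
      obtain ⟨m', hm'⟩ :=
        LH.exact ((lim_F_comp st _ _ f).symm.trans (h2.trans (lim_F_comp st _ _ g)))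
      have h3 : a + b ≤ m + m' + (a + b) := by omega
      have e := hm _ (by omega) h3 h3
      have e' := hm' _ (by omega) h3 h3
      rw [ExtHom.map_comp, ExtHom.map_comp, ExtHom.map_F] at e e'
      exact (LH.mk_tr h3 f).symm.trans ((congrArg (LH.mk st _)
        (((E _).pres T j i' h h').hom_ext e e')).trans (LH.mk_tr h3 g))

/-- the maps to the colimit -/
noncomputable def limTo (k : ℕ) : ExtHom (E k) (limExt st) where
  map f := LH.mk st k f
  map_id S := LH.mk_id k S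
  map_comp f g := (LH.comp_mk k f g).symm
  map_F f := LH.mk_F k f

theorem step_limTo (k : ℕ) : (st k).comp (limTo st (k + 1)) = limTo st k := by
  ext S T f
  refine Eq.trans ?_ (LH.mk_tr (Nat.le_succ k) f)
  rw [tr_succ st le_rfl, tr_self]
  rfl

theorem lim_univ (D : GlobExt) (Φ : ∀ k, ExtHom (E k) D)
    (hΦ : ∀ k, (st k).comp (Φ (k + 1)) = Φ k) :
    ∃! Ψ : ExtHom (limExt st) D, ∀ k, (limTo st k).comp Ψ = Φ k := by
  have htr : ∀ {k m} (h : k ≤ m) {S T : Theta0} (f : (E k).Hom S T),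
      (Φ m).map ((tr st h).map f) = (Φ k).map f := by
    intro k m h S T f
    induction m, h using Nat.le_induction with
    | base => rw [tr_self]
    | succ m hm ih =>
      rw [tr_succ st hm, ← ih]
      exact congrArg (fun z : ExtHom (E m) D => z.map ((tr st hm).map f)) (hΦ m)
  let φ : ∀ {S T : Theta0}, LH st S T → D.Hom S T := fun {S T} =>
    Quot.lift (fun a => (Φ a.1).map a.2) (by
      rintro a b ⟨m, h, h', e⟩
      rw [← htr h, e, htr])
  refine ⟨⟨φ, fun S => (Φ 0).map_id S, fun x y => ?_, fun f => (Φ 0).map_F f⟩, fun k => rfl, ?_⟩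
  · obtain ⟨a, ha⟩ := LH.rep x
    obtain ⟨b, hb⟩ := LH.rep y
    obtain ⟨f, rfl⟩ := ha (a + b) (by omega)
    obtain ⟨g, rfl⟩ := hb (a + b) (by omega)
    exact (congrArg φ (LH.comp_mk _ f g)).trans ((Φ _).map_comp f g)
  · intro Ψ hΨ
    ext S T x
    obtain ⟨a, ha⟩ := LH.rep x
    obtain ⟨f, rfl⟩ := ha a le_rfl
    exact congrArg (fun z : ExtHom (E a) D => z.map f) (hΨ a)

/-- parallel pairs of the colimit come from a stage -/
theorem lim_pair (p : ParPair (limExt st)) : ∃ (k : ℕ) (f g : (E k).Hom (disc p.n) p.S),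
    Parallel (E k).F p.n f g ∧ (limTo st k).map f = p.f ∧ (limTo st k).map g = p.g := by
  obtain ⟨n, S, x, y, par⟩ := p
  obtain ⟨a, ha⟩ := LH.rep x
  obtain ⟨b, hb⟩ := LH.rep y
  obtain ⟨f, rfl⟩ := ha (a + b) (by omega)
  obtain ⟨g, rfl⟩ := hb (a + b) (by omega)
  cases n with
  | zero => exact ⟨_, f, g, trivial, rfl, rfl⟩
  | succ n =>
    obtain ⟨h1, h2⟩ := par
    obtain ⟨m, hm⟩ := LH.exact ((lim_F_comp st _ _ f).symm.trans (h1.trans (lim_F_comp st _ _ g)))
    obtain ⟨m', hm'⟩ :=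
      LH.exact ((lim_F_comp st _ _ f).symm.trans (h2.trans (lim_F_comp st _ _ g)))
    have h3 : a + b ≤ m + m' + (a + b) := by omega
    have e := hm _ (by omega) h3 h3
    have e' := hm' _ (by omega) h3 h3
    rw [ExtHom.map_comp, ExtHom.map_comp, ExtHom.map_F] at e e'
    exact ⟨_, (tr st h3).map f, (tr st h3).map g, ⟨e, e'⟩, LH.mk_tr h3 f, LH.mk_tr h3 g⟩

end Vale.Agent.P259
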