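import Vale.Agent.P259.ExB

/-! # P259: existence of coherators, part C: cells, locality and truncation -/

set_option backward.isDefEq.respectTransparency false

open CategoryTheory Limits Opposite

namespace Vale.Agent.P259

namespace Globe

/-- factorisation through the last generator -/
def FacP (a : ℕ) : ∀ b, (D a ⟶ D b) → Prop
  | 0, _ => True
  | m + 1, f => a ≤ m → ∃ f', f = f' ≫ σ m ∨ f = f' ≫ τ m

theorem fac_succ {a m : ℕ} (f : D a ⟶ D (m + 1)) (h : a ≤ m) :
    ∃ f', f = f' ≫ σ m ∨ f = f' ≫ τ m := by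
  have : FacP a (m + 1) f := by
    refine hom_induction (fun {a b} f => FacP a b f) (fun a => ?_) ?_ ?_ f
    · cases a with
      | zero => trivial
      | succ a => exact fun h => absurd h (by omega)
    · exact fun a b f _ _ => ⟨f, Or.inl rfl⟩
    · exact fun a b f _ _ => ⟨f, Or.inr rfl⟩
  exact this h

theorem comp_σ_eq {j a : ℕ} (h : j < a) (x : D j ⟶ D a) : x ≫ σ a = x ≫ τ a := by
  obtain ⟨m, rfl⟩ : ∃ m, a = m + 1 := ⟨a - 1, by omega⟩
  obtain ⟨f, rfl | rfl⟩ := fac_succ x (by omega)
  · rw [Category.assoc, Category.assoc, σσ]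
  · rw [Category.assoc, Category.assoc, τσ]

theorem comp_src_eq {j' j i : ℕ} (hj : j' < j) (h : j ≤ i) (x : D j' ⟶ D j) :
    x ≫ src h = x ≫ tgt h := by
  induction i, h using Nat.le_induction with
  | base => rw [src_self, tgt_self]
  | succ i hi ih =>
    rw [src_succ hi, tgt_succ hi, ← Category.assoc, ← Category.assoc, ih,
      comp_σ_eq (by omega)]

theorem fac_tgt {j b a : ℕ} (hj : j < b) (h : b ≤ a) (x : D j ⟶ D a) : ∃ x', x = x' ≫ tgt h := by
  induction a, h using Nat.le_induction with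
  | base => exact ⟨x, by rw [tgt_self, Category.comp_id]⟩
  | succ a ha ih =>
    obtain ⟨f, hf⟩ := fac_succ x (by omega)
    obtain ⟨x', rfl⟩ := ih f
    refine ⟨x', ?_⟩
    rw [tgt_succ ha, ← Category.assoc]
    rcases hf with rfl | rfl
    · exact comp_σ_eq (by omega) _
    · rfl

end Globe

open Theta0

theorem cell_disc {j i : ℕ} (x : disc j ⟶ disc i) : ∃ g : Globe.D j ⟶ Globe.D i,
    x = discF.map g :=
  ⟨yG.preimage x.hom, by
    ext1
    exact (yG.map_preimage _).symm⟩

theorem theta_po (T : Theta0) (j i' : ℕ) (h : j < T.last) (h' : j < i') :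
    IsPushout (tgt h.le ≫ lastι T).hom (src h'.le).hom (inl T j i' h h').hom
      (inr T j i' h h').hom := IsPushout.of_hasPushout _ _

theorem cell_glue {T : Theta0} {j i' : ℕ} {h : j < T.last} {h' : j < i'} {n : ℕ}
    (x : disc n ⟶ glue T j i' h h') :
    (∃ y, x = y ≫ inl T j i' h h') ∨ ∃ y, x = y ≫ inr T j i' h h' := by
  have hp := (theta_po T j i' h h').map ((evaluation _ _).obj (op (Globe.D n)))
  rcases Types.eq_or_eq_of_isPushout hp (yonedaEquiv (X := Globe.D n) x.hom) with ⟨e, he⟩ | ⟨e, he⟩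
  · refine Or.inl ⟨InducedCategory.homMk (yonedaEquiv.symm e), ?_⟩
    ext1
    apply (yonedaEquiv (X := Globe.D n)).injective
    rw [← he]
    change _ = yonedaEquiv (yonedaEquiv.symm e ≫ _)
    rw [yonedaEquiv_comp, Equiv.apply_symm_apply]
    rfl
  · refine Or.inr ⟨InducedCategory.homMk (yonedaEquiv.symm e), ?_⟩
    ext1
    apply (yonedaEquiv (X := Globe.D n)).injective
    rw [← he]
    change _ = yonedaEquiv ((yonedaEquiv (F := Table.real (disc i'))).symm e ≫ _)
    rw [yonedaEquiv_comp, Equiv.apply_symm_apply]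
    rfl

/-- `Θ₀` as a globular extension -/
noncomputable def thetaExt : GlobExt where
  cat := thetaCat
  ι f := f
  ι_id _ := rfl
  ι_comp _ _ := rfl
  pres T j i' h h' :=
    IsPushout.of_map_of_faithful (inducedFunctor Table.real) (theta_po T j i' h h')

theorem tgt_tgt' {k j i : ℕ} (h : k ≤ j) (h' : j ≤ i) : tgt h ≫ tgt h' = tgt (h.trans h') := by
  unfold tgt
  rw [← discF.map_comp, Globe.tgt_tgt]

theorem src_src' {k j i : ℕ} (h : k ≤ j) (h' : j ≤ i) : src h ≫ src h' = src (h.trans h') := by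
  unfold src
  rw [← discF.map_comp, Globe.src_src]

theorem comp_src_eq' {j' j i : ℕ} (hj : j' < j) (h : j ≤ i) (x : disc j' ⟶ disc j) :
    x ≫ src h = x ≫ tgt h := by
  obtain ⟨g, rfl⟩ := cell_disc x
  unfold src tgt
  erw [← discF.map_comp, ← discF.map_comp, Globe.comp_src_eq hj]

theorem fac_tgt' {j b a : ℕ} (hj : j < b) (h : b ≤ a) (x : disc j ⟶ disc a) :
    ∃ x', x = x' ≫ tgt h := by
  obtain ⟨g, rfl⟩ := cell_disc x
  obtain ⟨g', rfl⟩ := Globe.fac_tgt hj h g
  exact ⟨discF.map g', discF.map_comp _ _⟩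

theorem fac_succ' {a m : ℕ} (x : disc a ⟶ disc (m + 1)) (h : a ≤ m) :
    ∃ y, x = y ≫ σ m ∨ x = y ≫ τ m := by
  obtain ⟨g, rfl⟩ := cell_disc x
  obtain ⟨g', rfl | rfl⟩ := Globe.fac_succ g h
  · exact ⟨discF.map g', Or.inl (discF.map_comp _ _)⟩
  · exact ⟨discF.map g', Or.inr (discF.map_comp _ _)⟩

theorem theta_w (T : Theta0) (j i' : ℕ) (h : j < T.last) (h' : j < i') :
    tgt h.le ≫ lastι T ≫ inl T j i' h h' = src h'.le ≫ inr T j i' h h' :=
  (Category.assoc _ _ _).symm.trans (thetaExt.pres T j i' h h').w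

variable {C : GlobExt}

/-- agreement on the cells of dimension at most `n` -/
def Agree (n : ℕ) {T U : Theta0} (a b : C.Hom T U) : Prop :=
  ∀ j, j ≤ n → ∀ x : disc j ⟶ T, C.F.map x ≫ a = C.F.map x ≫ b

theorem Agree.pre {n : ℕ} {S T U : Theta0} {a b : C.Hom T U} (h : Agree n a b) (y : S ⟶ T) :
    Agree n (C.F.map y ≫ a : C.Hom S U) (C.F.map y ≫ b) := fun j hj x => by
  rw [← Category.assoc, ← Category.assoc, ← C.F.map_comp]
  exact h j hj _

theorem Agree.eq {n : ℕ} {T U : Theta0} (hT : T.dim ≤ n) {a b : C.Hom T U} (h : Agree n a b) :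
    a = b := by
  induction T using Theta0.induction with
  | hd i =>
    have := h i hT (𝟙 _)
    rwa [C.F.map_id, Category.id_comp, Category.id_comp] at this
  | hg T j i' h1 h2 ih =>
    have e : max T.dim i' ≤ n := hT
    refine (C.pres T j i' h1 h2).hom_ext (ih (le_of_max_le_left e) (h.pre _)) ?_
    exact h i' (le_of_max_le_right e) _

theorem Agree.glue {n : ℕ} {T U : Theta0} {j i' : ℕ} {h : j < T.last} {h' : j < i'}
    {a b : C.Hom (glue T j i' h h') U}
    (h1 : Agree n (C.F.map (inl T j i' h h') ≫ a : C.Hom T U) (C.F.map (inl T j i' h h') ≫ b))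
    (h2 : Agree n (C.F.map (inr T j i' h h') ≫ a : C.Hom (disc i') U)
      (C.F.map (inr T j i' h h') ≫ b)) : Agree n a b := by
  intro k hk x
  rcases cell_glue x with ⟨y, rfl⟩ | ⟨y, rfl⟩
  · rw [C.F.map_comp, Category.assoc, Category.assoc]
    exact h1 k hk y
  · rw [C.F.map_comp, Category.assoc, Category.assoc]
    exact h2 k hk y

/-- maps that do not raise the dimension of dependence -/
def LocalMap {S T : Theta0} (f : C.Hom S T) : Prop :=
  ∀ (n : ℕ) (U : Theta0) (a b : C.Hom T U), Agree n a b → Agree n (f ≫ a : C.Hom S U) (f ≫ b)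

variable (κ : IdLifts C)

/-- iterated identities -/
def KK {a b : ℕ} (h : a ≤ b) : C.Hom (disc b) (disc a) :=
  Nat.leRec (motive := fun b _ => C.Hom (disc b) (disc a)) (𝟙 _) (fun b _ f => κ.κ b ≫ f) h

theorem KK_self {a : ℕ} (h : a ≤ a) : KK κ h = 𝟙 _ := Nat.leRec_self ..

theorem KK_succ {a b : ℕ} (h : a ≤ b) (h' : a ≤ b + 1) : KK κ h' = κ.κ b ≫ KK κ h :=
  Nat.leRec_succ _ _ h

theorem tgt_KK {a j b : ℕ} (h : a ≤ j) (h' : j ≤ b) :
    C.F.map (tgt h') ≫ KK κ (h.trans h') = KK κ h := by
  induction b, h' using Nat.le_induction with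
  | base =>
    unfold tgt
    rw [Globe.tgt_self]
    erw [discF.map_id, C.F.map_id, Category.id_comp]
  | succ b hb ih =>
    have : tgt (hb.trans b.le_succ) = tgt hb ≫ τ b := by
      unfold tgt τ
      rw [Globe.tgt_succ hb, discF.map_comp]
    rw [this, KK_succ κ (h.trans hb), C.F.map_comp, Category.assoc, ← Category.assoc (C.F.map (τ b)),
      (κ.isLift b).2, Category.id_comp, ih]

theorem src_KK {a j b : ℕ} (h : a ≤ j) (h' : j ≤ b) :
    C.F.map (src h') ≫ KK κ (h.trans h') = KK κ h := by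
  induction b, h' using Nat.le_induction with
  | base =>
    unfold src
    rw [Globe.src_self]
    erw [discF.map_id, C.F.map_id, Category.id_comp]
  | succ b hb ih =>
    have : src (hb.trans b.le_succ) = src hb ≫ σ b := by
      unfold src σ
      rw [Globe.src_succ hb, discF.map_comp]
    rw [this, KK_succ κ (h.trans hb), C.F.map_comp, Category.assoc, ← Category.assoc (C.F.map (σ b)),
      (κ.isLift b).1, Category.id_comp, ih]

theorem agree_KK {n b a : ℕ} (h : b ≤ a) (hb : b = a ∨ n < b) :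
    Agree n (KK κ h ≫ C.F.map (tgt h) : C.Hom (disc a) (disc a)) (𝟙 _) := by
  intro j hj x
  rcases hb with rfl | hb
  · have := tgt_KK κ le_rfl h
    rw [KK_self, Category.comp_id] at this
    rw [KK_self, Category.id_comp, this]
  · obtain ⟨x', rfl⟩ := fac_tgt' (by omega : j < b) h x
    have := tgt_KK κ le_rfl h
    rw [KK_self] at this
    rw [C.F.map_comp, Category.assoc, ← Category.assoc (C.F.map (tgt h)), this, Category.id_comp,
      Category.comp_id]

theorem exists_trunc (n : ℕ) (S : Theta0) : ∃ (S' : Theta0) (ha : S'.last ≤ S.last)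
    (i : S' ⟶ S) (r : C.Hom S S'), S'.dim ≤ n + 1 ∧ S'.last = min S.last (n + 1) ∧
      C.F.map (lastι S) ≫ r = KK κ ha ≫ C.F.map (lastι S') ∧
      (∀ j (hj : j < S'.last), tgt hj.le ≫ lastι S' ≫ i = tgt (hj.le.trans ha) ≫ lastι S) ∧
      Agree n (r ≫ C.F.map i : C.Hom S S) (𝟙 _) := by
  induction S using Theta0.induction with
  | hd a =>
    have e : ∀ a, lastι (disc a) = 𝟙 _ := fun _ => rfl
    refine ⟨disc (min a (n + 1)), min_le_left _ _, tgt (min_le_left _ _), KK κ (min_le_left _ _),
      min_le_right _ _, rfl, ?_, fun j hj => ?_, agree_KK κ _ (by omega)⟩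
    · rw [e, e]
      erw [C.F.map_id, C.F.map_id, Category.id_comp, Category.comp_id]
    · rw [e, e]
      erw [Category.id_comp, Category.comp_id]
      exact tgt_tgt' _ _
  | hg T j i' h h' ih =>
    obtain ⟨T', ha, i, r, h1, h2, h3, h4, h5⟩ := ih
    have po := C.pres T j i' h h'
    by_cases hj : n + 1 ≤ j
    · have hl : T'.last ≤ j := by omega
      have ha' : T'.last ≤ i' := by omega
      have w : C.F.map (tgt h.le ≫ lastι T) ≫ r =
          C.F.map (src h'.le) ≫ KK κ ha' ≫ C.F.map (lastι T') := by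
        rw [C.F.map_comp, Category.assoc, h3, ← Category.assoc, ← Category.assoc,
          tgt_KK κ hl h.le, src_KK κ hl h'.le]
      have a1 : Agree n (C.F.map (inl T j i' h h') ≫ po.desc _ _ w ≫
          C.F.map (i ≫ inl T j i' h h') : C.Hom T (glue T j i' h h'))
          (C.F.map (inl T j i' h h') ≫ 𝟙 _) := by
        intro k hk x
        rw [po.inl_desc_assoc, C.F.map_comp, Category.comp_id, ← Category.assoc r,
          ← Category.assoc, h5 k hk x, Category.comp_id]
      refine ⟨T', ha', i ≫ inl T j i' h h', po.desc _ _ w, h1, ?_, po.inr_desc _ _ _,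
        fun j' hj' => ?_, Agree.glue a1 fun k hk x => ?_⟩
      · change T'.last = min i' (n + 1)
        omega
      · rw [← Category.assoc (lastι T'), ← Category.assoc, h4 j' hj', Category.assoc,
          ← tgt_tgt' (hj'.le.trans hl) h.le, Category.assoc, theta_w, ← Category.assoc,
          comp_src_eq' (by omega), tgt_tgt']
        rfl
      · obtain ⟨y, rfl⟩ := fac_tgt' (by omega : k < j) h'.le x
        have e : (y ≫ tgt h'.le) ≫ inr T j i' h h' =
            (y ≫ tgt h.le ≫ lastι T) ≫ inl T j i' h h' := by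
          rw [← comp_src_eq' (by omega), Category.assoc, ← theta_w]
          simp only [Category.assoc]
        have := a1 k hk (y ≫ tgt h.le ≫ lastι T)
        rw [← Category.assoc, ← C.F.map_comp, ← e, ← Category.assoc _ _ (𝟙 _),
          ← C.F.map_comp, ← e] at this
        rw [← Category.assoc, ← C.F.map_comp, ← Category.assoc _ _ (𝟙 _), ← C.F.map_comp]
        exact this
    · have g1 : j < T'.last := by omega
      have g2 : j < min i' (n + 1) := by omega
      have hb : min i' (n + 1) ≤ i' := min_le_left _ _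
      have po0 := thetaExt.pres T' j _ g1 g2
      have w0 : (tgt g1.le ≫ lastι T') ≫ i ≫ inl T j i' h h' =
          src g2.le ≫ tgt hb ≫ inr T j i' h h' := by
        rw [Category.assoc, ← Category.assoc (lastι T'), ← Category.assoc, h4 j g1, Category.assoc,
          theta_w, ← Category.assoc (src g2.le), ← comp_src_eq' g2, src_src']
      let i2 : glue T' j _ g1 g2 ⟶ glue T j i' h h' := po0.desc _ _ w0
      have i2l : inl T' j _ g1 g2 ≫ i2 = i ≫ inl T j i' h h' := po0.inl_desc _ _ _
      have i2r : inr T' j _ g1 g2 ≫ i2 = tgt hb ≫ inr T j i' h h' := po0.inr_desc _ _ _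
      have w : C.F.map (tgt h.le ≫ lastι T) ≫ r ≫ C.F.map (inl T' j _ g1 g2) =
          C.F.map (src h'.le) ≫ KK κ hb ≫ C.F.map (inr T' j _ g1 g2) := by
        have e1 := tgt_KK κ le_rfl ha
        have e2 := src_KK κ le_rfl hb
        rw [KK_self] at e1 e2
        rw [C.F.map_comp, Category.assoc, ← Category.assoc (C.F.map (lastι T)), h3,
          ← tgt_tgt' g1.le ha, ← src_src' g2.le hb, C.F.map_comp, C.F.map_comp]
        simp only [Category.assoc]
        rw [← Category.assoc (C.F.map (tgt ha)), e1, ← Category.assoc (C.F.map (src hb)), e2,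
          Category.id_comp, Category.id_comp, ← C.F.map_comp, ← C.F.map_comp, ← C.F.map_comp,
          theta_w]
      refine ⟨glue T' j _ g1 g2, hb, i2, po.desc _ _ w, max_le h1 (min_le_right _ _), rfl,
        po.inr_desc _ _ _, fun j' hj' => ?_, Agree.glue (fun k hk x => ?_) fun k hk x => ?_⟩
      · change tgt hj'.le ≫ inr T' j _ g1 g2 ≫ i2 = _
        rw [i2r, ← Category.assoc, tgt_tgt']
        rfl
      · rw [po.inl_desc_assoc, Category.assoc, ← C.F.map_comp, i2l, C.F.map_comp,
          Category.comp_id, ← Category.assoc r, ← Category.assoc, h5 k hk x, Category.comp_id]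
      · rw [po.inr_desc_assoc, Category.assoc, ← C.F.map_comp, i2r, C.F.map_comp,
          Category.comp_id, ← Category.assoc (KK κ hb), ← Category.assoc,
          agree_KK κ hb (by omega) k hk x, Category.comp_id]

end Vale.Agent.P259
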