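import Vale.Agent.P259.ExC

/-! # P259: existence of coherators, part D: the canonical coherator -/

set_option backward.isDefEq.respectTransparency false

open CategoryTheory Limits Opposite

namespace Vale.Agent.P259

open Theta0

/-- admissible pairs -/
def adm (C : GlobExt) : Set (ParPair C) := {p | p.S.dim ≤ p.n + 1}

/-- the canonical tower -/
noncomputable def tower : ℕ → GlobExt
  | 0 => thetaExt
  | k + 1 => freeExt (adm (tower k))

/-- the steps of the canonical tower -/
noncomputable def towerSt (k : ℕ) : ExtHom (tower k) (tower (k + 1)) := freeStep (adm (tower k))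

theorem IsLift.map {C D : GlobExt} (Φ : ExtHom C D) {n : ℕ} {S : Theta0}
    {h : C.Hom (disc (n + 1)) S} {f g : C.Hom (disc n) S} (H : IsLift C.F h f g) :
    IsLift D.F (Φ.map h) (Φ.map f) (Φ.map g) :=
  ⟨by rw [← H.1, Φ.map_comp, Φ.map_F], by rw [← H.2, Φ.map_comp, Φ.map_F]⟩

theorem to_step (k : ℕ) {S T : Theta0} (f : (tower k).Hom S T) :
    (limTo towerSt (k + 1)).map ((towerSt k).map f) = (limTo towerSt k).map f :=
  congrArg (fun z : ExtHom _ _ => z.map f) (step_limTo towerSt k)

theorem isLift_new (k : ℕ) (p : adm (tower k)) :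
    IsLift (limExt towerSt).F ((limTo towerSt (k + 1)).map (FreeH.new p))
      ((limTo towerSt k).map p.1.f) ((limTo towerSt k).map p.1.g) := by
  have := (free_isLift p).map (limTo towerSt (k + 1))
  rw [← to_step k p.1.f, ← to_step k p.1.g]
  exact this

theorem lift_adm (p : ParPair (limExt towerSt)) (hp : p.S.dim ≤ p.n + 1) :
    ∃ h : (limExt towerSt).Hom (disc (p.n + 1)) p.S, IsLift (limExt towerSt).F h p.f p.g := by
  obtain ⟨k, f, g, par, hf, hg⟩ := lim_pair towerSt p
  rw [← hf, ← hg]
  exact ⟨_, isLift_new k ⟨⟨p.n, p.S, f, g, par⟩, hp⟩⟩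

theorem parallel_comp {C : GlobExt} {S T : Theta0} (r : C.Hom S T) :
    ∀ (n : ℕ) (f g : C.Hom (disc n) S), Parallel C.F n f g → Parallel C.F n (f ≫ r) (g ≫ r)
  | 0, _, _, _ => trivial
  | _ + 1, _, _, h => ⟨by rw [← Category.assoc, h.1, Category.assoc],
      by rw [← Category.assoc, h.2, Category.assoc]⟩

theorem parallel_refl {C : GlobExt} {S : Theta0} :
    ∀ (n : ℕ) (f : C.Hom (disc n) S), Parallel C.F n f f
  | 0, _ => trivial
  | _ + 1, _ => ⟨rfl, rfl⟩

theorem exists_idLifts_lim : Nonempty (IdLifts (limExt towerSt)) := by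
  choose κ hκ using fun n => lift_adm ⟨n, disc n, 𝟙 _, 𝟙 _, parallel_refl n _⟩ (Nat.le_succ n)
  exact ⟨⟨κ, hκ⟩⟩

theorem local_to (k : ℕ) : ∀ {S T : Theta0} (f : (tower k).Hom S T),
    LocalMap ((limTo towerSt k).map f) := by
  induction k with
  | zero =>
    intro S T f n U a b hab
    have : (limTo towerSt 0).map f = (limExt towerSt).F.map f := (limTo towerSt 0).map_F f
    rw [this]
    exact hab.pre f
  | succ k ih =>
    intro S T f
    refine free_ind (fun f => LocalMap ((limTo towerSt (k + 1)).map f)) ?_ ?_ ?_ ?_ f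
    · intro S T f
      have := to_step k f
      exact this ▸ ih f
    · intro p n U a b hab
      by_cases hn : p.1.n + 1 ≤ n
      · rw [hab.eq (le_trans p.2 hn)]
        exact fun _ _ _ => rfl
      · intro j hj x
        have H := isLift_new k p
        obtain ⟨y, rfl | rfl⟩ := fac_succ' x (by omega)
        · rw [Functor.map_comp, Category.assoc, Category.assoc, ← Category.assoc _ _ a,
            ← Category.assoc _ _ b, H.1]
          exact ih p.1.f n U a b hab j hj y
        · rw [Functor.map_comp, Category.assoc, Category.assoc, ← Category.assoc _ _ a,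
            ← Category.assoc _ _ b, H.2]
          exact ih p.1.g n U a b hab j hj y
    · intro S T U f g hf hg n V a b hab
      erw [ExtHom.map_comp, Category.assoc, Category.assoc]
      exact hf n V _ _ (hg n V a b hab)
    · intro T j i' h h' U f hf hg n V a b hab
      erw [ExtHom.map_comp, ExtHom.map_F] at hf hg
      refine Agree.glue ?_ ?_
      · have := hf n V a b hab
        rwa [Category.assoc, Category.assoc] at this
      · have := hg n V a b hab
        rwa [Category.assoc, Category.assoc] at this

theorem lift_all (p : ParPair (limExt towerSt)) :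
    ∃ h : (limExt towerSt).Hom (disc (p.n + 1)) p.S, IsLift (limExt towerSt).F h p.f p.g := by
  obtain ⟨κ⟩ := exists_idLifts_lim
  obtain ⟨S', -, i, r, h1, -, -, -, h5⟩ := exists_trunc κ p.n p.S
  obtain ⟨h, hh⟩ := lift_adm ⟨p.n, S', p.f ≫ r, p.g ≫ r, parallel_comp r _ _ _ p.par⟩ h1
  have key : ∀ f : (limExt towerSt).Hom (disc p.n) p.S,
      f ≫ r ≫ (limExt towerSt).F.map i = f := by
    intro f
    obtain ⟨k, hk⟩ := LH.rep f
    obtain ⟨f', rfl⟩ := hk k le_rfl
    exact ((local_to k f' p.n _ _ _ h5).eq (le_refl p.n)).trans (Category.comp_id _)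
  refine ⟨h ≫ (limExt towerSt).F.map i, ?_, ?_⟩
  · rw [← Category.assoc, hh.1, Category.assoc, key]
  · rw [← Category.assoc, hh.2, Category.assoc, key]

/-- coherators exist -/
theorem nonempty_coherator : Nonempty Coherator :=
  ⟨{ C := limExt towerSt
     stage := tower
     step := towerSt
     zero := fun _ _ => Function.bijective_id
     pairs := fun k => adm (tower k)
     dim_le := fun _ _ hp => hp
     lift := fun _ p => FreeH.new p
     isLift := fun _ p => free_isLift p
     univ := fun _ D Φ l hl => free_univ D Φ l hl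
     toC := limTo towerSt
     step_toC := step_limTo towerSt
     colim := lim_univ towerSt
     contr := lift_all }⟩

end Vale.Agent.P259
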