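import Vale.Agent.P259.Defs

/-! # P259 part Loc: equivalence of localizations from zigzags -/

set_option backward.isDefEq.respectTransparency false

open CategoryTheory Limits Opposite MorphismProperty Topology

namespace Vale.Agent.P259

open Theta0
open Globe (D)

/-- abstract criterion for an equivalence of localizations -/
theorem loc_equiv {A B : Type*} [Category A] [Category B] (WA : MorphismProperty A)
    (WB : MorphismProperty B) (F : A ⥤ B) (G : B ⥤ A) (Q : B ⥤ B)
    (hG : ∀ {X Y : B} (f : X ⟶ Y), WB f → WA (G.map f))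
    (ε : F ⋙ G ⟶ 𝟭 A) (hε : ∀ X, WA (ε.app X)) (η : Q ⟶ G ⋙ F) (hη : ∀ X, WB (η.app X))
    (q : Q ⟶ 𝟭 B) (hq : ∀ X, WB (q.app X)) (h : WA.IsInvertedBy (F ⋙ WB.Q)) :
    (Localization.Construction.lift (F ⋙ WB.Q) h).IsEquivalence := by
  have h' : WB.IsInvertedBy (G ⋙ WA.Q) := fun X Y f hf =>
    Localization.inverts WA.Q WA _ (hG f hf)
  have iε : IsIso (Functor.whiskerRight ε WA.Q) := by
    have : ∀ X, IsIso ((Functor.whiskerRight ε WA.Q).app X) := fun X =>
      Localization.inverts WA.Q WA _ (hε X)
    exact NatIso.isIso_of_isIso_app _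
  have iη : IsIso (Functor.whiskerRight η WB.Q) := by
    have : ∀ X, IsIso ((Functor.whiskerRight η WB.Q).app X) := fun X =>
      Localization.inverts WB.Q WB _ (hη X)
    exact NatIso.isIso_of_isIso_app _
  have iq : IsIso (Functor.whiskerRight q WB.Q) := by
    have : ∀ X, IsIso ((Functor.whiskerRight q WB.Q).app X) := fun X =>
      Localization.inverts WB.Q WB _ (hq X)
    exact NatIso.isIso_of_isIso_app _
  refine Localization.isEquivalence WA.Q WA WB.Q WB (F ⋙ WB.Q) _ (G ⋙ WA.Q)
    (Localization.Construction.lift (G ⋙ WA.Q) h') ?_ ?_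
  · exact Functor.associator _ _ _ ≪≫
      Functor.isoWhiskerLeft F (eqToIso (Localization.Construction.fac _ h')) ≪≫
      (Functor.associator _ _ _).symm ≪≫ asIso (Functor.whiskerRight ε WA.Q) ≪≫
      Functor.leftUnitor _
  · exact Functor.associator _ _ _ ≪≫
      Functor.isoWhiskerLeft G (eqToIso (Localization.Construction.fac _ h)) ≪≫
      (Functor.associator _ _ _).symm ≪≫ (asIso (Functor.whiskerRight η WB.Q)).symm ≪≫
      asIso (Functor.whiskerRight q WB.Q) ≪≫ Functor.leftUnitor _

end Vale.Agent.P259
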