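import Vale.Agent.P259.Real
import Vale.Agent.P259.Loc

/-! # P259 part Final: the homotopy hypothesis -/

set_option backward.isDefEq.respectTransparency false

open CategoryTheory Limits Opposite MorphismProperty Topology

namespace Vale.Agent.P259

open Theta0
open Globe (D)

theorem main (K : Coherator) (P : ObjectProperty TopCat.{0})
    (hP : ∀ Y : TopCat.{0}, T2Space Y → CompactlyGeneratedSpace Y → P Y) :
    ∃ (D : K.C.Obj ⥤ P.FullSubcategory) (hD : IsDiscFunctor D), ∀ κ : IdLifts K.C,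
      (∀ {Y Y' : P.FullSubcategory} (f : Y ⟶ Y'), WHE f.hom → κ.W ((PiInf D hD).map f)) ∧
      ∃ h : (WHE.inverseImage P.ι).IsInvertedBy (PiInf D hD ⋙ κ.W.Q),
        (Localization.Construction.lift (PiInf D hD ⋙ κ.W.Q) h).IsEquivalence := by
  have hPD : ∀ S : K.C.Obj, P ((DT K).obj S) := fun S => hP _ (fh_sum S).t2 (cg_sum S)
  let Dd : K.C.Obj ⥤ P.FullSubcategory := P.lift (DT K) hPD
  have hD : IsDiscFunctor Dd :=
    { pres := fun T j i' h h' => IsPushout.of_map_of_faithful P.ι (DT_pres K T j i' h h')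
      discs := ⟨fun n => Homeomorph.refl _, fun n x => by
        constructor
        · have : (DT K).map (K.C.F.map (σ n)) = TopCat.ofHom (lower n) := by
            rw [DT_F, sumF_σ, discG_σ]
          exact ConcreteCategory.congr_hom this x
        · have : (DT K).map (K.C.F.map (τ n)) = TopCat.ofHom (upper n) := by
            rw [DT_F, sumF_τ, discG_τ]
          exact ConcreteCategory.congr_hom this x⟩ }
  let e : PiInf Dd hD ≅ P.ι ⋙ PiK K := NatIso.ofComponents (fun Y =>
    (IsModel K.C).isoMk (NatIso.ofComponents (fun S =>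
      (P.fullyFaithfulι.homEquiv (X := Dd.obj S.unop) (Y := Y)).toIso) (fun _ => by ext; rfl)))
    (fun _ => by ext; rfl)
  have hW : ∀ {Y Y' : P.FullSubcategory} (f : Y ⟶ Y'),
      WHE f.hom ↔ WL K.C ((PiInf Dd hD).map f) := by
    intro Y Y' f
    rw [whe_iff_WL (K := K)]
    have h1 : (PiInf Dd hD).map f ≫ e.hom.app Y' = e.hom.app Y ≫ (PiK K).map f.hom :=
      e.hom.naturality f
    constructor
    · intro h
      refine WL.cancel_right ?_ (WL.of_isIso (e.hom.app Y'))
      rw [h1]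
      exact (WL.of_isIso _).comp h
    · intro h
      refine WL.cancel_left ?_ (WL.of_isIso (e.hom.app Y))
      rw [← h1]
      exact h.comp (WL.of_isIso _)
  refine ⟨Dd, hD, fun κ => ?_⟩
  have h1 : ∀ {Y Y' : P.FullSubcategory} (f : Y ⟶ Y'), WHE f.hom → κ.W ((PiInf Dd hD).map f) :=
    fun f hf => (W_iff_WL κ _).2 ((hW f).1 hf)
  have hinv : (WHE.inverseImage P.ι).IsInvertedBy (PiInf Dd hD ⋙ κ.W.Q) := fun Y Y' f hf =>
    Localization.inverts κ.W.Q κ.W _ (h1 f hf)
  refine ⟨h1, hinv, ?_⟩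
  have := PiT_isRightAdjoint (DT K) (DT_pres K)
  obtain ⟨R, ⟨adj⟩⟩ : ∃ R : Mod K.C ⥤ TopCat.{0}, Nonempty (R ⊣ PiK K) :=
    ⟨_, ⟨Adjunction.ofIsRightAdjoint (PiT (DT K) (DT_pres K))⟩⟩
  obtain ⟨Q, q, hQ⟩ := exists_replacement (bd K.C) (fp_Sph K.C)
  have hu : ∀ X, WL K.C (adj.unit.app (Q.obj X)) := fun X => (unit_wl adj (hQ X).1).1
  have hq : ∀ X, WL K.C (q.app X) := fun X => WL.of_tfib (hQ X).2
  have hPG : ∀ X, P ((Q ⋙ R).obj X) := fun X =>
    hP _ (unit_wl adj (hQ X).1).2.1.t2 (unit_wl adj (hQ X).1).2.2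
  let G : Mod K.C ⥤ P.FullSubcategory := P.lift (Q ⋙ R) hPG
  let η : Q ⟶ G ⋙ PiInf Dd hD :=
    { app := fun X => adj.unit.app (Q.obj X) ≫ e.inv.app (G.obj X)
      naturality := fun X Y f => by
        have h2 := adj.unit.naturality (Q.map f)
        have h3 := e.inv.naturality (G.map f)
        exact (Category.assoc _ _ _).symm.trans ((congrArg (· ≫ _) h2).trans
          ((Category.assoc _ _ _).trans ((congrArg (_ ≫ ·) h3).trans
            (Category.assoc _ _ _).symm))) }
  let ε : PiInf Dd hD ⋙ G ⟶ 𝟭 _ :=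
    { app := fun Y => ObjectProperty.homMk
        (R.map (q.app ((PiInf Dd hD).obj Y) ≫ e.hom.app Y) ≫ adj.counit.app Y.obj)
      naturality := fun Y Y' f => by
        ext1
        have h2 := adj.counit.naturality f.hom
        have h3 := e.hom.naturality f
        have h4 := q.naturality ((PiInf Dd hD).map f)
        change R.map (Q.map ((PiInf Dd hD).map f)) ≫ R.map (q.app ((PiInf Dd hD).obj Y') ≫ e.hom.app Y') ≫
          adj.counit.app Y'.obj = (R.map (q.app ((PiInf Dd hD).obj Y) ≫ e.hom.app Y) ≫ adj.counit.app Y.obj) ≫ f.hom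
        rw [← R.map_comp_assoc, reassoc_of% h4]
        erw [h3]
        rw [Category.assoc]
        erw [← h2]
        simp }
  refine loc_equiv _ _ (PiInf Dd hD) G Q ?_ ε ?_ η ?_ q ?_ hinv
  · intro X Y f hf
    change WHE (R.map (Q.map f))
    rw [whe_iff_WL (K := K)]
    refine WL.cancel_left ?_ (hu X)
    have h2 : adj.unit.app (Q.obj X) ≫ (PiK K).map (R.map (Q.map f)) =
        Q.map f ≫ adj.unit.app (Q.obj Y) := (adj.unit.naturality (Q.map f)).symm
    rw [h2]
    refine WL.comp (WL.cancel_right ?_ (hq Y)) (hu Y)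
    rw [q.naturality]
    exact (hq X).comp ((W_iff_WL κ _).1 hf)
  · intro Y
    change WHE (R.map (q.app ((PiInf Dd hD).obj Y) ≫ e.hom.app Y) ≫ adj.counit.app Y.obj)
    rw [whe_iff_WL (K := K)]
    refine WL.cancel_left ?_ (hu ((PiInf Dd hD).obj Y))
    have h2 : adj.unit.app (Q.obj ((PiInf Dd hD).obj Y)) ≫
        (PiK K).map (R.map (q.app ((PiInf Dd hD).obj Y) ≫ e.hom.app Y) ≫ adj.counit.app Y.obj) =
          q.app ((PiInf Dd hD).obj Y) ≫ e.hom.app Y := by
      rw [Functor.map_comp]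
      erw [adj.unit_naturality_assoc, adj.right_triangle_components]
      exact Category.comp_id _
    rw [h2]
    exact (hq _).comp (WL.of_isIso _)
  · intro X
    exact (W_iff_WL κ _).2 ((hu X).comp (WL.of_isIso _))
  · intro X
    exact (W_iff_WL κ _).2 (hq X)

end Vale.Agent.P259
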