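import Vale.Agent.P259.TopDefs

/-! # P259 part TopA: spheres as pushouts, extension and homotopy lemmas for discs -/

set_option backward.isDefEq.respectTransparency false

open CategoryTheory Limits Opposite Topology

namespace Vale.Agent.P259

/-- the first `n` coordinates -/
noncomputable def TopA_initE {n : ℕ} (x : EuclideanSpace ℝ (Fin (n + 1))) :
    EuclideanSpace ℝ (Fin n) :=
  WithLp.toLp 2 (Fin.init (α := fun _ => ℝ) x.ofLp)

theorem TopA_initE_snocE {n : ℕ} (x : EuclideanSpace ℝ (Fin n)) (c : ℝ) :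
    TopA_initE (snocE x c) = x := by
  simp [TopA_initE, snocE]

theorem TopA_last_snocE {n : ℕ} (x : EuclideanSpace ℝ (Fin n)) (c : ℝ) :
    snocE x c (Fin.last n) = c := by
  simp [snocE]

theorem TopA_snocE_initE {n : ℕ} (x : EuclideanSpace ℝ (Fin (n + 1))) :
    snocE (TopA_initE x) (x (Fin.last n)) = x := by
  simp [TopA_initE, snocE]

theorem TopA_snocE_inj {n : ℕ} {x y : EuclideanSpace ℝ (Fin n)} {c d : ℝ}
    (h : snocE x c = snocE y d) : x = y ∧ c = d :=
  ⟨by rw [← TopA_initE_snocE x c, h, TopA_initE_snocE],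
    by rw [← TopA_last_snocE x c, h, TopA_last_snocE]⟩

theorem TopA_norm_sq {n : ℕ} (x : EuclideanSpace ℝ (Fin (n + 1))) :
    ‖x‖ ^ 2 = ‖TopA_initE x‖ ^ 2 + x (Fin.last n) ^ 2 := by
  rw [← norm_sq_snocE, TopA_snocE_initE]

theorem TopA_norm_initE_le {n : ℕ} (x : Disc (n + 1)) : ‖TopA_initE x.1‖ ≤ 1 := by
  have hx : ‖x.1‖ ≤ 1 := mem_closedBall_zero_iff.1 x.2
  have h := TopA_norm_sq x.1
  nlinarith [norm_nonneg x.1, norm_nonneg (TopA_initE x.1), sq_nonneg (x.1 (Fin.last n))]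

/-- factor a map through a surjection from a compact space -/
theorem TopA_lift {X X' Y : Type} [TopologicalSpace X] [TopologicalSpace X'] [TopologicalSpace Y]
    [CompactSpace X] [T2Space X'] (q : C(X, X')) (hq : Function.Surjective q) (g : C(X, Y))
    (h : ∀ a b, q a = q b → g a = g b) : ∃ w : C(X', Y), ∀ a, w (q a) = g a := by
  have hq' := IsQuotientMap.of_surjective_continuous hq q.continuous
  exact ⟨hq'.lift g fun a b hab => h a b hab, fun a =>
    ContinuousMap.congr_fun (hq'.lift_comp g fun a b hab => h a b hab) a⟩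

theorem TopA_isPushout_of {A B C P : TopCat.{0}} {f : A ⟶ B} {g : A ⟶ C} {l : B ⟶ P}
    {r : C ⟶ P} (w : f ≫ l = g ≫ r) (hs : ∀ x, (∃ a, l a = x) ∨ ∃ b, r b = x)
    (key : ∀ s : PushoutCocone f g, ∃ d : C(P, s.pt),
      (∀ x, d (l x) = s.inl x) ∧ ∀ x, d (r x) = s.inr x) : IsPushout f g l r := by
  choose d hd1 hd2 using key
  refine ⟨⟨w⟩, ⟨PushoutCocone.IsColimit.mk w (fun s => TopCat.ofHom (d s)) (fun s => ?_)
    (fun s => ?_) (fun s m h1 h2 => ?_)⟩⟩
  · exact TopCat.hom_ext (ContinuousMap.ext fun x => hd1 s x)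
  · exact TopCat.hom_ext (ContinuousMap.ext fun x => hd2 s x)
  · refine TopCat.hom_ext (ContinuousMap.ext fun x => ?_)
    obtain ⟨a, rfl⟩ | ⟨a, rfl⟩ := hs x
    · have h3 : m (l a) = s.inl a := ConcreteCategory.congr_hom h1 a
      exact h3.trans (hd1 s a).symm
    · have h3 : m (r a) = s.inr a := ConcreteCategory.congr_hom h2 a
      exact h3.trans (hd2 s a).symm

theorem TopA_exists_hemi {n : ℕ} (x : Disc (n + 1)) (hx : ‖x.1‖ = 1) :
    ∃ y : Disc n, lower n y = x ∨ upper n y = x := by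
  have h := TopA_norm_sq x.1
  rw [hx] at h
  have h2 : √(1 - ‖TopA_initE x.1‖ ^ 2) = |x.1 (Fin.last n)| := by
    rw [← Real.sqrt_sq_eq_abs]; congr 1; linarith
  refine ⟨⟨TopA_initE x.1, mem_closedBall_zero_iff.2 (TopA_norm_initE_le x)⟩, ?_⟩
  rcases le_total (x.1 (Fin.last n)) 0 with hc | hc
  · left
    apply Subtype.ext
    change snocE (TopA_initE x.1) (-1 * √(1 - ‖TopA_initE x.1‖ ^ 2)) = x.1
    rw [h2, abs_of_nonpos hc, neg_mul_neg, one_mul, TopA_snocE_initE]
  · right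
    apply Subtype.ext
    change snocE (TopA_initE x.1) (1 * √(1 - ‖TopA_initE x.1‖ ^ 2)) = x.1
    rw [h2, abs_of_nonneg hc, one_mul, TopA_snocE_initE]

theorem TopA_hemi_eq {ε ε' : ℝ} {hε : ε ^ 2 = 1} {hε' : ε' ^ 2 = 1} {n : ℕ} {x y : Disc n}
    (h : hemi ε hε n x = hemi ε' hε' n y) : x = y ∧ (ε = ε' ∨ ‖x.1‖ = 1) := by
  have h1 : snocE x.1 (ε * √(1 - ‖x.1‖ ^ 2)) = snocE y.1 (ε' * √(1 - ‖y.1‖ ^ 2)) :=
    congrArg Subtype.val h
  obtain ⟨h2, h3⟩ := TopA_snocE_inj h1
  refine ⟨Subtype.ext h2, ?_⟩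
  rw [← h2] at h3
  by_cases he : ε = ε'
  · exact Or.inl he
  · right
    have h4 : √(1 - ‖x.1‖ ^ 2) = 0 := by
      by_contra h5
      exact he (mul_right_cancel₀ h5 h3)
    have hx : ‖x.1‖ ≤ 1 := mem_closedBall_zero_iff.1 x.2
    have h6 := Real.sqrt_eq_zero'.1 h4
    nlinarith [norm_nonneg x.1]

/-- the vertical segments of the disc -/
noncomputable def TopA_cyl (n : ℕ) : C(unitInterval × Disc n, Disc (n + 1)) where
  toFun p := ⟨snocE p.2.1 ((2 * (p.1 : ℝ) - 1) * √(1 - ‖p.2.1‖ ^ 2)), by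
    have hx : ‖p.2.1‖ ≤ 1 := mem_closedBall_zero_iff.1 p.2.2
    have h1 : 0 ≤ 1 - ‖p.2.1‖ ^ 2 := by nlinarith [norm_nonneg p.2.1]
    have h2 := norm_sq_snocE p.2.1 ((2 * (p.1 : ℝ) - 1) * √(1 - ‖p.2.1‖ ^ 2))
    rw [mul_pow, Real.sq_sqrt h1] at h2
    have h3 : (2 * (p.1 : ℝ) - 1) ^ 2 ≤ 1 := by nlinarith [p.1.2.1, p.1.2.2]
    have h4 := mul_le_mul_of_nonneg_right h3 h1
    rw [mem_closedBall_zero_iff]
    nlinarith [norm_nonneg (snocE p.2.1 ((2 * (p.1 : ℝ) - 1) * √(1 - ‖p.2.1‖ ^ 2)))]⟩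
  continuous_toFun := by
    refine Continuous.subtype_mk ?_ _
    exact continuous_snocE.comp (f := fun p : unitInterval × Disc n =>
      (p.2.1, (2 * (p.1 : ℝ) - 1) * √(1 - ‖p.2.1‖ ^ 2))) (by fun_prop)

theorem TopA_cyl_val (n : ℕ) (t : unitInterval) (x : Disc n) :
    (TopA_cyl n (t, x)).1 = snocE x.1 ((2 * (t : ℝ) - 1) * √(1 - ‖x.1‖ ^ 2)) := rfl

theorem TopA_cyl_zero (n : ℕ) (x : Disc n) : TopA_cyl n (0, x) = lower n x := by
  apply Subtype.ext
  rw [TopA_cyl_val]
  change _ = snocE x.1 (-1 * √(1 - ‖x.1‖ ^ 2))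
  norm_num

theorem TopA_cyl_one (n : ℕ) (x : Disc n) : TopA_cyl n (1, x) = upper n x := by
  apply Subtype.ext
  rw [TopA_cyl_val]
  change _ = snocE x.1 (1 * √(1 - ‖x.1‖ ^ 2))
  norm_num

theorem TopA_cyl_bd (n : ℕ) (t : unitInterval) (x : Disc n) (hx : ‖x.1‖ = 1) :
    TopA_cyl n (t, x) = lower n x := by
  apply Subtype.ext
  rw [TopA_cyl_val]
  change _ = snocE x.1 (-1 * √(1 - ‖x.1‖ ^ 2))
  simp [hx]

theorem TopA_cyl_surj (n : ℕ) : Function.Surjective (TopA_cyl n) := by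
  intro x
  have hx : ‖x.1‖ ≤ 1 := mem_closedBall_zero_iff.1 x.2
  have h := TopA_norm_sq x.1
  set c := x.1 (Fin.last n) with hc
  set s := √(1 - ‖TopA_initE x.1‖ ^ 2) with hs
  have h1 : |c| ≤ s := by
    rw [← Real.sqrt_sq_eq_abs]
    apply Real.sqrt_le_sqrt
    nlinarith [norm_nonneg x.1]
  have h0 : 0 ≤ s := Real.sqrt_nonneg _
  have h2 : |c / s| ≤ 1 := by
    rw [abs_div, abs_of_nonneg h0]
    exact div_le_one_of_le₀ h1 h0
  have h3 := abs_le.1 h2
  refine ⟨(⟨(c / s + 1) / 2, by linarith [h3.1], by linarith [h3.2]⟩,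
    ⟨TopA_initE x.1, mem_closedBall_zero_iff.2 (TopA_norm_initE_le x)⟩), ?_⟩
  apply Subtype.ext
  rw [TopA_cyl_val]
  change snocE (TopA_initE x.1) ((2 * ((c / s + 1) / 2) - 1) * s) = x.1
  have h4 : (2 * ((c / s + 1) / 2) - 1) * s = c := by
    rcases h0.eq_or_lt with h5 | h5
    · rw [← h5] at h1 ⊢
      rw [mul_zero]
      exact (abs_nonpos_iff.1 h1).symm
    · field_simp
      ring
  rw [h4, hc, TopA_snocE_initE]

theorem TopA_cyl_eq {n : ℕ} {t t' : unitInterval} {x y : Disc n}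
    (h : TopA_cyl n (t, x) = TopA_cyl n (t', y)) : x = y ∧ (t = t' ∨ ‖x.1‖ = 1) := by
  have h1 := congrArg Subtype.val h
  rw [TopA_cyl_val, TopA_cyl_val] at h1
  obtain ⟨h2, h3⟩ := TopA_snocE_inj h1
  refine ⟨Subtype.ext h2, ?_⟩
  rw [← h2] at h3
  by_cases h4 : √(1 - ‖x.1‖ ^ 2) = 0
  · right
    have hx : ‖x.1‖ ≤ 1 := mem_closedBall_zero_iff.1 x.2
    have h6 := Real.sqrt_eq_zero'.1 h4
    nlinarith [norm_nonneg x.1]
  · left
    have := mul_right_cancel₀ h4 h3
    apply Subtype.ext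
    linarith

/-- the cone on the sphere (plus the centre) maps onto the disc -/
noncomputable def TopA_cone (n : ℕ) : C((unitInterval × Sphere n) ⊕ Unit, Disc n) where
  toFun := Sum.elim (fun p => ⟨(p.1 : ℝ) • p.2.1, by
    rw [mem_closedBall_zero_iff, norm_smul, mem_sphere_zero_iff_norm.1 p.2.2, mul_one,
      Real.norm_of_nonneg p.1.2.1]
    exact p.1.2.2⟩) fun _ => centre n
  continuous_toFun := Continuous.sumElim (by fun_prop) continuous_const

theorem TopA_cone_surj (n : ℕ) : Function.Surjective (TopA_cone n) := by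
  intro x
  by_cases hx : x.1 = 0
  · exact ⟨Sum.inr (), Subtype.ext hx.symm⟩
  · have h1 : ‖x.1‖ ≠ 0 := norm_ne_zero_iff.2 hx
    refine ⟨Sum.inl (⟨‖x.1‖, norm_nonneg _, mem_closedBall_zero_iff.1 x.2⟩,
      ⟨‖x.1‖⁻¹ • x.1, by simp [norm_smul, h1]⟩), Subtype.ext ?_⟩
    change ‖x.1‖ • ‖x.1‖⁻¹ • x.1 = x.1
    rw [smul_smul, mul_inv_cancel₀ h1, one_smul]

theorem TopA_cone_norm (n : ℕ) (t : unitInterval) (s : Sphere n) :
    ‖(TopA_cone n (Sum.inl (t, s))).1‖ = t := by
  change ‖(t : ℝ) • s.1‖ = t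
  rw [norm_smul, mem_sphere_zero_iff_norm.1 s.2, mul_one, Real.norm_of_nonneg t.2.1]


theorem sphere_isPushout (n : ℕ) : IsPushout (sphInc n) (sphInc n) (lowerS n) (upperS n) := by
  have w : sphInc n ≫ lowerS n = sphInc n ≫ upperS n := by
    refine TopCat.hom_ext (ContinuousMap.ext fun x => Subtype.ext ?_)
    have := congrArg Subtype.val (hemi_of_norm_one (-1) 1 (by norm_num) (by norm_num) n (sphC n x)
      (mem_sphere_zero_iff_norm.1 x.2))
    exact this
  let q : C(Disc n ⊕ Disc n, Sphere (n + 1)) :=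
    ⟨Sum.elim (lowerS n) (upperS n),
      Continuous.sumElim (lowerS n).hom.continuous (upperS n).hom.continuous⟩
  have hq : Function.Surjective q := by
    intro x
    obtain ⟨y, hy | hy⟩ := TopA_exists_hemi (sphC _ x) (mem_sphere_zero_iff_norm.1 x.2)
    · have := congrArg Subtype.val hy
      exact ⟨Sum.inl y, Subtype.ext this⟩
    · have := congrArg Subtype.val hy
      exact ⟨Sum.inr y, Subtype.ext this⟩
  have key : ∀ s : PushoutCocone (sphInc n) (sphInc n), ∃ w : C(Sphere (n + 1), s.pt),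
      (∀ x, w (lowerS n x) = s.inl x) ∧ ∀ x, w (upperS n x) = s.inr x := by
    intro s
    have hs : ∀ x : Disc n, ‖x.1‖ = 1 → s.inl x = s.inr x := fun x hx =>
      ConcreteCategory.congr_hom s.condition
        (⟨x.1, mem_sphere_zero_iff_norm.2 hx⟩ : Sphere n)
    obtain ⟨w, hw⟩ := TopA_lift q hq ⟨Sum.elim s.inl s.inr,
      Continuous.sumElim s.inl.hom.continuous s.inr.hom.continuous⟩ (by
        rintro (a | a) (b | b) hab'
        all_goals have hab := congrArg Subtype.val hab'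
        · have h1 : lower n a = lower n b := Subtype.ext hab
          rw [(TopA_hemi_eq h1).1]
        · have h1 : lower n a = upper n b := Subtype.ext hab
          obtain ⟨rfl, h2 | h2⟩ := TopA_hemi_eq h1
          · norm_num at h2
          · exact hs a h2
        · have h1 : upper n a = lower n b := Subtype.ext hab
          obtain ⟨rfl, h2 | h2⟩ := TopA_hemi_eq h1
          · norm_num at h2
          · exact (hs a h2).symm
        · have h1 : upper n a = upper n b := Subtype.ext hab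
          rw [(TopA_hemi_eq h1).1])
    exact ⟨w, fun x => hw (Sum.inl x), fun x => hw (Sum.inr x)⟩
  refine TopA_isPushout_of w (fun x => ?_) key
  obtain ⟨a | a, h⟩ := hq x
  · exact Or.inl ⟨a, h⟩
  · exact Or.inr ⟨a, h⟩

theorem sphere_zero_initial : Nonempty (IsInitial (TopCat.of (Sphere 0))) := by
  have : IsEmpty (Sphere 0) := ⟨fun x => by
    have h := mem_sphere_zero_iff_norm.1 x.2
    rw [Subsingleton.elim x.1 0, norm_zero] at h
    exact zero_ne_one h⟩
  exact ⟨IsInitial.ofUniqueHom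
    (fun Y => TopCat.ofHom ⟨fun x => isEmptyElim x, continuous_of_discreteTopology⟩)
    fun Y m => by ext x; exact isEmptyElim x⟩

/-- maps from a sphere to a contractible space extend over the disc -/
theorem ext_of_contractible {Y : Type} [TopologicalSpace Y] [ContractibleSpace Y] (n : ℕ)
    (a : C(Sphere n, Y)) : ∃ w : C(Disc n, Y), w.comp (sphC n) = a := by
  obtain ⟨y, ⟨H⟩⟩ := id_nullhomotopic Y
  obtain ⟨w, hw⟩ := TopA_lift (TopA_cone n) (TopA_cone_surj n)
    ⟨Sum.elim (fun p => H (unitInterval.symm p.1, a p.2)) fun _ => y,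
      Continuous.sumElim (by fun_prop) continuous_const⟩ (by
      have h0 : ∀ (t : unitInterval) (s : Sphere n), TopA_cone n (Sum.inl (t, s)) = centre n →
          H (unitInterval.symm t, a s) = y := by
        intro t s h
        have h1 := TopA_cone_norm n t s
        rw [h] at h1
        have h2 : t = 0 := Subtype.ext (by simpa [centre] using h1.symm)
        rw [h2]
        simp
      rintro (⟨t, s⟩ | a') (⟨t', s'⟩ | b') hab
      · have h1 := TopA_cone_norm n t s
        rw [hab, TopA_cone_norm] at h1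
        obtain rfl : t' = t := Subtype.ext h1
        by_cases ht : t' = 0
        · subst ht
          simp
        · have h2 : (t' : ℝ) • s.1 = (t' : ℝ) • s'.1 := congrArg Subtype.val hab
          have h3 : (t' : ℝ) ≠ 0 := fun h => ht (Subtype.ext h)
          rw [Subtype.ext (smul_right_injective _ h3 h2 : s.1 = s'.1)]
      · exact h0 t s hab
      · exact (h0 t' s' hab.symm).symm
      · rfl)
  refine ⟨w, ContinuousMap.ext fun s => ?_⟩
  have h1 : sphC n s = TopA_cone n (Sum.inl (1, s)) := by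
    apply Subtype.ext
    change s.1 = ((1 : unitInterval) : ℝ) • s.1
    simp
  rw [ContinuousMap.comp_apply, h1, hw]
  simp

/-- an `(n+1)`-cell between `u` and `v` is the same as a homotopy relative to the boundary -/
theorem lift_iff_homotopicRel {Y : Type} [TopologicalSpace Y] {n : ℕ} (u v : C(Disc n, Y)) :
    (∃ w : C(Disc (n + 1), Y), w.comp (lower n) = u ∧ w.comp (upper n) = v) ↔
      u.HomotopicRel v {x | ‖x.1‖ = 1} := by
  constructor
  · rintro ⟨w, rfl, rfl⟩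
    refine ⟨⟨⟨w.comp (TopA_cyl n), fun x => ?_, fun x => ?_⟩, fun t x hx => ?_⟩⟩
    · exact congrArg w (TopA_cyl_zero n x)
    · exact congrArg w (TopA_cyl_one n x)
    · exact congrArg w (TopA_cyl_bd n t x hx)
  · rintro ⟨H⟩
    obtain ⟨w, hw⟩ := TopA_lift (TopA_cyl n) (TopA_cyl_surj n) H.toHomotopy.toContinuousMap (by
      rintro ⟨t, x⟩ ⟨t', y⟩ h
      obtain ⟨rfl, rfl | h2⟩ := TopA_cyl_eq h
      · rfl
      · exact (H.eq_fst t h2).trans (H.eq_fst t' h2).symm)
    refine ⟨w, ContinuousMap.ext fun x => ?_, ContinuousMap.ext fun x => ?_⟩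
    · rw [ContinuousMap.comp_apply, ← TopA_cyl_zero, hw]
      exact H.apply_zero x
    · rw [ContinuousMap.comp_apply, ← TopA_cyl_one, hw]
      exact H.apply_one x

/-- the boundary sphere is covered by the two hemispheres -/
theorem exists_hemi_of_norm_one {n : ℕ} (x : Disc (n + 1)) (hx : ‖x.1‖ = 1) :
    ∃ y : Disc n, lower n y = x ∨ upper n y = x := by
  exact TopA_exists_hemi x hx

/-- the sphere is a strong deformation retract of the punctured disc -/
theorem sdr_sphP (n : ℕ) : Nonempty (SDR (sphP n)) := by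
  have hn : ∀ x : PDisc n, ‖x.1.1‖ ≠ 0 := fun x => norm_ne_zero_iff.2 x.2
  have hp : ∀ x : PDisc n, 0 < ‖x.1.1‖ := fun x => norm_pos_iff.2 x.2
  have hc : Continuous fun x : PDisc n => ‖x.1.1‖⁻¹ := Continuous.inv₀ (by fun_prop) hn
  have hpos : ∀ p : PDisc n × unitInterval, 0 < (p.2 : ℝ) + (1 - p.2) * ‖p.1.1.1‖⁻¹ := by
    intro p
    have h1 := inv_pos.2 (hp p.1)
    rcases p.2.2.1.eq_or_lt with h | h
    · rw [← h]; simpa using hp p.1
    · have := mul_nonneg (sub_nonneg.2 p.2.2.2) h1.le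
      linarith
  refine ⟨⟨TopCat.ofHom ⟨fun x => ⟨‖x.1.1‖⁻¹ • x.1.1, by simp [norm_smul, hn x]⟩, ?_⟩,
    ⟨fun p => ⟨⟨((p.2 : ℝ) + (1 - p.2) * ‖p.1.1.1‖⁻¹) • p.1.1.1, ?_⟩, ?_⟩, ?_⟩, ?_, ?_, ?_, ?_⟩⟩
  · exact Continuous.subtype_mk (hc.smul (by fun_prop)) _
  · rw [mem_closedBall_zero_iff, norm_smul, Real.norm_of_nonneg (hpos p).le, add_mul, mul_assoc,
      inv_mul_cancel₀ (hn p.1)]
    have hx : ‖p.1.1.1‖ ≤ 1 := mem_closedBall_zero_iff.1 p.1.1.2
    nlinarith [p.2.2.1]
  · exact smul_ne_zero (hpos p).ne' p.1.2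
  · refine Continuous.subtype_mk (Continuous.subtype_mk ?_ _) _
    exact Continuous.smul (Continuous.add (by fun_prop)
      (Continuous.mul (by fun_prop) (hc.comp continuous_fst))) (by fun_prop)
  · refine TopCat.hom_ext (ContinuousMap.ext fun x => Subtype.ext ?_)
    change ‖x.1‖⁻¹ • x.1 = x.1
    rw [mem_sphere_zero_iff_norm.1 x.2, inv_one, one_smul]
  · intro u
    apply Subtype.ext
    apply Subtype.ext
    change (((0 : unitInterval) : ℝ) + (1 - ((0 : unitInterval) : ℝ)) * ‖u.1.1‖⁻¹) • u.1.1 =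
      ‖u.1.1‖⁻¹ • u.1.1
    simp
  · intro u
    apply Subtype.ext
    apply Subtype.ext
    change (((1 : unitInterval) : ℝ) + (1 - ((1 : unitInterval) : ℝ)) * ‖u.1.1‖⁻¹) • u.1.1 = u.1.1
    simp
  · intro y t
    apply Subtype.ext
    apply Subtype.ext
    change ((t : ℝ) + (1 - (t : ℝ)) * ‖y.1‖⁻¹) • y.1 = y.1
    rw [mem_sphere_zero_iff_norm.1 y.2]
    simp

/-- the spheres are the boundary objects of the discs -/
noncomputable def RT : Reedy discG where
  B j := TopCat.of (Sphere j)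
  b j := sphInc j
  l j := lowerS j
  r j := upperS j
  init := sphere_zero_initial.some
  po j := sphere_isPushout j
  l_b j := by rw [discG_σ]; rfl
  r_b j := by rw [discG_τ]; rfl

end Vale.Agent.P259
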