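import Vale.Agent.P259.TopA

/-! # P259 part TopB: cube versus disc; globular sums of discs -/

set_option backward.isDefEq.respectTransparency false

open CategoryTheory Limits Opposite Topology

namespace Vale.Agent.P259

/-- the cube is homeomorphic to the disc, boundary to boundary -/
theorem exists_cube_homeo (n : ℕ) : ∃ e : (Fin n → unitInterval) ≃ₜ Disc n,
    ∀ x, x ∈ Cube.boundary (Fin n) ↔ ‖(e x).1‖ = 1 := by
  let T : EuclideanSpace ℝ (Fin n) ≃L[ℝ] (Fin n → ℝ) := EuclideanSpace.equiv (Fin n) ℝ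
  let c : Fin n → ℝ := fun _ => 1 / 2
  let s : Set (EuclideanSpace ℝ (Fin n)) := T.toHomeomorph ⁻¹' Metric.closedBall c (1 / 2)
  have hmem : ∀ y, y ∈ s ↔ ∀ i, y i ∈ unitInterval := by
    intro y
    change T y ∈ Metric.closedBall c (1 / 2) ↔ _
    rw [Metric.mem_closedBall, dist_pi_le_iff (by norm_num)]
    refine forall_congr' fun i => ?_
    change dist (y i) (1 / 2) ≤ 1 / 2 ↔ _
    rw [Real.dist_eq, abs_le, Set.mem_Icc]
    constructor <;> rintro ⟨h1, h2⟩ <;> constructor <;> linarith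
  have hconv : Convex ℝ s :=
    (convex_closedBall c (1 / 2)).linear_preimage (T : EuclideanSpace ℝ (Fin n) →ₗ[ℝ] (Fin n → ℝ))
  have hcomp : IsCompact s :=
    T.toHomeomorph.isCompact_preimage.2 (isCompact_closedBall c (1 / 2))
  have hint : (interior s).Nonempty := by
    refine ⟨T.symm c, ?_⟩
    rw [← T.toHomeomorph.preimage_interior, interior_closedBall c (by norm_num)]
    change T (T.symm c) ∈ Metric.ball c (1 / 2)
    rw [T.apply_symm_apply]
    exact Metric.mem_ball_self (by norm_num)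
  have hfr : ∀ y ∈ s, y ∈ frontier s ↔ ∃ i, y i = 0 ∨ y i = 1 := by
    intro y hy
    rw [← T.toHomeomorph.preimage_frontier, frontier_closedBall c (by norm_num)]
    change dist (T y) c = 1 / 2 ↔ _
    have hy' : dist (T y) c ≤ 1 / 2 := hy
    constructor
    · intro h
      by_contra h1
      push Not at h1
      have : dist (T y) c < 1 / 2 := by
        rw [dist_pi_lt_iff (by norm_num)]
        intro i
        change dist (y i) (1 / 2) < 1 / 2
        have h2 := (hmem y).1 hy i
        have h3 := lt_of_le_of_ne h2.1 (h1 i).1.symm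
        have h4 := lt_of_le_of_ne h2.2 (h1 i).2
        rw [Real.dist_eq, abs_lt]
        constructor <;> linarith
      linarith
    · rintro ⟨i, hi⟩
      refine le_antisymm hy' (le_trans ?_ (dist_le_pi_dist (T y) c i))
      change 1 / 2 ≤ dist (y i) (1 / 2)
      rw [Real.dist_eq]
      rcases hi with hi | hi <;> rw [hi] <;> norm_num
  obtain ⟨h, -, h2, h3⟩ :=
    exists_homeomorph_image_interior_closure_frontier_eq_unitBall hconv hint hcomp.isBounded
  rw [hcomp.isClosed.closure_eq] at h2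
  let e1 : (Fin n → unitInterval) ≃ₜ s :=
    { toFun := fun x => ⟨T.symm fun i => x i, (hmem _).2 fun i => (x i).2⟩
      invFun := fun y i => ⟨y.1 i, (hmem _).1 y.2 i⟩
      left_inv := fun x => rfl
      right_inv := fun y => rfl
      continuous_toFun := Continuous.subtype_mk (T.symm.continuous.comp (by fun_prop)) _
      continuous_invFun := continuous_pi fun i => Continuous.subtype_mk (by fun_prop) _ }
  refine ⟨e1.trans ((h.image s).trans (Homeomorph.setCongr h2)), fun x => ?_⟩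
  change _ ↔ ‖h (e1 x).1‖ = 1
  rw [← mem_sphere_zero_iff_norm, ← h3, h.injective.mem_set_image, hfr _ (e1 x).2]
  refine exists_congr fun i => ?_
  change _ ↔ ((x i : ℝ) = 0 ∨ (x i : ℝ) = 1)
  simp

theorem TopB_precomp {A B X : Type} [TopologicalSpace A] [TopologicalSpace B]
    [TopologicalSpace X] {u v : C(B, X)} {S : Set B} {S' : Set A} (e : C(A, B))
    (he : ∀ a ∈ S', e a ∈ S) (h : u.HomotopicRel v S) :
    (u.comp e).HomotopicRel (v.comp e) S' := by
  obtain ⟨H⟩ := h
  exact ⟨⟨⟨⟨fun p => H (p.1, e p.2), by fun_prop⟩, fun x => H.apply_zero _,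
    fun x => H.apply_one _⟩, fun t x hx => H.eq_fst t (he x hx)⟩⟩

/-- weak homotopy equivalences in terms of discs -/
theorem topPiMap_bijective_iff {X Y : Type} [TopologicalSpace X] [TopologicalSpace Y]
    (f : C(X, Y)) (n : ℕ) (x : X) :
    Function.Bijective (topPiMap f n x) ↔
      (∀ u v : C(Disc n, X), (∀ z : Disc n, ‖z.1‖ = 1 → u z = x) →
        (∀ z : Disc n, ‖z.1‖ = 1 → v z = x) →
        (f.comp u).HomotopicRel (f.comp v) {z | ‖z.1‖ = 1} → u.HomotopicRel v {z | ‖z.1‖ = 1}) ∧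
      (∀ w : C(Disc n, Y), (∀ z : Disc n, ‖z.1‖ = 1 → w z = f x) →
        ∃ u : C(Disc n, X), (∀ z : Disc n, ‖z.1‖ = 1 → u z = x) ∧
          (f.comp u).HomotopicRel w {z | ‖z.1‖ = 1}) := by
  obtain ⟨e, he⟩ := exists_cube_homeo n
  let E : C(Fin n → unitInterval, Disc n) := e
  let E' : C(Disc n, Fin n → unitInterval) := e.symm
  have hE : ∀ a ∈ Cube.boundary (Fin n), E a ∈ {z : Disc n | ‖z.1‖ = 1} := fun a ha => (he a).1 ha
  have hE' : ∀ a ∈ {z : Disc n | ‖z.1‖ = 1}, E' a ∈ Cube.boundary (Fin n) := fun a ha =>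
    (he _).2 (by change ‖(e (e.symm a)).1‖ = 1; rw [e.apply_symm_apply]; exact ha)
  have h1 : ∀ {Z : Type} [TopologicalSpace Z] (u : C(Disc n, Z)), (u.comp E).comp E' = u :=
    fun u => ContinuousMap.ext fun z => congrArg u (e.apply_symm_apply z)
  have h2 : ∀ {Z : Type} [TopologicalSpace Z] (u : C(Fin n → unitInterval, Z)),
      (u.comp E').comp E = u :=
    fun u => ContinuousMap.ext fun z => congrArg u (e.symm_apply_apply z)
  refine and_congr ⟨fun hf u v hu hv h => ?_, fun hf => ?_⟩ ⟨fun hf w hw => ?_, fun hf => ?_⟩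
  · have h3 := @hf (Quotient.mk _ ⟨u.comp E, fun y hy => hu _ (hE y hy)⟩)
      (Quotient.mk _ ⟨v.comp E, fun y hy => hv _ (hE y hy)⟩)
      (Quotient.sound (TopB_precomp E hE h))
    have h4 := TopB_precomp E' hE' (Quotient.exact h3)
    exact (h1 u) ▸ (h1 v) ▸ h4
  · intro a b
    induction a using Quotient.inductionOn with | h a => ?_
    induction b using Quotient.inductionOn with | h b => ?_
    intro hab
    have h3 : (f.comp a.1).HomotopicRel (f.comp b.1) (Cube.boundary (Fin n)) := Quotient.exact hab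
    have h4 := TopB_precomp E hE (hf (a.1.comp E') (b.1.comp E') (fun z hz => a.2 _ (hE' z hz))
      (fun z hz => b.2 _ (hE' z hz)) (TopB_precomp E' hE' h3))
    rw [h2, h2] at h4
    exact Quotient.sound h4
  · obtain ⟨a, ha⟩ := hf (Quotient.mk _ ⟨w.comp E, fun y hy => hw _ (hE y hy)⟩)
    induction a using Quotient.inductionOn with | h a => ?_
    have h3 : (f.comp a.1).HomotopicRel (w.comp E) (Cube.boundary (Fin n)) := Quotient.exact ha
    have h4 := TopB_precomp E' hE' h3
    rw [h1] at h4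
    exact ⟨a.1.comp E', fun z hz => a.2 _ (hE' z hz), h4⟩
  · intro b
    induction b using Quotient.inductionOn with | h b => ?_
    obtain ⟨u, hu, h3⟩ := hf (b.1.comp E') fun z hz => b.2 _ (hE' z hz)
    have h4 := TopB_precomp E hE h3
    rw [h2] at h4
    exact ⟨Quotient.mk _ ⟨u.comp E, fun y hy => hu _ (hE y hy)⟩, Quotient.sound h4⟩

theorem TopB_homotopicRel_zero {X : Type} [TopologicalSpace X] (u v : C(Disc 0, X)) :
    u.HomotopicRel v {z | ‖z.1‖ = 1} ↔ Joined (u (centre 0)) (v (centre 0)) := by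
  have h0 : ∀ z : Disc 0, z = centre 0 := fun z => Subtype.ext (Subsingleton.elim _ _)
  constructor
  · rintro ⟨H⟩
    exact ⟨⟨⟨fun t => H (t, centre 0), by fun_prop⟩, H.apply_zero _, H.apply_one _⟩⟩
  · rintro ⟨γ⟩
    refine ⟨⟨⟨⟨fun p => γ p.1, by fun_prop⟩, fun x => ?_, fun x => ?_⟩, fun t x hx => ?_⟩⟩
    · rw [h0 x]; exact γ.source
    · rw [h0 x]; exact γ.target
    · rw [h0 x] at hx
      simp [centre] at hx

theorem topPi0Map_bijective_iff {X Y : Type} [TopologicalSpace X] [TopologicalSpace Y]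
    (f : C(X, Y)) :
    Function.Bijective (topPi0Map f) ↔
      (∀ u v : C(Disc 0, X), (f.comp u).HomotopicRel (f.comp v) {z | ‖z.1‖ = 1} →
        u.HomotopicRel v {z | ‖z.1‖ = 1}) ∧
      (∀ w : C(Disc 0, Y), ∃ u : C(Disc 0, X), (f.comp u).HomotopicRel w {z | ‖z.1‖ = 1}) := by
  simp only [TopB_homotopicRel_zero]
  refine and_congr ⟨fun hf u v h => ?_, fun hf => ?_⟩ ⟨fun hf w => ?_, fun hf => ?_⟩
  · exact Quotient.exact (@hf (Quotient.mk _ (u (centre 0))) (Quotient.mk _ (v (centre 0)))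
      (Quotient.sound h))
  · intro a b
    induction a using Quotient.inductionOn with | h a => ?_
    induction b using Quotient.inductionOn with | h b => ?_
    intro hab
    exact Quotient.sound (hf (.const _ a) (.const _ b) (Quotient.exact hab))
  · obtain ⟨a, ha⟩ := hf (Quotient.mk _ (w (centre 0)))
    induction a using Quotient.inductionOn with | h a => ?_
    exact ⟨.const _ a, Quotient.exact ha⟩
  · intro b
    induction b using Quotient.inductionOn with | h b => ?_
    obtain ⟨u, hu⟩ := hf (.const _ b)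
    exact ⟨Quotient.mk _ (u (centre 0)), Quotient.sound hu⟩

instance contractible_disc (n : ℕ) : ContractibleSpace (Disc n) := by
  exact (convex_closedBall _ _).contractibleSpace ⟨0, by simp⟩

theorem TopB_sdr_of_retract {Y : TopCat.{0}} {m : ℕ} (i : Y ⟶ TopCat.of (Disc m))
    (r : TopCat.of (Disc m) ⟶ Y) (h : i ≫ r = 𝟙 Y) : Nonempty (SDR i) := by
  have hc : Continuous fun z : Disc m => i (r z) := i.hom.continuous.comp r.hom.continuous
  refine ⟨⟨r, ⟨fun p => ⟨(1 - (p.2 : ℝ)) • (i (r p.1)).1 + (p.2 : ℝ) • p.1.1,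
    convex_closedBall _ _ (i (r p.1)).2 p.1.2 (sub_nonneg.2 p.2.2.2) p.2.2.1 (by ring)⟩, ?_⟩,
    h, fun u => Subtype.ext ?_, fun u => Subtype.ext ?_, fun y t => Subtype.ext ?_⟩⟩
  · have h1 : Continuous fun p : Disc m × unitInterval => (i (r p.1)).1 :=
      continuous_subtype_val.comp (hc.comp continuous_fst)
    have h2 : Continuous fun p : Disc m × unitInterval => (1 - (p.2 : ℝ)) := by fun_prop
    have h3 : Continuous fun p : Disc m × unitInterval => (p.2 : ℝ) • p.1.1 := by fun_prop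
    exact Continuous.subtype_mk ((h2.smul h1).add h3) _
  · change (1 - ((0 : unitInterval) : ℝ)) • (i (r u)).1 + ((0 : unitInterval) : ℝ) • u.1 =
      (i (r u)).1
    simp
  · change (1 - ((1 : unitInterval) : ℝ)) • (i (r u)).1 + ((1 : unitInterval) : ℝ) • u.1 = _
    simp
  · have h1 : r (i y) = y := ConcreteCategory.congr_hom h y
    change (1 - (t : ℝ)) • (i (r (i y))).1 + (t : ℝ) • (i y).1 = _
    rw [h1, ← add_smul, sub_add_cancel, one_smul]

theorem TopB_retract_src {j i : ℕ} (h : j ≤ i) :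
    ∃ r : discG.obj (Globe.D i) ⟶ discG.obj (Globe.D j), discG.map (Globe.src h) ≫ r = 𝟙 _ := by
  induction i, h using Nat.le_induction with
  | base => exact ⟨𝟙 _, by simp⟩
  | succ i hi ih =>
    obtain ⟨r, hr⟩ := ih
    have hc : Continuous fun x : EuclideanSpace ℝ (Fin (i + 1)) => TopA_initE x := by
      unfold TopA_initE
      refine (PiLp.continuous_toLp 2 _).comp (continuous_pi fun k => ?_)
      change Continuous fun x : EuclideanSpace ℝ (Fin (i + 1)) => x k.castSucc
      fun_prop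
    let ρ : TopCat.of (Disc (i + 1)) ⟶ TopCat.of (Disc i) := TopCat.ofHom
      ⟨fun x => ⟨TopA_initE x.1, mem_closedBall_zero_iff.2 (TopA_norm_initE_le x)⟩,
        Continuous.subtype_mk (hc.comp continuous_subtype_val) _⟩
    have hρ : TopCat.ofHom (lower i) ≫ ρ = 𝟙 _ :=
      TopCat.hom_ext (ContinuousMap.ext fun x => Subtype.ext (TopA_initE_snocE _ _))
    refine ⟨ρ ≫ r, ?_⟩
    rw [Globe.src_succ hi, Functor.map_comp, discG_σ, Category.assoc]
    erw [reassoc_of% hρ]
    exact hr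

/-- the iterated lower hemisphere is a strong deformation retract -/
theorem sdr_src {j i : ℕ} (h : j ≤ i) : Nonempty (SDR (discG.map (Globe.src h))) := by
  obtain ⟨r, hr⟩ := TopB_retract_src h
  exact TopB_sdr_of_retract (m := i) _ r hr

theorem TopB_surj {A B Y Y' : TopCat.{0}} {i : A ⟶ B} {a : A ⟶ Y} {j : Y ⟶ Y'} {c : B ⟶ Y'}
    (h : IsPushout a i j c) (p : Y') : (∃ y, j y = p) ∨ ∃ b, c b = p :=
  Types.eq_or_eq_of_isPushout (h.map (forget TopCat)) p

/-- strong deformation retracts with compact target are stable under pushouts -/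
theorem SDR.pushout {A B Y Y' : TopCat.{0}} {i : A ⟶ B} (s : SDR i) {a : A ⟶ Y} {j : Y ⟶ Y'}
    {c : B ⟶ Y'} (h : IsPushout a i j c) : Nonempty (SDR j) := by
  have hri : ∀ x, s.r (i x) = x := fun x => ConcreteCategory.congr_hom s.i_r x
  have hw : ∀ x, j (a x) = c (i x) := fun x => ConcreteCategory.congr_hom h.w x
  let r' : Y' ⟶ Y := h.desc (𝟙 Y) (s.r ≫ a) (by rw [← Category.assoc, s.i_r]; simp)
  have hr1 : j ≫ r' = 𝟙 Y := h.inl_desc ..
  have hr2 : c ≫ r' = s.r ≫ a := h.inr_desc ..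
  let u : Y ⟶ TopCat.of C(unitInterval, Y') :=
    TopCat.ofHom (ContinuousMap.curry (j.hom.comp ContinuousMap.fst))
  let v : B ⟶ TopCat.of C(unitInterval, Y') := TopCat.ofHom (ContinuousMap.curry (c.hom.comp s.h))
  have huv : a ≫ u = i ≫ v := TopCat.hom_ext (ContinuousMap.ext fun x => ContinuousMap.ext fun t =>
    (hw x).trans (congrArg c (s.hfix x t)).symm)
  let H : Y' ⟶ TopCat.of C(unitInterval, Y') := h.desc u v huv
  have hH1 : ∀ y t, H (j y) t = j y := fun y t =>
    ContinuousMap.congr_fun (ConcreteCategory.congr_hom (h.inl_desc u v huv) y) t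
  have hH2 : ∀ b t, H (c b) t = c (s.h (b, t)) := fun b t =>
    ContinuousMap.congr_fun (ConcreteCategory.congr_hom (h.inr_desc u v huv) b) t
  refine ⟨⟨r', ContinuousMap.uncurry H.hom, hr1, fun p => ?_, fun p => ?_, fun y t => hH1 y t⟩⟩
  · change H p 0 = _
    obtain ⟨y, rfl⟩ | ⟨b, rfl⟩ := TopB_surj h p
    · have : r' (j y) = y := ConcreteCategory.congr_hom hr1 y
      rw [hH1, this]
    · have : r' (c b) = a (s.r b) := ConcreteCategory.congr_hom hr2 b
      rw [hH2, this, hw, s.h0]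
  · change H p 1 = _
    obtain ⟨y, rfl⟩ | ⟨b, rfl⟩ := TopB_surj h p
    · rw [hH1]
    · rw [hH2, s.h1]

theorem TopB_contractible {Y U : TopCat.{0}} {i : Y ⟶ U} (s : SDR i) [ContractibleSpace Y] :
    ContractibleSpace U := by
  refine ContinuousMap.HomotopyEquiv.contractibleSpace (Y := Y)
    ⟨s.r.hom, i.hom, ⟨⟨⟨fun p => s.h (p.2, p.1), by fun_prop⟩, s.h0, s.h1⟩⟩, ?_⟩
  have : s.r.hom.comp i.hom = ContinuousMap.id Y :=
    ContinuousMap.ext fun x => ConcreteCategory.congr_hom s.i_r x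
  rw [this]

theorem TopB_fh_disc (m : ℕ) : FH (Disc m) := fun x y hxy =>
  ⟨⟨fun z => dist z y, by fun_prop⟩, by simpa using hxy⟩

theorem TopB_fh_pushout {A Y Y' : TopCat.{0}} {m : ℕ} {i : A ⟶ TopCat.of (Disc m)}
    (r : TopCat.of (Disc m) ⟶ A) (hr : i ≫ r = 𝟙 A) {a : A ⟶ Y} {j : Y ⟶ Y'}
    {c : TopCat.of (Disc m) ⟶ Y'} (h : IsPushout a i j c) (hY : FH Y) : FH Y' := by
  have hri : ∀ x, r (i x) = x := fun x => ConcreteCategory.congr_hom hr x
  have hw : ∀ x, j (a x) = c (i x) := fun x => ConcreteCategory.congr_hom h.w x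
  have hc : Continuous fun z : Disc m => i (r z) := i.hom.continuous.comp r.hom.continuous
  have ext : ∀ (f : C(Y, ℝ)) (g : C(Disc m, ℝ)), (∀ x, f (a x) = g (i x)) →
      ∃ F : C(Y', ℝ), (∀ y, F (j y) = f y) ∧ ∀ b, F (c b) = g b := by
    intro f g hfg
    have h1 : a ≫ TopCat.ofHom f = i ≫ TopCat.ofHom g := TopCat.hom_ext (ContinuousMap.ext hfg)
    exact ⟨(h.desc _ _ h1).hom, fun y => ConcreteCategory.congr_hom (h.inl_desc _ _ h1) y,
      fun b => ConcreteCategory.congr_hom (h.inr_desc _ _ h1) b⟩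
  have surj : ∀ p : Y', (∃ y, j y = p) ∨ ∃ b : Disc m, c b = p ∧ b ≠ i (r b) := by
    intro p
    obtain ⟨y, rfl⟩ | ⟨b, rfl⟩ := TopB_surj h p
    · exact Or.inl ⟨y, rfl⟩
    · by_cases hb : b = i (r b)
      · exact Or.inl ⟨a (r b), by rw [hw, ← hb]⟩
      · exact Or.inr ⟨b, rfl, hb⟩
  have key : ∀ (g : C(Disc m, ℝ)), ∃ F : C(Y', ℝ), (∀ y, F (j y) = 0) ∧
      ∀ b : Disc m, F (c b) = dist b (i (r b)) * g b := fun g =>
    ext 0 ⟨fun b => dist b (i (r b)) * g b, (continuous_id.dist hc).mul g.continuous⟩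
      fun x => by simp [hri]
  intro p q hpq
  obtain ⟨y, rfl⟩ | ⟨b, rfl, hb⟩ := surj p <;> obtain ⟨y', rfl⟩ | ⟨b', rfl, hb'⟩ := surj q
  · obtain ⟨f, hf⟩ := hY y y' fun e => hpq (congrArg j e)
    obtain ⟨F, h1, -⟩ := ext f (f.comp (a.hom.comp r.hom)) fun x =>
      congrArg (fun z => f (a z)) (hri x).symm
    exact ⟨F, by rwa [h1, h1]⟩
  · obtain ⟨F, h1, h2⟩ := key 1
    exact ⟨F, by rw [h1, h2]; simpa using hb'⟩
  · obtain ⟨F, h1, h2⟩ := key 1
    exact ⟨F, by rw [h1, h2]; simpa using hb⟩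
  · obtain ⟨F, -, h2⟩ := key ⟨fun z => dist z b', by fun_prop⟩
    have hbb : b ≠ b' := fun e => hpq (congrArg c e)
    exact ⟨F, by rw [h2, h2]; simp [hb, hbb]⟩

theorem TopB_glue (T : Theta0) (j i' : ℕ) (h : j < T.last) (h' : j < i') :
    ∃ (a : discG.obj (Globe.D j) ⟶ (sumF discG).obj T)
      (k : (sumF discG).obj T ⟶ (sumF discG).obj (Theta0.glue T j i' h h'))
      (c : discG.obj (Globe.D i') ⟶ (sumF discG).obj (Theta0.glue T j i' h h')),
      IsPushout a (discG.map (Globe.src h'.le)) k c :=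
  ⟨discG.map (Globe.tgt h.le) ≫ (T.tab.sum discG).2, pushout.inl _ _, pushout.inr _ _,
    IsPushout.of_hasPushout _ _⟩

theorem TopB_compact (T : Theta0) : CompactSpace ((sumF discG).obj T) := by
  induction T using Theta0.induction with
  | hd n => exact inferInstanceAs (CompactSpace (Disc n))
  | hg T j i' h h' ih =>
    obtain ⟨a, k, c, hp⟩ := TopB_glue T j i' h h'
    have : CompactSpace (discG.obj (Globe.D i')) := inferInstanceAs (CompactSpace (Disc i'))
    refine ⟨?_⟩
    have h1 := (isCompact_range k.hom.continuous).union (isCompact_range c.hom.continuous)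
    rwa [Set.eq_univ_of_forall (s := Set.range k.hom ∪ Set.range c.hom) (TopB_surj hp)] at h1

theorem contractible_sum (T : Theta0) : ContractibleSpace ((sumF discG).obj T) := by
  induction T using Theta0.induction with
  | hd n => exact contractible_disc n
  | hg T j i' h h' ih =>
    obtain ⟨a, k, c, hp⟩ := TopB_glue T j i' h h'
    obtain ⟨s⟩ := sdr_src h'.le
    obtain ⟨s'⟩ := s.pushout hp
    exact TopB_contractible s'

theorem fh_sum (T : Theta0) : FH ((sumF discG).obj T) := by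
  induction T using Theta0.induction with
  | hd n => exact TopB_fh_disc n
  | hg T j i' h h' ih =>
    obtain ⟨a, k, c, hp⟩ := TopB_glue T j i' h h'
    obtain ⟨r, hr⟩ := TopB_retract_src h'.le
    exact TopB_fh_pushout (m := i') r hr hp ih

theorem cg_sum (T : Theta0) : CompactlyGeneratedSpace ((sumF discG).obj T) := by
  have := TopB_compact T
  have : T2Space ((sumF discG).obj T) := ⟨fun x y hxy => by
    obtain ⟨f, hf⟩ := fh_sum T x y hxy
    exact separated_by_continuous f.continuous hf⟩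
  infer_instance

theorem FH.t2 {Y : Type} [TopologicalSpace Y] (h : FH Y) : T2Space Y := by
  refine ⟨fun x y hxy => ?_⟩
  obtain ⟨f, hf⟩ := h x y hxy
  exact separated_by_continuous f.continuous hf

end Vale.Agent.P259
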