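import Vale.Agent.P259.LawB
import Vale.Agent.P259.CofSec
import Vale.Agent.P259.TopA
import Vale.Agent.P259.TopB

/-! # P259: the disc functor and the fundamental groupoid functor (definitions) -/

set_option backward.isDefEq.respectTransparency false

open CategoryTheory Limits Opposite MorphismProperty

namespace Vale.Agent.P259

open Theta0
open Globe (D)

theorem sumF_σ {N : Type*} [Category.{0} N] [HasPushouts N] (A : Globe ⥤ N) (n : ℕ) :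
    (sumF A).map (σ n) = A.map (Globe.σ n) := sumF_map_discF A _

theorem sumF_τ {N : Type*} [Category.{0} N] [HasPushouts N] (A : Globe ⥤ N) (n : ℕ) :
    (sumF A).map (τ n) = A.map (Globe.τ n) := sumF_map_discF A _

theorem discLift (n : ℕ) (S : Theta0) (f g : (sumF discG).obj (disc n) ⟶ (sumF discG).obj S)
    (h : Parallel (sumF discG) n f g) : ∃ h, IsLift (sumF discG) h f g := by
  have hp : RT.b n ≫ f = RT.b n ≫ g := by
    cases n with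
    | zero => exact RT.init.hom_ext _ _
    | succ n =>
      obtain ⟨h1, h2⟩ := h
      rw [sumF_σ] at h1
      rw [sumF_τ] at h2
      exact RT.b_ext h1 h2
  have := contractible_sum S
  obtain ⟨w, hw⟩ := ext_of_contractible (n + 1) (RT.sph f g hp).hom
  have hw' : RT.b (n + 1) ≫ TopCat.ofHom w = RT.sph f g hp := TopCat.hom_ext hw
  have := (RT.b_eq_iff _ _).1 hw'
  refine ⟨TopCat.ofHom w, ?_, ?_⟩
  · rw [sumF_σ]; exact this.1.trans (RT.l_sph ..)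
  · rw [sumF_τ]; exact this.2.trans (RT.r_sph ..)

variable (K : Coherator)

/-- the disc functor -/
noncomputable def DT : K.C.Obj ⥤ TopCat.{0} where
  obj T := (sumF discG).obj T
  map {S T} θ := (K.exists_ext (sumF discG) (sumF_pres _) discLift).choose (S := S) (T := T) θ
  map_id S := (K.exists_ext (sumF discG) (sumF_pres _) discLift).choose_spec.1 S
  map_comp f g := (K.exists_ext (sumF discG) (sumF_pres _) discLift).choose_spec.2.1 _ _ _ f g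

theorem DT_F {S T : Theta0} (f : S ⟶ T) : (DT K).map (K.C.F.map f) = (sumF discG).map f :=
  (K.exists_ext (sumF discG) (sumF_pres _) discLift).choose_spec.2.2 _ _ f

theorem DT_pres : PreservesSums (K.C.F ⋙ DT K) := by
  intro T j i' h h'
  simp only [Functor.comp_map, DT_F]
  exact sumF_pres discG T j i' h h'

/-- the fundamental groupoid functor on all spaces -/
noncomputable def PiK : TopCat.{0} ⥤ Mod K.C := PiT (DT K) (DT_pres K)

variable {K}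

/-- cells of `Π Y` are maps from discs -/
noncomputable def cellPi {Y : TopCat.{0}} {j : ℕ} :
    (Dk K.C j ⟶ (PiK K).obj Y) ≃ (TopCat.of (Disc j) ⟶ Y) :=
  yEquiv (S := K.C.F.obj (disc j)) (X := (PiK K).obj Y)

theorem cellPi_map {Y Y' : TopCat.{0}} {j : ℕ} (x : Dk K.C j ⟶ (PiK K).obj Y) (f : Y ⟶ Y') :
    cellPi (x ≫ (PiK K).map f) = cellPi x ≫ f := rfl

theorem cellPi_DG {Y : TopCat.{0}} {j k : ℕ} (g : D j ⟶ D k) (x : Dk K.C k ⟶ (PiK K).obj Y) :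
    cellPi ((DG K.C).map g ≫ x) = discG.map g ≫ cellPi x := by
  refine (yEquiv_map (K.C.F.map (discF.map g)) x).trans ?_
  change (DT K).map (K.C.F.map (discF.map g)) ≫ _ = _
  erw [DT_F, sumF_map_discF]
  rfl

variable (K) in
/-- spheres of `Π Y` are maps from spheres -/
structure SphPi where
  e : ∀ {Y : TopCat.{0}} {j : ℕ}, (Sph K.C j ⟶ (PiK K).obj Y) ≃ (TopCat.of (Sphere j) ⟶ Y)
  e_bd : ∀ {Y : TopCat.{0}} {j : ℕ} (x : Dk K.C j ⟶ (PiK K).obj Y),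
    e (bd K.C j ≫ x) = sphInc j ≫ cellPi x
  e_map : ∀ {Y Y' : TopCat.{0}} {j : ℕ} (a : Sph K.C j ⟶ (PiK K).obj Y) (f : Y ⟶ Y'),
    e (a ≫ (PiK K).map f) = e a ≫ f
  e_l : ∀ {Y : TopCat.{0}} {j : ℕ} (a : Sph K.C (j + 1) ⟶ (PiK K).obj Y),
    cellPi ((RD K.C).l j ≫ a) = lowerS j ≫ e a
  e_r : ∀ {Y : TopCat.{0}} {j : ℕ} (a : Sph K.C (j + 1) ⟶ (PiK K).obj Y),
    cellPi ((RD K.C).r j ≫ a) = upperS j ≫ e a

/-- the model of pairs (map from a sum of discs, map from the frame `E`) -/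
structure ZOut (W : TopCat.{0} ⥤ Mod K.C) {RA : Reedy (discG ⋙ W)} (Ed : EData RA) where
  Z : TopCat.{0} ⥤ Mod K.C
  p : Z ⟶ PiK K
  χ : Z ⟶ W
  hat : ∀ {Y : TopCat.{0}} {j : ℕ}, (Dk K.C j ⟶ Z.obj Y) → (Ed.E.obj (D j) ⟶ W.obj Y)
  hat_σ : ∀ {Y : TopCat.{0}} {j : ℕ} (x : Dk K.C (j + 1) ⟶ Z.obj Y),
    hat (sσ K.C j ≫ x) = Ed.E.map (Globe.σ j) ≫ hat x
  hat_τ : ∀ {Y : TopCat.{0}} {j : ℕ} (x : Dk K.C (j + 1) ⟶ Z.obj Y),
    hat (sτ K.C j ≫ x) = Ed.E.map (Globe.τ j) ≫ hat x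
  hat_map : ∀ {Y Y' : TopCat.{0}} {j : ℕ} (x : Dk K.C j ⟶ Z.obj Y) (f : Y ⟶ Y'),
    hat (x ≫ Z.map f) = hat x ≫ W.map f
  hat_α : ∀ {Y : TopCat.{0}} {j : ℕ} (x : Dk K.C j ⟶ Z.obj Y),
    Ed.α.app.app (D j) ≫ hat x = W.map (cellPi (x ≫ p.app Y))
  hat_ψ : ∀ {Y : TopCat.{0}} {j : ℕ} (x : Dk K.C j ⟶ Z.obj Y),
    Ed.ψ.app.app (D j) ≫ hat x = x ≫ χ.app Y
  ext : ∀ {Y : TopCat.{0}} {j : ℕ} (x y : Dk K.C j ⟶ Z.obj Y), x ≫ p.app Y = y ≫ p.app Y →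
    hat x = hat y → x = y
  mk' : ∀ {Y : TopCat.{0}} {j : ℕ} (v : Dk K.C j ⟶ (PiK K).obj Y) (g : Ed.E.obj (D j) ⟶ W.obj Y),
    Ed.α.app.app (D j) ≫ g = W.map (cellPi v) →
      ∃ x : Dk K.C j ⟶ Z.obj Y, x ≫ p.app Y = v ∧ hat x = g

variable (K) in
/-- the comparison data: a cofibrant excisive functor `W` related to `Π` by a zigzag -/
structure Cmp where
  W : TopCat.{0} ⥤ Mod K.C
  Z : TopCat.{0} ⥤ Mod K.C
  p : Z ⟶ PiK K
  χ : Z ⟶ W
  tf : ∀ Y, TFib K.C (p.app Y)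
  we : ∀ Y, WL K.C (χ.app Y)
  cofib : ∀ Y, Cofib (W.obj Y)
  cof : ∀ {Y Y' : TopCat.{0}} (f : Y ⟶ Y'), Function.Injective f → Cof K.C (W.map f)
  exc : ∀ {A U V Y : TopCat.{0}} {kU : A ⟶ U} {kV : A ⟶ V} {jU : U ⟶ Y} {jV : V ⟶ Y},
    ExcSq kU kV jU jV → ∀ {P : Mod K.C} {inU : W.obj U ⟶ P} {inV : W.obj V ⟶ P},
      IsPushout (W.map kU) (W.map kV) inU inV → ∀ φ : P ⟶ W.obj Y, inU ≫ φ = W.map jU →
        inV ≫ φ = W.map jV → WL K.C φ ∧ Cof K.C φ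
  sigma : ∀ {ι : Type} (Y : ι → Type) [∀ α, TopologicalSpace (Y α)],
    IsIso (Sigma.desc fun α => W.map (sigIn Y α))

end Vale.Agent.P259
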