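import Vale.Agent.P259.Defs

/-! # P259: globe category lemmas, Reedy data, sums in an arbitrary category -/

open CategoryTheory Limits Opposite

namespace Vale.Agent.P259

universe v u

namespace Globe

@[reassoc]
theorem σσ (n : ℕ) : σ n ≫ σ (n + 1) = σ n ≫ τ (n + 1) := by
  simp only [σ, τ]
  exact (((Quotient.functor GlobeRel).map_comp _ _).symm.trans
    (CategoryTheory.Quotient.sound _ (GlobeGen.s n))).trans
    ((Quotient.functor GlobeRel).map_comp _ _)

@[reassoc]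
theorem τσ (n : ℕ) : τ n ≫ σ (n + 1) = τ n ≫ τ (n + 1) := by
  simp only [σ, τ]
  exact (((Quotient.functor GlobeRel).map_comp _ _).symm.trans
    (CategoryTheory.Quotient.sound _ (GlobeGen.t n))).trans
    ((Quotient.functor GlobeRel).map_comp _ _)

@[simp] theorem src_self (j : ℕ) (h : j ≤ j) : src h = 𝟙 (D j) := Nat.leRec_self ..
@[simp] theorem tgt_self (j : ℕ) (h : j ≤ j) : tgt h = 𝟙 (D j) := Nat.leRec_self ..

theorem src_succ {j i : ℕ} (h : j ≤ i) (h' : j ≤ i + 1) : src h' = src h ≫ σ i :=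
  Nat.leRec_succ _ _ h

theorem tgt_succ {j i : ℕ} (h : j ≤ i) (h' : j ≤ i + 1) : tgt h' = tgt h ≫ τ i :=
  Nat.leRec_succ _ _ h

theorem src_succ_self (j : ℕ) (h : j ≤ j + 1) : src h = σ j := by
  rw [src_succ le_rfl, src_self, Category.id_comp]

theorem tgt_succ_self (j : ℕ) (h : j ≤ j + 1) : tgt h = τ j := by
  rw [tgt_succ le_rfl, tgt_self, Category.id_comp]

@[reassoc]
theorem tgt_tgt {k j i : ℕ} (h : k ≤ j) (h' : j ≤ i) : tgt h ≫ tgt h' = tgt (h.trans h') := by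
  induction i, h' using Nat.le_induction with
  | base => simp
  | succ i hi ih => rw [tgt_succ hi, tgt_succ (h.trans hi), ← ih, Category.assoc]

@[reassoc]
theorem src_src {k j i : ℕ} (h : k ≤ j) (h' : j ≤ i) : src h ≫ src h' = src (h.trans h') := by
  induction i, h' using Nat.le_induction with
  | base => simp
  | succ i hi ih => rw [src_succ hi, src_succ (h.trans hi), ← ih, Category.assoc]

/-- for `j < i`, `tgt` followed by `σ` is again `tgt` -/
@[reassoc]
theorem tgt_σ {j i : ℕ} (h : j < i) : tgt h.le ≫ σ i = tgt (h.le.trans i.le_succ) := by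
  obtain ⟨i, rfl⟩ : ∃ k, i = k + 1 := ⟨i - 1, by omega⟩
  rw [tgt_succ h.le (h.le.trans (i + 1).le_succ), tgt_succ (Nat.le_of_lt_succ h) h.le,
    Category.assoc, Category.assoc, τσ]

variable {N : Type u} [Category.{v} N]

/-- the prefunctor defined by generators -/
noncomputable def liftPre (obj : ℕ → N) (s t : ∀ n, obj n ⟶ obj (n + 1)) : GlobeVertex ⥤q N where
  obj x := obj x.dim
  map {_ _} e := GlobeEdge.rec (motive := fun x y _ => obj x.dim ⟶ obj y.dim) s t e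

/-- the functor `𝔾 ⥤ N` defined by generators and relations -/
noncomputable def lift (obj : ℕ → N) (s t : ∀ n, obj n ⟶ obj (n + 1))
    (hs : ∀ n, s n ≫ s (n + 1) = s n ≫ t (n + 1)) (ht : ∀ n, t n ≫ s (n + 1) = t n ≫ t (n + 1)) :
    Globe ⥤ N :=
  CategoryTheory.Quotient.lift GlobeRel (Paths.lift (liftPre obj s t)) (by
    have h1 : ∀ n, (Paths.lift (liftPre obj s t)).map (pathS n) = s n := fun n =>
      Paths.lift_toPath _ _
    have h2 : ∀ n, (Paths.lift (liftPre obj s t)).map (pathT n) = t n := fun n =>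
      Paths.lift_toPath _ _
    rintro _ _ _ _ (⟨n⟩ | ⟨n⟩)
    · rw [Functor.map_comp, Functor.map_comp, h1, h1, h2]; exact hs n
    · rw [Functor.map_comp, Functor.map_comp, h1, h2, h2]; exact ht n)

section

variable (obj : ℕ → N) (s t : ∀ n, obj n ⟶ obj (n + 1))
    (hs : ∀ n, s n ≫ s (n + 1) = s n ≫ t (n + 1)) (ht : ∀ n, t n ≫ s (n + 1) = t n ≫ t (n + 1))

theorem lift_obj (n : ℕ) : (lift obj s t hs ht).obj (D n) = obj n := rfl

theorem lift_σ (n : ℕ) : (lift obj s t hs ht).map (σ n) = s n :=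
  Paths.lift_toPath (liftPre obj s t) (GlobeEdge.s n)

theorem lift_τ (n : ℕ) : (lift obj s t hs ht).map (τ n) = t n :=
  Paths.lift_toPath (liftPre obj s t) (GlobeEdge.t n)

end

/-- induction on morphisms of `𝔾` -/
theorem hom_induction (P : ∀ {a b : ℕ}, (D a ⟶ D b) → Prop) (hid : ∀ a, P (𝟙 (D a)))
    (hσ : ∀ a b (f : D a ⟶ D b), P f → P (f ≫ σ b))
    (hτ : ∀ a b (f : D a ⟶ D b), P f → P (f ≫ τ b)) {a b : ℕ} (f : D a ⟶ D b) : P f := by
  obtain ⟨p, rfl⟩ := (Quotient.functor GlobeRel).map_surjective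
    (X := (Paths.of GlobeVertex).obj ⟨a⟩) (Y := (Paths.of GlobeVertex).obj ⟨b⟩) f
  have key : ∀ {y : GlobeVertex} (p : Quiver.Path (⟨a⟩ : GlobeVertex) y),
      P (a := a) (b := y.dim) ((Quotient.functor GlobeRel).map p) := by
    intro y p
    induction p with
    | nil => exact hid a
    | cons p e ih =>
      change GlobeEdge _ _ at e
      cases e with
      | s n => exact hσ _ _ _ ih
      | t n => exact hτ _ _ _ ih
  exact key p

/-- a natural transformation of functors out of `𝔾` from components commuting with `σ, τ` -/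
def natTrans {A B : Globe ⥤ N} (app : ∀ n, A.obj (D n) ⟶ B.obj (D n))
    (hs : ∀ n, A.map (σ n) ≫ app (n + 1) = app n ≫ B.map (σ n))
    (ht : ∀ n, A.map (τ n) ≫ app (n + 1) = app n ≫ B.map (τ n)) : A ⟶ B where
  app d := app d.as.dim
  naturality d d' f := by
    refine hom_induction (fun {a b} f => A.map f ≫ app b = app a ≫ B.map f) (by simp) ?_ ?_
      (a := d.as.dim) (b := d'.as.dim) f
    · intro a b f hf
      rw [A.map_comp, B.map_comp, Category.assoc, hs, reassoc_of% hf]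
    · intro a b f hf
      rw [A.map_comp, B.map_comp, Category.assoc, ht, reassoc_of% hf]

theorem natTrans_app {A B : Globe ⥤ N} (app : ∀ n, A.obj (D n) ⟶ B.obj (D n)) (hs ht) (n : ℕ) :
    (natTrans app hs ht).app (D n) = app n := rfl

end Globe

open Globe (D)

section Reedy

variable {N : Type u} [Category.{v} N]

/-- Boundary (latching) objects of a coglobular object: `B 0 = ∅`, `B (j+1) = A_j ⨿_{B j} A_j`. -/
structure Reedy (A : Globe ⥤ N) where
  B : ℕ → N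
  b : ∀ j, B j ⟶ A.obj (D j)
  l : ∀ j, A.obj (D j) ⟶ B (j + 1)
  r : ∀ j, A.obj (D j) ⟶ B (j + 1)
  init : IsInitial (B 0)
  po : ∀ j, IsPushout (b j) (b j) (l j) (r j)
  l_b : ∀ j, l j ≫ b (j + 1) = A.map (Globe.σ j)
  r_b : ∀ j, r j ≫ b (j + 1) = A.map (Globe.τ j)

attribute [reassoc (attr := simp)] Reedy.l_b Reedy.r_b

namespace Reedy

variable {A : Globe ⥤ N} (R : Reedy A)

@[reassoc]
theorem b_l (j : ℕ) : R.b j ≫ R.l j = R.b j ≫ R.r j := (R.po j).w

@[reassoc]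
theorem b_σ (j : ℕ) : R.b j ≫ A.map (Globe.σ j) = R.b j ≫ A.map (Globe.τ j) := by
  rw [← R.l_b, ← R.r_b, R.b_l_assoc]

theorem ext {j : ℕ} {X : N} {φ ψ : R.B (j + 1) ⟶ X} (h1 : R.l j ≫ φ = R.l j ≫ ψ)
    (h2 : R.r j ≫ φ = R.r j ≫ ψ) : φ = ψ := (R.po j).hom_ext h1 h2

theorem b_ext {j : ℕ} {X : N} {u v : A.obj (D (j + 1)) ⟶ X}
    (h1 : A.map (Globe.σ j) ≫ u = A.map (Globe.σ j) ≫ v)
    (h2 : A.map (Globe.τ j) ≫ u = A.map (Globe.τ j) ≫ v) : R.b (j + 1) ≫ u = R.b (j + 1) ≫ v :=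
  R.ext (by simpa using h1) (by simpa using h2)

/-- the sphere given by two parallel cells -/
noncomputable def sph {j : ℕ} {X : N} (u v : A.obj (D j) ⟶ X) (h : R.b j ≫ u = R.b j ≫ v) :
    R.B (j + 1) ⟶ X := (R.po j).desc u v h

@[reassoc (attr := simp)]
theorem l_sph {j : ℕ} {X : N} (u v : A.obj (D j) ⟶ X) (h : R.b j ≫ u = R.b j ≫ v) :
    R.l j ≫ R.sph u v h = u := (R.po j).inl_desc ..

@[reassoc (attr := simp)]
theorem r_sph {j : ℕ} {X : N} (u v : A.obj (D j) ⟶ X) (h : R.b j ≫ u = R.b j ≫ v) :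
    R.r j ≫ R.sph u v h = v := (R.po j).inr_desc ..

theorem b_eq_iff {j : ℕ} {X : N} (w : A.obj (D (j + 1)) ⟶ X) (a : R.B (j + 1) ⟶ X) :
    R.b (j + 1) ≫ w = a ↔ A.map (Globe.σ j) ≫ w = R.l j ≫ a ∧ A.map (Globe.τ j) ≫ w = R.r j ≫ a :=
  ⟨by rintro rfl; simp, fun h => R.ext (by simpa using h.1) (by simpa using h.2)⟩

theorem par_l_r {j : ℕ} {X : N} (a : R.B (j + 1) ⟶ X) :
    R.b j ≫ R.l j ≫ a = R.b j ≫ R.r j ≫ a := R.b_l_assoc j a

variable [HasPushouts N] [HasInitial N] (A)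

/-- auxiliary recursion for the canonical boundary objects -/
noncomputable def canonAux : ∀ j, (X : N) ×' (b : X ⟶ A.obj (D j)) ×'
    b ≫ A.map (Globe.σ j) = b ≫ A.map (Globe.τ j)
  | 0 => ⟨⊥_ N, initial.to _, initialIsInitial.hom_ext _ _⟩
  | j + 1 => ⟨pushout (canonAux j).2.1 (canonAux j).2.1,
      pushout.desc (A.map (Globe.σ j)) (A.map (Globe.τ j)) (canonAux j).2.2, by
        apply pushout.hom_ext
        · simp only [pushout.inl_desc_assoc, ← A.map_comp, Globe.σσ]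
        · simp only [pushout.inr_desc_assoc, ← A.map_comp, Globe.τσ]⟩

/-- the canonical boundary objects -/
noncomputable def canon : Reedy A where
  B j := (canonAux A j).1
  b j := (canonAux A j).2.1
  l _ := pushout.inl _ _
  r _ := pushout.inr _ _
  init := initialIsInitial
  po _ := IsPushout.of_hasPushout _ _
  l_b _ := pushout.inl_desc _ _ _
  r_b _ := pushout.inr_desc _ _ _

end Reedy

/-- a morphism of coglobular objects together with the induced maps on boundaries -/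
structure ReedyHom {A A' : Globe ⥤ N} (R : Reedy A) (R' : Reedy A') where
  app : A ⟶ A'
  bm : ∀ j, R.B j ⟶ R'.B j
  bm_b : ∀ j, bm j ≫ R'.b j = R.b j ≫ app.app (D j)
  l_bm : ∀ j, R.l j ≫ bm (j + 1) = app.app (D j) ≫ R'.l j
  r_bm : ∀ j, R.r j ≫ bm (j + 1) = app.app (D j) ≫ R'.r j

attribute [reassoc] ReedyHom.bm_b ReedyHom.l_bm ReedyHom.r_bm

end Reedy

/-- a multiple attachment: `K'` is obtained from `K` by attaching the cells `g (k α)` -/
structure MA {N : Type u} [Category.{v} N] {I : Type} {A B : I → N} (g : ∀ j, A j ⟶ B j)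
    {K K' : N} (i : K ⟶ K') where
  ι : Type
  k : ι → I
  a : ∀ α, A (k α) ⟶ K
  c : ∀ α, B (k α) ⟶ K'
  w : ∀ α, a α ≫ i = g (k α) ≫ c α
  desc : ∀ {X : N} (u : K ⟶ X) (v : ∀ α, B (k α) ⟶ X), (∀ α, a α ≫ u = g (k α) ≫ v α) →
    ∃ φ : K' ⟶ X, i ≫ φ = u ∧ ∀ α, c α ≫ φ = v α
  hom_ext : ∀ {X : N} (φ ψ : K' ⟶ X), i ≫ φ = i ≫ ψ → (∀ α, c α ≫ φ = c α ≫ ψ) → φ = ψ

/-- a single attachment as a multiple attachment -/
def MA.ofPushout {N : Type u} [Category.{v} N] {I : Type} {A B : I → N} (g : ∀ j, A j ⟶ B j)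
    {K K' : N} {i : K ⟶ K'} {k : I} {a : A k ⟶ K} {c : B k ⟶ K'} (h : IsPushout a (g k) i c) :
    MA g i where
  ι := Unit
  k _ := k
  a _ := a
  c _ := c
  w _ := h.w
  desc u v hv := ⟨h.desc u (v ()) (hv ()), h.inl_desc .., fun _ => h.inr_desc ..⟩
  hom_ext _ _ h1 h2 := h.hom_ext h1 (h2 ())

end Vale.Agent.P259
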