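import Vale.Agent.P259.Base

/-! # P259 part LawA: elementary facts on the classes of maps, groupoid laws -/

set_option backward.isDefEq.respectTransparency false

open CategoryTheory Limits Opposite MorphismProperty

namespace Vale.Agent.P259

open Theta0
open Globe (D)

section

variable {C : GlobExt}

theorem YF_pres (C : GlobExt) : PreservesSums (YF C) := yM_pres C

attribute [local instance] Cardinal.fact_isRegular_aleph0

theorem lawA_rlp_iff {N : Type*} [Category N] {I : Type} {A B : I → N} (g : ∀ j, A j ⟶ B j)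
    {X Y : N} (p : X ⟶ Y) : (ofHoms g).rlp p ↔
    ∀ (j : I) (a : A j ⟶ X) (w : B j ⟶ Y), g j ≫ w = a ≫ p →
      ∃ v : B j ⟶ X, g j ≫ v = a ∧ v ≫ p = w := by
  constructor
  · intro h j a w hw
    have := h _ (ofHoms.mk (f := g) j)
    have sq : CommSq a (g j) p w := ⟨hw.symm⟩
    exact ⟨sq.lift, sq.fac_left, sq.fac_right⟩
  · rintro h _ _ _ ⟨j⟩
    refine ⟨fun {u v} sq => ?_⟩
    obtain ⟨l, h1, h2⟩ := h j u v sq.w.symm
    exact ⟨⟨⟨l, h1, h2⟩⟩⟩

theorem fp_Dk (C : GlobExt) (j : ℕ) : IsFinitelyPresentable.{0} (Dk C j) := by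
  exact isFinitelyPresentable_yM C _

theorem fp_Sph (C : GlobExt) (j : ℕ) : IsFinitelyPresentable.{0} (Sph C j) := by
  induction j with
  | zero =>
    have : ∀ k, IsCardinalPresentable ((Functor.empty.{0} (Mod C)).obj k) Cardinal.aleph0.{0} :=
      fun k => k.as.elim
    exact isCardinalPresentable_of_isColimit _ (RD C).init Cardinal.aleph0.{0}
      (hasCardinalLT_of_finite _ _ le_rfl)
  | succ j ih =>
    have : ∀ k, IsCardinalPresentable ((span (bd C j) (bd C j)).obj k) Cardinal.aleph0.{0} := by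
      rintro (_ | _ | _)
      · exact ih
      · exact fp_Dk C j
      · exact fp_Dk C j
    exact isCardinalPresentable_of_isColimit _ ((RD C).po j).isColimit Cardinal.aleph0.{0}
      (hasCardinalLT_of_finite _ _ le_rfl)

theorem tfib_iff {X Y : Mod C} (p : X ⟶ Y) : TFib C p ↔
    ∀ (j : ℕ) (a : Sph C j ⟶ X) (w : Dk C j ⟶ Y), bd C j ≫ w = a ≫ p →
      ∃ v : Dk C j ⟶ X, bd C j ≫ v = a ∧ v ≫ p = w := by
  exact lawA_rlp_iff (bd C) p

theorem fib_iff {X Y : Mod C} (p : X ⟶ Y) : Fib C p ↔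
    ∀ (j : ℕ) (a : Dk C j ⟶ X) (w : Dk C (j + 1) ⟶ Y), sσ C j ≫ w = a ≫ p →
      ∃ v : Dk C (j + 1) ⟶ X, sσ C j ≫ v = a ∧ v ≫ p = w := by
  exact lawA_rlp_iff (sσ C) p

theorem Cof.lift {A B X Y : Mod C} {i : A ⟶ B} {p : X ⟶ Y} (hi : Cof C i) (hp : TFib C p)
    (f : A ⟶ X) (g : B ⟶ Y) (h : f ≫ p = i ≫ g) : ∃ l : B ⟶ X, i ≫ l = f ∧ l ≫ p = g := by
  have := hi p hp
  have sq : CommSq f i p g := ⟨h⟩
  exact ⟨sq.lift, sq.fac_left, sq.fac_right⟩

theorem TC.lift {A B X Y : Mod C} {i : A ⟶ B} {p : X ⟶ Y} (hi : TC C i) (hp : Fib C p)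
    (f : A ⟶ X) (g : B ⟶ Y) (h : f ≫ p = i ≫ g) : ∃ l : B ⟶ X, i ≫ l = f ∧ l ≫ p = g := by
  have := hi p hp
  have sq : CommSq f i p g := ⟨h⟩
  exact ⟨sq.lift, sq.fac_left, sq.fac_right⟩

theorem Cofib.lift {B X Y : Mod C} {p : X ⟶ Y} (hB : Cofib B) (hp : TFib C p) (g : B ⟶ Y) :
    ∃ l : B ⟶ X, l ≫ p = g := by
  obtain ⟨l, -, h⟩ := Cof.lift hB hp (initial.to X) g (initial.hom_ext _ _)
  exact ⟨l, h⟩

theorem cof_bd (j : ℕ) : Cof C (bd C j) := by
  exact le_llp_rlp _ _ (ofHoms.mk (f := bd C) j)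

theorem cof_l (j : ℕ) : Cof C ((RD C).l j) := by
  exact (Cof C).of_isPushout ((RD C).po j) (cof_bd j)

theorem cof_r (j : ℕ) : Cof C ((RD C).r j) := by
  exact (Cof C).of_isPushout ((RD C).po j).flip (cof_bd j)

theorem cof_sσ (j : ℕ) : Cof C (sσ C j) := by
  have := (Cof C).comp_mem _ _ (cof_l (C := C) j) (cof_bd (j + 1))
  rwa [(RD C).l_b] at this

theorem cof_sτ (j : ℕ) : Cof C (sτ C j) := by
  have := (Cof C).comp_mem _ _ (cof_r (C := C) j) (cof_bd (j + 1))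
  rwa [(RD C).r_b] at this

theorem tc_sσ (j : ℕ) : TC C (sσ C j) := by
  exact le_llp_rlp _ _ (ofHoms.mk (f := sσ C) j)

theorem tc_src {j i : ℕ} (h : j ≤ i) : TC C ((DG C).map (Globe.src h)) := by
  induction i, h using Nat.le_induction with
  | base => rw [Globe.src_self, CategoryTheory.Functor.map_id]; exact (TC C).id_mem _
  | succ i hi ih =>
    rw [Globe.src_succ hi, Functor.map_comp]
    exact (TC C).comp_mem _ _ ih (tc_sσ i)

theorem TFib.fib {X Y : Mod C} {p : X ⟶ Y} (h : TFib C p) : Fib C p := by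
  rintro _ _ _ ⟨j⟩
  exact cof_sσ j p h

theorem TC.cof {X Y : Mod C} {i : X ⟶ Y} (h : TC C i) : Cof C i := by
  intro _ _ p hp
  exact h p (TFib.fib hp)

theorem Cofib.of_cof {X Y : Mod C} (hX : Cofib X) {i : X ⟶ Y} (h : Cof C i) : Cofib Y := by
  have := (Cof C).comp_mem _ _ hX h
  rwa [initial.hom_ext (initial.to X ≫ i) (initial.to Y)] at this

theorem Cofib.of_isInitial {X : Mod C} (h : IsInitial X) : Cofib X := by
  have : IsIso (initial.to X) := isIso_of_isInitial initialIsInitial h _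
  exact llp_of_isIso _ _

theorem Cofib.cof_of_isInitial {I X : Mod C} (hX : Cofib X) (h : IsInitial I) (f : I ⟶ X) :
    Cof C f := by
  have : IsIso (h.to (⊥_ (Mod C))) := isIso_of_isInitial h initialIsInitial _
  have h1 : Cof C (h.to (⊥_ (Mod C))) := llp_of_isIso _ _
  have := (Cof C).comp_mem _ _ h1 hX
  rwa [h.hom_ext (h.to _ ≫ initial.to X) f] at this

theorem Cofib.of_retract {X Y : Mod C} (i : X ⟶ Y) (r : Y ⟶ X) (h : i ≫ r = 𝟙 X) (hY : Cofib Y) :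
    Cofib X := by
  intro _ _ p hp
  refine ⟨fun {u v} sq => ?_⟩
  obtain ⟨l, hl⟩ := hY.lift hp (r ≫ v)
  exact ⟨⟨⟨i ≫ l, initial.hom_ext _ _, by rw [Category.assoc, hl, reassoc_of% h]⟩⟩⟩

theorem Cofib.sigma {ι : Type} {X : ι → Mod C} (h : ∀ α, Cofib (X α)) : Cofib (∐ X) := by
  intro _ _ p hp
  refine ⟨fun {u v} sq => ?_⟩
  choose l hl using fun α => (h α).lift hp (Sigma.ι X α ≫ v)
  refine ⟨⟨⟨Sigma.desc l, initial.hom_ext _ _, ?_⟩⟩⟩
  ext1 α
  rw [← hl α, Sigma.ι_desc_assoc]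

theorem cofib_Sph (j : ℕ) : Cofib (Sph C j) := by
  induction j with
  | zero => exact Cofib.of_isInitial (RD C).init
  | succ j ih => exact (ih.of_cof (cof_bd j)).of_cof (cof_l j)

theorem cofib_Dk (j : ℕ) : Cofib (Dk C j) := by
  exact (cofib_Sph j).of_cof (cof_bd j)

theorem cofib_YF (T : Theta0) : Cofib ((YF C).obj T) := by
  induction T using Theta0.induction with
  | hd n => exact cofib_Dk n
  | hg T j i' h h' ih =>
    exact ih.of_cof ((Cof C).of_isPushout (YF_pres C T j i' h h') (tc_src h'.le).cof)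

theorem contr_iff_tfib (X : Mod C) : Contr X ↔ TFib C (terminal.from X) := by
  rw [tfib_iff]
  constructor
  · intro h j a w _
    obtain ⟨e, he⟩ := h j a
    exact ⟨e, he, terminal.hom_ext _ _⟩
  · intro h j a
    obtain ⟨e, he, -⟩ := h j a (terminal.from _) (terminal.hom_ext _ _)
    exact ⟨e, he⟩

theorem Contr.extend {A B X : Mod C} (hX : Contr X) {i : A ⟶ B} (hi : Cof C i) (g : A ⟶ X) :
    ∃ g' : B ⟶ X, i ≫ g' = g := by
  obtain ⟨l, hl, -⟩ := hi.lift ((contr_iff_tfib X).1 hX) g (terminal.from _) (terminal.hom_ext _ _)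
  exact ⟨l, hl⟩

theorem Contr.sim {X : Mod C} (hX : Contr X) {j : ℕ} (u v : Dk C j ⟶ X)
    (h : bd C j ≫ u = bd C j ≫ v) : Sim u v := by
  obtain ⟨e, he⟩ := hX (j + 1) ((RD C).sph u v h)
  rw [(RD C).b_eq_iff, Reedy.l_sph, Reedy.r_sph] at he
  exact ⟨e, he⟩

theorem Contr.mContr {X : Mod C} (hX : Contr X) (m : ℕ) : MContr m X := by
  exact fun _ _ u v h => hX.sim u v h

theorem contr_of_mContr {X : Mod C} (h : ∀ m, MContr m X) (x : Dk C 0 ⟶ X) : Contr X := by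
  intro j a
  cases j with
  | zero => exact ⟨x, (RD C).init.hom_ext _ _⟩
  | succ j =>
    obtain ⟨w, hw⟩ := h j j le_rfl _ _ ((RD C).par_l_r a)
    exact ⟨w, ((RD C).b_eq_iff w a).2 hw⟩

theorem MContr.of_retract {m : ℕ} {X Y : Mod C} (i : X ⟶ Y) (r : Y ⟶ X) (h : i ≫ r = 𝟙 X)
    (hY : MContr m Y) : MContr m X := by
  intro j hj u v huv
  obtain ⟨w, h1, h2⟩ := hY j hj (u ≫ i) (v ≫ i) (by rw [reassoc_of% huv])
  exact ⟨w ≫ r, by rw [reassoc_of% h1, h, Category.comp_id],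
    by rw [reassoc_of% h2, h, Category.comp_id]⟩

theorem Contr.of_retract {X Y : Mod C} (i : X ⟶ Y) (r : Y ⟶ X) (h : i ≫ r = 𝟙 X)
    (hY : Contr Y) : Contr X := by
  intro j a
  obtain ⟨e, he⟩ := hY j (a ≫ i)
  exact ⟨e ≫ r, by rw [reassoc_of% he, h, Category.comp_id]⟩

theorem Contr.of_tfib {X Y : Mod C} {p : X ⟶ Y} (hp : TFib C p) (hY : Contr Y) : Contr X := by
  intro j a
  obtain ⟨e, he⟩ := hY j (a ≫ p)
  obtain ⟨v, hv, -⟩ := (tfib_iff p).1 hp j a e he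
  exact ⟨v, hv⟩

theorem Sim.par {X : Mod C} {j : ℕ} {u v : Dk C j ⟶ X} (h : Sim u v) :
    bd C j ≫ u = bd C j ≫ v := by
  obtain ⟨w, rfl, rfl⟩ := h
  exact (RD C).b_σ_assoc j w

theorem Sim.map {X Y : Mod C} {j : ℕ} {u v : Dk C j ⟶ X} (h : Sim u v) (f : X ⟶ Y) :
    Sim (u ≫ f) (v ≫ f) := by
  obtain ⟨w, rfl, rfl⟩ := h
  exact ⟨w ≫ f, (Category.assoc ..).symm, (Category.assoc ..).symm⟩

theorem sim_iff_fill {X : Mod C} {j : ℕ} (a : Sph C (j + 1) ⟶ X) :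
    Sim ((RD C).l j ≫ a) ((RD C).r j ≫ a) ↔ ∃ e : Dk C (j + 1) ⟶ X, bd C (j + 1) ≫ e = a := by
  exact exists_congr fun e => ((RD C).b_eq_iff e a).symm

theorem factor_cof_tfib {X Y : Mod C} (f : X ⟶ Y) :
    ∃ (Z : Mod C) (j : X ⟶ Z) (p : Z ⟶ Y), Cof C j ∧ TFib C p ∧ j ≫ p = f :=
  exists_factor (bd C) (fp_Sph C) f

theorem factor_tc_fib {X Y : Mod C} (f : X ⟶ Y) :
    ∃ (Z : Mod C) (j : X ⟶ Z) (p : Z ⟶ Y), TC C j ∧ Fib C p ∧ j ≫ p = f :=
  exists_factor (sσ C) (fp_Dk C) f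

end

end Vale.Agent.P259
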