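import Vale.Agent.P259.LawA

/-! # P259 part LawB: elementary facts on the classes of maps, groupoid laws -/

set_option backward.isDefEq.respectTransparency false

open CategoryTheory Limits Opposite MorphismProperty

namespace Vale.Agent.P259

open Theta0
open Globe (D)

variable (K : Coherator)

theorem contr_YF (T : Theta0) : Contr ((YF K.C).obj T) := by
  intro j a
  cases j with
  | zero => exact ⟨(YF K.C).map (src (Nat.zero_le _) ≫ lastι T), (RD K.C).init.hom_ext _ _⟩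
  | succ j =>
    obtain ⟨f, hf⟩ := (yM K.C).map_surjective (X := K.C.F.obj (disc j)) (Y := K.C.F.obj T)
      ((RD K.C).l j ≫ a)
    obtain ⟨g, hg⟩ := (yM K.C).map_surjective (X := K.C.F.obj (disc j)) (Y := K.C.F.obj T)
      ((RD K.C).r j ≫ a)
    have hpar := (RD K.C).par_l_r a
    have par : Parallel K.C.F j f g := by
      cases j with
      | zero => trivial
      | succ i =>
        constructor
        · apply (yM K.C).map_injective
          rw [Functor.map_comp, Functor.map_comp, hf, hg]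
          have := (RD K.C).l i ≫= hpar
          simp only [Reedy.l_b_assoc] at this
          exact this
        · apply (yM K.C).map_injective
          rw [Functor.map_comp, Functor.map_comp, hf, hg]
          have := (RD K.C).r i ≫= hpar
          simp only [Reedy.r_b_assoc] at this
          exact this
    obtain ⟨h, h1, h2⟩ := K.contr ⟨j, T, f, g, par⟩
    refine ⟨(yM K.C).map h, ((RD K.C).b_eq_iff _ a).2 ⟨?_, ?_⟩⟩
    · rw [← hf]
      exact ((yM K.C).map_comp _ _).symm.trans (congrArg _ h1)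
    · rw [← hg]
      exact ((yM K.C).map_comp _ _).symm.trans (congrArg _ h2)

theorem contr_Dk (n : ℕ) : Contr (Dk K.C n) := contr_YF K (disc n)

variable {K}

theorem lawB_po (C : GlobExt) (T : Theta0) (j i' : ℕ) (h : j < T.last) (h' : j < i') :
    IsPushout ((DG C).map (Globe.tgt h.le) ≫ ((YF C).map (lastι T) : Dk C T.last ⟶ _))
      ((DG C).map (Globe.src h'.le)) ((YF C).map (inl T j i' h h'))
      ((YF C).map (inr T j i' h h') : Dk C i' ⟶ _) := by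
  have := YF_pres C T j i' h h'
  rw [Functor.map_comp] at this
  exact this

variable (K) in
theorem lawB_two {j k i : ℕ} (h : j < k) (h' : j < i) :
    ∃ (G : Mod K.C) (a : Dk K.C k ⟶ G) (b : Dk K.C i ⟶ G),
      IsPushout ((DG K.C).map (Globe.tgt h.le)) ((DG K.C).map (Globe.src h'.le)) a b ∧ Contr G := by
  refine ⟨(YF K.C).obj (glue (disc k) j i h h'), (YF K.C).map (inl (disc k) j i h h'),
    (YF K.C).map (inr (disc k) j i h h'), ?_, contr_YF K _⟩
  have := lawB_po K.C (disc k) j i h h'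
  have e : (YF K.C).map (lastι (disc k)) = 𝟙 _ := (YF K.C).map_id _
  rw [e] at this
  erw [Category.comp_id] at this
  exact this

variable (K) in
theorem lawB_nabla (j : ℕ) :
    ∃ (G : Mod K.C) (a b n : Dk K.C (j + 1) ⟶ G), IsPushout (sτ K.C j) (sσ K.C j) a b ∧
      sσ K.C j ≫ n = sσ K.C j ≫ a ∧ sτ K.C j ≫ n = sτ K.C j ≫ b := by
  obtain ⟨G, a, b, hp, hG⟩ := lawB_two K (Nat.lt_succ_self j) (Nat.lt_succ_self j)
  rw [Globe.tgt_succ_self, Globe.src_succ_self] at hp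
  obtain ⟨n, h1, h2⟩ := hG.sim (sσ K.C j ≫ a) (sτ K.C j ≫ b) (by
    rw [(RD K.C).b_σ_assoc, hp.w, (RD K.C).b_σ_assoc])
  exact ⟨G, a, b, n, hp, h1, h2⟩

variable (K) in
theorem lawB_three (j : ℕ) :
    ∃ (G : Mod K.C) (a b c : Dk K.C (j + 1) ⟶ G), sτ K.C j ≫ a = sσ K.C j ≫ b ∧
      sτ K.C j ≫ b = sσ K.C j ≫ c ∧ Contr G ∧
      ∀ (X : Mod K.C) (a' b' c' : Dk K.C (j + 1) ⟶ X), sτ K.C j ≫ a' = sσ K.C j ≫ b' →
        sτ K.C j ≫ b' = sσ K.C j ≫ c' → ∃ φ : G ⟶ X, a ≫ φ = a' ∧ b ≫ φ = b' ∧ c ≫ φ = c' := by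
  have hj := Nat.lt_succ_self j
  have h1 := lawB_po K.C (disc (j + 1)) j (j + 1) hj hj
  have e : (YF K.C).map (lastι (disc (j + 1))) = 𝟙 _ := (YF K.C).map_id _
  rw [e] at h1
  erw [Category.comp_id] at h1
  have h2 := lawB_po K.C (glue (disc (j + 1)) j (j + 1) hj hj) j (j + 1) hj hj
  have e1 : Globe.tgt hj.le = Globe.τ j := Globe.tgt_succ_self _ _
  have e2 : Globe.src hj.le = Globe.σ j := Globe.src_succ_self _ _
  erw [e1, e2] at h1 h2
  refine ⟨_, (YF K.C).map (inl _ j (j + 1) hj hj) ≫ (YF K.C).map (inl _ j (j + 1) hj hj),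
    (YF K.C).map (inr _ j (j + 1) hj hj) ≫ (YF K.C).map (inl _ j (j + 1) hj hj),
    (YF K.C).map (inr (glue (disc (j + 1)) j (j + 1) hj hj) j (j + 1) hj hj), ?_, ?_,
    contr_YF K _, ?_⟩
  · exact (Category.assoc ..).symm.trans ((congrArg (· ≫ _) h1.w).trans (Category.assoc ..))
  · exact (Category.assoc ..).symm.trans h2.w
  · intro X a' b' c' hab hbc
    have hc : (sτ K.C j ≫ (YF K.C).map (inr (disc (j + 1)) j (j + 1) hj hj)) ≫ h1.desc a' b' hab =
        sσ K.C j ≫ c' := by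
      rw [← hbc]
      exact (Category.assoc ..).trans (congrArg (_ ≫ ·) (h1.inr_desc ..))
    refine ⟨h2.desc (h1.desc a' b' hab) c' hc, ?_, ?_, h2.inr_desc ..⟩
    · exact (Category.assoc ..).trans ((congrArg (_ ≫ ·) (h2.inl_desc ..)).trans (h1.inl_desc ..))
    · exact (Category.assoc ..).trans ((congrArg (_ ≫ ·) (h2.inl_desc ..)).trans (h1.inr_desc ..))

theorem lawB_spec (j : ℕ) : IsPushout (sτ K.C j) (sσ K.C j) (lawB_nabla K j).choose_spec.choose
    (lawB_nabla K j).choose_spec.choose_spec.choose ∧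
    sσ K.C j ≫ (lawB_nabla K j).choose_spec.choose_spec.choose_spec.choose =
      sσ K.C j ≫ (lawB_nabla K j).choose_spec.choose ∧
    sτ K.C j ≫ (lawB_nabla K j).choose_spec.choose_spec.choose_spec.choose =
      sτ K.C j ≫ (lawB_nabla K j).choose_spec.choose_spec.choose :=
  (lawB_nabla K j).choose_spec.choose_spec.choose_spec.choose_spec

/-- the composite of two cells -/
noncomputable def lawB_comp {X : Mod K.C} {j : ℕ} (a b : Dk K.C (j + 1) ⟶ X)
    (h : sτ K.C j ≫ a = sσ K.C j ≫ b) : Dk K.C (j + 1) ⟶ X :=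
  (lawB_nabla K j).choose_spec.choose_spec.choose_spec.choose ≫ (lawB_spec j).1.desc a b h

theorem lawB_σ_comp {X : Mod K.C} {j : ℕ} (a b : Dk K.C (j + 1) ⟶ X) (h) :
    sσ K.C j ≫ lawB_comp a b h = sσ K.C j ≫ a := by
  rw [lawB_comp, reassoc_of% (lawB_spec (K := K) j).2.1, IsPushout.inl_desc]

theorem lawB_τ_comp {X : Mod K.C} {j : ℕ} (a b : Dk K.C (j + 1) ⟶ X) (h) :
    sτ K.C j ≫ lawB_comp a b h = sτ K.C j ≫ b := by
  rw [lawB_comp, reassoc_of% (lawB_spec (K := K) j).2.2, IsPushout.inr_desc]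

theorem lawB_comp_map {X Y : Mod K.C} {j : ℕ} (a b : Dk K.C (j + 1) ⟶ X) (h) (f : X ⟶ Y) (h') :
    lawB_comp a b h ≫ f = lawB_comp (a ≫ f) (b ≫ f) h' := by
  rw [lawB_comp, lawB_comp, Category.assoc]
  congr 1
  apply (lawB_spec j).1.hom_ext <;> simp

theorem lawB_sim {X : Mod K.C} (hX : Contr X) {j : ℕ} (u v : Dk K.C (j + 1) ⟶ X)
    (h1 : sσ K.C j ≫ u = sσ K.C j ≫ v) (h2 : sτ K.C j ≫ u = sτ K.C j ≫ v) : Sim u v :=
  hX.sim u v ((RD K.C).b_ext h1 h2)

theorem lawB_σσ (C : GlobExt) (j : ℕ) : sσ C j ≫ sσ C (j + 1) = sσ C j ≫ sτ C (j + 1) := by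
  rw [← Functor.map_comp, ← Functor.map_comp, Globe.σσ]

theorem lawB_τσ (C : GlobExt) (j : ℕ) : sτ C j ≫ sσ C (j + 1) = sτ C j ≫ sτ C (j + 1) := by
  rw [← Functor.map_comp, ← Functor.map_comp, Globe.τσ]

theorem lawB_congr {X : Mod K.C} {j : ℕ} (a a' b : Dk K.C (j + 1) ⟶ X) (h h') (hw : Sim a a') :
    Sim (lawB_comp a b h) (lawB_comp a' b h') := by
  obtain ⟨w, rfl, rfl⟩ := hw
  obtain ⟨G, w0, b0, hp, hG⟩ := lawB_two K (show j < j + 2 by omega) (Nat.lt_succ_self j)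
  rw [Globe.tgt_succ (Nat.le_succ j), Globe.tgt_succ_self, Globe.src_succ_self,
    Functor.map_comp] at hp
  have hw := hp.w
  rw [Category.assoc] at hw
  have h1 : sτ K.C j ≫ sσ K.C (j + 1) ≫ w0 = sσ K.C j ≫ b0 := by
    rw [reassoc_of% (lawB_τσ K.C j), hw]
  have := (lawB_sim hG (lawB_comp _ _ h1) (lawB_comp _ _ hw) (by
    rw [lawB_σ_comp, lawB_σ_comp, reassoc_of% (lawB_σσ K.C j)]) (by
    rw [lawB_τ_comp, lawB_τ_comp])).map (hp.desc w b (by rw [Category.assoc, h']))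
  rw [lawB_comp_map _ _ _ _ (by simpa using h), lawB_comp_map _ _ _ _ (by simpa using h')] at this
  simpa using this

theorem lawB_congrR {X : Mod K.C} {j : ℕ} (a b b' : Dk K.C (j + 1) ⟶ X) (h h') (hw : Sim b b') :
    Sim (lawB_comp a b h) (lawB_comp a b' h') := by
  obtain ⟨w, rfl, rfl⟩ := hw
  obtain ⟨G, a0, w0, hp, hG⟩ := lawB_two K (Nat.lt_succ_self j) (show j < j + 2 by omega)
  rw [Globe.src_succ (Nat.le_succ j), Globe.tgt_succ_self, Globe.src_succ_self,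
    Functor.map_comp] at hp
  have hw := hp.w
  rw [Category.assoc] at hw
  have h1 : sτ K.C j ≫ a0 = sσ K.C j ≫ sτ K.C (j + 1) ≫ w0 := by
    rw [← reassoc_of% (lawB_σσ K.C j), hw]
  have := (lawB_sim hG (lawB_comp _ _ hw) (lawB_comp _ _ h1) (by
    rw [lawB_σ_comp, lawB_σ_comp]) (by
    rw [lawB_τ_comp, lawB_τ_comp, reassoc_of% (lawB_τσ K.C j)])).map
      (hp.desc a w (by rw [Category.assoc, h]))
  rw [lawB_comp_map _ _ _ _ (by simpa using h), lawB_comp_map _ _ _ _ (by simpa using h')] at this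
  simpa using this

theorem lawB_assoc {X : Mod K.C} {j : ℕ} (a b c : Dk K.C (j + 1) ⟶ X) (hab hbc h h') :
    Sim (lawB_comp a (lawB_comp b c hbc) h) (lawB_comp (lawB_comp a b hab) c h') := by
  obtain ⟨G, a0, b0, c0, h1, h2, hG, hu⟩ := lawB_three K j
  obtain ⟨φ, rfl, rfl, rfl⟩ := hu X a b c hab hbc
  have := (lawB_sim hG (lawB_comp a0 (lawB_comp b0 c0 h2) (by rw [lawB_σ_comp, h1]))
    (lawB_comp (lawB_comp a0 b0 h1) c0 (by rw [lawB_τ_comp, h2]))
    (by simp only [lawB_σ_comp]) (by simp only [lawB_τ_comp])).map φ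
  rw [lawB_comp_map a0 _ _ φ (by rw [lawB_comp_map _ _ _ _ hbc]; exact h),
    lawB_comp_map (lawB_comp a0 b0 h1) c0 _ φ (by rw [lawB_comp_map _ _ _ _ hab]; exact h')] at this
  simpa only [lawB_comp_map _ _ _ _ hbc, lawB_comp_map _ _ _ _ hab] using this

theorem Sim.refl {X : Mod K.C} {j : ℕ} (u : Dk K.C j ⟶ X) : Sim u u := by
  have := ((contr_Dk K j).sim (𝟙 _) (𝟙 _) rfl).map u
  rwa [Category.id_comp] at this

theorem Sim.symm {X : Mod K.C} {j : ℕ} {u v : Dk K.C j ⟶ X} (h : Sim u v) : Sim v u := by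
  obtain ⟨w, rfl, rfl⟩ := h
  exact ((contr_Dk K (j + 1)).sim _ _ ((RD K.C).b_σ j).symm).map w

theorem Sim.trans {X : Mod K.C} {j : ℕ} {u v w : Dk K.C j ⟶ X} (h : Sim u v) (h' : Sim v w) :
    Sim u w := by
  obtain ⟨a, rfl, rfl⟩ := h
  obtain ⟨b, hb, rfl⟩ := h'
  exact ⟨lawB_comp a b hb.symm, lawB_σ_comp a b _, lawB_τ_comp a b _⟩

theorem fib_terminal (X : Mod K.C) : Fib K.C (terminal.from X) := by
  rw [fib_iff]
  intro j a w _
  obtain ⟨v, hv, -⟩ := Sim.refl a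
  exact ⟨v, hv, terminal.hom_ext _ _⟩

/-- all objects are fibrant -/
theorem TC.extend {A B X : Mod K.C} {i : A ⟶ B} (hi : TC K.C i) (g : A ⟶ X) :
    ∃ g' : B ⟶ X, i ≫ g' = g := by
  obtain ⟨l, hl, -⟩ := hi.lift (fib_terminal X) g (terminal.from _) (terminal.hom_ext _ _)
  exact ⟨l, hl⟩

theorem lawB_divR {X : Mod K.C} {j : ℕ} (c β : Dk K.C (j + 1) ⟶ X)
    (h : sσ K.C j ≫ c = sσ K.C j ≫ β) :
    ∃ (δ : Dk K.C (j + 1) ⟶ X) (h : sτ K.C j ≫ c = sσ K.C j ≫ δ), Sim (lawB_comp c δ h) β := by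
  obtain ⟨v, hv1, hv2⟩ := (contr_Dk K (j + 1)).sim _ _ ((RD K.C).b_σ j).symm
  obtain ⟨κ, hκ1, hκ2⟩ := Sim.refl (𝟙 (Dk K.C j))
  have h1 : sτ K.C j ≫ v ≫ c = sσ K.C j ≫ β := by rw [reassoc_of% hv2, h]
  have h2 : sτ K.C j ≫ c = sσ K.C j ≫ v ≫ c := by rw [reassoc_of% hv1]
  have h3 : sτ K.C j ≫ κ ≫ sσ K.C j ≫ β = sσ K.C j ≫ β := by rw [reassoc_of% hκ2]
  refine ⟨lawB_comp (v ≫ c) β h1, by rw [lawB_σ_comp, h2], ?_⟩
  refine (lawB_assoc c (v ≫ c) β h2 h1 _ (by rw [lawB_τ_comp, h1])).trans ?_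
  refine (lawB_congr _ (κ ≫ sσ K.C j ≫ β) β _ h3 ?_).trans ?_
  · have := (lawB_sim (contr_Dk K (j + 1)) (lawB_comp (𝟙 _) v (by rw [hv1, Category.comp_id]))
      (κ ≫ sσ K.C j) (by rw [lawB_σ_comp, reassoc_of% hκ1, Category.comp_id])
      (by rw [lawB_τ_comp, reassoc_of% hκ2, hv2])).map c
    rw [lawB_comp_map _ _ _ _ (by simpa using h2)] at this
    simpa only [Category.id_comp, Category.assoc, h] using this
  · have := (lawB_sim (contr_Dk K (j + 1)) (lawB_comp (κ ≫ sσ K.C j) (𝟙 _)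
      (by rw [reassoc_of% hκ2, Category.comp_id])) (𝟙 _)
      (by rw [lawB_σ_comp, reassoc_of% hκ1, Category.comp_id])
      (by rw [lawB_τ_comp])).map β
    rw [lawB_comp_map _ _ _ _ (by simpa using h3)] at this
    simpa only [Category.id_comp, Category.assoc] using this

theorem lawB_divL {X : Mod K.C} {j : ℕ} (c β : Dk K.C (j + 1) ⟶ X)
    (h : sτ K.C j ≫ c = sτ K.C j ≫ β) :
    ∃ (g : Dk K.C (j + 1) ⟶ X) (h : sτ K.C j ≫ g = sσ K.C j ≫ c), Sim (lawB_comp g c h) β := by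
  obtain ⟨v, hv1, hv2⟩ := (contr_Dk K (j + 1)).sim _ _ ((RD K.C).b_σ j).symm
  obtain ⟨κ, hκ1, hκ2⟩ := Sim.refl (𝟙 (Dk K.C j))
  have h1 : sτ K.C j ≫ β = sσ K.C j ≫ v ≫ c := by rw [reassoc_of% hv1, h]
  have h2 : sτ K.C j ≫ v ≫ c = sσ K.C j ≫ c := by rw [reassoc_of% hv2]
  have h3 : sτ K.C j ≫ β = sσ K.C j ≫ κ ≫ sτ K.C j ≫ β := by rw [reassoc_of% hκ1]
  refine ⟨lawB_comp β (v ≫ c) h1, by rw [lawB_τ_comp, h2], ?_⟩
  refine (lawB_assoc β (v ≫ c) c h1 h2 (by rw [lawB_σ_comp, h1]) _).symm.trans ?_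
  refine (lawB_congrR β _ (κ ≫ sτ K.C j ≫ β) _ h3 ?_).trans ?_
  · have := (lawB_sim (contr_Dk K (j + 1)) (lawB_comp v (𝟙 _) (by rw [hv2, Category.comp_id]))
      (κ ≫ sτ K.C j) (by rw [lawB_σ_comp, reassoc_of% hκ1, hv1])
      (by rw [lawB_τ_comp, reassoc_of% hκ2, Category.comp_id])).map c
    rw [lawB_comp_map _ _ _ _ (by simpa using h2)] at this
    simpa only [Category.id_comp, Category.assoc, h] using this
  · have := (lawB_sim (contr_Dk K (j + 1)) (lawB_comp (𝟙 _) (κ ≫ sτ K.C j)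
      (by rw [reassoc_of% hκ1, Category.comp_id])) (𝟙 _)
      (by rw [lawB_σ_comp]) (by rw [lawB_τ_comp, reassoc_of% hκ2, Category.comp_id])).map β
    rw [lawB_comp_map _ _ _ _ (by simpa using h3)] at this
    simpa only [Category.id_comp, Category.assoc] using this

variable (K) in
theorem exists_compOp : Nonempty (CompOp K.C) := by
  exact ⟨⟨lawB_comp, lawB_σ_comp, lawB_τ_comp, lawB_comp_map, lawB_congr, lawB_divR, lawB_divL⟩⟩

end Vale.Agent.P259
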