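import Vale.Agent.P259.Sum

/-! # P259 part Mdl: the category of models is complete, cocomplete; representables are compact -/

set_option backward.isDefEq.respectTransparency false

open CategoryTheory Limits Opposite

namespace Vale.Agent.P259

universe u

open Theta0

/-- `Y ↦ Hom(Dd -, Y)` for a sum preserving functor `Dd` -/
def PiT {C : GlobExt} {N : Type u} [Category.{0} N] (Dd : C.Obj ⥤ N)
    (hD : PreservesSums (C.F ⋙ Dd)) : N ⥤ Mod C :=
  (IsModel C).lift (yoneda ⋙ (Functor.whiskeringLeft _ _ _).obj Dd.op) fun Y T j i' h h' =>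
    (hD T j i' h h').op.flip.map (yoneda.obj Y)

/-- the Yoneda embedding into models -/
def yM (C : GlobExt) : C.Obj ⥤ Mod C :=
  (IsModel C).lift yoneda fun S T j i' h h' => (C.pres T j i' h h').op.flip.map (yoneda.obj S)

/-- Yoneda lemma for models -/
def yEquiv {C : GlobExt} {S : C.Obj} {X : Mod C} : ((yM C).obj S ⟶ X) ≃ X.obj.obj (op S) :=
  (IsModel C).fullyFaithfulι.homEquiv.trans yonedaEquiv

theorem yEquiv_comp {C : GlobExt} {S : C.Obj} {X Y : Mod C} (x : (yM C).obj S ⟶ X) (f : X ⟶ Y) :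
    yEquiv (x ≫ f) = f.hom.app _ (yEquiv x) := rfl

theorem yEquiv_map {C : GlobExt} {S T : C.Obj} {X : Mod C} (θ : S ⟶ T) (x : (yM C).obj T ⟶ X) :
    yEquiv ((yM C).map θ ≫ x) = X.obj.map θ.op (yEquiv x) :=
  (yonedaEquiv_naturality x.hom θ).symm

instance (C : GlobExt) : (yM C).Full := by
  unfold yM; infer_instance

instance (C : GlobExt) : (yM C).Faithful := by
  unfold yM; infer_instance

attribute [local instance] Cardinal.fact_isRegular_aleph0

theorem mdl_w {S : Type} [SmallCategory S] {Z X Y P : S} {f : Z ⟶ X} {g : Z ⟶ Y} {l : X ⟶ P}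
    {r : Y ⟶ P} (w : f ≫ l = g ≫ r) :
    yoneda.map f ≫ yoneda.map l = yoneda.map g ≫ yoneda.map r := by
  rw [← Functor.map_comp, w, Functor.map_comp]

/-- the pullback condition as an orthogonality condition -/
theorem mdl_iff {S : Type} [SmallCategory S] {Z X Y P : S} {f : Z ⟶ X} {g : Z ⟶ Y} {l : X ⟶ P}
    {r : Y ⟶ P} (w : f ≫ l = g ≫ r) (F : Sᵒᵖ ⥤ Type) :
    IsPullback (F.map l.op) (F.map r.op) (F.map f.op) (F.map g.op) ↔
      Function.Bijective fun φ : yoneda.obj P ⟶ F =>
        pushout.desc (yoneda.map l) (yoneda.map r) (mdl_w w) ≫ φ := by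
  rw [Types.isPullback_iff]
  constructor
  · rintro ⟨-, h1, h2⟩
    refine ⟨fun φ ψ h => ?_, fun ψ => ?_⟩
    · apply yonedaEquiv.injective
      apply h1
      have e1 := pushout.inl _ _ ≫= h
      have e2 := pushout.inr _ _ ≫= h
      simp only [pushout.inl_desc_assoc, pushout.inr_desc_assoc] at e1 e2
      rw [yonedaEquiv_naturality, yonedaEquiv_naturality, yonedaEquiv_naturality,
        yonedaEquiv_naturality, e1, e2]
      exact ⟨rfl, rfl⟩
    · obtain ⟨z, hz1, hz2⟩ := h2 (yonedaEquiv (pushout.inl _ _ ≫ ψ))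
        (yonedaEquiv (pushout.inr _ _ ≫ ψ)) (by
          rw [yonedaEquiv_naturality, yonedaEquiv_naturality, pushout.condition_assoc])
      refine ⟨yonedaEquiv.symm z, ?_⟩
      apply pushout.hom_ext
      · rw [pushout.inl_desc_assoc, yonedaEquiv_symm_naturality_left, hz1, Equiv.symm_apply_apply]
      · rw [pushout.inr_desc_assoc, yonedaEquiv_symm_naturality_left, hz2, Equiv.symm_apply_apply]
  · rintro ⟨h1, h2⟩
    refine ⟨by rw [← F.map_comp, ← F.map_comp, ← op_comp, ← op_comp, w], fun x y hxy => ?_,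
      fun x y hxy => ?_⟩
    · apply (yonedaEquiv (F := F)).symm.injective
      apply h1
      apply pushout.hom_ext
      · simp only [pushout.inl_desc_assoc]
        rw [yonedaEquiv_symm_naturality_left, yonedaEquiv_symm_naturality_left, hxy.1]
      · simp only [pushout.inr_desc_assoc]
        rw [yonedaEquiv_symm_naturality_left, yonedaEquiv_symm_naturality_left, hxy.2]
    · obtain ⟨φ, hφ⟩ := h2 (pushout.desc (yonedaEquiv.symm x) (yonedaEquiv.symm y) (by
        rw [yonedaEquiv_symm_naturality_left, yonedaEquiv_symm_naturality_left, hxy]))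
      have e1 := pushout.inl _ _ ≫= hφ
      have e2 := pushout.inr _ _ ≫= hφ
      simp only [pushout.inl_desc_assoc, pushout.inr_desc_assoc, pushout.inl_desc,
        pushout.inr_desc] at e1 e2
      refine ⟨yonedaEquiv φ, ?_, ?_⟩
      · rw [yonedaEquiv_naturality, e1, Equiv.apply_symm_apply]
      · rw [yonedaEquiv_naturality, e2, Equiv.apply_symm_apply]

/-- index type of the gluing squares -/
structure MdlIdx where
  T : Theta0
  j : ℕ
  i' : ℕ
  h : j < T.last
  h' : j < i'

/-- the comparison maps from the pushouts of representables -/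
noncomputable def mdlMap (C : GlobExt) (x : MdlIdx) :
    pushout (yoneda.map (C.F.map (tgt x.h.le ≫ lastι x.T))) (yoneda.map (C.F.map (src x.h'.le))) ⟶
      yoneda.obj (C.F.obj (glue x.T x.j x.i' x.h x.h')) :=
  pushout.desc (yoneda.map (C.F.map (inl x.T x.j x.i' x.h x.h')))
    (yoneda.map (C.F.map (inr x.T x.j x.i' x.h x.h'))) (mdl_w (C.pres x.T x.j x.i' x.h x.h').w)

theorem mdl_eq (C : GlobExt) : IsModel C = (MorphismProperty.ofHoms (mdlMap C)).isLocal := by
  funext Z
  apply propext
  constructor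
  · rintro hX _ _ _ ⟨x⟩
    exact (mdl_iff (C.pres x.T x.j x.i' x.h x.h').w Z).1 (hX x.T x.j x.i' x.h x.h')
  · intro hX T j i' h h'
    exact (mdl_iff (C.pres T j i' h h').w Z).2
      (hX _ (MorphismProperty.ofHoms.mk (f := mdlMap C) ⟨T, j, i', h, h'⟩))

theorem mdl_fp_yoneda {S : Type} [SmallCategory S] (X : S) :
    IsCardinalPresentable (yoneda.obj X) Cardinal.aleph0.{0} :=
  ⟨fun _ _ _ => ⟨fun {_} => inferInstance⟩⟩

theorem mdl_fp (C : GlobExt) ⦃X Y : C.Objᵒᵖ ⥤ Type⦄ (f : X ⟶ Y)
    (hf : MorphismProperty.ofHoms (mdlMap C) f) :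
    IsCardinalPresentable X Cardinal.aleph0.{0} ∧ IsCardinalPresentable Y Cardinal.aleph0.{0} := by
  obtain ⟨x⟩ := hf
  refine ⟨?_, mdl_fp_yoneda _⟩
  have : ∀ k, IsCardinalPresentable ((span (yoneda.map (C.F.map (tgt x.h.le ≫ lastι x.T)))
      (yoneda.map (C.F.map (src x.h'.le)))).obj k) Cardinal.aleph0.{0} := by
    rintro (_ | _ | _) <;> exact mdl_fp_yoneda _
  exact isCardinalPresentable_of_isColimit _ (colimit.isColimit _) Cardinal.aleph0.{0}
    (hasCardinalLT_of_finite _ _ le_rfl)

theorem isRightAdjoint_ι (C : GlobExt) : (IsModel C).ι.IsRightAdjoint := by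
  rw [mdl_eq]
  exact MorphismProperty.isRightAdjoint_ι_isLocal _ Cardinal.aleph0.{0} (mdl_fp C)

/-- models form a reflective subcategory -/
@[reducible] noncomputable def mdlReflective (C : GlobExt) : Reflective (IsModel C).ι :=
  have := isRightAdjoint_ι C
  ⟨_, Adjunction.ofIsRightAdjoint _⟩

instance hasColimits_Mod (C : GlobExt) : HasColimits (Mod C) := by
  let := mdlReflective C
  exact hasColimits_of_reflective (IsModel C).ι

instance hasLimits_Mod (C : GlobExt) : HasLimits (Mod C) := by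
  let := mdlReflective C
  exact hasLimits_of_reflective (IsModel C).ι

/-- filtered colimits of models are computed in presheaves -/
theorem preservesFiltered_ι (C : GlobExt) : PreservesFilteredColimits (IsModel C).ι := by
  apply Functor.isFinitelyAccessible_iff_preservesFilteredColimits.1
  rw [mdl_eq]
  exact MorphismProperty.isCardinalAccessible_ι_isLocal _ Cardinal.aleph0.{0} (mdl_fp C)

theorem isFinitelyPresentable_yM (C : GlobExt) (S : C.Obj) :
    IsFinitelyPresentable.{0} ((yM C).obj S) := by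
  rw [isFinitelyPresentable_iff_preservesFilteredColimitsOfSize]
  have := preservesFiltered_ι C
  let e : (IsModel C).ι ⋙ (evaluation _ _).obj (op S) ≅ coyoneda.obj (op ((yM C).obj S)) :=
    (NatIso.ofComponents (fun X => (yEquiv (S := S) (X := X)).toIso) (fun _ => rfl)).symm
  exact ⟨fun J _ _ => preservesColimitsOfShape_of_natIso e⟩

/-- the representable models of globular sums are the iterated pushouts -/
theorem yM_pres (C : GlobExt) : PreservesSums (C.F ⋙ yM C) := by
  intro T j i' h h'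
  have w := (C.pres T j i' h h').w
  have hP := fun X : Mod C => (Types.isPullback_iff _ _ _ _).1 (X.property T j i' h h')
  have key : ∀ s : PushoutCocone ((yM C).map (C.F.map (tgt h.le ≫ lastι T)))
      ((yM C).map (C.F.map (src h'.le))), ∃ φ : (yM C).obj (C.F.obj (glue T j i' h h')) ⟶ s.pt,
      (yM C).map (C.F.map (inl T j i' h h')) ≫ φ = s.inl ∧
        (yM C).map (C.F.map (inr T j i' h h')) ≫ φ = s.inr := by
    intro s
    obtain ⟨z, hz1, hz2⟩ := (hP s.pt).2.2 (yEquiv s.inl) (yEquiv s.inr) (by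
      rw [← yEquiv_map, ← yEquiv_map, s.condition])
    refine ⟨yEquiv.symm z, yEquiv.injective ?_, yEquiv.injective ?_⟩
    · rw [yEquiv_map, Equiv.apply_symm_apply, hz1]
    · rw [yEquiv_map, Equiv.apply_symm_apply, hz2]
  choose φ h1 h2 using key
  have w' : (yM C).map (C.F.map (tgt h.le ≫ lastι T)) ≫ (yM C).map (C.F.map (inl T j i' h h')) =
      (yM C).map (C.F.map (src h'.le)) ≫ (yM C).map (C.F.map (inr T j i' h h')) := by
    rw [← Functor.map_comp, w, Functor.map_comp]
  refine ⟨⟨w'⟩, ⟨PushoutCocone.IsColimit.mk w' φ h1 h2 fun s m hm1 hm2 => ?_⟩⟩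
  apply yEquiv.injective
  apply (hP s.pt).2.1
  rw [← yEquiv_map, ← yEquiv_map, ← yEquiv_map, ← yEquiv_map, hm1, hm2, h1, h2]
  exact ⟨rfl, rfl⟩

/-- the nerve functor of a functor to a cocomplete category has a left adjoint -/
theorem nerve_isRightAdjoint {S : Type} [SmallCategory S] {N : Type u} [Category.{0} N]
    [HasColimitsOfSize.{0, 0} N] (A : S ⥤ N) : (nerve A).IsRightAdjoint := by
  have adj := Presheaf.uliftYonedaAdjunction.{0} _ (uliftYoneda.{0}.leftKanExtensionUnit A)
  let e : Presheaf.restrictedULiftYoneda.{0} A ≅ nerve A :=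
    Functor.isoWhiskerRight uliftYonedaIsoYoneda.{0} _
  exact ⟨_, ⟨adj.ofNatIsoRight e⟩⟩

theorem PiT_isRightAdjoint {C : GlobExt} {N : Type u} [Category.{0} N]
    [HasColimitsOfSize.{0, 0} N] (Dd : C.Obj ⥤ N) (hD : PreservesSums (C.F ⋙ Dd)) :
    (PiT Dd hD).IsRightAdjoint := by
  have := nerve_isRightAdjoint Dd
  exact ⟨(IsModel C).ι ⋙ (nerve Dd).leftAdjoint,
    ⟨(Adjunction.ofIsRightAdjoint (nerve Dd)).restrictFullyFaithful (IsModel C).fullyFaithfulι
      (Functor.FullyFaithful.id N) (Iso.refl _) (Iso.refl _)⟩⟩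

end Vale.Agent.P259
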