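import Vale.Agent.P259.LawA
import Vale.Agent.P259.CofSec

/-! # P259 part PathA: path-like functors -/

set_option backward.isDefEq.respectTransparency false

open CategoryTheory Limits Opposite MorphismProperty

namespace Vale.Agent.P259

open Theta0
open Globe (D)

/-- the projection induced by a map from the Yoneda embedding -/
noncomputable def PathA_p {C : GlobExt} (G : C.Obj ⥤ Mod C) (hG : PreservesSums (C.F ⋙ G))
    (β : yM C ⟶ G) : PiT G hG ⟶ 𝟭 _ where
  app X := ObjectProperty.homMk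
    { app := fun S => ↾fun h : G.obj S.unop ⟶ X => yEquiv (β.app S.unop ≫ h)
      naturality := fun S T θ => by
        ext h
        change yEquiv (β.app T.unop ≫ G.map θ.unop ≫ h) =
          X.obj.map θ.unop.op (yEquiv (β.app S.unop ≫ h))
        rw [← yEquiv_map, β.naturality_assoc] }
  naturality X Y f := by
    ext S h
    change yEquiv (β.app S.unop ≫ h ≫ f) = f.hom.app _ (yEquiv (β.app S.unop ≫ h))
    rw [← yEquiv_comp, Category.assoc]

theorem PathA_p_spec {C : GlobExt} (G : C.Obj ⥤ Mod C) (hG : PreservesSums (C.F ⋙ G))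
    (β : yM C ⟶ G) (X : Mod C) (S : C.Obj) (x : (yM C).obj S ⟶ (PiT G hG).obj X) :
    β.app S ≫ (yEquiv x : G.obj S ⟶ X) = x ≫ (PathA_p G hG β).app X := by
  apply yEquiv.injective
  rw [yEquiv_comp x]
  rfl

theorem PathA_app_disc {C : GlobExt} {E : Globe ⥤ Mod C} [IsIso (cmp (YF C))] (ι : DG C ⟶ E)
    (n : ℕ) : (inv (cmp (YF C)) ≫ sumNat ι).app (disc n) = ι.app (D n) := by
  have h1 : (cmp (YF C)).app (disc n) ≫ (inv (cmp (YF C)) ≫ sumNat ι).app (disc n) =
      (sumNat ι).app (disc n) := by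
    rw [← NatTrans.comp_app, IsIso.hom_inv_id_assoc]
  rw [cmp_app_disc, sumNat_app_disc] at h1
  exact (Category.id_comp _).symm.trans h1

theorem PathA_b_eq {C : GlobExt} {E : Globe ⥤ Mod C} (RE : Reedy E) {X : Mod C} :
    ∀ (n : ℕ) (u v : E.obj (D n) ⟶ X), Parallel (sumF E) n u v → RE.b n ≫ u = RE.b n ≫ v
  | 0, _, _, _ => RE.init.hom_ext _ _
  | n + 1, u, v, h => by
    obtain ⟨h1, h2⟩ := h
    rw [σ, sumF_map_discF] at h1
    rw [τ, sumF_map_discF] at h2
    exact RE.b_ext h1 h2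

theorem exists_pathOut (K : Coherator) {E : Globe ⥤ Mod K.C} (RE : Reedy E)
    (ι0 ι1 : ReedyHom (RD K.C) RE) (h : PathEH RE ι0 ι1) : Nonempty (PathOut RE ι0 ι1) := by
  have := isIso_cmp (YF_pres K.C)
  let α : K.C.F ⋙ yM K.C ⟶ sumF E := inv (cmp (YF K.C)) ≫ sumNat ι0.app
  let ψ : K.C.F ⋙ yM K.C ⟶ sumF E := inv (cmp (YF K.C)) ≫ sumNat ι1.app
  have hα : ∀ n, α.app (disc n) = ι0.app.app (D n) := PathA_app_disc ι0.app
  have hψ : ∀ n, ψ.app (disc n) = ι1.app.app (D n) := PathA_app_disc ι1.app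
  have key : ∀ (ι : ReedyHom (RD K.C) RE) (β : K.C.F ⋙ yM K.C ⟶ sumF E) (n : ℕ) (S : Theta0)
      (f g : K.C.F.obj (disc n) ⟶ K.C.F.obj S) (w : K.C.F.obj (disc (n + 1)) ⟶ K.C.F.obj S)
      (ef eg : E.obj (D n) ⟶ (sumF E).obj S) (hb : RE.b n ≫ ef = RE.b n ≫ eg),
      IsLift K.C.F w f g → ι.app.app (D n) ≫ ef = (yM K.C).map f ≫ β.app S →
      ι.app.app (D n) ≫ eg = (yM K.C).map g ≫ β.app S →
      ι.bm (n + 1) ≫ RE.sph ef eg hb = bd K.C (n + 1) ≫ (yM K.C).map w ≫ β.app S := by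
    intro ι β n S f g w ef eg hb hw h1 h2
    apply (RD K.C).ext
    · rw [ι.l_bm_assoc, RE.l_sph, Reedy.l_b_assoc, h1, ← hw.1, Functor.map_comp, Category.assoc]
      rfl
    · rw [ι.r_bm_assoc, RE.r_sph, Reedy.r_b_assoc, h2, ← hw.2, Functor.map_comp, Category.assoc]
      rfl
  obtain ⟨m, m1, m2, m3, m4, m5⟩ := K.exists_ext_rel (yM K.C) (yM K.C) (yM_pres K.C) (sumF E) α ψ
    (fun T j i' hj hj' X e e' h1 h2 _ => (sumF_pres E T j i' hj hj').hom_ext h1 h2)
    (fun T j i' hj hj' X e₁ e₂ a h1 h2 h3 => by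
      refine ⟨(sumF_pres E T j i' hj hj').desc e₁ e₂ h1, IsPushout.inl_desc _ _ _ _,
        IsPushout.inr_desc _ _ _ _, (yM_pres K.C T j i' hj hj').hom_ext ?_ ?_⟩
      · rw [α.naturality_assoc, IsPushout.inl_desc]
        exact h2.symm
      · rw [α.naturality_assoc, IsPushout.inr_desc]
        exact h3.symm)
    (fun n S hS f g w ef eg hw hp h1 h2 h3 h4 => by
      have hb := PathA_b_eq RE n ef eg hp
      rw [hα] at h1 h3
      rw [hψ] at h2 h4
      obtain ⟨e, e1, e2, e3⟩ := h n S hS ((yM K.C).map w ≫ (inv (cmp (YF K.C))).app S)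
        (RE.sph ef eg hb)
        ((key ι0 α n S f g w ef eg hb hw h1 h3).trans (by rw [Category.assoc]; rfl))
        ((key ι1 ψ n S f g w ef eg hb hw h2 h4).trans (by rw [Category.assoc]; rfl))
      refine ⟨e, ⟨?_, ?_⟩, ?_, ?_⟩
      · rw [σ, sumF_map_discF, ← RE.l_b, Category.assoc]
        exact (congrArg (RE.l n ≫ ·) e1).trans (RE.l_sph ..)
      · rw [τ, sumF_map_discF, ← RE.r_b, Category.assoc]
        exact (congrArg (RE.r n ≫ ·) e1).trans (RE.r_sph ..)
      · rw [hα]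
        exact e2.trans (by rw [Category.assoc]; rfl)
      · rw [hψ]
        exact e3.trans (by rw [Category.assoc]; rfl))
  let G : K.C.Obj ⥤ Mod K.C :=
    { obj := fun S => (sumF E).obj S
      map := fun {S T} f => m (S := S) (T := T) f
      map_id := fun S => m1 S
      map_comp := fun {S T U} f g => m2 S T U f g }
  have hGm : ∀ {S T : Theta0} (f : S ⟶ T), (K.C.F ⋙ G).map f = (sumF E).map f :=
    fun f => m3 _ _ f
  have hG : PreservesSums (K.C.F ⋙ G) := by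
    intro T j i' hj hj'
    rw [hGm, hGm, hGm, hGm]
    exact sumF_pres E T j i' hj hj'
  let β0 : yM K.C ⟶ G := { app := fun S => α.app S, naturality := fun S T f => (m4 S T f).symm }
  let β1 : yM K.C ⟶ G := { app := fun S => ψ.app S, naturality := fun S T f => (m5 S T f).symm }
  have hmap : ∀ {X : Mod K.C} {i j : ℕ} (g : D i ⟶ D j) (x : Dk K.C j ⟶ (PiT G hG).obj X),
      (yEquiv (S := K.C.F.obj (disc i)) ((DG K.C).map g ≫ x) : E.obj (D i) ⟶ X) =
        E.map g ≫ (yEquiv (S := K.C.F.obj (disc j)) x : E.obj (D j) ⟶ X) := by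
    intro X i j g x
    refine (yEquiv_map (K.C.F.map (discF.map g)) x).trans ?_
    rw [← sumF_map_discF E g, ← hGm]
    rfl
  exact ⟨{
    P := PiT G hG
    p0 := PathA_p G hG β0
    p1 := PathA_p G hG β1
    hat := fun {X j} => yEquiv (S := K.C.F.obj (disc j)) (X := (PiT G hG).obj X)
    hat_σ := fun x => hmap _ x
    hat_τ := fun x => hmap _ x
    hat_map := fun x f => rfl
    hat_0 := fun {X j} x => by
      rw [← hα]
      exact PathA_p_spec G hG β0 X _ x
    hat_1 := fun {X j} x => by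
      rw [← hψ]
      exact PathA_p_spec G hG β1 X _ x }⟩

/-- spheres in `P X` -/
theorem PathOut.sph {C : GlobExt} {E : Globe ⥤ Mod C} {RE : Reedy E}
    {ι0 ι1 : ReedyHom (RD C) RE} (P : PathOut RE ι0 ι1) {X : Mod C} {j : ℕ}
    (a : Sph C j ⟶ P.P.obj X) :
    ∃ a' : RE.B j ⟶ X, ι0.bm j ≫ a' = a ≫ P.p0.app X ∧ ι1.bm j ≫ a' = a ≫ P.p1.app X ∧
      ∀ x : Dk C j ⟶ P.P.obj X, bd C j ≫ x = a ↔ RE.b j ≫ P.hat x = a' := by
  induction j with
  | zero =>
    exact ⟨RE.init.to X, (RD C).init.hom_ext _ _, (RD C).init.hom_ext _ _, fun x =>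
      ⟨fun _ => RE.init.hom_ext _ _, fun _ => (RD C).init.hom_ext _ _⟩⟩
  | succ j ih =>
    obtain ⟨a0, -, -, h3⟩ := ih (bd C j ≫ (RD C).l j ≫ a)
    have hu := (h3 _).1 rfl
    have hv := (h3 _).1 ((RD C).par_l_r a).symm
    refine ⟨RE.sph _ _ (hu.trans hv.symm), ?_, ?_, fun x => ?_⟩
    · apply (RD C).ext
      · rw [ι0.l_bm_assoc, RE.l_sph, P.hat_0, Category.assoc]
      · rw [ι0.r_bm_assoc, RE.r_sph, P.hat_0, Category.assoc]
    · apply (RD C).ext
      · rw [ι1.l_bm_assoc, RE.l_sph, P.hat_1, Category.assoc]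
      · rw [ι1.r_bm_assoc, RE.r_sph, P.hat_1, Category.assoc]
    · rw [(RD C).b_eq_iff, RE.b_eq_iff, RE.l_sph, RE.r_sph, ← P.hat_σ, ← P.hat_τ,
        P.hat.apply_eq_iff_eq, P.hat.apply_eq_iff_eq]

end Vale.Agent.P259
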