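import Vale.Agent.P259.CylB
import Vale.Agent.P259.PathA

/-! # P259 part PC: the pushout conjecture (contractible form) -/

set_option backward.isDefEq.respectTransparency false

open CategoryTheory Limits Opposite MorphismProperty

namespace Vale.Agent.P259

open Theta0
open Globe (D)

variable {K : Coherator}

theorem pc_section {n m : ℕ} (Y : CylData K.C n m) (hY : CylGood Y) (P : PathOut Y.RE Y.ι0 Y.ι1)
    {X : Mod K.C} (hc : Cofib X) (hX : MContr m X) :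
    ∃ H : X ⟶ P.P.obj X, H ≫ P.p0.app X = 𝟙 X ∧ H ≫ P.p1.app X = 𝟙 X := by
  have hw := equalizer.condition (P.p0.app X) (P.p1.app X)
  have hq : TFib K.C (equalizer.ι (P.p0.app X) (P.p1.app X) ≫ P.p0.app X) := by
    rw [tfib_iff]
    intro j a w h
    obtain ⟨a', h0, h1, h2⟩ := P.sph (a ≫ equalizer.ι (P.p0.app X) (P.p1.app X))
    obtain ⟨e, e1, e2, e3⟩ := Y.extend a' w w (by rw [h0, h, Category.assoc])
      (by rw [h1, h, Category.assoc, hw]) (fun _ => rfl)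
      (fun hn hm => hY.hT j hn (Nat.le_succ_of_le hm)) (fun _ hm u hu => hX j hm u w hu)
    have k0 : P.hat.symm e ≫ P.p0.app X = w := by
      rw [← P.hat_0, Equiv.apply_symm_apply, e2]
    have k1 : P.hat.symm e ≫ P.p1.app X = w := by
      rw [← P.hat_1, Equiv.apply_symm_apply, e3]
    refine ⟨equalizer.lift (P.hat.symm e) (k0.trans k1.symm), ?_, ?_⟩
    · apply equalizer.hom_ext
      rw [Category.assoc, equalizer.lift_ι]
      exact (h2 _).2 (by rw [Equiv.apply_symm_apply, e1])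
    · rw [equalizer.lift_ι_assoc, k0]
  obtain ⟨l, hl⟩ := hc.lift hq (𝟙 X)
  refine ⟨l ≫ equalizer.ι (P.p0.app X) (P.p1.app X), by rw [Category.assoc, hl], ?_⟩
  rw [Category.assoc, ← hw, hl]

theorem pc_cell {n m : ℕ} (Y : CylData K.C n m) (hY : CylGood Y) {k : ℕ} (hk : n ≤ k)
    (κ : Dk K.C (k + 1) ⟶ Dk K.C k) (hσ : sσ K.C k ≫ κ = 𝟙 _) (hτ : sτ K.C k ≫ κ = 𝟙 _)
    {W : Mod K.C} (y : Y.E.obj (D k) ⟶ W) (c : Dk K.C (k + 1) ⟶ W)
    (h : Y.ι1.app.app (D k) ≫ y = sσ K.C k ≫ c) :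
    ∃ Ψ : Y.E.obj (D (k + 1)) ⟶ W, Y.E.map (Globe.σ k) ≫ Ψ = y ∧
      Y.ι0.app.app (D (k + 1)) ≫ Ψ = κ ≫ Y.ι0.app.app (D k) ≫ y ∧
      Y.ι1.app.app (D (k + 1)) ≫ Ψ = c := by
  have hp := IsPushout.of_hasPushout (Y.ι1.app.app (D k)) (sσ K.C k)
  generalize pushout.inl (Y.ι1.app.app (D k)) (sσ K.C k) = iz at hp
  generalize pushout.inr (Y.ι1.app.app (D k)) (sσ K.C k) = cz at hp
  obtain ⟨et, e1, e2, e3⟩ := Y.extend (Y.RE.b k ≫ iz) (Y.ι0.app.app (D k) ≫ iz) (sτ K.C k ≫ cz)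
    (by rw [Y.ι0.bm_b_assoc]) (by rw [Y.ι1.bm_b_assoc, hp.w, (RD K.C).b_σ_assoc])
    (fun h => absurd h (not_lt.2 hk)) (fun hn hm => hY.hT k hn (Nat.le_succ_of_le hm))
    (fun hn hm u hu => hY.hZ k hn hm _ _ _ hp k hm u _ hu)
  obtain ⟨Φ, f1, f2, f3⟩ := Y.extend (Y.RE.sph iz et e1.symm) (κ ≫ Y.ι0.app.app (D k) ≫ iz) cz
    (by
      apply (RD K.C).ext
      · rw [Y.ι0.l_bm_assoc, Y.RE.l_sph, (RD K.C).l_b_assoc, reassoc_of% hσ]
      · rw [Y.ι0.r_bm_assoc, Y.RE.r_sph, (RD K.C).r_b_assoc, reassoc_of% hτ, e2])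
    (by
      apply (RD K.C).ext
      · rw [Y.ι1.l_bm_assoc, Y.RE.l_sph, (RD K.C).l_b_assoc, hp.w]
      · rw [Y.ι1.r_bm_assoc, Y.RE.r_sph, (RD K.C).r_b_assoc, e3])
    (fun h => absurd h (by omega)) (fun hn hm => hY.hT (k + 1) hn (Nat.le_succ_of_le hm))
    (fun _ hm u hu => hY.hZ k hk (Nat.le_of_succ_le hm) _ _ _ hp (k + 1) hm u _ hu)
  refine ⟨Φ ≫ hp.desc y c h, ?_, ?_, ?_⟩
  · rw [← Y.RE.l_b, Category.assoc, reassoc_of% f1, Y.RE.l_sph_assoc, hp.inl_desc]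
  · rw [reassoc_of% f2, hp.inl_desc]
  · rw [reassoc_of% f3, hp.inr_desc]

theorem PP_of {n m : ℕ} (Y : CylData K.C n m) (hY : CylGood Y) (P : PathOut Y.RE Y.ι0 Y.ι1) :
    PP K.C n m := by
  intro X X' i M hk hc hX
  obtain ⟨H0, h0, h1⟩ := pc_section Y hY P hc hX
  choose κ hσ hτ using fun k => Sim.refl (𝟙 (Dk K.C k))
  have key := fun α => pc_cell Y hY (hk α) (κ _) (hσ _) (hτ _) (P.hat (M.a α ≫ H0) ≫ i) (M.c α)
    (by rw [← Category.assoc, P.hat_1, Category.assoc, Category.assoc, reassoc_of% h1, M.w])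
  choose Ψ g1 g2 g3 using key
  obtain ⟨H, H1, H2⟩ := M.desc (H0 ≫ P.P.map i) (fun α => P.hat.symm (Ψ α)) (fun α => by
    apply P.hat.injective
    rw [P.hat_σ, Equiv.apply_symm_apply, g1, ← Category.assoc, P.hat_map])
  obtain ⟨r, r1, r2⟩ := M.desc (𝟙 X) (fun α => κ _ ≫ M.a α) (fun α => by
    rw [Category.comp_id, reassoc_of% (hσ _)])
  have hp1 : H ≫ P.p1.app X' = 𝟙 X' := by
    refine M.hom_ext _ _ ?_ fun α => ?_
    · rw [reassoc_of% H1, P.p1.naturality, reassoc_of% h1]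
      simp
    · rw [reassoc_of% (H2 α), ← P.hat_1, Equiv.apply_symm_apply, g3, Category.comp_id]
  have hp0 : H ≫ P.p0.app X' = r ≫ i := by
    refine M.hom_ext _ _ ?_ fun α => ?_
    · rw [reassoc_of% H1, P.p0.naturality, reassoc_of% h0, reassoc_of% r1]
      simp
    · rw [reassoc_of% (H2 α), ← P.hat_0, Equiv.apply_symm_apply, g2, reassoc_of% (r2 α),
        ← Category.assoc (Y.ι0.app.app _), P.hat_0, Category.assoc, Category.assoc,
        reassoc_of% h0]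
  intro j hj u v huv
  obtain ⟨w, w1, w2⟩ := hX j hj (u ≫ r) (v ≫ r) (by rw [reassoc_of% huv])
  rcases Nat.lt_or_ge j n with hn | hn
  · have hu : ∀ u : Dk K.C j ⟶ X', u ≫ r ≫ i = u := fun u => by
      rw [← hp0, ← Category.assoc, ← P.hat_0, ← Y.app_eq hn, P.hat_1, Category.assoc, hp1]
      exact Category.comp_id _
    exact ⟨w ≫ i, by rw [reassoc_of% w1, hu], by rw [reassoc_of% w2, hu]⟩
  · obtain ⟨a', a0, a1, -⟩ := P.sph ((RD K.C).sph (u ≫ H) (v ≫ H) (by rw [reassoc_of% huv]))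
    obtain ⟨T, hT⟩ := hY.hT (j + 1) (Nat.le_succ_of_le hn) (Nat.succ_le_succ hj)
    have hw : Y.ι0.bm (j + 1) ≫ a' = bd K.C (j + 1) ≫ w ≫ i := by
      rw [a0]
      apply (RD K.C).ext
      · rw [(RD K.C).l_sph_assoc, (RD K.C).l_b_assoc, reassoc_of% w1, Category.assoc, hp0]
      · rw [(RD K.C).r_sph_assoc, (RD K.C).r_b_assoc, reassoc_of% w2, Category.assoc, hp0]
    have he : bd K.C (j + 1) ≫ T ≫ (Y.poA (j + 1)).desc a' (w ≫ i) hw =
        (RD K.C).sph (u ≫ H) (v ≫ H) (by rw [reassoc_of% huv]) ≫ P.p1.app X' := by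
      rw [reassoc_of% hT, (Y.poA (j + 1)).inl_desc, a1]
    obtain ⟨e1, e2⟩ := ((RD K.C).b_eq_iff _ _).1 he
    refine ⟨_, e1.trans ?_, e2.trans ?_⟩
    · rw [(RD K.C).l_sph_assoc, Category.assoc, hp1]
      exact Category.comp_id _
    · rw [(RD K.C).r_sph_assoc, Category.assoc, hp1]
      exact Category.comp_id _

theorem PP_all (K : Coherator) (n m : ℕ) : PP K.C n m := by
  have step : ∀ n, (n ≤ m → PP K.C (n + 1) m) → PP K.C n m := fun n h => by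
    obtain ⟨Y⟩ := exists_cylData K.C n m
    have hY := cylGood Y h
    obtain ⟨P⟩ := exists_pathOut K Y.RE Y.ι0 Y.ι1 (Y.pathEH hY)
    exact PP_of Y hY P
  have key : ∀ d n, m + 1 ≤ n + d → PP K.C n m := by
    intro d
    induction d with
    | zero => exact fun n hn => step n fun h => absurd h (by omega)
    | succ d ih => exact fun n hn => step n fun _ => ih (n + 1) (by omega)
  exact key (m + 1) n (by omega)

/-- anodyne extensions of cofibrant contractible objects are contractible -/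
theorem Contr.of_tc {X X' : Mod K.C} (hc : Cofib X) (hX : Contr X) {i : X ⟶ X'} (hi : TC K.C i) :
    Contr X' := by
  refine (cell_induction (sσ K.C) (fp_Dk K.C) (fun X => Cofib X ∧ Contr X)
    (fun X Y i r h hY => ⟨hY.1.of_retract i r h, hY.2.of_retract i r h⟩)
    (fun A A' i M hA => ⟨hA.1.of_cof (TC.cof M.llp), ?_⟩)
    (fun F c hc hM hF => ⟨(hF 0).1.of_cof (TC.cof (llp_cocone _ hc hM)), fun j a => ?_⟩)
    i hi ⟨hc, hX⟩).2
  · obtain ⟨x, -⟩ := hA.2 0 ((RD K.C).init.to _)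
    exact contr_of_mContr (fun m => PP_all K 0 m A A' i M (fun _ => Nat.zero_le _) hA.1
      (hA.2.mContr m)) (x ≫ i)
  · have := fp_Sph K.C j
    obtain ⟨r, a', rfl⟩ := IsFinitelyPresentable.exists_hom_of_isColimit hc a
    obtain ⟨e, rfl⟩ := (hF r).2 j a'
    exact ⟨e ≫ c.ι.app r, (Category.assoc ..).symm⟩

theorem tfib_of_fib_contr {X Y : Mod K.C} {p : X ⟶ Y} (hp : Fib K.C p) (hX : Contr X)
    (hY : Contr Y) : TFib K.C p := by
  rw [tfib_iff]
  intro j a w h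
  obtain ⟨v, rfl⟩ := hX j a
  obtain ⟨ω, h1, h2⟩ := hY.sim (v ≫ p) w (by rw [h, Category.assoc])
  obtain ⟨ω', h3, h4⟩ := (fib_iff p).1 hp j v ω h1
  refine ⟨sτ K.C j ≫ ω', ?_, by rw [Category.assoc, h4, h2]⟩
  rw [← (RD K.C).b_σ_assoc, h3]

/-- a cofibration between cofibrant contractible objects is anodyne -/
theorem tc_of_contr {X Y : Mod K.C} {i : X ⟶ Y} (hi : Cof K.C i) (hc : Cofib X) (hX : Contr X)
    (hY : Contr Y) : TC K.C i := by
  obtain ⟨Z, j, p, hj, hp, e⟩ := factor_tc_fib i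
  have hp' := tfib_of_fib_contr hp (hX.of_tc hc hj) hY
  obtain ⟨l, l1, l2⟩ := hi.lift hp' j (𝟙 Y) (by rw [e, Category.comp_id])
  intro A B q hq
  refine ⟨fun {u v} sq => ?_⟩
  obtain ⟨s, s1, s2⟩ := hj.lift hq u (p ≫ v) (by rw [reassoc_of% e, sq.w])
  exact ⟨⟨⟨l ≫ s, by rw [reassoc_of% l1, s1], by rw [Category.assoc, s2, reassoc_of% l2]⟩⟩⟩

end Vale.Agent.P259
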