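import Vale.Agent.P259.EDat

/-! # P259 part PathB: the path object -/

set_option backward.isDefEq.respectTransparency false

open CategoryTheory Limits Opposite MorphismProperty

namespace Vale.Agent.P259

open Theta0
open Globe (D)

section

variable {K : Coherator} (Ed : EData (RD K.C))

theorem PathB_contr_sum (S : Theta0) : Contr ((sumF Ed.E).obj S) := by
  have := isIso_cmp (YF_pres K.C)
  have h : (cmp (YF K.C)).app S ≫ (inv (cmp (YF K.C))).app S = 𝟙 _ := by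
    rw [← NatTrans.comp_app, IsIso.hom_inv_id]
    rfl
  exact Contr.of_tc (Cofib.of_retract _ _ h (cofib_YF S)) (Contr.of_retract _ _ h (contr_YF K S))
    (Ed.tc_sumNat S)

theorem PathB_eh : PathEH Ed.RE Ed.α Ed.ψ := fun _ S _ _ φ h0 h1 =>
  Ed.extend φ _ _ h0 h1 fun _ hu => (PathB_contr_sum Ed S).sim _ _ hu

theorem PathB_contr (j : ℕ) : Contr (Ed.E.obj (D j)) :=
  Contr.of_tc (cofib_Dk j) (contr_Dk K j) (Ed.tc_app j)

theorem PathB_cofib (j : ℕ) : Cofib (Ed.E.obj (D j)) := (cofib_Dk j).of_cof (Ed.tc_app j).cof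

theorem PathB_cof {j : ℕ} {A' : Mod K.C} {iB : Ed.RE.B j ⟶ A'} {iA : Dk K.C j ⟶ A'}
    (po : IsPushout (Ed.ψ.bm j) (bd K.C j) iB iA) {κ : A' ⟶ Ed.E.obj (D j)}
    (h1 : iB ≫ κ = Ed.RE.b j) (h2 : iA ≫ κ = Ed.ψ.app.app (D j)) : Cof K.C κ := by
  intro X Y p hp
  refine ⟨fun {f g} sq => ?_⟩
  have hw := sq.w
  obtain ⟨a, a1, a2⟩ := (tfib_iff p).1 hp j (Ed.α.bm j ≫ iB ≫ f) (Ed.α.app.app (D j) ≫ g) (by
    rw [Category.assoc, Category.assoc, hw, reassoc_of% h1, Ed.α.bm_b_assoc])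
  have hu : (Ed.poL j).desc (iB ≫ f) a a1.symm ≫ p = Ed.k j ≫ g := by
    apply (Ed.poL j).hom_ext
    · rw [IsPushout.inl_desc_assoc, reassoc_of% Ed.inB_k, Category.assoc, hw, reassoc_of% h1]
    · rw [IsPushout.inr_desc_assoc, reassoc_of% Ed.inA_k, a2]
  have hpar : bd K.C j ≫ Ed.T j ≫ (Ed.poL j).desc (iB ≫ f) a a1.symm = bd K.C j ≫ iA ≫ f := by
    rw [reassoc_of% Ed.bd_T, IsPushout.inl_desc, po.w_assoc]
  obtain ⟨w, w1, w2⟩ := (tfib_iff p).1 hp (j + 1) ((RD K.C).sph _ _ hpar) (Ed.c j ≫ g) (by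
    apply (RD K.C).ext
    · rw [Reedy.l_b_assoc, Reedy.l_sph_assoc, Category.assoc, hu, (Ed.poE j).w_assoc]
    · rw [Reedy.r_b_assoc, Reedy.r_sph_assoc, Category.assoc, hw, reassoc_of% h2,
        reassoc_of% Ed.τ_c])
  rw [Reedy.b_eq_iff, Reedy.l_sph, Reedy.r_sph] at w1
  refine ⟨⟨⟨(Ed.poE j).desc _ w w1.1.symm, ?_, ?_⟩⟩⟩
  · apply po.hom_ext
    · rw [reassoc_of% h1, ← Ed.inB_k, Category.assoc, IsPushout.inl_desc, IsPushout.inl_desc]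
    · rw [reassoc_of% h2, ← Ed.τ_c, Category.assoc, IsPushout.inr_desc, w1.2]
  · apply (Ed.poE j).hom_ext
    · rw [IsPushout.inl_desc_assoc, hu]
    · rw [IsPushout.inr_desc_assoc, w2]

theorem PathB_tc {j : ℕ} (h : TC K.C (Ed.ψ.bm j)) {A' : Mod K.C} {iB : Ed.RE.B j ⟶ A'}
    {iA : Dk K.C j ⟶ A'} (po : IsPushout (Ed.ψ.bm j) (bd K.C j) iB iA)
    {κ : A' ⟶ Ed.E.obj (D j)} (h1 : iB ≫ κ = Ed.RE.b j) (h2 : iA ≫ κ = Ed.ψ.app.app (D j)) :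
    TC K.C κ := by
  have hA : TC K.C iA := (TC K.C).of_isPushout po.flip h
  exact tc_of_contr (PathB_cof Ed po h1 h2) ((cofib_Dk j).of_cof hA.cof)
    (Contr.of_tc (cofib_Dk j) (contr_Dk K j) hA) (PathB_contr Ed j)

theorem PathB_tc_bm (j : ℕ) : TC K.C (Ed.ψ.bm j) := by
  induction j with
  | zero =>
    exact EDat_tc_of_lift fun X Y p _ f g _ =>
      ⟨Ed.RE.init.to X, (RD K.C).init.hom_ext _ _, Ed.RE.init.hom_ext _ _⟩
  | succ j ih =>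
    have po := IsPushout.of_hasPushout (Ed.ψ.bm j) (bd K.C j)
    have h1 := po.inl_desc _ _ (Ed.ψ.bm_b j)
    have h2 := po.inr_desc _ _ (Ed.ψ.bm_b j)
    refine EDat_tc_next ((RD K.C).po j) po (k := po.desc _ _ (Ed.ψ.bm_b j)) (l := Ed.RE.l j)
      (r := Ed.RE.r j) ?_ ?_ ?_ ih (PathB_tc Ed ih po h1 h2)
    · rw [h1]
      exact Ed.RE.po j
    · rw [Ed.ψ.l_bm, reassoc_of% h2]
    · rw [Ed.ψ.r_bm, reassoc_of% h2]

theorem PathB_extend₁ {X : Mod K.C} {j : ℕ} (φ : Ed.RE.B j ⟶ X) (d : Dk K.C j ⟶ X)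
    (h : Ed.ψ.bm j ≫ φ = bd K.C j ≫ d) :
    ∃ e : Ed.E.obj (D j) ⟶ X, Ed.RE.b j ≫ e = φ ∧ Ed.ψ.app.app (D j) ≫ e = d := by
  have po := IsPushout.of_hasPushout (Ed.ψ.bm j) (bd K.C j)
  have h1 := po.inl_desc _ _ (Ed.ψ.bm_b j)
  have h2 := po.inr_desc _ _ (Ed.ψ.bm_b j)
  obtain ⟨e, he⟩ := (PathB_tc Ed (PathB_tc_bm Ed j) po h1 h2).extend (po.desc φ d h)
  refine ⟨e, ?_, ?_⟩
  · rw [← h1, Category.assoc, he, IsPushout.inl_desc]
  · rw [← h2, Category.assoc, he, IsPushout.inr_desc]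

theorem PathB_two {Z : Mod K.C} (hZ : Contr Z) {j : ℕ} (x : Ed.E.obj (D j) ⟶ Z)
    (c0 c1 : Dk K.C (j + 1) ⟶ Z) (h0 : Ed.α.app.app (D j) ≫ x = sσ K.C j ≫ c0)
    (h1 : Ed.ψ.app.app (D j) ≫ x = sσ K.C j ≫ c1) :
    ∃ e : Ed.E.obj (D (j + 1)) ⟶ Z, Ed.E.map (Globe.σ j) ≫ e = x ∧
      Ed.α.app.app (D (j + 1)) ≫ e = c0 ∧ Ed.ψ.app.app (D (j + 1)) ≫ e = c1 := by
  obtain ⟨t, t1, t2, t3⟩ := Ed.extend (Ed.RE.b j ≫ x) (sτ K.C j ≫ c0) (sτ K.C j ≫ c1)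
    (by rw [Ed.α.bm_b_assoc, h0, (RD K.C).b_σ_assoc])
    (by rw [Ed.ψ.bm_b_assoc, h1, (RD K.C).b_σ_assoc]) fun _ hu => hZ.sim _ _ hu
  obtain ⟨e, e1, e2, e3⟩ := Ed.extend (Ed.RE.sph x t t1.symm) c0 c1
    (by
      apply (RD K.C).ext
      · rw [Ed.α.l_bm_assoc, Reedy.l_sph, Reedy.l_b_assoc, h0]
      · rw [Ed.α.r_bm_assoc, Reedy.r_sph, Reedy.r_b_assoc, t2])
    (by
      apply (RD K.C).ext
      · rw [Ed.ψ.l_bm_assoc, Reedy.l_sph, Reedy.l_b_assoc, h1]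
      · rw [Ed.ψ.r_bm_assoc, Reedy.r_sph, Reedy.r_b_assoc, t3]) fun _ hu => hZ.sim _ _ hu
  rw [Reedy.b_eq_iff, Reedy.l_sph] at e1
  exact ⟨e, e1.1, e2, e3⟩

theorem PathB_two' {X : Mod K.C} {j : ℕ} (x : Ed.E.obj (D j) ⟶ X)
    (c0 c1 : Dk K.C (j + 1) ⟶ X) (h0 : Ed.α.app.app (D j) ≫ x = sσ K.C j ≫ c0)
    (h1 : Ed.ψ.app.app (D j) ≫ x = sσ K.C j ≫ c1) :
    ∃ e : Ed.E.obj (D (j + 1)) ⟶ X, Ed.E.map (Globe.σ j) ≫ e = x ∧
      Ed.α.app.app (D (j + 1)) ≫ e = c0 ∧ Ed.ψ.app.app (D (j + 1)) ≫ e = c1 := by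
  have p1 := IsPushout.of_hasPushout (Ed.α.app.app (D j)) (sσ K.C j)
  have p2 := IsPushout.of_hasPushout
    (Ed.ψ.app.app (D j) ≫ pushout.inl (Ed.α.app.app (D j)) (sσ K.C j)) (sσ K.C j)
  have t1 := (TC K.C).of_isPushout p1 (tc_sσ j)
  have t2 := (TC K.C).of_isPushout p2 (tc_sσ j)
  have hZ := Contr.of_tc (PathB_cofib Ed j) (PathB_contr Ed j) ((TC K.C).comp_mem _ _ t1 t2)
  obtain ⟨e, e1, e2, e3⟩ := PathB_two Ed hZ (pushout.inl _ _ ≫ pushout.inl _ _)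
    (pushout.inr _ _ ≫ pushout.inl _ _) (pushout.inr _ _) (p1.w_assoc _)
    ((Category.assoc _ _ _).symm.trans p2.w)
  have hw : (Ed.ψ.app.app (D j) ≫ pushout.inl (Ed.α.app.app (D j)) (sσ K.C j)) ≫
      p1.desc x c0 h0 = sσ K.C j ≫ c1 := by rw [Category.assoc, p1.inl_desc, h1]
  refine ⟨e ≫ p2.desc _ c1 hw, ?_, ?_, ?_⟩
  · rw [reassoc_of% e1, p2.inl_desc, p1.inl_desc]
  · rw [reassoc_of% e2, p2.inl_desc, p1.inr_desc]
  · rw [reassoc_of% e3, p2.inr_desc]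

end

theorem exists_pathObj (K : Coherator) : Nonempty (PathObj K.C) := by
  obtain ⟨Ed⟩ := exists_eData (RD K.C) cofib_Dk (contr_Dk K)
  obtain ⟨P⟩ := exists_pathOut K Ed.RE Ed.α Ed.ψ (PathB_eh Ed)
  refine ⟨⟨P.P, P.p0, P.p1, fun X => ?_, fun X => ?_, fun X => ?_, fun X hX => ?_⟩⟩
  · refine (tfib_iff _).2 fun j a w hw => ?_
    obtain ⟨a', h0, -, h⟩ := P.sph a
    obtain ⟨e, e1, e2⟩ := Ed.extend₀ a' w (h0.trans hw.symm)
    refine ⟨P.hat.symm e, (h _).2 (by rw [Equiv.apply_symm_apply, e1]), ?_⟩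
    rw [← P.hat_0, Equiv.apply_symm_apply, e2]
  · refine (tfib_iff _).2 fun j a w hw => ?_
    obtain ⟨a', -, h1, h⟩ := P.sph a
    obtain ⟨e, e1, e2⟩ := PathB_extend₁ Ed a' w (h1.trans hw.symm)
    refine ⟨P.hat.symm e, (h _).2 (by rw [Equiv.apply_symm_apply, e1]), ?_⟩
    rw [← P.hat_1, Equiv.apply_symm_apply, e2]
  · refine (fib_iff _).2 fun j a w hw => ?_
    obtain ⟨e, e1, e2, e3⟩ := PathB_two' Ed (P.hat a) (w ≫ prod.fst) (w ≫ prod.snd)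
      (by rw [P.hat_0, ← Category.assoc, hw, Category.assoc]; erw [prod.lift_fst])
      (by rw [P.hat_1, ← Category.assoc, hw, Category.assoc]; erw [prod.lift_snd])
    refine ⟨P.hat.symm e, P.hat.injective (by rw [P.hat_σ, Equiv.apply_symm_apply, e1]), ?_⟩
    apply prod.hom_ext
    · rw [Category.assoc, prod.lift_fst, ← P.hat_0, Equiv.apply_symm_apply, e2]
    · rw [Category.assoc, prod.lift_snd, ← P.hat_1, Equiv.apply_symm_apply, e3]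
  · refine (tfib_iff _).2 fun j a w hw => ?_
    obtain ⟨a', h0, h1, h⟩ := P.sph a
    obtain ⟨e, e1, e2, e3⟩ := Ed.extend a' (w ≫ prod.fst) (w ≫ prod.snd)
      (by rw [h0, ← Category.assoc, hw, Category.assoc]; erw [prod.lift_fst])
      (by rw [h1, ← Category.assoc, hw, Category.assoc]; erw [prod.lift_snd])
      fun _ hu => hX.sim _ _ hu
    refine ⟨P.hat.symm e, (h _).2 (by rw [Equiv.apply_symm_apply, e1]), ?_⟩
    apply prod.hom_ext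
    · rw [Category.assoc, prod.lift_fst, ← P.hat_0, Equiv.apply_symm_apply, e2]
    · rw [Category.assoc, prod.lift_snd, ← P.hat_1, Equiv.apply_symm_apply, e3]

end Vale.Agent.P259
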