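import Vale.Agent.P259.StepB
import Vale.Agent.P259.Chi
import Vale.Agent.P259.TopB

/-! # P259 part Real: the unit of the realization adjunction -/

set_option backward.isDefEq.respectTransparency false

open CategoryTheory Limits Opposite MorphismProperty Topology

namespace Vale.Agent.P259

open Theta0
open Globe (D)

variable {K : Coherator} {R : Mod K.C ⥤ TopCat.{0}} (adj : R ⊣ PiK K)

/-- the unit with a clean type -/
def realU (X : Mod K.C) : X ⟶ (PiK K).obj (R.obj X) := adj.unit.app X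

theorem real_nat {X X' : Mod K.C} (f : X ⟶ X') :
    f ≫ realU adj X' = realU adj X ≫ (PiK K).map (R.map f) :=
  adj.unit.naturality f

theorem real_ext {X : Mod K.C} {Z : TopCat.{0}} {φ ψ : R.obj X ⟶ Z}
    (h : realU adj X ≫ (PiK K).map φ = realU adj X ≫ (PiK K).map ψ) : φ = ψ :=
  (adj.homEquiv X Z).injective
    ((adj.homEquiv_unit X Z φ).trans (h.trans (adj.homEquiv_unit X Z ψ).symm))

theorem real_desc {X : Mod K.C} {Z : TopCat.{0}} (u : X ⟶ (PiK K).obj Z) :
    ∃ φ : R.obj X ⟶ Z, realU adj X ≫ (PiK K).map φ = u :=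
  ⟨(adj.homEquiv X Z).symm u, (adj.homEquiv_unit X Z _).symm.trans (Equiv.apply_symm_apply _ u)⟩

/-- the realization of a cell attachment, as data -/
noncomputable def realMA (s : SphPi K) {X X' : Mod K.C} {f : X ⟶ X'} (M : MA (bd K.C) f) :
    MA sphInc (R.map f) where
  ι := M.ι
  k := M.k
  a α := s.e (M.a α ≫ realU adj X)
  c α := cellPi (M.c α ≫ realU adj X')
  w α := by rw [← s.e_map, ← s.e_bd, Category.assoc, ← real_nat adj, reassoc_of% (M.w α)]
  desc {Z} u v h := by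
    obtain ⟨φ', h1, h2⟩ := M.desc (realU adj X ≫ (PiK K).map u) (fun α => cellPi.symm (v α))
      fun α => s.e.injective (by
        rw [s.e_bd, Equiv.apply_symm_apply, ← h α, ← s.e_map, Category.assoc])
    obtain ⟨φ, hφ⟩ := real_desc adj φ'
    refine ⟨φ, real_ext adj ?_, fun α => ?_⟩
    · rw [Functor.map_comp, ← reassoc_of% (real_nat adj f), hφ, h1]
    · rw [← cellPi_map, Category.assoc, hφ, h2, Equiv.apply_symm_apply]
  hom_ext {Z} φ ψ h1 h2 := by
    refine real_ext adj (M.hom_ext _ _ ?_ fun α => cellPi.injective ?_)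
    · rw [reassoc_of% (real_nat adj f), reassoc_of% (real_nat adj f), ← Functor.map_comp,
        ← Functor.map_comp, h1]
    · rw [← Category.assoc, ← Category.assoc, cellPi_map, cellPi_map]
      exact h2 α

theorem real_a (s : SphPi K) {Y : TopCat.{0}} {j : ℕ} (x : Sph K.C j ⟶ (PiK K).obj Y) :
    x = s.η j ≫ (PiK K).map (s.e x) := by
  apply s.e.injective
  rw [s.e_map, stepB_e_η, Category.id_comp]

theorem real_c {Y : TopCat.{0}} {j : ℕ} (x : Dk K.C j ⟶ (PiK K).obj Y) :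
    x = ηD K j ≫ (PiK K).map (cellPi x) := by
  apply cellPi.injective
  rw [cellPi_map (ηD K j), stepB_cell_ηD, Category.id_comp]

/-- the realization of a cell attachment -/
theorem exists_topMA (s : SphPi K) {X X' : Mod K.C} {f : X ⟶ X'} (M : MA (bd K.C) f) :
    ∃ (M' : MA sphInc (R.map f)) (a : ∀ α, Sph K.C (M'.k α) ⟶ X) (e : ∀ α, Dk K.C (M'.k α) ⟶ X'),
      IsPushout (Sigma.desc a) (Limits.Sigma.map fun α => bd K.C (M'.k α)) f (Sigma.desc e) ∧
      (∀ α, a α ≫ adj.unit.app X = s.η _ ≫ (PiK K).map (M'.a α)) ∧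
      ∀ α, e α ≫ adj.unit.app X' = ηD K _ ≫ (PiK K).map (M'.c α) :=
  ⟨realMA adj s M, M.a, M.c, M.isPushout, fun α => real_a s (M.a α ≫ realU adj X),
    fun α => real_c (M.c α ≫ realU adj X')⟩

theorem real_lim (s : SphPi K) (F : ℕ ⥤ Mod K.C) (c : Cocone F) (hc : IsColimit c)
    (hM : ∀ r, Nonempty (MA (bd K.C) (F.map (homOfLE (Nat.le_succ r)))))
    (hW : ∀ r, WL K.C (realU adj (F.obj r))) (hF : ∀ r, FH (R.obj (F.obj r))) :
    WL K.C (realU adj c.pt) := by
  have := adj.leftAdjoint_preservesColimits.{0, 0}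
  have hc' : IsColimit (R.mapCocone c) := isColimitOfPreserves R hc
  have hM' : ∀ r, Nonempty (MA sphInc ((F ⋙ R).map (homOfLE (Nat.le_succ r)))) := fun r =>
    ⟨realMA adj s (hM r).some⟩
  intro j a w hw
  have := fp_Sph K.C j
  obtain ⟨r₁, a₁, rfl⟩ := IsFinitelyPresentable.exists_hom_of_isColimit hc a
  have : CompactSpace (TopCat.of (Disc j)) := isCompact_iff_compactSpace.1 (isCompact_closedBall _ _)
  obtain ⟨r₂, w₂, hw₂⟩ := seq_compact hc' hM' hF (cellPi w)
  obtain ⟨r, a', w', ι, hinj, e₁, e₂⟩ : ∃ (r : ℕ) (a' : Sph K.C j ⟶ F.obj r)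
      (w' : TopCat.of (Disc j) ⟶ R.obj (F.obj r)) (ι : F.obj r ⟶ c.pt),
      Function.Injective (R.map ι) ∧ a₁ ≫ c.ι.app r₁ = a' ≫ ι ∧ w' ≫ R.map ι = cellPi w := by
    refine ⟨max r₁ r₂, a₁ ≫ F.map (homOfLE (le_max_left r₁ r₂)),
      w₂ ≫ R.map (F.map (homOfLE (le_max_right r₁ r₂))), c.ι.app (max r₁ r₂),
      seq_inj hc' hM' _, ?_, ?_⟩
    · rw [Category.assoc, c.w]
    · rw [Category.assoc, ← R.map_comp, c.w]
      exact hw₂
  rw [e₁] at hw ⊢
  have : Mono (R.map ι) := ConcreteCategory.mono_of_injective _ hinj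
  have hb : bd K.C j ≫ cellPi.symm w' = a' ≫ realU adj (F.obj r) := by
    apply s.e.injective
    rw [← cancel_mono (R.map ι), s.e_bd, Equiv.apply_symm_apply, Category.assoc, e₂,
      ← s.e_bd, hw, ← s.e_map, Category.assoc, Category.assoc, real_nat adj]
  obtain ⟨v, hv1, hv2⟩ := hW r j a' _ hb
  refine ⟨v ≫ ι, by rw [reassoc_of% hv1], ?_⟩
  have h3 := hv2.map ((PiK K).map (R.map ι))
  have e₃ : cellPi.symm w' ≫ (PiK K).map (R.map ι) = w := by
    apply cellPi.injective
    rw [cellPi_map, Equiv.apply_symm_apply, e₂]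
  rw [e₃, Category.assoc, ← real_nat adj] at h3
  rw [Category.assoc]
  exact h3

theorem unit_wl {X : Mod K.C} (hX : Cofib X) :
    WL K.C (adj.unit.app X) ∧ FH (R.obj X) ∧ CompactlyGeneratedSpace (R.obj X) := by
  obtain ⟨cm⟩ := exists_cmp K
  obtain ⟨s⟩ := exists_sphPi K
  have := adj.leftAdjoint_preservesColimits.{0, 0}
  refine (cell_induction (bd K.C) (fp_Sph K.C) (fun X => Cofib X ∧ WL K.C (realU adj X) ∧
      FH (R.obj X) ∧ CompactlyGeneratedSpace (R.obj X))
    (fun X Y i r h hY => ?_) (fun A A' i M hA => ?_) (fun F c hc hM hF => ?_)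
    (initial.to X) hX ?_).2
  · have h' : R.map i ≫ R.map r = 𝟙 _ := by rw [← R.map_comp, h, R.map_id]
    refine ⟨hY.1.of_retract i r h, WL.of_retract i r ((PiK K).map (R.map i))
      ((PiK K).map (R.map r)) h ?_ (real_nat adj i) (real_nat adj r).symm hY.2.1,
      FH.of_retract _ _ h' hY.2.2.1, cg_of_retract _ _ h' hY.2.2.2⟩
    rw [← Functor.map_comp, h', CategoryTheory.Functor.map_id]
  · obtain ⟨M', a, e, p, ha, he⟩ := exists_topMA adj s M
    have := hA.2.2.2
    exact ⟨hA.1.of_cof M.llp, wl_step cm s M' p hA.1 (real_nat adj i) ha he hA.2.1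
      fun α => wl_η cm s _, M'.top_fh hA.2.2.1, M'.top_cg⟩
  · have hc' : IsColimit (R.mapCocone c) := isColimitOfPreserves R hc
    have hM' : ∀ r, Nonempty (MA sphInc ((F ⋙ R).map (homOfLE (Nat.le_succ r)))) := fun r =>
      ⟨realMA adj s (hM r).some⟩
    exact ⟨(hF 0).1.of_cof (llp_cocone _ hc hM),
      real_lim adj s F c hc hM (fun r => (hF r).2.1) fun r => (hF r).2.2.1,
      seq_fh hc' hM' fun r => (hF r).2.2.1, seq_cg hc' fun r => (hF r).2.2.2⟩
  · obtain ⟨φ, -⟩ := real_desc adj (initial.to ((PiK K).obj (TopCat.of Empty)))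
    have : IsEmpty (R.obj (⊥_ (Mod K.C))) := ⟨fun x => (φ x).elim⟩
    exact ⟨Cofib.of_isInitial initialIsInitial, wl_of_isEmpty _, fun x => isEmptyElim x,
      inferInstance⟩

end Vale.Agent.P259
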