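import Vale.Agent.P259.WA

/-! # P259 part WB: left properness, gluing lemma, coproducts -/

set_option backward.isDefEq.respectTransparency false

open CategoryTheory Limits Opposite MorphismProperty

namespace Vale.Agent.P259

open Theta0
open Globe (D)

variable {K : Coherator}

theorem wb_po {A B B' : Mod K.C} (f : A ⟶ B) (g : A ⟶ B') :
    ∃ (P : Mod K.C) (l : B ⟶ P) (r : B' ⟶ P), IsPushout f g l r :=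
  ⟨_, _, _, IsPushout.of_hasPushout f g⟩

theorem wb_factor {A B₁ B₂ : Mod K.C} {i₁ : A ⟶ B₁} {i₂ : A ⟶ B₂} (h₁ : Cof K.C i₁)
    (h₂ : Cof K.C i₂) (hB₁ : Cofib B₁) (hB₂ : Cofib B₂) {g : B₁ ⟶ B₂} (hg : i₁ ≫ g = i₂)
    (hw : WL K.C g) : ∃ (N : Mod K.C) (u₁ : B₁ ⟶ N) (u₂ : B₂ ⟶ N) (p : N ⟶ B₂),
      TC K.C u₁ ∧ TC K.C u₂ ∧ i₁ ≫ u₁ = i₂ ≫ u₂ ∧ u₁ ≫ p = g ∧ u₂ ≫ p = 𝟙 B₂ := by
  have hp := IsPushout.of_hasPushout i₁ i₂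
  obtain ⟨N, j, p, hj, hp', e⟩ := factor_cof_tfib
    (hp.desc g (𝟙 B₂) (by rw [hg, Category.comp_id]))
  have e1 : (pushout.inl i₁ i₂ ≫ j) ≫ p = g := by rw [Category.assoc, e, hp.inl_desc]
  have e2 : (pushout.inr i₁ i₂ ≫ j) ≫ p = 𝟙 B₂ := by rw [Category.assoc, e, hp.inr_desc]
  refine ⟨N, _, _, p, ?_, ?_, by rw [pushout.condition_assoc], e1, e2⟩
  · exact WL.tc (WL.cancel_right (by rwa [e1]) (WL.of_tfib hp'))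
      ((Cof K.C).comp_mem _ _ (of_isPushout hp h₂) hj) hB₁
  · exact WL.tc (WL.cancel_right (by rw [e2]; exact WL.of_isIso _) (WL.of_tfib hp'))
      ((Cof K.C).comp_mem _ _ (of_isPushout hp.flip h₁) hj) hB₂

theorem wb_factor' {B₁ B₂ : Mod K.C} (hB₁ : Cofib B₁) (hB₂ : Cofib B₂) {g : B₁ ⟶ B₂}
    (hw : WL K.C g) : ∃ (N : Mod K.C) (u₁ : B₁ ⟶ N) (u₂ : B₂ ⟶ N) (p : N ⟶ B₂),
      TC K.C u₁ ∧ TC K.C u₂ ∧ u₁ ≫ p = g ∧ u₂ ≫ p = 𝟙 B₂ := by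
  obtain ⟨N, u₁, u₂, p, h1, h2, -, h3, h4⟩ :=
    wb_factor hB₁ hB₂ hB₁ hB₂ (initial.hom_ext _ _) hw
  exact ⟨N, u₁, u₂, p, h1, h2, h3, h4⟩

/-- Ken Brown: pushout functors preserve weak equivalences between cofibrations -/
theorem WL.pushout_under {A A' B₁ B₂ P₁ P₂ : Mod K.C} {a : A ⟶ A'} {i₁ : A ⟶ B₁} {i₂ : A ⟶ B₂}
    {j₁ : A' ⟶ P₁} {c₁ : B₁ ⟶ P₁} {j₂ : A' ⟶ P₂} {c₂ : B₂ ⟶ P₂}
    (hA : Cofib A) (hA' : Cofib A') (h₁ : Cof K.C i₁) (h₂ : Cof K.C i₂)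
    (p₁ : IsPushout a i₁ j₁ c₁) (p₂ : IsPushout a i₂ j₂ c₂) {g : B₁ ⟶ B₂} (hg : i₁ ≫ g = i₂)
    (hw : WL K.C g) {g' : P₁ ⟶ P₂} (e₁ : j₁ ≫ g' = j₂) (e₂ : c₁ ≫ g' = g ≫ c₂) : WL K.C g' := by
  obtain ⟨N, u₁, u₂, p, t₁, t₂, e, k₁, k₂⟩ :=
    wb_factor h₁ h₂ (hA.of_cof h₁) (hA.of_cof h₂) hg hw
  obtain ⟨PN, jN, cN, hp⟩ := wb_po a (i₁ ≫ u₁)
  have w₁ : a ≫ jN = i₁ ≫ u₁ ≫ cN := by rw [hp.w, Category.assoc]
  have w₂ : a ≫ jN = i₂ ≫ u₂ ≫ cN := by rw [hp.w, e, Category.assoc]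
  have q₁ : IsPushout c₁ u₁ (p₁.desc jN (u₁ ≫ cN) w₁) cN :=
    IsPushout.of_top (by rwa [p₁.inl_desc]) (p₁.inr_desc ..) p₁
  have q₂ : IsPushout c₂ u₂ (p₂.desc jN (u₂ ≫ cN) w₂) cN :=
    IsPushout.of_top (by rwa [p₂.inl_desc, ← e]) (p₂.inr_desc ..) p₂
  have v₁ := TC.wl (of_isPushout q₁ t₁) (hA'.of_cof (of_isPushout p₁ h₁))
  have v₂ := TC.wl (of_isPushout q₂ t₂) (hA'.of_cof (of_isPushout p₂ h₂))
  have w₃ : a ≫ j₂ = (i₁ ≫ u₁) ≫ p ≫ c₂ := by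
    rw [e, Category.assoc, reassoc_of% k₂, p₂.w]
  have e3 : p₂.desc jN (u₂ ≫ cN) w₂ ≫ hp.desc j₂ (p ≫ c₂) w₃ = 𝟙 P₂ := by
    apply p₂.hom_ext
    · rw [p₂.inl_desc_assoc, hp.inl_desc, Category.comp_id]
    · rw [p₂.inr_desc_assoc, Category.assoc, hp.inr_desc, reassoc_of% k₂, Category.comp_id]
  have e4 : p₁.desc jN (u₁ ≫ cN) w₁ ≫ hp.desc j₂ (p ≫ c₂) w₃ = g' := by
    apply p₁.hom_ext
    · rw [p₁.inl_desc_assoc, hp.inl_desc, e₁]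
    · rw [p₁.inr_desc_assoc, Category.assoc, hp.inr_desc, reassoc_of% k₁, e₂]
  rw [← e4]
  exact v₁.comp (WL.cancel_left (by rw [e3]; exact WL.of_isIso _) v₂)

theorem wb_section {M A' N N' : Mod K.C} {q : M ⟶ A'} {i : M ⟶ N} {i' : A' ⟶ N'} {q' : N ⟶ N'}
    (h : IsPushout q i i' q') (hA' : Cofib A') (hi : Cof K.C i) {k : A' ⟶ M} (hk : TC K.C k)
    (e : k ≫ q = 𝟙 A') : WL K.C q' := by
  obtain ⟨N₁, inM, inN, hp⟩ := wb_po k (k ≫ i)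
  have hM := hA'.of_cof hk.cof
  have hki : Cof K.C (k ≫ i) := (Cof K.C).comp_mem _ _ hk.cof hi
  have w1 : k ≫ i = (k ≫ i) ≫ 𝟙 N := (Category.comp_id _).symm
  have w2 : k ≫ q ≫ k ≫ i = (k ≫ i) ≫ 𝟙 N := by rw [reassoc_of% e, Category.comp_id]
  have hf : WL K.C (hp.desc i (𝟙 N) w1) :=
    WL.cancel_left (by rw [hp.inr_desc]; exact WL.of_isIso _)
      (TC.wl (of_isPushout hp.flip hk) (hM.of_cof hi))
  have p₁ : IsPushout q inM (k ≫ i) (hp.desc (q ≫ k ≫ i) (𝟙 N) w2) :=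
    IsPushout.of_left (by rw [e, hp.inr_desc]; exact IsPushout.of_id_fst)
      (hp.inl_desc ..).symm hp
  refine WL.pushout_under hM hA' (of_isPushout hp hki) hi p₁ h (hp.inl_desc ..) hf ?_ ?_
  · rw [Category.assoc, ← h.w, reassoc_of% e]
  · apply hp.hom_ext
    · rw [hp.inl_desc_assoc, hp.inl_desc_assoc, Category.assoc, Category.assoc, ← h.w,
        reassoc_of% e]
    · rw [hp.inr_desc_assoc, hp.inr_desc_assoc]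

/-- left properness for cofibrant objects -/
theorem WL.pushout_cof {A A' B B' : Mod K.C} {f : A ⟶ A'} {i : A ⟶ B} {i' : A' ⟶ B'} {f' : B ⟶ B'}
    (h : IsPushout f i i' f') (hA : Cofib A) (hA' : Cofib A') (hi : Cof K.C i) (hf : WL K.C f) :
    WL K.C f' := by
  obtain ⟨M, u, k, q, tu, tk, e1, e2⟩ := wb_factor' hA hA' hf
  have hp := IsPushout.of_hasPushout u i
  have w : u ≫ q ≫ i' = i ≫ f' := by rw [reassoc_of% e1, h.w]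
  have hq : IsPushout q (pushout.inl u i) i' (hp.desc (q ≫ i') f' w) :=
    IsPushout.of_left (by rwa [e1, hp.inr_desc]) (hp.inl_desc ..).symm hp
  have h1 := wb_section hq hA' (of_isPushout hp hi) tk e2
  have h2 := (TC.wl (of_isPushout hp.flip tu) (hA.of_cof hi)).comp h1
  rwa [hp.inr_desc] at h2

/-- gluing lemma -/
theorem WL.glue {A₁ X₁ B₁ P₁ A₂ X₂ B₂ P₂ : Mod K.C} {a₁ : A₁ ⟶ X₁} {i₁ : A₁ ⟶ B₁} {j₁ : X₁ ⟶ P₁}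
    {c₁ : B₁ ⟶ P₁} {a₂ : A₂ ⟶ X₂} {i₂ : A₂ ⟶ B₂} {j₂ : X₂ ⟶ P₂} {c₂ : B₂ ⟶ P₂}
    (p₁ : IsPushout a₁ i₁ j₁ c₁) (p₂ : IsPushout a₂ i₂ j₂ c₂)
    (hA₁ : Cofib A₁) (hX₁ : Cofib X₁) (hA₂ : Cofib A₂) (hX₂ : Cofib X₂)
    (hi₁ : Cof K.C i₁) (hi₂ : Cof K.C i₂)
    {fA : A₁ ⟶ A₂} {fX : X₁ ⟶ X₂} {fB : B₁ ⟶ B₂} {fP : P₁ ⟶ P₂}
    (wa : a₁ ≫ fX = fA ≫ a₂) (wi : i₁ ≫ fB = fA ≫ i₂) (wj : j₁ ≫ fP = fX ≫ j₂)
    (wc : c₁ ≫ fP = fB ≫ c₂) (hA : WL K.C fA) (hX : WL K.C fX) (hB : WL K.C fB) :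
    WL K.C fP := by
  obtain ⟨R, jR, cR, hR⟩ := wb_po (a₁ ≫ fX) i₁
  have w1 : a₁ ≫ fX ≫ jR = i₁ ≫ cR := by rw [← hR.w, Category.assoc]
  have q1 : IsPushout fX j₁ jR (p₁.desc (fX ≫ jR) cR w1) :=
    IsPushout.of_left (by rwa [p₁.inr_desc]) (p₁.inl_desc ..).symm p₁
  have v1 := WL.pushout_cof q1 hX₁ hX₂ (of_isPushout p₁ hi₁) hX
  obtain ⟨Q, jQ, cQ, hQ⟩ := wb_po fA i₁
  have v2 : WL K.C (hQ.desc i₂ fB wi.symm) :=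
    WL.cancel_left (by rwa [hQ.inr_desc]) (WL.pushout_cof hQ hA₁ hA₂ hi₁ hA)
  have w2 : fA ≫ a₂ ≫ jR = i₁ ≫ cR := by rw [← w1, reassoc_of% wa]
  have q2 : IsPushout a₂ jQ jR (hQ.desc (a₂ ≫ jR) cR w2) :=
    IsPushout.of_left (by rwa [hQ.inr_desc, ← wa]) (hQ.inl_desc ..).symm hQ
  have w3 : (a₁ ≫ fX) ≫ j₂ = i₁ ≫ fB ≫ c₂ := by
    rw [wa, Category.assoc, p₂.w, reassoc_of% wi]
  have v3 : WL K.C (hR.desc j₂ (fB ≫ c₂) w3) := by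
    refine WL.pushout_under hA₂ hX₂ (of_isPushout hQ hi₁) hi₂ q2 p₂ (hQ.inl_desc ..) v2
      (hR.inl_desc ..) ?_
    apply hQ.hom_ext
    · rw [hQ.inl_desc_assoc, hQ.inl_desc_assoc, Category.assoc, hR.inl_desc, p₂.w]
    · rw [hQ.inr_desc_assoc, hQ.inr_desc_assoc, hR.inr_desc]
  have e : p₁.desc (fX ≫ jR) cR w1 ≫ hR.desc j₂ (fB ≫ c₂) w3 = fP := by
    apply p₁.hom_ext
    · rw [p₁.inl_desc_assoc, Category.assoc, hR.inl_desc, wj]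
    · rw [p₁.inr_desc_assoc, hR.inr_desc, wc]
  rw [← e]
  exact v1.comp v3

theorem WL.sigma_map {ι : Type} {X Y : ι → Mod K.C} (f : ∀ α, X α ⟶ Y α) (hX : ∀ α, Cofib (X α))
    (hY : ∀ α, Cofib (Y α)) (hf : ∀ α, WL K.C (f α)) : WL K.C (Limits.Sigma.map f) := by
  choose N u k q tu tk e1 e2 using fun α => wb_factor' (hX α) (hY α) (hf α)
  have h1 : TC K.C (Limits.Sigma.map u) := MorphismProperty.colimMap _ fun ⟨α⟩ => tu α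
  have h2 : TC K.C (Limits.Sigma.map k) := MorphismProperty.colimMap _ fun ⟨α⟩ => tk α
  have e3 : Limits.Sigma.map k ≫ Limits.Sigma.map q = 𝟙 _ := by
    rw [Sigma.map_comp_map]
    simp only [e2]
    exact Sigma.map_id
  have e4 : Limits.Sigma.map u ≫ Limits.Sigma.map q = Limits.Sigma.map f := by
    rw [Sigma.map_comp_map]
    simp only [e1]
  rw [← e4]
  exact (h1.wl (Cofib.sigma hX)).comp
    (WL.cancel_left (by rw [e3]; exact WL.of_isIso _) (h2.wl (Cofib.sigma hY)))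

end Vale.Agent.P259
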