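import Vale.Agent.P259.CubeDefs
import Vale.Agent.P259.WB
import Vale.Agent.P259.GeoA

/-! # P259 part StepA: local to global principle -/

set_option backward.isDefEq.respectTransparency false

open CategoryTheory Limits Opposite MorphismProperty Topology

namespace Vale.Agent.P259

open Theta0
open Globe (D)

variable {K : Coherator} (c : Cmp K)

include c in
theorem wl_sigma {ι : Type} {X : ι → Mod K.C} (Y : ι → Type) [∀ α, TopologicalSpace (Y α)]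
    (g : ∀ α, X α ⟶ (PiK K).obj (TopCat.of (Y α))) (hX : ∀ α, Cofib (X α))
    (hg : ∀ α, WL K.C (g α)) : WL K.C (Sigma.desc fun α => g α ≫ (PiK K).map (sigIn Y α)) := by
  choose u hu using fun α => (hX α).lift (c.tf _) (g α)
  have h1 : ∀ α, WL K.C (u α ≫ c.χ.app _) := fun α =>
    (WL.cancel_right (by rw [hu]; exact hg α) (WL.of_tfib (c.tf _))).comp (c.we _)
  have h2 := WL.sigma_map _ hX (fun α => c.cofib _) h1
  have := c.sigma Y
  have h3 := h2.comp (WL.of_isIso (Sigma.desc fun α => c.W.map (sigIn Y α)))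
  have h4 : (Limits.Sigma.map fun α => u α ≫ c.χ.app _) ≫
      (Sigma.desc fun α => c.W.map (sigIn Y α)) =
      (Sigma.desc fun α => u α ≫ c.Z.map (sigIn Y α)) ≫ c.χ.app _ := by
    ext1 α
    simp
  rw [h4] at h3
  have h5 := (WL.cancel_right h3 (c.we _)).comp (WL.of_tfib (c.tf _))
  have h6 : (Sigma.desc fun α => u α ≫ c.Z.map (sigIn Y α)) ≫ c.p.app _ =
      Sigma.desc fun α => g α ≫ (PiK K).map (sigIn Y α) := by
    ext1 α
    simp [← hu]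
  rwa [h6] at h5

/-- local to global principle -/
theorem Cmp.local_global {A U B Y : TopCat.{0}} {aU : A ⟶ U} {aB : A ⟶ B} {jU : U ⟶ Y} {jB : B ⟶ Y}
    (w : aU ≫ jU = aB ≫ jB) (haB : Function.Injective aB)
    (hP : ∀ {P : Mod K.C} {inU : c.W.obj U ⟶ P} {inB : c.W.obj B ⟶ P},
      IsPushout (c.W.map aU) (c.W.map aB) inU inB → ∀ φ : P ⟶ c.W.obj Y, inU ≫ φ = c.W.map jU →
        inB ≫ φ = c.W.map jB → WL K.C φ)
    {A₁ X₁ B₁ P₁ : Mod K.C} {a : A₁ ⟶ X₁} {i : A₁ ⟶ B₁} {j : X₁ ⟶ P₁} {e : B₁ ⟶ P₁}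
    (p : IsPushout a i j e) (hA : Cofib A₁) (ha : Cof K.C a) (hi : Cof K.C i)
    {gA : A₁ ⟶ (PiK K).obj A} {gU : X₁ ⟶ (PiK K).obj U} {gB : B₁ ⟶ (PiK K).obj B}
    {g : P₁ ⟶ (PiK K).obj Y} (wa : a ≫ gU = gA ≫ (PiK K).map aU)
    (wi : i ≫ gB = gA ≫ (PiK K).map aB) (wj : j ≫ g = gU ≫ (PiK K).map jU)
    (we : e ≫ g = gB ≫ (PiK K).map jB) (hgA : WL K.C gA) (hgU : WL K.C gU) (hgB : WL K.C gB) :
    WL K.C g := by
  obtain ⟨uA, huA⟩ := hA.lift (c.tf _) gA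
  obtain ⟨uU, hU1, hU2⟩ := ha.lift (c.tf U) (uA ≫ c.Z.map aU) gU
    (by rw [Category.assoc, c.p.naturality, reassoc_of% huA, wa])
  obtain ⟨uB, hB1, hB2⟩ := hi.lift (c.tf B) (uA ≫ c.Z.map aB) gB
    (by rw [Category.assoc, c.p.naturality, reassoc_of% huA, wi])
  have hw : ∀ {X : Mod K.C} {T : TopCat.{0}} (u : X ⟶ c.Z.obj T), WL K.C (u ≫ c.p.app T) →
      WL K.C (u ≫ c.χ.app T) := fun u h =>
    (WL.cancel_right h (WL.of_tfib (c.tf _))).comp (c.we _)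
  have w1 : a ≫ uU ≫ c.Z.map jU = i ≫ uB ≫ c.Z.map jB := by
    rw [reassoc_of% hU1, reassoc_of% hB1, ← c.Z.map_comp, ← c.Z.map_comp, w]
  have hu : p.desc _ _ w1 ≫ c.p.app Y = g := by
    apply p.hom_ext
    · rw [p.inl_desc_assoc, wj, ← hU2]; simp
    · rw [p.inr_desc_assoc, we, ← hB2]; simp
  have p₂ := IsPushout.of_hasPushout (c.W.map aU) (c.W.map aB)
  have wa' : a ≫ uU ≫ c.χ.app U = (uA ≫ c.χ.app A) ≫ c.W.map aU := by
    rw [reassoc_of% hU1]; simp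
  have wi' : i ≫ uB ≫ c.χ.app B = (uA ≫ c.χ.app A) ≫ c.W.map aB := by
    rw [reassoc_of% hB1]; simp
  have w2 : a ≫ (uU ≫ c.χ.app U) ≫ pushout.inl (c.W.map aU) (c.W.map aB) =
      i ≫ (uB ≫ c.χ.app B) ≫ pushout.inr (c.W.map aU) (c.W.map aB) := by
    rw [← Category.assoc, ← Category.assoc i, wa', wi', Category.assoc, Category.assoc _ (c.W.map aB),
      pushout.condition]
  have h1 : WL K.C (p.desc _ _ w2) :=
    WL.glue p p₂ hA (hA.of_cof ha) (c.cofib _) (c.cofib _) hi (c.cof _ haB) wa' wi'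
      (p.inl_desc _ _ _) (p.inr_desc _ _ _) (hw _ (huA ▸ hgA)) (hw _ (hU2 ▸ hgU)) (hw _ (hB2 ▸ hgB))
  have w3 : c.W.map aU ≫ c.W.map jU = c.W.map aB ≫ c.W.map jB := by
    rw [← c.W.map_comp, ← c.W.map_comp, w]
  have h2 := hP p₂ (p₂.desc _ _ w3) (p₂.inl_desc _ _ _) (p₂.inr_desc _ _ _)
  have h3 : p.desc _ _ w2 ≫ p₂.desc _ _ w3 = p.desc _ _ w1 ≫ c.χ.app Y := by
    apply p.hom_ext
    · rw [p.inl_desc_assoc, p.inl_desc_assoc, Category.assoc, p₂.inl_desc]; simp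
    · rw [p.inr_desc_assoc, p.inr_desc_assoc, Category.assoc, p₂.inr_desc]; simp
  have h4 := h1.comp h2
  rw [h3] at h4
  rw [← hu]
  exact (WL.cancel_right h4 (c.we _)).comp (WL.of_tfib (c.tf _))

end Vale.Agent.P259
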