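import Vale.Agent.P259.TopC

/-! # P259 part TopD: the open cover of a cell attachment -/

set_option backward.isDefEq.respectTransparency false

open CategoryTheory Limits Opposite Topology

namespace Vale.Agent.P259

theorem topD_isOpen_p (n : ℕ) : IsOpen {x : Disc n | x.1 ≠ 0} :=
  isOpen_ne_fun continuous_subtype_val continuous_const

theorem topD_isOpen_o (n : ℕ) : IsOpen {x : Disc n | ‖x.1‖ < 1} :=
  isOpen_lt (by fun_prop) continuous_const

theorem topD_pdD (n : ℕ) : IsOpenEmbedding (pdD n) :=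
  (topD_isOpen_p n).isOpenEmbedding_subtypeVal

theorem topD_odD (n : ℕ) : IsOpenEmbedding (odD n) :=
  (topD_isOpen_o n).isOpenEmbedding_subtypeVal

theorem topD_opP (n : ℕ) : IsEmbedding (opP n) :=
  IsEmbedding.of_comp (opP n).continuous (pdD n).continuous IsEmbedding.subtypeVal

theorem topD_opO (n : ℕ) : IsEmbedding (opO n) :=
  IsEmbedding.of_comp (opO n).continuous (odD n).continuous IsEmbedding.subtypeVal

/-- the centre as a point of the open disc -/
def topDCentre (n : ℕ) : ODisc n := ⟨centre n, by simp [centre]⟩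

theorem topD_coef_ge {n : ℕ} (t : unitInterval) (z : Disc n) (hz : z.1 ≠ 0) :
    1 ≤ (1 - t.1) / ‖z.1‖ + t.1 := by
  have h1 : 0 < ‖z.1‖ := norm_pos_iff.2 hz
  have h2 : 1 - t.1 ≤ (1 - t.1) / ‖z.1‖ := by
    rw [le_div_iff₀ h1]
    have := topC_norm_le z
    have h3 : 0 ≤ 1 - t.1 := sub_nonneg.2 t.2.2
    nlinarith
  linarith

theorem topD_norm {n : ℕ} (t : unitInterval) (z : Disc n) (hz : z.1 ≠ 0) :
    ‖((1 - t.1) / ‖z.1‖ + t.1) • z.1‖ = 1 - t.1 + t.1 * ‖z.1‖ := by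
  have h1 : ‖z.1‖ ≠ 0 := norm_ne_zero_iff.2 hz
  rw [norm_smul, Real.norm_eq_abs, abs_of_nonneg (zero_le_one.trans (topD_coef_ge t z hz))]
  field_simp

/-- the radial deformation of the disc -/
noncomputable def topDRho {n : ℕ} (t : unitInterval) (z : Disc n) : Disc n :=
  ⟨((1 - t.1) / ‖z.1‖ + t.1) • z.1, by
    rw [mem_closedBall_zero_iff]
    by_cases hz : z.1 = 0
    · simp [hz]
    · rw [topD_norm t z hz]
      have := topC_norm_le z
      have h3 := t.2.1
      nlinarith⟩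

theorem topD_rho_one {n : ℕ} (z : Disc n) : topDRho 1 z = z := by
  apply Subtype.ext
  simp [topDRho]

theorem topD_rho_sph {n : ℕ} (t : unitInterval) (s : Sphere n) :
    topDRho t (sphC n s) = sphC n s := by
  apply Subtype.ext
  change ((1 - t.1) / ‖(sphC n s).1‖ + t.1) • (sphC n s).1 = (sphC n s).1
  rw [topC_norm_sph]
  simp

theorem topD_rho_zero {n : ℕ} (z : Disc n) (hz : z.1 ≠ 0) : ¬ ‖(topDRho 0 z).1‖ < 1 := by
  have := topD_norm 0 z hz
  change ¬ ‖((1 - (0 : unitInterval).1) / ‖z.1‖ + (0 : unitInterval).1) • z.1‖ < 1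
  rw [this]
  simp

theorem topD_rho_ne {n : ℕ} (t : unitInterval) (z : Disc n) (hz : z.1 ≠ 0) :
    (topDRho t z).1 ≠ 0 :=
  smul_ne_zero (zero_lt_one.trans_le (topD_coef_ge t z hz)).ne' hz

theorem topD_rho_cont (n : ℕ) :
    Continuous fun p : PDisc n × unitInterval => topDRho p.2 p.1.1 := by
  refine Continuous.subtype_mk ?_ _
  refine Continuous.smul (Continuous.add (Continuous.div (by fun_prop) (by fun_prop)
    fun p => norm_ne_zero_iff.2 p.1.2) (by fun_prop)) (by fun_prop)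

theorem topD_sigMap_open {ι : Type} {Y Y' : ι → Type} [∀ α, TopologicalSpace (Y α)]
    [∀ α, TopologicalSpace (Y' α)] (f : ∀ α, C(Y α, Y' α)) (h : ∀ α, IsOpenEmbedding (f α)) :
    IsOpenEmbedding (sigMap f) :=
  (isOpenEmbedding_sigmaMap (f₁ := id) (f₂ := fun α => f α) Function.injective_id).2 h

theorem topD_sigMap_emb {ι : Type} {Y Y' : ι → Type} [∀ α, TopologicalSpace (Y α)]
    [∀ α, TopologicalSpace (Y' α)] (f : ∀ α, C(Y α, Y' α)) (h : ∀ α, IsEmbedding (f α)) :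
    IsEmbedding (sigMap f) :=
  (isEmbedding_sigmaMap (f₁ := id) (f₂ := fun α => f α) Function.injective_id).2 h

theorem excSq_discs {ι : Type} (k : ι → ℕ) :
    ExcSq (sigMap fun α => opP (k α)) (sigMap fun α => opO (k α)) (sigMap fun α => pdD (k α))
      (sigMap fun α => odD (k α)) := by
  refine ⟨rfl, topD_sigMap_open _ fun α => topD_pdD _, topD_sigMap_open _ fun α => topD_odD _,
    topD_sigMap_emb _ fun α => topD_opP _, ?_, ?_⟩
  · refine Set.eq_univ_of_forall ?_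
    rintro ⟨α, z⟩
    by_cases hz : z.1 = 0
    · exact Or.inr ⟨⟨α, ⟨z, by simp [hz]⟩⟩, rfl⟩
    · exact Or.inl ⟨⟨α, ⟨z, hz⟩⟩, rfl⟩
  · rintro ⟨α, z, hz⟩ ⟨β, z', hz'⟩ h
    have h' : (⟨α, z⟩ : Σ α, Disc (k α)) = ⟨β, z'⟩ := h
    obtain ⟨rfl, h2⟩ := Sigma.mk.inj h'
    obtain rfl := eq_of_heq h2
    exact ⟨⟨α, ⟨z, hz', hz⟩⟩, rfl, rfl⟩

namespace MA

variable {Y Y' : TopCat.{0}} {i : Y ⟶ Y'} (M : MA sphInc i)

theorem mem_U (y : Y) : i y ∈ M.U := by
  rintro ⟨α, h⟩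
  exact M.top_ne y α (topDCentre _) h.symm

theorem mem_U' (x : Σ α, PDisc (M.k α)) : M.c x.1 x.2.1 ∈ M.U := by
  rintro ⟨α, h⟩
  have h1 := congrArg (fun p : Σ α, Disc (M.k α) => ‖p.2.1‖)
    (M.top_cell_inj (topDCentre _) x.2.1 h)
  refine x.2.2 (norm_eq_zero.1 ?_)
  refine h1.symm.trans ?_
  simp [topDCentre, centre]

theorem topD_ne_of_mem {α : M.ι} {z : Disc (M.k α)} (h : M.c α z ∈ M.U) : z.1 ≠ 0 :=
  fun hz => h ⟨α, congrArg (M.c α) (Subtype.ext hz.symm)⟩

theorem topD_isOpen_U : IsOpen M.U := by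
  refine (M.top_isOpen_iff _).2 ⟨?_, fun α => ?_⟩
  · have e : i ⁻¹' M.U = Set.univ := Set.eq_univ_of_forall M.mem_U
    rw [e]
    exact isOpen_univ
  · have e : M.c α ⁻¹' M.U = {x : Disc (M.k α) | x.1 ≠ 0} :=
      Set.ext fun z => ⟨fun h => M.topD_ne_of_mem h, fun h => M.mem_U' ⟨α, ⟨z, h⟩⟩⟩
    rw [e]
    exact topD_isOpen_p _

theorem topD_cells : IsOpenEmbedding ((sigMap fun α => odD (M.k α)) ≫ M.Φ) := by
  refine IsOpenEmbedding.of_continuous_injective_isOpenMap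
    ((sigMap fun α => odD (M.k α)) ≫ M.Φ).hom.continuous ?_ ?_
  · rintro ⟨α, z⟩ ⟨β, z'⟩ h
    obtain ⟨rfl, h2⟩ := Sigma.mk.inj (M.top_cell_inj z z'.1 h)
    obtain rfl : z = z' := Subtype.ext (eq_of_heq h2)
    rfl
  · refine isOpenMap_sigma.2 fun α W hW => (M.top_isOpen_iff _).2 ⟨?_, fun β => ?_⟩
    · convert isOpen_empty
      refine Set.eq_empty_of_forall_notMem ?_
      rintro y ⟨z, -, e⟩
      exact M.top_ne y α z e.symm
    · by_cases h : α = β
      · subst h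
        convert (topD_odD _).isOpenMap W hW
        ext z'
        constructor
        · rintro ⟨z, hz, e⟩
          exact ⟨z, hz, eq_of_heq (Sigma.mk.inj (M.top_cell_inj z z' e)).2⟩
        · rintro ⟨z, hz, rfl⟩
          exact ⟨z, hz, rfl⟩
      · convert isOpen_empty
        refine Set.eq_empty_of_forall_notMem ?_
        rintro z' ⟨z, -, e⟩
        exact h (Sigma.mk.inj (M.top_cell_inj z z' e)).1

/-- the inclusion of `Y` in `U` -/
def iU : Y ⟶ TopCat.of M.U :=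
  TopCat.ofHom ⟨fun y => ⟨i y, M.mem_U y⟩, i.hom.continuous.subtype_mk _⟩

/-- the punctured cells map to `U` -/
def aU : TopCat.of (Σ α, PDisc (M.k α)) ⟶ TopCat.of M.U :=
  TopCat.ofHom ⟨fun x => ⟨M.c x.1 x.2.1, M.mem_U' x⟩,
    Continuous.subtype_mk (continuous_sigma fun α =>
      (M.c α).hom.continuous.comp continuous_subtype_val) _⟩

theorem iU_jU : M.iU ≫ M.jU = i := rfl

theorem aU_jU : M.aU ≫ M.jU = (sigMap fun α => pdD (M.k α)) ≫ M.Φ := rfl

theorem a_iU (α : M.ι) :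
    M.a α ≫ M.iU = sphP (M.k α) ≫ sigIn (fun α => PDisc (M.k α)) α ≫ M.aU := by
  exact TopCat.hom_ext (ContinuousMap.ext fun s => Subtype.ext (M.topC_w α s))

theorem excSq : ExcSq ((sigMap fun α => opP (M.k α)) ≫ M.aU) (sigMap fun α => opO (M.k α)) M.jU
    ((sigMap fun α => odD (M.k α)) ≫ M.Φ) := by
  refine ⟨rfl, M.topD_isOpen_U.isOpenEmbedding_subtypeVal, M.topD_cells, ?_, ?_, ?_⟩
  · refine IsEmbedding.of_comp ((sigMap fun α => opP (M.k α)) ≫ M.aU).hom.continuous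
      M.jU.hom.continuous ?_
    exact M.topD_cells.isEmbedding.comp
      (topD_sigMap_emb _ fun α => topD_opO (M.k α))
  · refine Set.eq_univ_of_forall fun y => ?_
    by_cases hy : y ∈ M.U
    · exact Or.inl ⟨⟨y, hy⟩, rfl⟩
    · obtain ⟨α, e⟩ := not_not.1 hy
      exact Or.inr ⟨⟨α, topDCentre _⟩, e⟩
  · rintro ⟨u, hu⟩ ⟨α, z⟩ h
    have h' : u = M.c α z.1 := h
    subst h'
    exact ⟨⟨α, ⟨z.1, z.2, M.topD_ne_of_mem hu⟩⟩, rfl, rfl⟩

theorem topD_continuous {X : Type} [TopologicalSpace X] (f : M.U → X)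
    (h1 : Continuous fun y => f ⟨i y, M.mem_U y⟩)
    (h2 : ∀ α, Continuous fun z : PDisc (M.k α) => f ⟨M.c α z.1, M.mem_U' ⟨α, z⟩⟩) :
    Continuous f := by
  refine ⟨fun W hW => ?_⟩
  have key : IsOpen (Subtype.val '' (f ⁻¹' W)) := by
    refine (M.top_isOpen_iff _).2 ⟨?_, fun α => ?_⟩
    · convert hW.preimage h1
      ext y
      constructor
      · rintro ⟨⟨u, hu⟩, h, rfl⟩
        exact h
      · intro h
        exact ⟨_, h, rfl⟩
    · convert (topD_pdD _).isOpenMap _ (hW.preimage (h2 α))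
      ext z
      constructor
      · rintro ⟨⟨u, hu⟩, h, rfl⟩
        exact ⟨⟨z, M.topD_ne_of_mem hu⟩, h, rfl⟩
      · rintro ⟨z, h, rfl⟩
        exact ⟨_, h, rfl⟩
  have := key.preimage (continuous_subtype_val (p := fun y => y ∈ M.U))
  rwa [Set.preimage_image_eq _ Subtype.val_injective] at this

theorem topD_surj (u : M.U) : (∃ y, u = ⟨i y, M.mem_U y⟩) ∨
    ∃ α, ∃ z : PDisc (M.k α), u = ⟨M.c α z.1, M.mem_U' ⟨α, z⟩⟩ := by
  obtain ⟨u, hu⟩ := u
  rcases M.top_surj u with ⟨y, rfl⟩ | ⟨α, z, rfl⟩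
  · exact Or.inl ⟨y, rfl⟩
  · exact Or.inr ⟨α, ⟨z.1, M.topD_ne_of_mem hu⟩, rfl⟩

theorem sdr_iU : Nonempty (SDR M.iU) := by
  obtain ⟨φ, h1, h2⟩ := M.topC_desc (X := unitInterval → Y') (fun y _ => i y)
    (fun α z t => M.c α (topDRho t z)) (fun α s => funext fun t => by
      rw [topD_rho_sph]
      exact M.topC_w α s)
  have hU : ∀ (u : M.U) t, φ u.1 t ∈ M.U := fun u t => by
    rcases M.topD_surj u with ⟨y, rfl⟩ | ⟨α, z, rfl⟩
    · rw [h1]
      exact M.mem_U y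
    · rw [h2]
      exact M.mem_U' ⟨α, ⟨_, topD_rho_ne t z.1 z.2⟩⟩
  have hc : ∀ u : M.U, Continuous (φ u.1) := fun u => by
    rcases M.topD_surj u with ⟨y, rfl⟩ | ⟨α, z, rfl⟩
    · rw [h1]
      exact continuous_const
    · rw [h2]
      exact (M.c α).hom.continuous.comp ((topD_rho_cont _).comp (Continuous.prodMk_right z))
  let H : M.U → C(unitInterval, M.U) := fun u =>
    ⟨fun t => ⟨φ u.1 t, hU u t⟩, (hc u).subtype_mk _⟩
  have hH : Continuous H := by
    refine M.topD_continuous H ?_ fun α => ?_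
    · refine ContinuousMap.continuous_of_continuous_uncurry _ (Continuous.subtype_mk ?_ _)
      simp only [h1]
      exact i.hom.continuous.comp continuous_fst
    · refine ContinuousMap.continuous_of_continuous_uncurry _ (Continuous.subtype_mk ?_ _)
      simp only [h2]
      exact (M.c α).hom.continuous.comp (topD_rho_cont _)
  have hH' : Continuous fun p : M.U × unitInterval => H p.1 p.2 :=
    ContinuousMap.continuous_uncurry_of_continuous ⟨H, hH⟩
  have hr : ∀ u : M.U, ∃ y, i y = φ u.1 0 := fun u => by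
    rcases M.topD_surj u with ⟨y, rfl⟩ | ⟨α, z, rfl⟩
    · exact ⟨y, by rw [h1]⟩
    · rw [h2]
      exact ⟨M.a α (topCSph _ (topD_rho_zero z.1 z.2)), M.topC_w α _⟩
  choose r hr using hr
  have hrc : Continuous r := by
    rw [M.top_closedEmbedding.isEmbedding.continuous_iff]
    have e : i ∘ r = fun u => (H u 0).1 := funext hr
    rw [e]
    exact continuous_subtype_val.comp (hH'.comp (Continuous.prodMk_left 0))
  refine ⟨⟨TopCat.ofHom ⟨r, hrc⟩, ⟨_, hH'⟩, ?_, fun u => Subtype.ext (hr u).symm, fun u => ?_,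
    fun y t => Subtype.ext (congrFun (h1 y) t)⟩⟩
  · refine TopCat.hom_ext (ContinuousMap.ext fun y => M.top_inj ?_)
    exact (hr _).trans (congrFun (h1 y) 0)
  · refine Subtype.ext ?_
    change φ u.1 1 = u.1
    rcases M.topD_surj u with ⟨y, rfl⟩ | ⟨α, z, rfl⟩
    · rw [h1]
    · rw [h2]
      exact congrArg (M.c α) (topD_rho_one _)

end MA

end Vale.Agent.P259
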