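import Vale.Agent.P259.StepA
import Vale.Agent.P259.TopD

/-! # P259 part StepB: attaching cells -/

set_option backward.isDefEq.respectTransparency false

open CategoryTheory Limits Opposite MorphismProperty Topology

namespace Vale.Agent.P259

open Theta0
open Globe (D)

variable {K : Coherator} (c : Cmp K)

/-- excision for a cell attachment -/
theorem Cmp.exc_cells {Y Y' : TopCat.{0}} {i : Y ⟶ Y'} (M : MA sphInc i) {P : Mod K.C}
    {inU : c.W.obj (TopCat.of M.U) ⟶ P} {inB : c.W.obj (TopCat.of (Σ α, Disc (M.k α))) ⟶ P}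
    (hp : IsPushout (c.W.map M.aU) (c.W.map (sigMap fun α => pdD (M.k α))) inU inB)
    (φ : P ⟶ c.W.obj Y') (hU : inU ≫ φ = c.W.map M.jU) (hB : inB ≫ φ = c.W.map M.Φ) :
    WL K.C φ := by
  have E1 := excSq_discs M.k
  have E2 := M.excSq
  have hO : Cof K.C (c.W.map (sigMap fun α => opO (M.k α))) :=
    c.cof _ (topD_sigMap_emb _ fun α => topD_opO _).injective
  obtain ⟨P₁, in1, in2, p₁⟩ :=
    wb_po (c.W.map (sigMap fun α => opP (M.k α))) (c.W.map (sigMap fun α => opO (M.k α)))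
  obtain ⟨P₂, j1, j2, p₂⟩ :=
    wb_po (c.W.map ((sigMap fun α => opP (M.k α)) ≫ M.aU)) (c.W.map (sigMap fun α => opO (M.k α)))
  have w₁ : c.W.map (sigMap fun α => opP (M.k α)) ≫ c.W.map (sigMap fun α => pdD (M.k α)) =
      c.W.map (sigMap fun α => opO (M.k α)) ≫ c.W.map (sigMap fun α => odD (M.k α)) := by
    rw [← Functor.map_comp, ← Functor.map_comp, E1.w]
  have w₂ : c.W.map ((sigMap fun α => opP (M.k α)) ≫ M.aU) ≫ c.W.map M.jU =
      c.W.map (sigMap fun α => opO (M.k α)) ≫ c.W.map ((sigMap fun α => odD (M.k α)) ≫ M.Φ) := by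
    rw [← Functor.map_comp, ← Functor.map_comp, E2.w]
  have h₁ := c.exc E1 p₁ (p₁.desc _ _ w₁) (p₁.inl_desc ..) (p₁.inr_desc ..)
  have h₂ := c.exc E2 p₂ (p₂.desc _ _ w₂) (p₂.inl_desc ..) (p₂.inr_desc ..)
  have c₁ : Cofib P₁ := (c.cofib _).of_cof ((Cof K.C).of_isPushout p₁ hO)
  have c₂ : Cofib P₂ := (c.cofib _).of_cof ((Cof K.C).of_isPushout p₂ hO)
  have t₁ : TC K.C (p₁.desc _ _ w₁) := h₁.1.tc h₁.2 c₁
  have wθ : c.W.map (sigMap fun α => opP (M.k α)) ≫ c.W.map M.aU ≫ j1 =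
      c.W.map (sigMap fun α => opO (M.k α)) ≫ j2 := by
    rw [← p₂.w, Functor.map_comp, Category.assoc]
  have wψ : c.W.map ((sigMap fun α => opP (M.k α)) ≫ M.aU) ≫ inU =
      c.W.map (sigMap fun α => opO (M.k α)) ≫ c.W.map (sigMap fun α => odD (M.k α)) ≫ inB := by
    rw [Functor.map_comp, Category.assoc, hp.w, reassoc_of% w₁]
  have pB : IsPushout (c.W.map M.aU) in1 j1 (p₁.desc _ _ wθ) := by
    refine IsPushout.of_left (h₁₁ := c.W.map (sigMap fun α => opP (M.k α))) ?_ ?_ p₁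
    · rw [p₁.inr_desc, ← Functor.map_comp]
      exact p₂
    · rw [p₁.inl_desc]
  have pC : IsPushout (p₁.desc _ _ wθ) (p₁.desc _ _ w₁) (p₂.desc _ _ wψ) inB := by
    refine IsPushout.of_top ?_ ?_ pB
    · rw [p₁.inl_desc, p₂.inl_desc]
      exact hp
    · apply p₁.hom_ext
      · rw [p₁.inl_desc_assoc, p₁.inl_desc_assoc, Category.assoc, p₂.inl_desc, hp.w]
      · rw [p₁.inr_desc_assoc, p₁.inr_desc_assoc, p₂.inr_desc]
  have t₂ : TC K.C (p₂.desc _ _ wψ) := (TC K.C).of_isPushout pC t₁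
  refine WL.cancel_left ?_ (t₂.wl c₂)
  have e : p₂.desc _ _ wψ ≫ φ = p₂.desc _ _ w₂ := by
    apply p₂.hom_ext
    · rw [p₂.inl_desc_assoc, p₂.inl_desc, hU]
    · rw [p₂.inr_desc_assoc, p₂.inr_desc, Category.assoc, hB, Functor.map_comp]
  rw [e]
  exact h₂.1

theorem stepB_cell_ηD (j : ℕ) : cellPi (ηD K j) = 𝟙 _ := Equiv.apply_symm_apply _ _

theorem stepB_e_η (s : SphPi K) (j : ℕ) : s.e (s.η j) = 𝟙 _ := Equiv.apply_symm_apply _ _

theorem stepB_bd_ηD (s : SphPi K) (j : ℕ) :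
    bd K.C j ≫ ηD K j = s.η j ≫ (PiK K).map (sphInc j) := by
  apply s.e.injective
  rw [s.e_bd, s.e_map, stepB_cell_ηD, stepB_e_η, Category.comp_id, Category.id_comp]

theorem stepB_wl_ηD (j : ℕ) : WL K.C (ηD K j) :=
  WL.of_contr _ (contr_Dk K j) (contr_Pi _)

include c in
/-- the inductive step -/
theorem wl_step (s : SphPi K) {Y Y' : TopCat.{0}} {i : Y ⟶ Y'} (M : MA sphInc i)
    {X X' : Mod K.C} {f : X ⟶ X'} {a : ∀ α, Sph K.C (M.k α) ⟶ X} {e : ∀ α, Dk K.C (M.k α) ⟶ X'}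
    (p : IsPushout (Sigma.desc a) (Limits.Sigma.map fun α => bd K.C (M.k α)) f (Sigma.desc e))
    (hX : Cofib X) {g : X ⟶ (PiK K).obj Y} {g' : X' ⟶ (PiK K).obj Y'}
    (hf : f ≫ g' = g ≫ (PiK K).map i) (ha : ∀ α, a α ≫ g = s.η _ ≫ (PiK K).map (M.a α))
    (he : ∀ α, e α ≫ g' = ηD K _ ≫ (PiK K).map (M.c α)) (hg : WL K.C g)
    (hS : ∀ α, WL K.C (s.η (M.k α))) : WL K.C g' := by
  obtain ⟨X₁, a₁, q, ha₁, hq, hfac⟩ := factor_cof_tfib (Sigma.desc a)
  have hbd : Cof K.C (Limits.Sigma.map fun α => bd K.C (M.k α)) := llp_sigma_map (g := bd K.C) M.k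
  have hA : Cofib (∐ fun α => Sph K.C (M.k α)) := Cofib.sigma fun α => cofib_Sph _
  obtain ⟨P₁, j, e₁, p₁⟩ := wb_po a₁ (Limits.Sigma.map fun α => bd K.C (M.k α))
  have wq : a₁ ≫ q ≫ f = (Limits.Sigma.map fun α => bd K.C (M.k α)) ≫ Sigma.desc e := by
    rw [reassoc_of% hfac, p.w]
  have pq : IsPushout q j f (p₁.desc _ _ wq) := by
    refine IsPushout.of_left (h₁₁ := a₁) ?_ ?_ p₁
    · rw [p₁.inr_desc, hfac]
      exact p
    · rw [p₁.inl_desc]
  have hq' : WL K.C (p₁.desc _ _ wq) :=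
    WL.pushout_cof pq (hA.of_cof ha₁) hX ((Cof K.C).of_isPushout p₁ hbd) (WL.of_tfib hq)
  refine WL.cancel_left ?_ hq'
  obtain ⟨sU⟩ := M.sdr_iU
  refine c.local_global (aU := M.aU) (aB := sigMap fun α => pdD (M.k α)) (jU := M.jU) (jB := M.Φ)
    M.aU_jU (topD_sigMap_open _ fun α => topD_pdD _).injective
    (fun hp φ h1 h2 => c.exc_cells M hp φ h1 h2) p₁ hA ha₁ hbd
    (gA := Sigma.desc fun α => (s.η _ ≫ (PiK K).map (sphP (M.k α))) ≫
      (PiK K).map (sigIn (fun α => PDisc (M.k α)) α))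
    (gU := q ≫ g ≫ (PiK K).map M.iU)
    (gB := Sigma.desc fun α => ηD K _ ≫ (PiK K).map (sigIn (fun α => Disc (M.k α)) α))
    ?_ ?_ ?_ ?_ ?_ ?_ ?_
  · rw [reassoc_of% hfac]
    ext α
    rw [Sigma.ι_desc_assoc, Sigma.ι_desc_assoc, reassoc_of% (ha α), ← Functor.map_comp, M.a_iU]
    simp only [Functor.map_comp, Category.assoc]
  · ext α
    rw [Sigma.ι_map_assoc, Sigma.ι_desc, Sigma.ι_desc_assoc, reassoc_of% (stepB_bd_ηD s)]
    simp only [← Functor.map_comp, Category.assoc]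
    rfl
  · rw [p₁.inl_desc_assoc, Category.assoc, hf, Category.assoc, Category.assoc, ← Functor.map_comp,
      M.iU_jU]
  · rw [p₁.inr_desc_assoc]
    ext α
    rw [Sigma.ι_desc_assoc, Sigma.ι_desc_assoc, he, Category.assoc, ← Functor.map_comp]
    rfl
  · exact wl_sigma c (fun α => PDisc (M.k α)) _ (fun α => cofib_Sph _) fun α =>
      (hS α).comp (wl_of_sdr (sdr_sphP _).some)
  · exact (WL.of_tfib hq).comp (hg.comp (wl_of_sdr sU))
  · exact wl_sigma c (fun α => Disc (M.k α)) _ (fun α => cofib_Dk _) fun α => stepB_wl_ηD _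

include c in
theorem wl_η (s : SphPi K) (j : ℕ) : WL K.C (s.η j) := by
  induction j with
  | zero =>
    have : IsEmpty (TopCat.of (Sphere 0)) := ⟨fun x => by
      have h := mem_sphere_zero_iff_norm.1 x.2
      rw [Subsingleton.elim x.1 0, norm_zero] at h
      exact zero_ne_one h⟩
    exact wl_of_isEmpty _
  | succ j ih =>
    refine wl_step c s (MA.ofPushout sphInc (sphere_isPushout j)) (a := fun _ => bd K.C j)
      (e := fun _ => (RD K.C).r j) (f := (RD K.C).l j) (g := ηD K j)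
      (MA.ofPushout (bd K.C) ((RD K.C).po j)).isPushout (cofib_Dk j) ?_
      (fun _ => stepB_bd_ηD s j) (fun _ => ?_) (stepB_wl_ηD j) fun _ => ih
    · apply cellPi.injective
      rw [s.e_l, cellPi_map, stepB_cell_ηD, stepB_e_η, Category.comp_id, Category.id_comp]
    · change (RD K.C).r j ≫ s.η (j + 1) = ηD K j ≫ (PiK K).map (upperS j)
      apply cellPi.injective
      rw [s.e_r, cellPi_map, stepB_cell_ηD, stepB_e_η, Category.comp_id, Category.id_comp]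

end Vale.Agent.P259
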