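import Vale.Agent.P259.Glob

/-! # P259: extension of a coglobular object to `Θ₀` by globular sums -/

set_option backward.isDefEq.respectTransparency false

open CategoryTheory Limits Opposite

namespace Vale.Agent.P259

universe u

open Globe (D)
open Theta0

variable {N : Type u} [Category.{0} N]

/-- the nerve functor of `A` -/
def nerve {S : Type} [SmallCategory S] (A : S ⥤ N) : N ⥤ (Sᵒᵖ ⥤ Type) :=
  yoneda ⋙ (Functor.whiskeringLeft _ _ _).obj A.op

section

variable {S : Type} [SmallCategory S] (A : S ⥤ N)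

/-- maps from a representable to a nerve -/
def cellN {d : S} {X : N} : (A.obj d ⟶ X) ≃ (yoneda.obj d ⟶ (nerve A).obj X) :=
  (yonedaEquiv (X := d) (F := (nerve A).obj X)).symm

@[reassoc]
theorem map_cellN {d d' : S} {X : N} (g : d ⟶ d') (x : A.obj d' ⟶ X) :
    yoneda.map g ≫ cellN A x = cellN A (A.map g ≫ x) :=
  yonedaEquiv_symm_naturality_left g ((nerve A).obj X) x

@[reassoc]
theorem cellN_map {d : S} {X Y : N} (x : A.obj d ⟶ X) (φ : X ⟶ Y) :
    cellN A x ≫ (nerve A).map φ = cellN A (x ≫ φ) :=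
  yonedaEquiv_symm_naturality_right d ((nerve A).map φ) x

end

variable [HasPushouts N] (A : Globe ⥤ N)

/-- the unit from a globular sum to the nerve of the sum in `N` -/
noncomputable def sumUnitAux : ∀ {i : ℕ} (T : Tab i),
    {u : (T.sum yoneda).1 ⟶ (nerve A).obj (T.sum A).1 // (T.sum yoneda).2 ≫ u = cellN A (T.sum A).2}
  | _, .disc i => ⟨cellN A (𝟙 _), Category.id_comp _⟩
  | _, .glue T j i' h h' =>
    ⟨pushout.desc ((sumUnitAux T).1 ≫ (nerve A).map (pushout.inl _ _)) (cellN A (pushout.inr _ _))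
      (by
        rw [Category.assoc, reassoc_of% (sumUnitAux T).2, cellN_map, map_cellN, map_cellN,
          ← Category.assoc, pushout.condition]),
      pushout.inr_desc _ _ _⟩

theorem sum_UP : ∀ {i : ℕ} (T : Tab i) {X : N} (z : (T.sum yoneda).1 ⟶ (nerve A).obj X),
    ∃! g : (T.sum A).1 ⟶ X, (sumUnitAux A T).1 ≫ (nerve A).map g = z
  | _, .disc i, X, z => by
    refine ⟨(cellN A).symm z, ?_, ?_⟩
    · change cellN A (𝟙 _) ≫ _ = _
      rw [cellN_map, Category.id_comp, Equiv.apply_symm_apply]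
    · rintro g rfl
      change g = (cellN A).symm (cellN A (𝟙 _) ≫ _)
      rw [cellN_map, Category.id_comp, Equiv.symm_apply_apply]
  | _, .glue T j i' h h', X, z => by
    obtain ⟨g₁, hg₁, hu₁⟩ := sum_UP T (pushout.inl _ _ ≫ z)
    obtain ⟨g₂, hg₂⟩ := (cellN A).surjective (pushout.inr _ _ ≫ z)
    have hc : (A.map (Globe.tgt h.le) ≫ (T.sum A).2) ≫ g₁ = A.map (Globe.src h'.le) ≫ g₂ := by
      apply (cellN A).injective
      rw [Category.assoc, ← map_cellN, ← map_cellN, ← cellN_map, ← (sumUnitAux A T).2,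
        Category.assoc, hg₁, hg₂, ← Category.assoc, pushout.condition_assoc]
    refine ⟨pushout.desc g₁ g₂ hc, ?_, ?_⟩
    · apply pushout.hom_ext
      · change pushout.inl _ _ ≫ pushout.desc _ _ _ ≫ _ = _
        rw [pushout.inl_desc_assoc, Category.assoc, ← Functor.map_comp, pushout.inl_desc, hg₁]
      · change pushout.inr _ _ ≫ pushout.desc _ _ _ ≫ _ = _
        rw [pushout.inr_desc_assoc, cellN_map, pushout.inr_desc, hg₂]
    · rintro g rfl
      apply pushout.hom_ext
      · rw [pushout.inl_desc]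
        apply hu₁
        change _ = pushout.inl _ _ ≫ pushout.desc _ _ _ ≫ _
        rw [pushout.inl_desc_assoc, Category.assoc, ← Functor.map_comp]
      · rw [pushout.inr_desc]
        apply (cellN A).injective
        rw [hg₂]
        change _ = pushout.inr _ _ ≫ pushout.desc _ _ _ ≫ _
        rw [pushout.inr_desc_assoc, cellN_map]

/-- the sum of a table in `N` -/
noncomputable def sumObj (T : Theta0) : N := (T.tab.sum A).1

/-- the unit -/
noncomputable def sumUnit (T : Theta0) : Table.real T ⟶ (nerve A).obj (sumObj A T) :=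
  (sumUnitAux A T.tab).1

theorem sum_ext {T : Theta0} {X : N} {g g' : sumObj A T ⟶ X}
    (h : sumUnit A T ≫ (nerve A).map g = sumUnit A T ≫ (nerve A).map g') : g = g' :=
  (sum_UP A T.tab (sumUnit A T ≫ (nerve A).map g')).unique h rfl

/-- the map out of a sum given by a compatible family of cells -/
noncomputable def sumDesc {T : Theta0} {X : N} (z : Table.real T ⟶ (nerve A).obj X) :
    sumObj A T ⟶ X := (sum_UP A T.tab z).exists.choose

@[reassoc]
theorem sumUnit_desc {T : Theta0} {X : N} (z : Table.real T ⟶ (nerve A).obj X) :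
    sumUnit A T ≫ (nerve A).map (sumDesc A z) = z := (sum_UP A T.tab z).exists.choose_spec

/-- the extension of `A` to `Θ₀` -/
noncomputable def sumF : Theta0 ⥤ N where
  obj := sumObj A
  map f := sumDesc A (f.hom ≫ sumUnit A _)
  map_id T := sum_ext A (by rw [sumUnit_desc]; simp)
  map_comp f g := sum_ext A (by
    rw [sumUnit_desc, Functor.map_comp, sumUnit_desc_assoc, Category.assoc, sumUnit_desc]; simp)

theorem sumF_obj_disc (n : ℕ) : (sumF A).obj (disc n) = A.obj (D n) := rfl

@[reassoc]
theorem sumUnit_map {S T : Theta0} (f : S ⟶ T) :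
    sumUnit A S ≫ (nerve A).map ((sumF A).map f) = f.hom ≫ sumUnit A T := sumUnit_desc A _

theorem sumF_map_cell {n : ℕ} {T : Theta0} (x : disc n ⟶ T) :
    cellN A ((sumF A).map x : A.obj (D n) ⟶ _) = x.hom ≫ sumUnit A T := by
  rw [← sumUnit_map]
  change _ = cellN A (𝟙 _) ≫ _
  rw [cellN_map, Category.id_comp]

theorem sumF_map_discF {m n : ℕ} (g : D m ⟶ D n) : (sumF A).map (discF.map g) = A.map g := by
  apply (cellN A).injective
  refine (sumF_map_cell A (n := m) (T := disc n) (discF.map g)).trans ?_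
  change yoneda.map g ≫ cellN A (𝟙 _) = _
  rw [map_cellN, Category.comp_id]
  rfl

theorem sumF_map_lastι (T : Theta0) : (sumF A).map (lastι T) = (T.tab.sum A).2 := by
  apply (cellN A).injective
  exact (sumF_map_cell A (lastι T)).trans (sumUnitAux A T.tab).2

theorem sumF_map_inl (T : Theta0) (j i' : ℕ) (h : j < T.last) (h' : j < i') :
    (sumF A).map (inl T j i' h h') = pushout.inl _ _ := by
  apply sum_ext
  rw [sumUnit_map]
  exact pushout.inl_desc _ _ _

theorem sumF_pres : PreservesSums (sumF A) := by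
  intro T j i' h h'
  rw [Functor.map_comp, sumF_map_inl, inr, sumF_map_lastι, sumF_map_lastι, tgt, src,
    sumF_map_discF, sumF_map_discF]
  exact IsPushout.of_hasPushout _ _

/-- maps out of a sum agree if they agree on all cells -/
theorem sumF_hom_ext {T : Theta0} {X : N} {g g' : (sumF A).obj T ⟶ X}
    (h : ∀ n (x : disc n ⟶ T), (sumF A).map x ≫ g = (sumF A).map x ≫ g') : g = g' := by
  apply sum_ext
  ext d x
  let x' : disc d.unop.as.dim ⟶ T := InducedCategory.homMk (yonedaEquiv.symm x)
  have h1 := sumF_map_cell A x'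
  have h2 : x'.hom ≫ sumUnit A T ≫ (nerve A).map g = x'.hom ≫ sumUnit A T ≫ (nerve A).map g' := by
    rw [← Category.assoc, ← Category.assoc, ← h1, cellN_map, cellN_map]
    exact congrArg _ (h _ x')
  have h3 := congrArg yonedaEquiv h2
  rw [yonedaEquiv_comp, yonedaEquiv_comp] at h3
  have h4 : yonedaEquiv (X := d.unop) x'.hom = x := Equiv.apply_symm_apply _ _
  rw [← h4]
  exact h3

variable {A}

/-- the comparison from the sum extension of the restriction of `Φ` to `Φ` -/
noncomputable def cmpCells (Φ : Theta0 ⥤ N) {A : Globe ⥤ N} (α : A ⟶ discF ⋙ Φ) (T : Theta0) :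
    Table.real T ⟶ (nerve A).obj (Φ.obj T) where
  app d := ↾fun x => α.app d.unop ≫
    Φ.map (InducedCategory.homMk (X := disc d.unop.as.dim) (Y := T) (yonedaEquiv.symm x))
  naturality d d' g := by
    ext x
    have : (InducedCategory.homMk (X := disc d'.unop.as.dim) (Y := T)
        (yonedaEquiv.symm ((Table.real T).map g x))) = discF.map g.unop ≫
        InducedCategory.homMk (X := disc d.unop.as.dim) (Y := T) (yonedaEquiv.symm x) := by
      ext1
      exact (yonedaEquiv_symm_naturality_left g.unop (Table.real T) x).symm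
    change α.app _ ≫ Φ.map (InducedCategory.homMk (X := disc d'.unop.as.dim) (Y := T)
        (yonedaEquiv.symm ((Table.real T).map g x))) = A.map g.unop ≫ α.app _ ≫ Φ.map _
    rw [this, Functor.map_comp, α.naturality_assoc]
    rfl

theorem comp_cmpCells (Φ : Theta0 ⥤ N) {A : Globe ⥤ N} (α : A ⟶ discF ⋙ Φ) {n : ℕ} {T : Theta0}
    (x : disc n ⟶ T) : x.hom ≫ cmpCells Φ α T = cellN A (α.app (D n) ≫ Φ.map x) := by
  symm
  refine (Equiv.symm_apply_eq (yonedaEquiv (X := D n) (F := (nerve A).obj (Φ.obj T)))).2 ?_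
  refine Eq.trans ?_ (yonedaEquiv_comp (X := D n) x.hom (cmpCells Φ α T)).symm
  change _ = α.app (D n) ≫ Φ.map (InducedCategory.homMk (X := disc n) (Y := T)
    (yonedaEquiv.symm (yonedaEquiv (X := D n) x.hom)))
  erw [Equiv.symm_apply_apply]
  rfl

theorem map_sumDesc_cmpCells (Φ : Theta0 ⥤ N) {A : Globe ⥤ N} (α : A ⟶ discF ⋙ Φ) {n : ℕ}
    {T : Theta0} (x : disc n ⟶ T) :
    (sumF A).map x ≫ sumDesc A (cmpCells Φ α T) = α.app (D n) ≫ Φ.map x := by
  apply (cellN A (d := D n)).injective
  refine Eq.trans ?_ (comp_cmpCells Φ α x)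
  refine (cellN_map A (d := D n) ((sumF A).map x) _).symm.trans ?_
  refine (congrArg (· ≫ _) (sumF_map_cell A x)).trans ?_
  simp only [Category.assoc, sumUnit_desc]

/-- the natural transformation out of `sumF A` determined by its values on discs -/
noncomputable def sumLift (Φ : Theta0 ⥤ N) {A : Globe ⥤ N} (α : A ⟶ discF ⋙ Φ) : sumF A ⟶ Φ where
  app T := sumDesc A (cmpCells Φ α T)
  naturality S T f := by
    apply sumF_hom_ext
    intro n x
    rw [← Functor.map_comp_assoc, map_sumDesc_cmpCells,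
      reassoc_of% (map_sumDesc_cmpCells Φ α x), Functor.map_comp]

@[reassoc]
theorem map_sumLift (Φ : Theta0 ⥤ N) {A : Globe ⥤ N} (α : A ⟶ discF ⋙ Φ) {n : ℕ} {T : Theta0}
    (x : disc n ⟶ T) : (sumF A).map x ≫ (sumLift Φ α).app T = α.app (D n) ≫ Φ.map x :=
  map_sumDesc_cmpCells Φ α x

theorem sumLift_app_disc (Φ : Theta0 ⥤ N) {A : Globe ⥤ N} (α : A ⟶ discF ⋙ Φ) (n : ℕ) :
    (sumLift Φ α).app (disc n) = α.app (D n) := by
  have := map_sumLift Φ α (𝟙 (disc n))
  erw [(sumF A).map_id, Φ.map_id, Category.id_comp] at this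
  exact this.trans (Category.comp_id _)

/-- `A` is the restriction of `sumF A` -/
noncomputable def toSum (A : Globe ⥤ N) : A ⟶ discF ⋙ sumF A where
  app d := 𝟙 (A.obj d)
  naturality d d' g := by
    have := sumF_map_discF A (m := d.as.dim) (n := d'.as.dim) g
    simpa using this.symm

/-- the map of sums induced by a natural transformation -/
noncomputable def sumNat {A B : Globe ⥤ N} (α : A ⟶ B) : sumF A ⟶ sumF B :=
  sumLift (sumF B) (α ≫ toSum B)

theorem sumNat_app_disc {A B : Globe ⥤ N} (α : A ⟶ B) (n : ℕ) :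
    (sumNat α).app (disc n) = α.app (D n) := by
  rw [sumNat, sumLift_app_disc]; exact Category.comp_id _

/-- the comparison map -/
noncomputable def cmp (Φ : Theta0 ⥤ N) : sumF (discF ⋙ Φ) ⟶ Φ := sumLift Φ (𝟙 _)

theorem cmp_app_disc (Φ : Theta0 ⥤ N) (n : ℕ) : (cmp Φ).app (disc n) = 𝟙 (Φ.obj (disc n)) :=
  sumLift_app_disc Φ _ n

/-- induction on objects of `Θ₀` -/
theorem Theta0.induction (P : Theta0 → Prop) (hd : ∀ n, P (disc n))
    (hg : ∀ T j i' h h', P T → P (glue T j i' h h')) (T : Theta0) : P T := by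
  obtain ⟨i, T⟩ := T
  induction T with
  | disc i => exact hd i
  | glue T j i' h h' ih => exact hg ⟨_, T⟩ j i' h h' ih

omit [HasPushouts N] in
/-- a natural transformation between sum preserving functors that is invertible on discs is
invertible -/
theorem isIso_of_disc {Φ Ψ : Theta0 ⥤ N} (hΦ : PreservesSums Φ) (hΨ : PreservesSums Ψ)
    (α : Φ ⟶ Ψ) (h : ∀ n, IsIso (α.app (disc n))) (T : Theta0) : IsIso (α.app T) := by
  induction T using Theta0.induction with
  | hd n => exact h n
  | hg T j i' hj hj' ih =>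
    have := h j
    have := h i'
    have h1 : IsPushout (Φ.map (tgt hj.le ≫ lastι T)) (Φ.map (src hj'.le))
        (α.app T ≫ Ψ.map (inl T j i' hj hj')) (α.app _ ≫ Ψ.map (inr T j i' hj hj')) :=
      (hΨ T j i' hj hj').of_iso' (asIso (α.app _)) (asIso (α.app _)) (asIso (α.app _))
        (Iso.refl _) (by simp) (by simp) (by simp) (by simp)
    have h2 := hΦ T j i' hj hj'
    have : α.app (glue T j i' hj hj') = (h2.isoIsPushout _ _ h1).hom := by
      apply h2.hom_ext <;> simp
    rw [this]; infer_instance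

theorem isIso_cmp {Φ : Theta0 ⥤ N} (hΦ : PreservesSums Φ) : IsIso (cmp Φ) := by
  have := isIso_of_disc (sumF_pres _) hΦ (cmp Φ) (fun n => by rw [cmp_app_disc]; exact IsIso.id _)
  exact NatIso.isIso_of_isIso_app _

end Vale.Agent.P259
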