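import Vale.Agent.P259.TopDefs

/-! # P259 part TopC: point-set topology of cell attachments -/

set_option backward.isDefEq.respectTransparency false

open CategoryTheory Limits Opposite Topology

namespace Vale.Agent.P259

/-- a type with the indiscrete topology -/
structure TopCInd (X : Type) where
  /-- the underlying element -/
  val : X

instance (X : Type) : TopologicalSpace (TopCInd X) := ⊤

theorem topC_cont {A : Type} [TopologicalSpace A] {X : Type} (f : A → TopCInd X) :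
    Continuous f := continuous_top

/-- an arbitrary function as a map to an indiscrete space -/
def topCHom {A : TopCat.{0}} {X : Type} (f : A → X) : A ⟶ TopCat.of (TopCInd X) :=
  TopCat.ofHom ⟨fun a => ⟨f a⟩, topC_cont _⟩

theorem topC_norm_le {n : ℕ} (z : Disc n) : ‖z.1‖ ≤ 1 := mem_closedBall_zero_iff.1 z.2

theorem topC_norm_sph {n : ℕ} (s : Sphere n) : ‖(sphC n s).1‖ = 1 :=
  mem_sphere_zero_iff_norm.1 s.2

/-- a point of the disc of norm at least one as a point of the sphere -/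
def topCSph {n : ℕ} (z : Disc n) (h : ¬ ‖z.1‖ < 1) : Sphere n :=
  ⟨z.1, mem_sphere_zero_iff_norm.2 (le_antisymm (topC_norm_le z) (not_lt.1 h))⟩

theorem topC_sphC_sph {n : ℕ} (z : Disc n) (h : ¬ ‖z.1‖ < 1) : sphC n (topCSph z h) = z := rfl

theorem topC_sph_sphC {n : ℕ} (s : Sphere n) (h : ¬ ‖(sphC n s).1‖ < 1) :
    topCSph (sphC n s) h = s := rfl

theorem topC_sphC_closedEmbedding (n : ℕ) : IsClosedEmbedding (sphC n) :=
  (sphC n).continuous.isClosedEmbedding fun _ _ h => Subtype.ext (congrArg (fun z => z.1) h)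

namespace MA

variable {Y Y' : TopCat.{0}} {i : Y ⟶ Y'} (M : MA sphInc i)

theorem topC_w (α : M.ι) (s : Sphere (M.k α)) : i (M.a α s) = M.c α (sphC _ s) :=
  ConcreteCategory.congr_hom (M.w α) s

theorem topC_cdesc {X : Type} [TopologicalSpace X] (u : C(Y, X)) (v : ∀ α, C(Disc (M.k α), X))
    (h : ∀ α s, u (M.a α s) = v α (sphC _ s)) :
    ∃ φ : C(Y', X), (∀ y, φ (i y) = u y) ∧ ∀ α z, φ (M.c α z) = v α z := by
  obtain ⟨φ, h1, h2⟩ := M.desc (X := TopCat.of X) (TopCat.ofHom u) (fun α => TopCat.ofHom (v α))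
    (fun α => TopCat.hom_ext (ContinuousMap.ext fun s => h α s))
  exact ⟨φ.hom, fun y => ConcreteCategory.congr_hom h1 y,
    fun α z => ConcreteCategory.congr_hom (h2 α) z⟩

theorem topC_desc {X : Type} (u : Y → X) (v : ∀ α, Disc (M.k α) → X)
    (h : ∀ α s, u (M.a α s) = v α (sphC _ s)) :
    ∃ φ : Y' → X, (∀ y, φ (i y) = u y) ∧ ∀ α z, φ (M.c α z) = v α z := by
  obtain ⟨φ, h1, h2⟩ := M.topC_cdesc (X := TopCInd X) ⟨fun y => ⟨u y⟩, topC_cont _⟩
    (fun α => ⟨fun z => ⟨v α z⟩, topC_cont _⟩) (fun α s => congrArg TopCInd.mk (h α s))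
  exact ⟨fun y => (φ y).val, fun y => congrArg TopCInd.val (h1 y),
    fun α z => congrArg TopCInd.val (h2 α z)⟩

theorem topC_ext {X : Type} (φ ψ : Y' → X) (h1 : ∀ y, φ (i y) = ψ (i y))
    (h2 : ∀ α z, φ (M.c α z) = ψ (M.c α z)) : φ = ψ := by
  have := M.hom_ext (topCHom φ) (topCHom ψ)
    (TopCat.hom_ext (ContinuousMap.ext fun y => congrArg TopCInd.mk (h1 y)))
    (fun α => TopCat.hom_ext (ContinuousMap.ext fun z => congrArg TopCInd.mk (h2 α z)))
  funext y
  exact congrArg TopCInd.val (ConcreteCategory.congr_hom this y)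

open Classical in
theorem topC_normal : ∃ φ : Y' → Y ⊕ (Σ α, ODisc (M.k α)), (∀ y, φ (i y) = Sum.inl y) ∧
    (∀ α (z : Disc (M.k α)) (h : ‖z.1‖ < 1), φ (M.c α z) = Sum.inr ⟨α, ⟨z, h⟩⟩) ∧
    (∀ α (z : Disc (M.k α)) (h : ¬ ‖z.1‖ < 1),
      φ (M.c α z) = Sum.inl (M.a α (topCSph z h))) := by
  obtain ⟨φ, h1, h2⟩ := M.topC_desc (X := Y ⊕ (Σ α, ODisc (M.k α))) Sum.inl
    (fun α z => if h : ‖z.1‖ < 1 then Sum.inr ⟨α, ⟨z, h⟩⟩ else Sum.inl (M.a α (topCSph z h)))
    (fun α s => by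
      have hs : ¬ ‖(sphC _ s).1‖ < 1 := by rw [topC_norm_sph]; exact lt_irrefl _
      rw [dif_neg hs, topC_sph_sphC])
  exact ⟨φ, h1, fun α z h => by rw [h2, dif_pos h], fun α z h => by rw [h2, dif_neg h]⟩

theorem top_surj (y : Y') : (∃ x, i x = y) ∨ ∃ α, ∃ z : ODisc (M.k α), M.c α z.1 = y := by
  have key := M.topC_ext
    (fun y => (∃ x, i x = y) ∨ ∃ α, ∃ z : ODisc (M.k α), M.c α z.1 = y) (fun _ => True)
    (fun y => eq_true (Or.inl ⟨y, rfl⟩))
    (fun α z => eq_true (by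
      by_cases h : ‖z.1‖ < 1
      · exact Or.inr ⟨α, ⟨z, h⟩, rfl⟩
      · exact Or.inl ⟨M.a α (topCSph z h), M.topC_w α _⟩))
  exact of_eq_true (congrFun key y)

include M in
theorem top_inj : Function.Injective i := by
  obtain ⟨φ, h1, -, -⟩ := M.topC_normal
  intro x y h
  have := congrArg φ h
  rw [h1, h1] at this
  exact Sum.inl_injective this

theorem top_ne (x : Y) (α : M.ι) (z : ODisc (M.k α)) : i x ≠ M.c α z.1 := by
  obtain ⟨φ, h1, h2, -⟩ := M.topC_normal
  intro h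
  have := congrArg φ h
  rw [h1, h2 α z.1 z.2] at this
  exact Sum.inl_ne_inr this

theorem top_cell_inj {α β : M.ι} (z : ODisc (M.k α)) (z' : Disc (M.k β))
    (h : M.c α z.1 = M.c β z') : (⟨α, z.1⟩ : Σ α, Disc (M.k α)) = ⟨β, z'⟩ := by
  obtain ⟨φ, -, h2, h3⟩ := M.topC_normal
  have := congrArg φ h
  rw [h2 α z.1 z.2] at this
  by_cases h' : ‖z'.1‖ < 1
  · rw [h2 β z' h'] at this
    exact congrArg (fun p : Σ α, ODisc (M.k α) => (⟨p.1, p.2.1⟩ : Σ α, Disc (M.k α)))
      (Sum.inr_injective this)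
  · rw [h3 β z' h'] at this
    exact absurd this Sum.inr_ne_inl

theorem top_isOpen_iff (W : Set Y') :
    IsOpen W ↔ IsOpen (i ⁻¹' W) ∧ ∀ α, IsOpen (M.c α ⁻¹' W) := by
  refine ⟨fun h => ⟨h.preimage i.hom.continuous, fun α => h.preimage (M.c α).hom.continuous⟩,
    fun ⟨h1, h2⟩ => ?_⟩
  obtain ⟨φ, e1, e2⟩ := M.topC_cdesc (X := Prop) ⟨fun y => i y ∈ W, continuous_Prop.2 h1⟩
    (fun α => ⟨fun z => M.c α z ∈ W, continuous_Prop.2 (h2 α)⟩)
    (fun α s => congrArg (· ∈ W) (M.topC_w α s))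
  have e : (fun y => φ y) = fun y => y ∈ W := M.topC_ext _ _ e1 e2
  have hφ := continuous_Prop.1 φ.continuous
  have : {y | φ y} = W := Set.ext fun y => iff_of_eq (congrFun e y)
  rwa [this] at hφ

theorem topC_isClosed_iff (W : Set Y') :
    IsClosed W ↔ IsClosed (i ⁻¹' W) ∧ ∀ α, IsClosed (M.c α ⁻¹' W) := by
  simp only [← isOpen_compl_iff, ← Set.preimage_compl]
  exact M.top_isOpen_iff _

theorem topC_continuous_iff {X : Type} [TopologicalSpace X] (f : Y' → X) :
    Continuous f ↔ Continuous (f ∘ i) ∧ ∀ α, Continuous (f ∘ M.c α) := by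
  refine ⟨fun h => ⟨h.comp i.hom.continuous, fun α => h.comp (M.c α).hom.continuous⟩,
    fun ⟨h1, h2⟩ => ⟨fun W hW => (M.top_isOpen_iff _).2 ⟨hW.preimage h1,
      fun α => hW.preimage (h2 α)⟩⟩⟩

theorem topC_preimage_image (C : Set Y) (α : M.ι) :
    M.c α ⁻¹' (i '' C) = sphC _ '' (M.a α ⁻¹' C) := by
  ext z
  constructor
  · rintro ⟨y, hy, e⟩
    by_cases h : ‖z.1‖ < 1
    · exact absurd e (M.top_ne y α ⟨z, h⟩)
    · refine ⟨topCSph z h, ?_, rfl⟩
      have e2 : i (M.a α (topCSph z h)) = i y := (M.topC_w α _).trans e.symm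
      change M.a α (topCSph z h) ∈ C
      rw [M.top_inj e2]
      exact hy
  · rintro ⟨s, hs, rfl⟩
    exact ⟨M.a α s, hs, M.topC_w α s⟩

include M in
theorem top_closedEmbedding : IsClosedEmbedding i := by
  refine IsClosedEmbedding.of_continuous_injective_isClosedMap i.hom.continuous M.top_inj
    fun C hC => (M.topC_isClosed_iff _).2 ⟨?_, fun α => ?_⟩
  · rwa [Set.preimage_image_eq _ M.top_inj]
  · rw [M.topC_preimage_image]
    exact (topC_sphC_closedEmbedding _).isClosedMap _ (hC.preimage (M.a α).hom.continuous)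

include M in
/-- real functions extend over attached cells (Tietze) -/
theorem top_extend (f : C(Y, ℝ)) : ∃ g : C(Y', ℝ), ∀ y, g (i y) = f y := by
  have key : ∀ α, ∃ g : C(Disc (M.k α), ℝ), ∀ s, g (sphC _ s) = f (M.a α s) := fun α => by
    obtain ⟨g, hg⟩ := ContinuousMap.exists_extension (topC_sphC_closedEmbedding (M.k α))
      (f.comp (M.a α).hom)
    exact ⟨g, fun s => ContinuousMap.congr_fun hg s⟩
  choose v hv using key
  obtain ⟨φ, h1, -⟩ := M.topC_cdesc f v fun α s => (hv α s).symm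
  exact ⟨φ, h1⟩

open Classical in
theorem topC_bump (β : M.ι) (g : C(Disc (M.k β), ℝ)) (hg : ∀ s, g (sphC _ s) = 0) :
    ∃ φ : C(Y', ℝ), (∀ y, φ (i y) = 0) ∧ (∀ z, φ (M.c β z) = g z) ∧
      ∀ α, α ≠ β → ∀ z, φ (M.c α z) = 0 := by
  obtain ⟨φ, h1, h2⟩ := M.topC_cdesc (X := ℝ) 0
    (Function.update (fun α => (0 : C(Disc (M.k α), ℝ))) β g) (fun α s => by
      by_cases h : α = β
      · subst h
        rw [Function.update_self, hg]
        rfl
      · rw [Function.update_of_ne h]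
        rfl)
  refine ⟨φ, h1, fun z => ?_, fun α h z => ?_⟩
  · rw [h2, Function.update_self]
  · rw [h2, Function.update_of_ne h]
    rfl

theorem topC_bump1 (β : M.ι) :
    ∃ φ : C(Y', ℝ), (∀ y, φ (i y) = 0) ∧ (∀ z : ODisc (M.k β), φ (M.c β z.1) ≠ 0) ∧
      ∀ α, α ≠ β → ∀ z, φ (M.c α z) = 0 := by
  obtain ⟨φ, h1, h2, h3⟩ := M.topC_bump β ⟨fun w => 1 - ‖w.1‖, by fun_prop⟩ (fun s => by
    change 1 - ‖(sphC _ s).1‖ = 0
    rw [topC_norm_sph, sub_self])
  refine ⟨φ, h1, fun z => ?_, h3⟩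
  rw [h2]
  exact (sub_pos.2 z.2).ne'

include M in
theorem top_fh (h : FH Y) : FH Y' := by
  intro x y hxy
  rcases M.top_surj x with ⟨x, rfl⟩ | ⟨α, z, rfl⟩ <;>
    rcases M.top_surj y with ⟨y, rfl⟩ | ⟨β, z', rfl⟩
  · obtain ⟨f, hf⟩ := h x y fun e => hxy (by rw [e])
    obtain ⟨g, hg⟩ := M.top_extend f
    exact ⟨g, by rwa [hg, hg]⟩
  · obtain ⟨φ, h1, h2, -⟩ := M.topC_bump1 β
    exact ⟨φ, by rw [h1]; exact (h2 z').symm⟩
  · obtain ⟨φ, h1, h2, -⟩ := M.topC_bump1 α
    exact ⟨φ, by rw [h1]; exact h2 z⟩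
  · by_cases e : α = β
    · subst e
      obtain ⟨φ, -, h2, -⟩ := M.topC_bump α ⟨fun w => (1 - ‖w.1‖) * dist w z'.1, by fun_prop⟩
        (fun s => by
          change (1 - ‖(sphC _ s).1‖) * _ = 0
          rw [topC_norm_sph, sub_self, zero_mul])
      refine ⟨φ, ?_⟩
      rw [h2, h2]
      change (1 - ‖z.1.1‖) * dist z.1 z'.1 ≠ (1 - ‖z'.1.1‖) * dist z'.1 z'.1
      rw [dist_self, mul_zero]
      exact mul_ne_zero (sub_pos.2 z.2).ne' (dist_ne_zero.2 fun e => hxy (by rw [e]))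
    · obtain ⟨φ, -, h2, h3⟩ := M.topC_bump1 α
      exact ⟨φ, by rw [h3 β (Ne.symm e)]; exact h2 z⟩

include M in
theorem top_cg [CompactlyGeneratedSpace Y] : CompactlyGeneratedSpace Y' := by
  refine compactlyGeneratedSpace_of_isOpen fun W hW => (M.top_isOpen_iff W).2 ⟨?_, fun α => ?_⟩
  · exact CompactlyGeneratedSpace.isOpen' fun K _ _ _ f hf =>
      hW K (i ∘ f) (i.hom.continuous.comp hf)
  · exact hW (Disc (M.k α)) (M.c α) (M.c α).hom.continuous

end MA

section Seq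

variable {F : ℕ ⥤ TopCat.{0}} {c : Cocone F} (hc : IsColimit c)
  (hM : ∀ r, Nonempty (MA sphInc (F.map (homOfLE (Nat.le_succ r)))))

include hc hM

omit hc in
theorem topC_map_closedEmbedding {r s : ℕ} (h : r ≤ s) :
    IsClosedEmbedding (F.map (homOfLE h)) := by
  induction s, h using Nat.le_induction with
  | base =>
    have e : F.map (homOfLE (le_refl r)) = 𝟙 _ := F.map_id r
    rw [e]
    exact IsClosedEmbedding.id
  | succ s h ih =>
    obtain ⟨M⟩ := hM s
    have e : F.map (homOfLE (Nat.le_succ_of_le h)) =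
        F.map (homOfLE h) ≫ F.map (homOfLE (Nat.le_succ s)) := by
      rw [← F.map_comp]
      rfl
    rw [e]
    exact M.top_closedEmbedding.comp ih

omit hc hM in
theorem topC_w' {r s : ℕ} (h : r ≤ s) (x : F.obj r) :
    c.ι.app s (F.map (homOfLE h) x) = c.ι.app r x :=
  ConcreteCategory.congr_hom (c.w (homOfLE h)) x

theorem seq_inj (r : ℕ) : Function.Injective (c.ι.app r) := by
  intro x y h
  obtain ⟨k, f, g, e⟩ := Concrete.isColimit_exists_of_rep_eq F hc x y h
  obtain rfl : f = g := Subsingleton.elim _ _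
  exact (topC_map_closedEmbedding hM (leOfHom f)).injective e

theorem topC_seq_closedEmbedding (r : ℕ) : IsClosedEmbedding (c.ι.app r) := by
  refine IsClosedEmbedding.of_continuous_injective_isClosedMap (c.ι.app r).hom.continuous
    (seq_inj hc hM r) fun C hC => (TopCat.isClosed_iff_of_isColimit c hc _).2 fun s => ?_
  have e : c.ι.app s ⁻¹' (c.ι.app r '' C) = F.map (homOfLE (Nat.le_add_left s r)) ⁻¹'
      (F.map (homOfLE (Nat.le_add_right r s)) '' C) := by
    ext z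
    constructor
    · rintro ⟨y, hy, e⟩
      refine ⟨y, hy, seq_inj hc hM (r + s) ?_⟩
      exact (topC_w' (Nat.le_add_right r s) y).trans
        (e.trans (topC_w' (Nat.le_add_left s r) z).symm)
    · rintro ⟨y, hy, e⟩
      refine ⟨y, hy, ?_⟩
      exact (topC_w' (c := c) (Nat.le_add_right r s) y).symm.trans
        ((congrArg (c.ι.app (r + s)) e).trans (topC_w' (Nat.le_add_left s r) z))
  rw [e]
  exact ((topC_map_closedEmbedding hM _).isClosedMap _ hC).preimage (F.map _).hom.continuous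

theorem topC_seq_extend (r : ℕ) (f : C(F.obj r, ℝ)) :
    ∃ g : C(c.pt, ℝ), ∀ x, g (c.ι.app r x) = f x := by
  have key : ∀ s (u : C(F.obj s, ℝ)), ∃ v : C(F.obj (s + 1), ℝ),
      ∀ y, v (F.map (homOfLE (Nat.le_succ s)) y) = u y := fun s u => by
    obtain ⟨M⟩ := hM s
    exact M.top_extend u
  choose E hE using key
  let g : ∀ n, C(F.obj (r + n), ℝ) := fun n => Nat.rec (motive := fun n => C(F.obj (r + n), ℝ))
    f (fun n u => E (r + n) u) n
  have hcomp : ∀ {a b d : ℕ} (h1 : a ≤ b) (h2 : b ≤ d) (x : F.obj a),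
      F.map (homOfLE (h1.trans h2)) x = F.map (homOfLE h2) (F.map (homOfLE h1) x) :=
    fun h1 h2 x => ConcreteCategory.congr_hom (F.map_comp (homOfLE h1) (homOfLE h2)) x
  have hg : ∀ n y, g (n + 1) (F.map (homOfLE (Nat.le_succ (r + n))) y) = g n y :=
    fun n y => hE (r + n) (g n) y
  have hg0 : ∀ n x, g n (F.map (homOfLE (Nat.le_add_right r n)) x) = f x := by
    intro n x
    induction n with
    | zero =>
      have e : F.map (homOfLE (Nat.le_add_right r 0)) = 𝟙 _ := F.map_id r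
      rw [e]
      rfl
    | succ n ih =>
      rw [← ih, ← hg n, ← hcomp]
      rfl
  let d : Cocone F :=
    { pt := TopCat.of ℝ
      ι := NatTrans.ofSequence
        (fun j => F.map (homOfLE (Nat.le_add_left j r)) ≫ TopCat.ofHom (g j)) (fun j => by
          refine TopCat.hom_ext (ContinuousMap.ext fun x => ?_)
          change g (j + 1) (F.map (homOfLE (Nat.le_add_left (j + 1) r))
            (F.map (homOfLE (Nat.le_add_right j 1)) x)) =
            g j (F.map (homOfLE (Nat.le_add_left j r)) x)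
          rw [← hg j, ← hcomp, ← hcomp]
          rfl) }
  refine ⟨(hc.desc d).hom, fun x => ?_⟩
  exact (ConcreteCategory.congr_hom (hc.fac d r) x).trans (hg0 r x)

omit hM in
theorem topC_seq_rep (x : c.pt) : ∃ (r : ℕ) (y : F.obj r), c.ι.app r y = x :=
  Concrete.isColimit_exists_rep F hc x

theorem seq_fh (h : ∀ r, FH (F.obj r)) : FH c.pt := by
  intro x y hxy
  obtain ⟨r, x, rfl⟩ := topC_seq_rep hc x
  obtain ⟨s, y, rfl⟩ := topC_seq_rep hc y
  rw [← topC_w' (Nat.le_add_right r s) x, ← topC_w' (Nat.le_add_left s r) y] at hxy ⊢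
  obtain ⟨f, hf⟩ := h (r + s) (F.map (homOfLE (Nat.le_add_right r s)) x)
    (F.map (homOfLE (Nat.le_add_left s r)) y) fun e => hxy (by rw [e])
  obtain ⟨g, hg⟩ := topC_seq_extend hc hM (r + s) f
  exact ⟨g, by rwa [hg, hg]⟩

omit hM in
theorem seq_cg (h : ∀ r, CompactlyGeneratedSpace (F.obj r)) : CompactlyGeneratedSpace c.pt := by
  refine compactlyGeneratedSpace_of_isOpen fun W hW =>
    (TopCat.isOpen_iff_of_isColimit c hc W).2 fun r => ?_
  have := h r
  exact CompactlyGeneratedSpace.isOpen' fun K _ _ _ f hf =>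
      hW K (c.ι.app r ∘ f) ((c.ι.app r).hom.continuous.comp hf)

omit hc hM in
theorem topC_t1 {Z : Type} [TopologicalSpace Z] (h : FH Z) : T1Space Z := by
  refine t1Space_iff_exists_open.2 fun x y hxy => ?_
  obtain ⟨f, hf⟩ := h x y hxy
  exact ⟨f ⁻¹' {f y}ᶜ, isOpen_compl_singleton.preimage f.continuous, hf, fun h => h rfl⟩

/-- a compact space maps into a finite stage -/
theorem seq_compact (h : ∀ r, FH (F.obj r)) {K : TopCat.{0}} [CompactSpace K] (f : K ⟶ c.pt) :
    ∃ (r : ℕ) (g : K ⟶ F.obj r), g ≫ c.ι.app r = f := by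
  have key : ∃ r, ∀ k, ∃ y, c.ι.app r y = f k := by
    by_contra hcon
    push Not at hcon
    choose x hx using hcon
    have hx' : ∀ {r n : ℕ}, r ≤ n → ∀ y, c.ι.app r y ≠ f (x n) := fun {r n} hrn y e =>
      hx n (F.map (homOfLE hrn) y) ((topC_w' hrn y).trans e)
    let T : ℕ → Set c.pt := fun m => (fun n => f (x n)) '' Set.Ici m
    have hT : ∀ m, IsClosed (T m) := fun m => by
      refine (TopCat.isClosed_iff_of_isColimit c hc _).2 fun r => ?_
      have := topC_t1 (h r)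
      refine Set.Finite.isClosed ?_
      refine (((Set.finite_Iio r).image fun n => f (x n)).preimage
        (seq_inj hc hM r).injOn).subset ?_
      rintro y ⟨n, -, e⟩
      exact ⟨n, not_le.1 fun hrn => hx' hrn y e.symm, e⟩
    obtain ⟨k, hk⟩ := IsCompact.nonempty_iInter_of_sequence_nonempty_isCompact_isClosed
      (fun m => f ⁻¹' T m)
      (fun m => Set.preimage_mono (Set.image_mono (Set.Ici_subset_Ici.2 (Nat.le_succ m))))
      (fun m => ⟨x m, m, Set.self_mem_Ici, rfl⟩) ((hT 0).preimage f.hom.continuous).isCompact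
      (fun m => (hT m).preimage f.hom.continuous)
    obtain ⟨r, y, e⟩ := topC_seq_rep hc (f k)
    obtain ⟨n, hn, e'⟩ := Set.mem_iInter.1 hk r
    exact hx' hn y (e.trans e'.symm)
  obtain ⟨r, hr⟩ := key
  choose g hg using hr
  have hgc : Continuous g := by
    rw [(topC_seq_closedEmbedding hc hM r).isEmbedding.continuous_iff]
    have e : (c.ι.app r) ∘ g = f := funext hg
    rw [e]
    exact f.hom.continuous
  exact ⟨r, TopCat.ofHom ⟨g, hgc⟩, TopCat.hom_ext (ContinuousMap.ext hg)⟩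

end Seq

theorem FH.of_retract {Y Y' : TopCat.{0}} (i : Y ⟶ Y') (r : Y' ⟶ Y) (hir : i ≫ r = 𝟙 Y)
    (h : FH Y') : FH Y := by
  intro x y hxy
  have hi : ∀ y, r (i y) = y := fun y => ConcreteCategory.congr_hom hir y
  obtain ⟨f, hf⟩ := h (i x) (i y) fun e => hxy (by rw [← hi x, e, hi])
  exact ⟨f.comp i.hom, hf⟩

theorem cg_of_retract {Y Y' : TopCat.{0}} (i : Y ⟶ Y') (r : Y' ⟶ Y) (hir : i ≫ r = 𝟙 Y)
    (h : CompactlyGeneratedSpace Y') : CompactlyGeneratedSpace Y := by
  have hi : ∀ y, r (i y) = y := fun y => ConcreteCategory.congr_hom hir y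
  refine compactlyGeneratedSpace_of_isOpen fun W hW => ?_
  have h1 : IsOpen (r ⁻¹' W) := CompactlyGeneratedSpace.isOpen' fun K _ _ _ f hf =>
    hW K (r ∘ f) (r.hom.continuous.comp hf)
  have h2 := h1.preimage i.hom.continuous
  have e : i.hom ⁻¹' (r ⁻¹' W) = W := Set.ext fun y => by
    change r (i y) ∈ W ↔ y ∈ W
    rw [hi]
  rwa [e] at h2

end Vale.Agent.P259
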