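import Vale.Agent.P259.Sum

/-! # P259: topological definitions used in the proof -/

set_option backward.isDefEq.respectTransparency false

open CategoryTheory Limits Opposite Topology

namespace Vale.Agent.P259

/-- the boundary sphere of `Disc n` (empty for `n = 0`) -/
abbrev Sphere (n : ℕ) : Type := Metric.sphere (0 : EuclideanSpace ℝ (Fin n)) 1

/-- punctured disc -/
abbrev PDisc (n : ℕ) : Type := {x : Disc n // x.1 ≠ 0}

/-- open disc -/
abbrev ODisc (n : ℕ) : Type := {x : Disc n // ‖x.1‖ < 1}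

/-- punctured open disc -/
abbrev OPDisc (n : ℕ) : Type := {x : Disc n // ‖x.1‖ < 1 ∧ x.1 ≠ 0}

/-- the centre of the disc -/
def centre (n : ℕ) : Disc n := ⟨0, by simp⟩

/-- the inclusion of the sphere in the disc -/
def sphC (n : ℕ) : C(Sphere n, Disc n) :=
  ⟨fun x => ⟨x.1, Metric.sphere_subset_closedBall x.2⟩, by fun_prop⟩

/-- the inclusion of the sphere in the disc, in `TopCat` -/
def sphInc (n : ℕ) : TopCat.of (Sphere n) ⟶ TopCat.of (Disc n) := TopCat.ofHom (sphC n)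

/-- the inclusion of the sphere in the punctured disc -/
def sphP (n : ℕ) : TopCat.of (Sphere n) ⟶ TopCat.of (PDisc n) :=
  TopCat.ofHom ⟨fun x => ⟨sphC n x, fun h => by
    have := x.2
    rw [show x.1 = 0 from h] at this
    simp at this⟩, by fun_prop⟩

theorem norm_hemi (ε : ℝ) (hε : ε ^ 2 = 1) (n : ℕ) (x : Disc n) : ‖(hemi ε hε n x).1‖ = 1 := by
  have hx : ‖x.1‖ ≤ 1 := mem_closedBall_zero_iff.1 x.2
  have h1 : 0 ≤ 1 - ‖x.1‖ ^ 2 := by nlinarith [norm_nonneg x.1]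
  have h2 := norm_sq_snocE x.1 (ε * √(1 - ‖x.1‖ ^ 2))
  rw [mul_pow, hε, Real.sq_sqrt h1] at h2
  change ‖snocE x.1 (ε * √(1 - ‖x.1‖ ^ 2))‖ = 1
  have h3 : ‖snocE x.1 (ε * √(1 - ‖x.1‖ ^ 2))‖ ^ 2 = 1 := by rw [h2]; ring
  exact (pow_eq_one_iff_of_nonneg (norm_nonneg _) two_ne_zero).1 h3

theorem hemi_of_norm_one (ε ε' : ℝ) (hε : ε ^ 2 = 1) (hε' : ε' ^ 2 = 1) (n : ℕ) (x : Disc n)
    (hx : ‖x.1‖ = 1) : hemi ε hε n x = hemi ε' hε' n x := by
  apply Subtype.ext
  change snocE x.1 (ε * √(1 - ‖x.1‖ ^ 2)) = snocE x.1 (ε' * √(1 - ‖x.1‖ ^ 2))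
  simp [hx]

/-- the discs as a coglobular space -/
noncomputable def discG : Globe ⥤ TopCat.{0} :=
  Globe.lift (fun n => TopCat.of (Disc n)) (fun n => TopCat.ofHom (lower n))
    (fun n => TopCat.ofHom (upper n))
    (fun n => TopCat.hom_ext (ContinuousMap.ext fun x =>
      hemi_of_norm_one _ _ (by norm_num) (by norm_num) _ _ (norm_hemi _ (by norm_num) _ x)))
    (fun n => TopCat.hom_ext (ContinuousMap.ext fun x =>
      hemi_of_norm_one _ _ (by norm_num) (by norm_num) _ _ (norm_hemi _ (by norm_num) _ x)))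

theorem discG_obj (n : ℕ) : discG.obj (Globe.D n) = TopCat.of (Disc n) := rfl

theorem discG_σ (n : ℕ) : discG.map (Globe.σ n) = TopCat.ofHom (lower n) := Globe.lift_σ ..

theorem discG_τ (n : ℕ) : discG.map (Globe.τ n) = TopCat.ofHom (upper n) := Globe.lift_τ ..

/-- a hemisphere as a map to the sphere -/
noncomputable def hemiS (ε : ℝ) (hε : ε ^ 2 = 1) (n : ℕ) :
    TopCat.of (Disc n) ⟶ TopCat.of (Sphere (n + 1)) :=
  TopCat.ofHom ⟨fun x => ⟨(hemi ε hε n x).1, by simpa using norm_hemi ε hε n x⟩,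
    Continuous.subtype_mk (continuous_subtype_val.comp (hemi ε hε n).continuous) _⟩

/-- lower hemisphere into the sphere -/
noncomputable def lowerS (n : ℕ) : TopCat.of (Disc n) ⟶ TopCat.of (Sphere (n + 1)) :=
  hemiS (-1) (by norm_num) n

/-- upper hemisphere into the sphere -/
noncomputable def upperS (n : ℕ) : TopCat.of (Disc n) ⟶ TopCat.of (Sphere (n + 1)) :=
  hemiS 1 (by norm_num) n

/-- functionally Hausdorff -/
def FH (Y : Type) [TopologicalSpace Y] : Prop :=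
  ∀ x y : Y, x ≠ y → ∃ f : C(Y, ℝ), f x ≠ f y

/-- strong deformation retract -/
structure SDR {Y U : TopCat.{0}} (i : Y ⟶ U) where
  r : U ⟶ Y
  h : C(U × unitInterval, U)
  i_r : i ≫ r = 𝟙 Y
  h0 : ∀ u, h (u, 0) = i (r u)
  h1 : ∀ u, h (u, 1) = u
  hfix : ∀ y t, h (i y, t) = i y

/-- an excisive square: `Y = U ∪ V` open cover with `A = U ∩ V` -/
structure ExcSq {A U V Y : TopCat.{0}} (kU : A ⟶ U) (kV : A ⟶ V) (jU : U ⟶ Y) (jV : V ⟶ Y) :
    Prop where
  w : kU ≫ jU = kV ≫ jV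
  oU : IsOpenEmbedding jU
  oV : IsOpenEmbedding jV
  eA : IsEmbedding kU
  cover : Set.range jU ∪ Set.range jV = Set.univ
  inter : ∀ u v, jU u = jV v → ∃ a, kU a = u ∧ kV a = v

/-- inclusion of a summand -/
def sigIn {ι : Type} (Y : ι → Type) [∀ α, TopologicalSpace (Y α)] (α : ι) :
    TopCat.of (Y α) ⟶ TopCat.of (Σ α, Y α) :=
  TopCat.ofHom ⟨Sigma.mk α, continuous_sigmaMk⟩

/-- a map of disjoint unions -/
def sigMap {ι : Type} {Y Y' : ι → Type} [∀ α, TopologicalSpace (Y α)]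
    [∀ α, TopologicalSpace (Y' α)] (f : ∀ α, C(Y α, Y' α)) :
    TopCat.of (Σ α, Y α) ⟶ TopCat.of (Σ α, Y' α) :=
  TopCat.ofHom ⟨Sigma.map id fun α => f α,
    continuous_sigma fun α => continuous_sigmaMk.comp (f α).continuous⟩

/-- `PDisc → Disc` -/
def pdD (n : ℕ) : C(PDisc n, Disc n) := ⟨Subtype.val, continuous_subtype_val⟩
/-- `ODisc → Disc` -/
def odD (n : ℕ) : C(ODisc n, Disc n) := ⟨Subtype.val, continuous_subtype_val⟩
/-- `OPDisc → PDisc` -/
def opP (n : ℕ) : C(OPDisc n, PDisc n) := ⟨fun x => ⟨x.1, x.2.2⟩, by fun_prop⟩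
/-- `OPDisc → ODisc` -/
def opO (n : ℕ) : C(OPDisc n, ODisc n) := ⟨fun x => ⟨x.1, x.2.1⟩, by fun_prop⟩

namespace MA

variable {Y Y' : TopCat.{0}} {i : Y ⟶ Y'} (M : MA sphInc i)

/-- all characteristic maps together -/
def Φ : TopCat.of (Σ α, Disc (M.k α)) ⟶ Y' :=
  TopCat.ofHom ⟨fun x => M.c x.1 x.2, continuous_sigma fun α => (M.c α).hom.continuous⟩

/-- the complement of the centres of the cells -/
def U : Set Y' := (Set.range fun α => M.c α (centre (M.k α)))ᶜ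

/-- the inclusion of `U` -/
def jU : TopCat.of M.U ⟶ Y' := TopCat.ofHom ⟨Subtype.val, continuous_subtype_val⟩

end MA

end Vale.Agent.P259
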