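import Vale.Agent.P259.Geo
import Vale.Agent.P259.EDat

/-! # P259 part ZC: the comparison model -/

set_option backward.isDefEq.respectTransparency false

open CategoryTheory Limits Opposite MorphismProperty Topology

namespace Vale.Agent.P259

open Theta0
open Globe (D)

section

variable {K : Coherator} (W : TopCat.{0} ⥤ Mod K.C) (G : K.C.Obj ⥤ Mod K.C) (a : DT K ⋙ W ⟶ G)

/-- the presheaf of pairs -/
noncomputable def ZC_psh (Y : TopCat.{0}) : K.C.Objᵒᵖ ⥤ Type where
  obj S := {q : ((DT K).obj S.unop ⟶ Y) × (G.obj S.unop ⟶ W.obj Y) //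
    a.app S.unop ≫ q.2 = W.map q.1}
  map θ := ↾fun q => ⟨((DT K).map θ.unop ≫ q.1.1, G.map θ.unop ≫ q.1.2), by
    rw [← a.naturality_assoc, q.2, W.map_comp]; rfl⟩
  map_id S := by ext q <;> simp
  map_comp f g := by ext q <;> simp

/-- relative preservation of sums -/
structure ZC_Rel : Prop where
  ext : ∀ (T : Theta0) (j i' : ℕ) (h : j < T.last) (h' : j < i') (X : Mod K.C)
      (e e' : G.obj (K.C.F.obj (glue T j i' h h')) ⟶ X),
      G.map (K.C.F.map (inl T j i' h h')) ≫ e = G.map (K.C.F.map (inl T j i' h h')) ≫ e' →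
      G.map (K.C.F.map (inr T j i' h h')) ≫ e = G.map (K.C.F.map (inr T j i' h h')) ≫ e' →
      a.app _ ≫ e = a.app _ ≫ e' → e = e'
  desc : ∀ (T : Theta0) (j i' : ℕ) (h : j < T.last) (h' : j < i') (X : Mod K.C)
      (e₁ : G.obj (K.C.F.obj T) ⟶ X) (e₂ : G.obj (K.C.F.obj (disc i')) ⟶ X)
      (b : W.obj ((DT K).obj (K.C.F.obj (glue T j i' h h'))) ⟶ X),
      G.map (K.C.F.map (tgt h.le ≫ lastι T)) ≫ e₁ = G.map (K.C.F.map (src h'.le)) ≫ e₂ →
      W.map ((DT K).map (K.C.F.map (inl T j i' h h'))) ≫ b = a.app _ ≫ e₁ →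
      W.map ((DT K).map (K.C.F.map (inr T j i' h h'))) ≫ b = a.app _ ≫ e₂ →
      ∃ e : G.obj (K.C.F.obj (glue T j i' h h')) ⟶ X,
        G.map (K.C.F.map (inl T j i' h h')) ≫ e = e₁ ∧
        G.map (K.C.F.map (inr T j i' h h')) ≫ e = e₂ ∧ a.app _ ≫ e = b

variable {W G a}

theorem ZC_model (hR : ZC_Rel W G a) (Y : TopCat.{0}) : IsModel K.C (ZC_psh W G a Y) := by
  intro T j i' h h'
  have hp := DT_pres K T j i' h h'
  rw [Types.isPullback_iff]
  refine ⟨?_, ?_, ?_⟩
  · rw [← Functor.map_comp, ← Functor.map_comp, ← op_comp, ← op_comp,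
      (K.C.pres T j i' h h').w]
  · rintro ⟨⟨v, g⟩, hq⟩ ⟨⟨v', g'⟩, hq'⟩ ⟨h1, h2⟩
    have h1' := Prod.ext_iff.1 (congrArg Subtype.val h1)
    have h2' := Prod.ext_iff.1 (congrArg Subtype.val h2)
    have hv : v = v' := hp.hom_ext h1'.1 h2'.1
    subst hv
    have hg : g = g' := hR.ext T j i' h h' _ g g' h1'.2 h2'.2 (hq.trans hq'.symm)
    subst hg
    rfl
  · rintro ⟨⟨v₁, g₁⟩, hq₁⟩ ⟨⟨v₂, g₂⟩, hq₂⟩ h1
    have h1' := Prod.ext_iff.1 (congrArg Subtype.val h1)
    obtain ⟨e, e1, e2, e3⟩ := hR.desc T j i' h h' _ g₁ g₂ (W.map (hp.desc v₁ v₂ h1'.1)) h1'.2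
      (by rw [← W.map_comp]; exact (congrArg W.map (hp.inl_desc _ _ _)).trans hq₁.symm)
      (by rw [← W.map_comp]; exact (congrArg W.map (hp.inr_desc _ _ _)).trans hq₂.symm)
    exact ⟨⟨(hp.desc v₁ v₂ h1'.1, e), e3⟩, Subtype.ext (Prod.ext (hp.inl_desc _ _ _) e1),
      Subtype.ext (Prod.ext (hp.inr_desc _ _ _) e2)⟩

/-- the functor `Z` -/
noncomputable def ZC_Z (hR : ZC_Rel W G a) : TopCat.{0} ⥤ Mod K.C where
  obj Y := ⟨ZC_psh W G a Y, ZC_model hR Y⟩
  map f := ObjectProperty.homMk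
    { app := fun S => ↾fun q => ⟨(q.1.1 ≫ f, q.1.2 ≫ W.map f), by
        rw [← Category.assoc, q.2, W.map_comp]⟩
      naturality := fun S T θ => by
        ext q
        exact Subtype.ext (Prod.ext (Category.assoc _ _ _) (Category.assoc _ _ _)) }
  map_id Y := by
    ext S q
    exact Subtype.ext (Prod.ext (Category.comp_id _) (by
      change q.1.2 ≫ W.map (𝟙 Y) = q.1.2
      rw [W.map_id, Category.comp_id]))
  map_comp f g := by
    ext S q
    exact Subtype.ext (Prod.ext (Category.assoc _ _ _).symm (by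
      change q.1.2 ≫ W.map (f ≫ g) = (q.1.2 ≫ W.map f) ≫ W.map g
      rw [W.map_comp, Category.assoc]))

/-- first projection -/
noncomputable def ZC_p (hR : ZC_Rel W G a) : ZC_Z hR ⟶ PiK K where
  app Y := ObjectProperty.homMk
    { app := fun S => ↾fun q => q.1.1
      naturality := fun S T θ => by ext q; rfl }
  naturality Y Y' f := by ext S q; rfl

/-- second projection -/
noncomputable def ZC_χ (hR : ZC_Rel W G a) (β : yM K.C ⟶ G) : ZC_Z hR ⟶ W where
  app Y := ObjectProperty.homMk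
    { app := fun S => ↾fun q => yEquiv (β.app S.unop ≫ q.1.2)
      naturality := fun S T θ => by
        ext q
        change yEquiv (β.app T.unop ≫ G.map θ.unop ≫ q.1.2) =
          (W.obj Y).obj.map θ.unop.op (yEquiv (β.app S.unop ≫ q.1.2))
        rw [← yEquiv_map, β.naturality_assoc] }
  naturality Y Y' f := by
    ext S q
    change yEquiv (β.app S.unop ≫ q.1.2 ≫ W.map f) =
      (W.map f).hom.app _ (yEquiv (β.app S.unop ≫ q.1.2))
    rw [← yEquiv_comp, Category.assoc]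

end

theorem ZC_b_eq {C : GlobExt} {E : Globe ⥤ Mod C} (RE : Reedy E) {X : Mod C}
    {E₀ : Theta0 ⥤ Mod C} (ι : sumF E ⟶ E₀) :
    ∀ (n : ℕ) (u v : E₀.obj (disc n) ⟶ X), Parallel E₀ n u v →
      RE.b n ≫ ι.app (disc n) ≫ u = RE.b n ≫ ι.app (disc n) ≫ v
  | 0, _, _, _ => RE.init.hom_ext _ _
  | n + 1, u, v, h => by
    obtain ⟨h1, h2⟩ := h
    apply RE.b_ext
    · rw [← sumF_σ]
      erw [ι.naturality_assoc, ι.naturality_assoc]
      rw [h1]
    · rw [← sumF_τ]
      erw [ι.naturality_assoc, ι.naturality_assoc]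
      rw [h2]

theorem exists_zOut {K : Coherator} (W : TopCat.{0} ⥤ Mod K.C) {RA : Reedy (discG ⋙ W)}
    (Ed : EData RA) (hc : ∀ Y, Cofib (W.obj Y))
    (hW : ∀ T : Theta0, Contr (W.obj ((sumF discG).obj T))) : Nonempty (ZOut W Ed) := by
  have := isIso_cmp (YF_pres K.C)
  have hDg : ∀ {m n : ℕ} (g : D m ⟶ D n), (DT K).map (K.C.F.map (discF.map g)) = discG.map g :=
    fun g => (DT_F K _).trans (sumF_map_discF _ g)
  let α' : discG ⋙ W ⟶ discF ⋙ K.C.F ⋙ DT K ⋙ W :=
    { app := fun d => 𝟙 _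
      naturality := fun d d' g => by
        have := hDg (m := d.as.dim) (n := d'.as.dim) g
        exact (Category.comp_id _).trans ((congrArg W.map this).symm.trans
          (Category.id_comp _).symm) }
  let cA : sumF (discG ⋙ W) ⟶ K.C.F ⋙ DT K ⋙ W := sumLift _ α'
  have hcA : ∀ n, cA.app (disc n) = 𝟙 _ := fun n => sumLift_app_disc _ α' n
  obtain ⟨E₀, inA, inE, po⟩ : ∃ (E₀ : Theta0 ⥤ Mod K.C) (inA : K.C.F ⋙ DT K ⋙ W ⟶ E₀)
      (inE : sumF Ed.E ⟶ E₀), ∀ S, IsPushout (cA.app S) ((sumNat Ed.α.app).app S) (inA.app S)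
        (inE.app S) :=
    ⟨pushout cA (sumNat Ed.α.app), pushout.inl _ _, pushout.inr _ _, fun S =>
      (IsPushout.of_hasPushout cA (sumNat Ed.α.app)).map ((evaluation _ _).obj S)⟩
  have hiso : ∀ n, IsIso (inE.app (disc n)) := fun n =>
    (po (disc n)).isIso_inr_of_isIso (by rw [hcA]; exact IsIso.id _)
  have hA : ∀ n, inA.app (disc n) = Ed.α.app.app (D n) ≫ inE.app (disc n) := fun n => by
    have := (po (disc n)).w
    rw [hcA, sumNat_app_disc] at this
    exact (Category.id_comp _).symm.trans this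
  let ψ₀ : K.C.F ⋙ yM K.C ⟶ E₀ := inv (cmp (YF K.C)) ≫ sumNat Ed.ψ.app ≫ inE
  have hψ : ∀ n, ψ₀.app (disc n) = Ed.ψ.app.app (D n) ≫ inE.app (disc n) := fun n => by
    have h1 : (cmp (YF K.C)).app (disc n) ≫ ψ₀.app (disc n) =
        (sumNat Ed.ψ.app).app (disc n) ≫ inE.app (disc n) := by
      rw [← NatTrans.comp_app, IsIso.hom_inv_id_assoc, NatTrans.comp_app]
    rw [cmp_app_disc, sumNat_app_disc] at h1
    exact (Category.id_comp _).symm.trans h1
  have hE₀ : ∀ S, Contr (E₀.obj S) := fun S =>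
    Contr.of_tc (hc _) (hW S) ((TC K.C).of_isPushout (po S) (Ed.tc_sumNat S))
  have hext : ∀ (T : Theta0) (j i' : ℕ) (h : j < T.last) (h' : j < i') (X : Mod K.C)
      (e e' : E₀.obj (glue T j i' h h') ⟶ X),
      E₀.map (inl T j i' h h') ≫ e = E₀.map (inl T j i' h h') ≫ e' →
      E₀.map (inr T j i' h h') ≫ e = E₀.map (inr T j i' h h') ≫ e' →
      inA.app _ ≫ e = inA.app _ ≫ e' → e = e' := by
    intro T j i' h h' X e e' h1 h2 h3
    refine (po _).hom_ext h3 ((sumF_pres Ed.E T j i' h h').hom_ext ?_ ?_)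
    · rw [inE.naturality_assoc, inE.naturality_assoc, h1]
    · rw [inE.naturality_assoc, inE.naturality_assoc, h2]
  have hdesc : ∀ (T : Theta0) (j i' : ℕ) (h : j < T.last) (h' : j < i') (X : Mod K.C)
      (e₁ : E₀.obj T ⟶ X) (e₂ : E₀.obj (disc i') ⟶ X)
      (a : (DT K ⋙ W).obj (K.C.F.obj (glue T j i' h h')) ⟶ X),
      E₀.map (tgt h.le ≫ lastι T) ≫ e₁ = E₀.map (src h'.le) ≫ e₂ →
      (DT K ⋙ W).map (K.C.F.map (inl T j i' h h')) ≫ a = inA.app T ≫ e₁ →
      (DT K ⋙ W).map (K.C.F.map (inr T j i' h h')) ≫ a = inA.app (disc i') ≫ e₂ →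
      ∃ e : E₀.obj (glue T j i' h h') ⟶ X, E₀.map (inl T j i' h h') ≫ e = e₁ ∧
        E₀.map (inr T j i' h h') ≫ e = e₂ ∧ inA.app _ ≫ e = a := by
    intro T j i' h h' X e₁ e₂ a h1 h2 h3
    have pE := sumF_pres Ed.E T j i' h h'
    have w1 : (sumF Ed.E).map (tgt h.le ≫ lastι T) ≫ inE.app T ≫ e₁ =
        (sumF Ed.E).map (src h'.le) ≫ inE.app (disc i') ≫ e₂ := by
      rw [inE.naturality_assoc, inE.naturality_assoc, h1]
    have w2 : cA.app (glue T j i' h h') ≫ a =
        (sumNat Ed.α.app).app (glue T j i' h h') ≫ pE.desc _ _ w1 := by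
      apply (sumF_pres (discG ⋙ W) T j i' h h').hom_ext
      · rw [cA.naturality_assoc, (sumNat Ed.α.app).naturality_assoc, pE.inl_desc,
          ← (po T).w_assoc, ← h2]
        rfl
      · rw [cA.naturality_assoc, (sumNat Ed.α.app).naturality_assoc, pE.inr_desc,
          ← (po (disc i')).w_assoc, ← h3]
        rfl
    refine ⟨(po _).desc a _ w2, ?_, ?_, (po _).inl_desc _ _ _⟩
    · apply (po T).hom_ext
      · rw [← inA.naturality_assoc, (po _).inl_desc]; exact h2
      · rw [← inE.naturality_assoc, (po _).inr_desc, pE.inl_desc]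
    · apply (po (disc i')).hom_ext
      · rw [← inA.naturality_assoc, (po _).inl_desc]; exact h3
      · rw [← inE.naturality_assoc, (po _).inr_desc, pE.inr_desc]
  obtain ⟨m, m1, m2, m3, m4, m5⟩ := K.exists_ext_rel (DT K ⋙ W) (yM K.C) (yM_pres K.C) E₀ inA ψ₀
    hext hdesc (fun n S hS f g w ef eg hw hp h1 h2 h3 h4 => by
      have hb := ZC_b_eq Ed.RE inE n ef eg hp
      rw [hA, Category.assoc] at h1 h3
      rw [hψ, Category.assoc] at h2 h4
      obtain ⟨e, e1, e2, e3⟩ := Ed.extend (j := n + 1) (Ed.RE.sph _ _ hb)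
        ((DT K ⋙ W).map w ≫ inA.app S) ((yM K.C).map w ≫ ψ₀.app S)
        (by
          apply RA.ext
          · rw [Ed.α.l_bm_assoc, Ed.RE.l_sph, Reedy.l_b_assoc, h1, ← hw.1, Functor.map_comp,
              Category.assoc]
            exact congrArg (fun t => W.map t ≫ _) (hDg (Globe.σ n))
          · rw [Ed.α.r_bm_assoc, Ed.RE.r_sph, Reedy.r_b_assoc, h3, ← hw.2, Functor.map_comp,
              Category.assoc]
            exact congrArg (fun t => W.map t ≫ _) (hDg (Globe.τ n)))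
        (by
          apply (RD K.C).ext
          · rw [Ed.ψ.l_bm_assoc, Ed.RE.l_sph, Reedy.l_b_assoc, h2, ← hw.1, Functor.map_comp,
              Category.assoc]
            rfl
          · rw [Ed.ψ.r_bm_assoc, Ed.RE.r_sph, Reedy.r_b_assoc, h4, ← hw.2, Functor.map_comp,
              Category.assoc]
            rfl)
        (fun u hu => (hE₀ S).sim _ _ hu)
      have i0 := hiso n
      have i1 := hiso (n + 1)
      refine ⟨inv (inE.app (disc (n + 1))) ≫ e, ⟨?_, ?_⟩, ?_, ?_⟩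
      · rw [← cancel_epi (inE.app (disc n)), ← inE.naturality_assoc, IsIso.hom_inv_id_assoc,
          sumF_σ, ← Ed.RE.l_b, Category.assoc]
        exact (congrArg (Ed.RE.l n ≫ ·) e1).trans (Ed.RE.l_sph ..)
      · rw [← cancel_epi (inE.app (disc n)), ← inE.naturality_assoc, IsIso.hom_inv_id_assoc,
          sumF_τ, ← Ed.RE.r_b, Category.assoc]
        exact (congrArg (Ed.RE.r n ≫ ·) e1).trans (Ed.RE.r_sph ..)
      · rw [hA, Category.assoc, IsIso.hom_inv_id_assoc]
        exact e2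
      · rw [hψ, Category.assoc, IsIso.hom_inv_id_assoc]
        exact e3)
  let G : K.C.Obj ⥤ Mod K.C :=
    { obj := fun S => E₀.obj S
      map := fun {S T} f => m (S := S) (T := T) f
      map_id := fun S => m1 S
      map_comp := fun {S T U} f g => m2 S T U f g }
  have hGm : ∀ {S T : Theta0} (f : S ⟶ T), G.map (K.C.F.map f) = E₀.map f :=
    fun f => m3 _ _ f
  let a : DT K ⋙ W ⟶ G := { app := fun S => inA.app S, naturality := fun S T f => (m4 S T f).symm }
  let β : yM K.C ⟶ G := { app := fun S => ψ₀.app S, naturality := fun S T f => (m5 S T f).symm }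
  have hR : ZC_Rel W G a :=
    ⟨fun T j i' h h' X e e' h1 h2 h3 => hext T j i' h h' X e e' (by rwa [hGm] at h1)
      (by rwa [hGm] at h2) h3,
    fun T j i' h h' X e₁ e₂ b h1 h2 h3 => by
      rw [hGm, hGm] at h1
      rw [hGm, hGm]
      exact hdesc T j i' h h' X e₁ e₂ b h1 h2 h3⟩
  let el : ∀ {Y : TopCat.{0}} {j : ℕ}, (Dk K.C j ⟶ (ZC_Z hR).obj Y) ≃
      (ZC_psh W G a Y).obj (op (K.C.F.obj (disc j))) :=
    fun {Y j} => yEquiv (S := K.C.F.obj (disc j)) (X := (ZC_Z hR).obj Y)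
  have hmap : ∀ {Y : TopCat.{0}} {i j : ℕ} (g : D i ⟶ D j) (x : Dk K.C j ⟶ (ZC_Z hR).obj Y),
      inE.app (disc i) ≫ (el ((DG K.C).map g ≫ x)).1.2 =
        Ed.E.map g ≫ inE.app (disc j) ≫ (el x).1.2 := by
    intro Y i j g x
    have h1 : el ((DG K.C).map g ≫ x) = (ZC_psh W G a Y).map (K.C.F.map (discF.map g)).op (el x) :=
      yEquiv_map (K.C.F.map (discF.map g)) x
    rw [h1, ← sumF_map_discF Ed.E g]
    erw [inE.naturality_assoc]
    rw [← hGm]
    rfl
  exact ⟨{
    Z := ZC_Z hR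
    p := ZC_p hR
    χ := ZC_χ hR β
    hat := fun {Y j} x => inE.app (disc j) ≫ (el x).1.2
    hat_σ := fun x => hmap _ x
    hat_τ := fun x => hmap _ x
    hat_map := fun x f => (Category.assoc _ _ _).symm
    hat_α := fun {Y j} x => by
      rw [← Category.assoc, ← hA]
      exact (el x).2
    hat_ψ := fun {Y j} x => by
      rw [← Category.assoc, ← hψ]
      apply (yEquiv (S := K.C.F.obj (disc j))).injective
      rfl
    ext := fun {Y j} x y h1 h2 => by
      have := hiso j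
      apply el.injective
      refine Subtype.ext (Prod.ext ?_ ((cancel_epi _).1 h2))
      exact congrArg cellPi h1
    mk' := fun {Y j} v g h => by
      have := hiso j
      refine ⟨el.symm ⟨(cellPi v, inv (inE.app (disc j)) ≫ g), ?_⟩, ?_, ?_⟩
      · change inA.app (disc j) ≫ _ = _
        rw [hA, Category.assoc, IsIso.hom_inv_id_assoc]
        exact h
      · apply cellPi.injective
        exact congrArg (fun q => q.1.1) (el.apply_symm_apply _)
      · rw [Equiv.apply_symm_apply, IsIso.hom_inv_id_assoc] }⟩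

end Vale.Agent.P259
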